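import Crest.Agent.Ising.RW

/-!
Elementary inequalities: the edge messages as Lipschitz functions of the posterior means.
-/

set_option maxHeartbeats 400000

open Set SimpleGraph
open Crest.Agent.FIID

namespace Crest.Agent.Ising

lemma abs_mul_le {x y a b : ℝ} (h1 : |x| ≤ a) (h2 : |y| ≤ b) : |x * y| ≤ a * b := by
  rw [abs_mul]; exact mul_le_mul h1 h2 (abs_nonneg _) ((abs_nonneg _).trans h1)

lemma abs_le_of_mul {x c y d : ℝ} (h : x * c = y) (hd : 0 < d) (hc : d ≤ c) {E : ℝ}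
    (hy : |y| ≤ d * E) : |x| ≤ E := by
  rw [← h, abs_mul, abs_of_pos (lt_of_lt_of_le hd hc)] at hy
  have := mul_le_mul_of_nonneg_left hc (abs_nonneg x)
  nlinarith

/-- The relations between messages and posterior means along an edge. -/
structure Msg (θ m n γ g : ℝ) : Prop where
  h0 : 0 ≤ θ
  h1 : θ ≤ 3 / 4
  e1 : m * (1 + θ * γ * g) = γ + θ * g
  e2 : n * (1 + θ * g * γ) = g + θ * γ
  bγ : |γ| ≤ 1
  bg : |g| ≤ 1
  bm : |m| ≤ 1
  bn : |n| ≤ 1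

lemma Msg.symm {θ m n γ g : ℝ} (h : Msg θ m n γ g) : Msg θ n m g γ :=
  ⟨h.h0, h.h1, h.e2, h.e1, h.bg, h.bγ, h.bn, h.bm⟩

lemma Msg.zeta {θ m n γ g : ℝ} (h : Msg θ m n γ g) : |θ * γ * g| ≤ 3 / 4 := by
  have := abs_mul_le (abs_mul_le (show |θ| ≤ 3 / 4 by rw [abs_of_nonneg h.h0]; exact h.h1) h.bγ) h.bg
  linarith

lemma Msg.sol {θ m n γ g : ℝ} (h : Msg θ m n γ g) :
    ∃ A, γ = (1 + θ * γ * g) * A ∧ A * (1 - θ ^ 2) = m - θ * n ∧ |A| ≤ 4 := by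
  have z := abs_le.1 h.zeta
  have hz : 1 + θ * γ * g ≠ 0 := by linarith [z.1]
  refine ⟨γ / (1 + θ * γ * g), (mul_div_cancel₀ _ hz).symm, ?_, ?_⟩
  · rw [div_mul_eq_mul_div, div_eq_iff hz]
    linear_combination θ * h.e2 - h.e1
  · exact abs_le_of_mul (c := 1 + θ * γ * g) (y := γ) (d := 1 / 4) (div_mul_cancel₀ _ hz) (by norm_num)
      (by linarith [z.1]) (by linarith [h.bγ])

lemma Msg.sq_le {θ m n γ g : ℝ} (h : Msg θ m n γ g) : γ ^ 2 ≤ 32 * (m ^ 2 + n ^ 2) := by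
  have z := h.zeta
  have h0 := h.h0
  have h1 := h.h1
  have e : γ * (1 - θ ^ 2) = (1 + θ * γ * g) * (m - θ * n) := by
    linear_combination θ * h.e2 - h.e1
  have b1 : |1 + θ * γ * g| ≤ 7 / 4 := (abs_add_le _ _).trans (by rw [abs_one]; linarith)
  have b2 : |m - θ * n| ≤ |m| + |n| := (abs_sub _ _).trans (by
    rw [abs_mul, abs_of_nonneg h0]; nlinarith [abs_nonneg n])
  have := abs_le_of_mul e (d := 7 / 16) (by norm_num) (by nlinarith) (E := 4 * (|m| + |n|))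
    ((abs_mul_le b1 b2).trans (le_of_eq (by ring)))
  rw [← sq_abs γ, ← sq_abs m, ← sq_abs n]
  nlinarith [abs_nonneg γ, sq_nonneg (|m| - |n|)]

lemma Msg.lipA {θ m n A θ' m' n' A' E : ℝ} (h0 : 0 ≤ θ) (h1 : θ ≤ 3 / 4) (h0' : 0 ≤ θ')
    (h1' : θ' ≤ 3 / 4) (e : A * (1 - θ ^ 2) = m - θ * n) (e' : A' * (1 - θ' ^ 2) = m' - θ' * n')
    (bA : |A'| ≤ 4) (bn : |n'| ≤ 1) (hE : |m - m'| + |n - n'| + |θ - θ'| ≤ E) :
    |A - A'| ≤ 16 * E := by
  have e2 : (A - A') * (1 - θ ^ 2) =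
      (m - m') - θ * (n - n') + (θ - θ') * (A' * (θ + θ') - n') := by
    linear_combination e - e'
  refine abs_le_of_mul e2 (d := 7 / 16) (by norm_num) (by nlinarith) ?_
  have b1 : |θ * (n - n')| ≤ 1 * |n - n'| :=
    abs_mul_le (by rw [abs_of_nonneg h0]; linarith) le_rfl
  have b2 : |A' * (θ + θ') - n'| ≤ 7 := (abs_sub _ _).trans (by
    have := abs_mul_le bA (show |θ + θ'| ≤ 3 / 2 by rw [abs_of_nonneg (by linarith)]; linarith)
    linarith)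
  have b3 := abs_mul_le (le_refl |θ - θ'|) b2
  have b4 := abs_add_le ((m - m') - θ * (n - n')) ((θ - θ') * (A' * (θ + θ') - n'))
  have b5 := abs_sub (m - m') (θ * (n - n'))
  linarith [abs_nonneg (m - m'), abs_nonneg (n - n')]

lemma Msg.lip {θ m n γ g θ' m' n' γ' g' : ℝ} (h : Msg θ m n γ g) (h' : Msg θ' m' n' γ' g') :
    (γ - γ') ^ 2 ≤ 3 * 10 ^ 8 * ((m - m') ^ 2 + (n - n') ^ 2 + (θ - θ') ^ 2) := by
  obtain ⟨A, a1, a2, a3⟩ := h.sol
  obtain ⟨D, d1, d2, d3⟩ := h.symm.sol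
  obtain ⟨A', a1', a2', a3'⟩ := h'.sol
  obtain ⟨D', d1', d2', d3'⟩ := h'.symm.sol
  set E := |m - m'| + |n - n'| + |θ - θ'| with hE
  have lA := Msg.lipA h.h0 h.h1 h'.h0 h'.h1 a2 a2' a3' h'.bn hE.ge
  have lD := Msg.lipA (E := E) h.h0 h.h1 h'.h0 h'.h1 d2 d2' d3' h'.bm (by linarith)
  have z := h.zeta
  have z' := h'.zeta
  have t0 : |θ'| ≤ 3 / 4 := by rw [abs_of_nonneg h'.h0]; exact h'.h1
  rw [show θ * g * γ = θ * γ * g by ring] at d1
  rw [show θ' * g' * γ' = θ' * γ' * g' by ring] at d1'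
  have y1 : θ * γ * g = (1 + θ * γ * g) ^ 2 * (θ * A * D) := by
    calc θ * γ * g = θ * ((1 + θ * γ * g) * A) * ((1 + θ * γ * g) * D) := by rw [← a1, ← d1]
      _ = _ := by ring
  have y1' : θ' * γ' * g' = (1 + θ' * γ' * g') ^ 2 * (θ' * A' * D') := by
    calc θ' * γ' * g' = θ' * ((1 + θ' * γ' * g') * A') * ((1 + θ' * γ' * g') * D') := by
          rw [← a1', ← d1']
      _ = _ := by ring
  generalize θ * γ * g = y at *
  generalize θ' * γ' * g' = y' at *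
  have E0 : |θ - θ'| ≤ E := by linarith [abs_nonneg (m - m'), abs_nonneg (n - n')]
  have lμ : |θ * A * D - θ' * A' * D'| ≤ 112 * E := by
    have e : θ * A * D - θ' * A' * D' =
        (θ - θ') * (A * D) + θ' * ((A - A') * D + A' * (D - D')) := by ring
    have b1 := abs_mul_le E0 (abs_mul_le a3 d3)
    have b2 := abs_mul_le t0 ((abs_add_le _ _).trans
      (add_le_add (abs_mul_le lA d3) (abs_mul_le a3' lD)))
    rw [e]
    exact (abs_add_le _ _).trans (by linarith)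
  have b1 : |1 + y| ≤ 7 / 4 := (abs_add_le _ _).trans (by rw [abs_one]; linarith)
  have b1' : |1 + y'| ≤ 7 / 4 := (abs_add_le _ _).trans (by rw [abs_one]; linarith)
  have ly : |y - y'| ≤ 2401 * E := by
    have e : (y - y') * (1 - y * y') =
        ((1 + y) * (1 + y')) * ((1 + y) * (1 + y')) * (θ * A * D - θ' * A' * D') := by
      linear_combination (1 + y') ^ 2 * y1 - (1 + y) ^ 2 * y1'
    have b2 := abs_le.1 (abs_mul_le z z')
    refine abs_le_of_mul e (d := 7 / 16) (by norm_num) (by linarith [b2.2]) ?_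
    exact (abs_mul_le (abs_mul_le (abs_mul_le b1 b1') (abs_mul_le b1 b1')) lμ).trans
      (le_of_eq (by ring))
  have lγ : |γ - γ'| ≤ 10 ^ 4 * E := by
    have e : γ - γ' = (1 + y) * (A - A') + (y - y') * A' := by linear_combination a1 - a1'
    have E1 : 0 ≤ E := (abs_nonneg _).trans E0
    rw [e]
    exact (abs_add_le _ _).trans (by linarith [abs_mul_le b1 lA, abs_mul_le ly a3'])
  rw [← sq_abs (γ - γ'), ← sq_abs (m - m'), ← sq_abs (n - n'), ← sq_abs (θ - θ')]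
  have := pow_le_pow_left₀ (abs_nonneg _) lγ 2
  rw [hE] at this
  nlinarith [sq_nonneg (|m - m'| - |n - n'|), sq_nonneg (|m - m'| - |θ - θ'|),
    sq_nonneg (|n - n'| - |θ - θ'|)]

lemma abs_log_sub {a a' c : ℝ} (hc : 0 < c) (h : c ≤ a) (h' : c ≤ a') :
    |Real.log a - Real.log a'| ≤ |a - a'| / c := by
  have key : ∀ {a a' : ℝ}, c ≤ a → c ≤ a' → Real.log a - Real.log a' ≤ |a - a'| / c := by
    intro a a' h h'
    have p : 0 < a' := lt_of_lt_of_le hc h'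
    rw [← Real.log_div (lt_of_lt_of_le hc h).ne' p.ne']
    refine (Real.log_le_sub_one_of_pos (div_pos (lt_of_lt_of_le hc h) p)).trans ?_
    rw [div_sub_one p.ne']
    exact (div_le_div_of_nonneg_right (le_abs_self _) p.le).trans
      (div_le_div_of_nonneg_left (abs_nonneg _) hc h')
  rw [abs_le]
  constructor
  · have := key h' h
    rw [abs_sub_comm] at this
    linarith
  · exact key h h'

lemma lsq_lip {m m' c : ℝ} (hc : 0 < c) (h : c ≤ 1 - m ^ 2) (h' : c ≤ 1 - m' ^ 2) :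
    (Real.log (1 - m ^ 2) - Real.log (1 - m' ^ 2)) ^ 2 ≤ 10 ^ 12 / c ^ 2 * (m - m') ^ 2 := by
  have := pow_le_pow_left₀ (abs_nonneg _) (abs_log_sub hc h h') 2
  rw [sq_abs, div_pow, sq_abs] at this
  refine this.trans ?_
  rw [div_mul_eq_mul_div]
  refine div_le_div_of_nonneg_right ?_ (sq_nonneg c)
  have e : (1 - m ^ 2 - (1 - m' ^ 2)) ^ 2 = (m + m') ^ 2 * (m - m') ^ 2 := by ring
  rw [e]
  exact mul_le_mul_of_nonneg_right (by nlinarith [sq_nonneg (m - m')]) (sq_nonneg _)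

lemma Msg.lph {θ m n γ g θ' m' n' γ' g' c : ℝ} (h : Msg θ m n γ g) (h' : Msg θ' m' n' γ' g')
    (hc : 0 < c) (b : c ≤ 1 - γ ^ 2) (b' : c ≤ 1 - γ' ^ 2) :
    (Real.log (ph θ γ) - Real.log (ph θ' γ')) ^ 2 ≤ 10 ^ 12 / c ^ 2 *
      ((m ^ 2 + n ^ 2 + m' ^ 2 + n' ^ 2) * ((m - m') ^ 2 + (n - n') ^ 2) + (θ - θ') ^ 2) := by
  have g1 : γ ^ 2 ≤ 1 := by linarith
  have g1' : γ' ^ 2 ≤ 1 := by linarith
  have c1 : c ≤ 1 := by nlinarith
  have t : θ ^ 2 ≤ 9 / 16 := by nlinarith [h.h0, h.h1]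
  have t' : θ' ^ 2 ≤ 9 / 16 := by nlinarith [h'.h0, h'.h1]
  have d : 7 / 16 ≤ 1 - θ ^ 2 * γ ^ 2 := by nlinarith [sq_nonneg θ]
  have d' : 7 / 16 ≤ 1 - θ' ^ 2 * γ' ^ 2 := by nlinarith [sq_nonneg θ']
  unfold ph
  rw [Real.log_div (by linarith) (by linarith), Real.log_div (by linarith) (by linarith)]
  have l1 := abs_log_sub hc b b'
  have l2 := abs_log_sub (by norm_num) d d'
  set X := |γ ^ 2 - γ' ^ 2|
  set δ := |θ - θ'|
  have X0 : 0 ≤ X := abs_nonneg _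
  have δ0 : 0 ≤ δ := abs_nonneg _
  rw [show 1 - γ ^ 2 - (1 - γ' ^ 2) = -(γ ^ 2 - γ' ^ 2) by ring, abs_neg] at l1
  have l3 : |1 - θ ^ 2 * γ ^ 2 - (1 - θ' ^ 2 * γ' ^ 2)| ≤ X + 3 / 2 * δ := by
    rw [show 1 - θ ^ 2 * γ ^ 2 - (1 - θ' ^ 2 * γ' ^ 2) =
      -(θ ^ 2 * (γ ^ 2 - γ' ^ 2)) - (θ - θ') * ((θ + θ') * γ' ^ 2) by ring]
    refine (abs_sub _ _).trans ?_
    rw [abs_neg]
    have a1 := abs_mul_le (show |θ ^ 2| ≤ 1 by rw [abs_of_nonneg (sq_nonneg _)]; linarith)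
      (le_refl X)
    have a2 := abs_mul_le (le_refl δ) (abs_mul_le (show |θ + θ'| ≤ 3 / 2 by
      rw [abs_of_nonneg (by linarith [h.h0, h'.h0])]; linarith [h.h1, h'.h1])
      (show |γ' ^ 2| ≤ 1 by rw [abs_of_nonneg (sq_nonneg _)]; linarith))
    linarith
  have l4 : |Real.log (1 - γ ^ 2) - Real.log (1 - θ ^ 2 * γ ^ 2) -
      (Real.log (1 - γ' ^ 2) - Real.log (1 - θ' ^ 2 * γ' ^ 2))| ≤ 4 * (X + δ) / c := by
    rw [show Real.log (1 - γ ^ 2) - Real.log (1 - θ ^ 2 * γ ^ 2) -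
      (Real.log (1 - γ' ^ 2) - Real.log (1 - θ' ^ 2 * γ' ^ 2)) =
      (Real.log (1 - γ ^ 2) - Real.log (1 - γ' ^ 2)) - (Real.log (1 - θ ^ 2 * γ ^ 2) -
        Real.log (1 - θ' ^ 2 * γ' ^ 2)) by ring]
    refine (abs_sub _ _).trans ?_
    have a1 : (X + 3 / 2 * δ) / (7 / 16) ≤ (3 * X + 4 * δ) / c := by
      rw [div_le_div_iff₀ (by norm_num) hc]
      nlinarith [mul_le_mul_of_nonneg_left c1 X0, mul_le_mul_of_nonneg_left c1 δ0]
    have a2 := (div_le_div_of_nonneg_right l3 (by norm_num : (0 : ℝ) ≤ 7 / 16)).trans a1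
    have a3 : 4 * (X + δ) / c = X / c + (3 * X + 4 * δ) / c := by ring
    linarith
  have l5 := pow_le_pow_left₀ (abs_nonneg _) l4 2
  rw [sq_abs, div_pow] at l5
  refine l5.trans ?_
  rw [div_mul_eq_mul_div]
  refine div_le_div_of_nonneg_right ?_ (sq_nonneg c)
  have s1 := h.sq_le
  have s2 := h'.sq_le
  have s3 := h.lip h'
  have eX : X ^ 2 ≤ 2 * (γ ^ 2 + γ' ^ 2) * (γ - γ') ^ 2 := by
    rw [sq_abs, show (γ ^ 2 - γ' ^ 2) ^ 2 = (γ + γ') ^ 2 * (γ - γ') ^ 2 by ring]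
    exact mul_le_mul_of_nonneg_right (by nlinarith [sq_nonneg (γ - γ')]) (sq_nonneg _)
  have eδ : δ ^ 2 = (θ - θ') ^ 2 := sq_abs _
  have p1 := mul_le_mul_of_nonneg_left s3 (show 0 ≤ 2 * (γ ^ 2 + γ' ^ 2) by positivity)
  have p2 := mul_le_mul_of_nonneg_right (add_le_add s1 s2)
    (show 0 ≤ (m - m') ^ 2 + (n - n') ^ 2 by positivity)
  have p3 := mul_le_mul_of_nonneg_right (add_le_add g1 g1') (sq_nonneg (θ - θ'))
  have p4 : 0 ≤ (m ^ 2 + n ^ 2 + m' ^ 2 + n' ^ 2) * ((m - m') ^ 2 + (n - n') ^ 2) := by positivity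
  nlinarith [sq_nonneg (X - δ), sq_nonneg (θ - θ')]

/-- The constant in the Lipschitz bounds. -/
noncomputable def CD (b : ℕ) (M : ℝ) : ℝ := 10 ^ 12 / mar b M ^ 2

lemma one_le_CD (b : ℕ) {M : ℝ} (hM : 1 ≤ M) : 1 ≤ CD b M := by
  have h1 : mar b M ≤ 1 := by
    unfold mar
    rw [div_le_one (by positivity)]
    have := one_le_mul_of_one_le_of_one_le (one_le_pow₀ (n := 2) hM)
      (one_le_pow₀ (n := 2 * b) (show (1 : ℝ) ≤ 7 by norm_num))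
    linarith
  have h0 := mar_pos b M
  unfold CD
  rw [le_div_iff₀ (by positivity)]
  nlinarith

variable {V : Type*} [DecidableEq V] {G : SimpleGraph V} [G.LocallyFinite]

variable (G) in
/-- Logarithm of the normalised edge response. -/
noncomputable def lph (θ : ℝ) (w : V → Bool → ℝ) (p u : V) : ℝ :=
  Real.log (ph θ (mg (B G θ w p u)))

variable {b : ℕ} (hG : Reg G b) {θ θ' M : ℝ} (h0 : 0 ≤ θ) (h1 : θ ≤ 3 / 4) (h0' : 0 ≤ θ')
  (h1' : θ' ≤ 3 / 4) {Θ : Type*} [MeasurableSpace Θ] {Λ Λ' : Finset V} {w w' : Θ → V → Bool → ℝ}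

include hG h0 h1 in
lemma RW.msg (h : RW Λ M w) (x : Θ) {p u : V} (a : G.Adj p u) :
    Msg θ (mm G θ (w x) u) (mm G θ (w x) p) (mg (B G θ (w x) p u)) (mg (B G θ (w x) u p)) :=
  ⟨h0, h1, m_edge hG.tree h0 (by linarith) (h.supp x) (h.pos x) a,
    m_edge hG.tree h0 (by linarith) (h.supp x) (h.pos x) a.symm,
    h.abs_mg_one hG h0 h1 (Or.inr a) x, h.abs_mg_one hG h0 h1 (Or.inr a.symm) x,
    h.abs_mg_one hG h0 h1 (ok_self _) x, h.abs_mg_one hG h0 h1 (ok_self _) x⟩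

include hG h0 h1 in
lemma RW.mm_sq (h : RW Λ M w) (x : Θ) (v : V) : mm G θ (w x) v ^ 2 ≤ 1 :=
  (mg_sq_lt (h.B_pos hG h0 h1 (ok_self v) x)).le

include hG h0 h1 h0' h1'

lemma RW.dm_le (h : RW Λ M w) (h' : RW Λ' M w') (x : Θ) (v : V) :
    (mm G θ (w x) v - mm G θ' (w' x) v) ^ 2 ≤ 4 := by
  nlinarith [h.mm_sq hG h0 h1 x v, h'.mm_sq hG h0' h1' x v,
    sq_nonneg (mm G θ (w x) v + mm G θ' (w' x) v)]

lemma RW.lph_lip (h : RW Λ M w) (h' : RW Λ' M w') (x : Θ) {p u : V} (a : G.Adj p u) :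
    (lph G θ (w x) p u - lph G θ' (w' x) p u) ^ 2 ≤ CD b M *
      ((mm G θ (w x) u ^ 2 + mm G θ (w x) p ^ 2 + mm G θ' (w' x) u ^ 2 + mm G θ' (w' x) p ^ 2) *
        ((mm G θ (w x) u - mm G θ' (w' x) u) ^ 2 + (mm G θ (w x) p - mm G θ' (w' x) p) ^ 2) +
          (θ - θ') ^ 2) :=
  (h.msg hG h0 h1 x a).lph (h'.msg hG h0' h1' x a) (mar_pos b M)
    (one_sub_sq_ge (h.abs_mg hG h0 h1 (Or.inr a) x) (mar_pos b M))
    (one_sub_sq_ge (h'.abs_mg hG h0' h1' (Or.inr a) x) (mar_pos b M))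

lemma RW.lph_lip' (h : RW Λ M w) (h' : RW Λ' M w') (x : Θ) {p u : V} (a : G.Adj p u) :
    (lph G θ (w x) p u - lph G θ' (w' x) p u) ^ 2 ≤ 4 * CD b M *
      ((mm G θ (w x) u - mm G θ' (w' x) u) ^ 2 + (mm G θ (w x) p - mm G θ' (w' x) p) ^ 2 +
          (θ - θ') ^ 2) := by
  refine (h.lph_lip hG h0 h1 h0' h1' h' x a).trans ?_
  have c := one_le_CD b h.one
  have s : mm G θ (w x) u ^ 2 + mm G θ (w x) p ^ 2 + mm G θ' (w' x) u ^ 2 +
      mm G θ' (w' x) p ^ 2 ≤ 4 := by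
    linarith [h.mm_sq hG h0 h1 x u, h.mm_sq hG h0 h1 x p, h'.mm_sq hG h0' h1' x u,
      h'.mm_sq hG h0' h1' x p]
  rw [mul_comm 4, mul_assoc]
  refine mul_le_mul_of_nonneg_left ?_ (by linarith)
  nlinarith [mul_le_mul_of_nonneg_right s (add_nonneg
    (sq_nonneg (mm G θ (w x) u - mm G θ' (w' x) u)) (sq_nonneg (mm G θ (w x) p - mm G θ' (w' x) p))),
    sq_nonneg (θ - θ')]

lemma RW.lm_lip (h : RW Λ M w) (h' : RW Λ' M w') (x : Θ) (v : V) :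
    (Real.log (1 - mm G θ (w x) v ^ 2) - Real.log (1 - mm G θ' (w' x) v ^ 2)) ^ 2 ≤
      CD b M * (mm G θ (w x) v - mm G θ' (w' x) v) ^ 2 :=
  lsq_lip (mar_pos b M) (one_sub_sq_ge (h.abs_mg hG h0 h1 (ok_self v) x) (mar_pos b M))
    (one_sub_sq_ge (h'.abs_mg hG h0' h1' (ok_self v) x) (mar_pos b M))

end Crest.Agent.Ising
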