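import Crest.Agent.Ising.Dyn

/-!
The dynamics as a function of one label field.
-/

set_option maxHeartbeats 400000

open MeasureTheory Set Filter Topology SimpleGraph
open Crest.Agent.FIID

namespace Crest.Agent.Ising

variable {V : Type*}

/-- Time labels. -/
def Tm (ω : ℕ × V → ℝ) (c : ℕ × V) : ℝ := ω (2 * c.1, c.2)

/-- Innovation labels. -/
def Um (ω : ℕ × V → ℝ) (c : ℕ × V) : ℝ := ω (2 * c.1 + 1, c.2)

lemma measurable_Tm (c : ℕ × V) : Measurable fun ω : ℕ × V → ℝ => Tm ω c := measurable_pi_apply _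

lemma measurable_Um (c : ℕ × V) : Measurable fun ω : ℕ × V → ℝ => Um ω c := measurable_pi_apply _

lemma measurable_TU : Measurable fun ω : ℕ × V → ℝ => (Tm ω, Um ω) :=
  (measurable_pi_iff.2 measurable_Tm).prodMk (measurable_pi_iff.2 measurable_Um)

lemma integral_split {F : (ℕ × V → ℝ) × (ℕ × V → ℝ) → ℝ} (hF : Bd F) :
    ∫ ω, F (Tm ω, Um ω) ∂PI (ℕ × V) = ∫ T, ∫ U, F (T, U) ∂PI (ℕ × V) ∂PI (ℕ × V) := by
  have h1 := map_split unif (fun c : ℕ × V => ((2 * c.1, c.2) : ℕ × V))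
    (fun c : ℕ × V => (2 * c.1 + 1, c.2)) (by
      rintro (⟨a, a'⟩ | ⟨a, a'⟩) (⟨b, b'⟩ | ⟨b, b'⟩) hab <;>
        simp only [Sum.elim_inl, Sum.elim_inr, Prod.mk.injEq, Sum.inl.injEq, Sum.inr.injEq,
          reduceCtorEq] at hab ⊢ <;> first | omega | exact ⟨by omega, hab.2⟩)
  rw [hF.map measurable_TU h1, integral_prod _ (hF.int _)]

lemma wt_cl (T U : ℕ × V → ℝ) (r : ℕ) (σ : ℝ) : wt T (fun c => cl (U c)) r σ = wt T U r σ := by
  funext v s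
  simp only [wt, fac, cl_cl]

variable [DecidableEq V] (G : SimpleGraph V) [G.LocallyFinite]

/-- The state at time `(r, σ)`. -/
noncomputable def St (θ : ℝ) (Λ : Finset V) (r : ℕ) (σ : ℝ) (ω : ℕ × V → ℝ) : V → Bool → ℝ :=
  st G θ Λ (Tm ω) (Um ω) r σ

/-- The raw weights at time `(r, σ)`. -/
noncomputable def R0 (Λ : Finset V) (r : ℕ) (σ : ℝ) (ω : ℕ × V → ℝ) : V → Bool → ℝ :=
  res Λ (wt (Tm ω) (Um ω) r σ)

/-- Mean square distance of two posterior means. -/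
noncomputable def ff (θ : ℝ) (Λ : Finset V) (θ' : ℝ) (Λ' : Finset V) (a : V) (r : ℕ) (σ : ℝ) : ℝ :=
  ∫ ω, (mm G θ (St G θ Λ r σ ω) a - mm G θ' (St G θ' Λ' r σ ω) a) ^ 2 ∂PI (ℕ × V)

/-- Bound for the squared jump. -/
noncomputable def Xi (θ : ℝ) (Λ : Finset V) (θ' : ℝ) (Λ' : Finset V) (a v : V)
    (w w' : V → Bool → ℝ) : ℝ :=
  if v ∈ Λ ∧ v ∈ Λ' then 8 * (SG G θ w a v - SG G θ' w' a v) ^ 2 +
    2 * (SG G θ' w' a v ^ 2 * (mm G θ w v - mm G θ' w' v) ^ 2)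
  else 8 * SG G θ w a v ^ 2 + 8 * SG G θ' w' a v ^ 2

variable {G} {θ θ' : ℝ} {Λ Λ' : Finset V}

lemma rw_St (hT : G.IsTree) (θ : ℝ) (Λ : Finset V) (r : ℕ) (σ : ℝ) :
    RW Λ (2 ^ (r + 1)) (St G θ Λ r σ) :=
  rw_st hT measurable_Tm measurable_Um measurable_const r

omit [G.LocallyFinite] in
lemma rw_R0 (Λ : Finset V) (r : ℕ) (σ : ℝ) : RW Λ (2 ^ (r + 1)) (R0 Λ r σ) :=
  rw_wt measurable_Tm measurable_Um measurable_const Λ r

lemma St_round (r : ℕ) : St G θ Λ (r + 1) 0 = St G θ Λ r (1 / 2) := by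
  funext ω; simp only [St, st, wt_round]

lemma St_start (ω : ℕ × V → ℝ) : St G θ Λ 0 0 ω = fun _ _ => 1 := by
  funext v s
  simp only [St, st, wt_start, res]
  split_ifs <;> rfl

lemma St_dep (r : ℕ) (σ : ℝ) : DependsOn (St G θ Λ r σ) (co (Λ : Set V)) := by
  intro ω ω' h
  have h1 : ∀ c : ℕ × V, c.2 ∈ Λ → Tm ω c = Tm ω' c := fun c hc => h _ hc
  refine st_causal fun c hc => ⟨?_, fun _ => ⟨h1 c hc, h _ hc⟩⟩
  unfold bft
  rw [h1 c hc]

lemma St_map (g : G ≃g G) (r : ℕ) (σ : ℝ) (ω : ℕ × V → ℝ) :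
    St G θ Λ r σ (fun k => ω (k.1, g k.2)) =
      fun v => St G θ (Λ.map g.toEquiv.toEmbedding) r σ ω (g v) :=
  st_map g (Tm ω) (Um ω) r σ

lemma Xi_nonneg (a v : V) (w w' : V → Bool → ℝ) : 0 ≤ Xi G θ Λ θ' Λ' a v w w' := by
  unfold Xi; split_ifs <;> positivity

lemma mm_empty (hT : G.IsTree) {w : V → Bool → ℝ} (hw : Supp w ∅) (a : V) : mm G θ w a = 0 := by
  unfold mm
  rw [B_one hT hw (ok_self a) (by simp)]
  simp [mg]

section Main
variable {b : ℕ} (hG : Reg G b) (h0 : 0 ≤ θ) (h3 : θ ≤ 3 / 4)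
include hG h0 h3

lemma bd_mm {Θ : Type*} [MeasurableSpace Θ] {M : ℝ} {w : Θ → V → Bool → ℝ} (h : RW Λ M w)
    (a : V) : Bd fun x => mm G θ (w x) a := h.bd_mg hG h0 h3 (ok_self a)

lemma bd_SG {Θ : Type*} [MeasurableSpace Θ] {M : ℝ} {w : Θ → V → Bool → ℝ} (h : RW Λ M w)
    (a v : V) : Bd fun x => SG G θ (w x) a v := h.bd_Sig hG h0 h3 (geo_spec hG.tree a v).2.2

lemma bd_Xi (h0' : 0 ≤ θ') (h3' : θ' ≤ 3 / 4) {Θ : Type*} [MeasurableSpace Θ] {M : ℝ}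
    {w w' : Θ → V → Bool → ℝ} (h : RW Λ M w) (h' : RW Λ' M w') (a v : V) :
    Bd fun x => Xi G θ Λ θ' Λ' a v (w x) (w' x) := by
  have s1 := bd_SG hG h0 h3 h a v
  have s2 := bd_SG hG h0' h3' h' a v
  unfold Xi
  split_ifs
  · exact (((s1.sub s2).pow 2).cmul 8).add (((s2.pow 2).mul
      (((bd_mm hG h0 h3 h v).sub (bd_mm hG h0' h3' h' v)).pow 2)).cmul 2)
  · exact ((s1.pow 2).cmul 8).add ((s2.pow 2).cmul 8)

/-- The state has the planted law. -/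
theorem exact_law (o : V) (r : ℕ) (σ : ℝ) {F : (V → Bool → ℝ) → ℝ}
    (hF : Bd fun w => F (cw Λ (2 ^ (r + 1)) w)) :
    ∫ ω, F (St G θ Λ r σ ω) ∂PI (ℕ × V) =
      ∫ ω, av (B G θ (R0 Λ r σ ω) o o) * F (R0 Λ r σ ω) ∂PI (ℕ × V) := by
  have := countable_V hG.tree
  have w1 := rw_st (θ := θ) (Λ := Λ) (Θ := (ℕ × V → ℝ) × (ℕ × V → ℝ)) (T := fun p => p.1)
    (U := fun p => p.2) hG.tree (fun c => by fun_prop) (fun c => by fun_prop)
    (σ := fun _ => σ) measurable_const r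
  have w2 := rw_wt (Θ := (ℕ × V → ℝ) × (ℕ × V → ℝ)) (T := fun p => p.1) (y := fun p => p.2)
    (fun c => by fun_prop) (fun c => by fun_prop) (σ := fun _ => σ) measurable_const Λ r
  refine (integral_split (w1.bd hF)).trans (Eq.trans ?_ (integral_split
    ((w2.bd_av hG h0 h3 (ok_self o)).mul (w2.bd hF))).symm)
  refine integral_congr_ae ?_
  filter_upwards [ae_injective (ℕ × V)] with T hT
  have := exact_D hG h0 h3 o hT (Dt Λ T r σ) (DC_Dt T r σ) (fun y => F (res Λ (wt T y r σ)))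
    ((w2.bd hF).comp measurable_prodMk_left) (fun y y' h => by
      beta_reduce
      rw [res_congr fun v hv => wt_congr (T' := T) (σ' := σ) (y' := y') fun r' =>
        ⟨Iff.rfl, fun hb => ⟨rfl, h _ (mem_Dt.2 ⟨hv, hb⟩)⟩⟩])
  simp only [wt_cl] at this
  simp only [res_wD (Λ := Λ) subset_rfl fun c hc => (mem_Dt.trans (and_iff_right hc))] at this
  exact this

lemma orth_T (h0' : 0 ≤ θ') (h3' : θ' ≤ 3 / 4) (a : V) {r₁ r₂ : ℕ} {σ₁ σ₂ : ℝ}
    (h12 : r₁ < r₂ ∨ (r₁ = r₂ ∧ σ₁ ≤ σ₂)) (κ : ℝ) {T : ℕ × V → ℝ} (hT : Function.Injective T) :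
    ∫ U, (mm G θ (st G θ Λ T U r₂ σ₂) a - mm G θ' (st G θ' Λ' T U r₂ σ₂) a -
        κ * mm G θ (st G θ Λ T U r₁ σ₁) a) ^ 2 ∂PI (ℕ × V) =
      ∫ U, (mm G θ (st G θ Λ T U r₁ σ₁) a - mm G θ' (st G θ' Λ' T U r₁ σ₁) a -
        κ * mm G θ (st G θ Λ T U r₁ σ₁) a) ^ 2 ∂PI (ℕ × V) +
      ∑ c ∈ Dt (Λ ∪ Λ') T r₂ σ₂ \ Dt (Λ ∪ Λ') T r₁ σ₁,
        ∫ U, (jump G θ Λ T U a c - jump G θ' Λ' T U a c) ^ 2 ∂PI (ℕ × V) := by
  have hsub : Dt (Λ ∪ Λ') T r₁ σ₁ ⊆ Dt (Λ ∪ Λ') T r₂ σ₂ := by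
    intro c hc
    rw [mem_Dt] at hc ⊢
    refine ⟨hc.1, ?_⟩
    rcases hc.2 with h | ⟨h, h'⟩ <;> rcases h12 with h1 | ⟨h1, h1'⟩
    · left; omega
    · left; omega
    · left; omega
    · right; exact ⟨by omega, lt_of_lt_of_le h' h1'⟩
  have := orth_D hG h0 h3 h0' h3' (Λ := Λ) (Λ' := Λ') Finset.subset_union_left
    Finset.subset_union_right a hT (DC_Dt T r₁ σ₁)
    ((bd_mmD (Λ := Λ) hG h0 h3 T (Dt (Λ ∪ Λ') T r₁ σ₁) a).cmul κ) (fun U U' h => by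
      beta_reduce
      rw [wD_dep Finset.subset_union_left (DC_Dt T r₁ σ₁) h]) _ (DC_Dt T r₂ σ₂) hsub
  simp only [res_wD (Λ := Λ) (L := Λ ∪ Λ') Finset.subset_union_left
      fun c hc => (mem_Dt.trans (and_iff_right hc)),
    res_wD (Λ := Λ') (L := Λ ∪ Λ') Finset.subset_union_right
      fun c hc => (mem_Dt.trans (and_iff_right hc))] at this
  exact this

lemma bd_pair (r : ℕ) (σ : ℝ) (a : V) :
    Bd fun p : (ℕ × V → ℝ) × (ℕ × V → ℝ) => mm G θ (st G θ Λ p.1 p.2 r σ) a :=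
  bd_mm hG h0 h3 (rw_st (θ := θ) (Λ := Λ) (Θ := (ℕ × V → ℝ) × (ℕ × V → ℝ)) (T := fun p => p.1)
    (U := fun p => p.2) hG.tree (fun c => by fun_prop) (fun c => by fun_prop)
    (σ := fun _ => σ) measurable_const r) a

lemma ff_mono (h0' : 0 ≤ θ') (h3' : θ' ≤ 3 / 4) (a : V) (r : ℕ) {σ₁ σ₂ : ℝ} (h : σ₁ ≤ σ₂) :
    ff G θ Λ θ' Λ' a r σ₁ ≤ ff G θ Λ θ' Λ' a r σ₂ := by
  have := countable_V hG.tree
  have b1 := fun σ => ((bd_pair (Λ := Λ) hG h0 h3 r σ a).sub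
    (bd_pair (Λ := Λ') hG h0' h3' r σ a)).pow 2
  refine (integral_split (b1 σ₁)).trans_le (LE.le.trans_eq ?_ (integral_split (b1 σ₂)).symm)
  refine integral_mono_ae (((b1 σ₁).integral _).int _) (((b1 σ₂).integral _).int _) ?_
  filter_upwards [ae_injective (ℕ × V)] with T hT
  have := orth_T (Λ := Λ) (Λ' := Λ') hG h0 h3 h0' h3' a (Or.inr ⟨(rfl : r = r), h⟩) 0 hT
  simp only [zero_mul, sub_zero] at this
  rw [this]
  exact le_add_of_nonneg_right (Finset.sum_nonneg fun _ _ => integral_nonneg fun _ => sq_nonneg _)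

lemma cross (a : V) {r r' : ℕ} (h : r ≤ r') :
    ∫ ω, (mm G θ (St G θ Λ r' 0 ω) a - mm G θ (St G θ Λ r 0 ω) a) ^ 2 ∂PI (ℕ × V) ≤
      1 - ∫ ω, mm G θ (St G θ Λ r 0 ω) a ^ 2 ∂PI (ℕ × V) := by
  have := countable_V hG.tree
  have b1 := bd_pair (Λ := Λ) hG h0 h3 r 0 a
  have b2 := bd_pair (Λ := Λ) hG h0 h3 r' 0 a
  have e1 := integral_split ((b2.sub b1).pow 2)
  have e2 := integral_split ((Bd.const 1).sub (b1.pow 2))
  have e3 : ∫ ω, (1 - mm G θ (St G θ Λ r 0 ω) a ^ 2) ∂PI (ℕ × V) =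
      1 - ∫ ω, mm G θ (St G θ Λ r 0 ω) a ^ 2 ∂PI (ℕ × V) := by
    rw [integral_sub ((Bd.const 1).int _)
      (((bd_mm hG h0 h3 (rw_St hG.tree θ Λ r 0) a).pow 2).int _)]
    simp
  rw [← e3]
  refine e1.trans_le (LE.le.trans_eq ?_ e2.symm)
  refine integral_mono_ae ((((b2.sub b1).pow 2).integral _).int _)
    ((((Bd.const 1).sub (b1.pow 2)).integral _).int _) ?_
  filter_upwards [ae_injective (ℕ × V)] with T hT
  have h12 : r < r' ∨ (r = r' ∧ (0 : ℝ) ≤ 0) := by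
    rcases h.lt_or_eq with h | h
    · exact Or.inl h
    · exact Or.inr ⟨h, le_rfl⟩
  have z : ∀ U r σ, mm G θ (st G θ ∅ T U r σ) a = 0 := fun U r σ =>
    mm_empty hG.tree (res_supp _ _) a
  have t0 := orth_T (Λ := Λ) (Λ' := ∅) hG h0 h3 h0 h3 a h12 0 hT
  have t1 := orth_T (Λ := Λ) (Λ' := ∅) hG h0 h3 h0 h3 a h12 1 hT
  simp only [z, zero_mul, sub_zero, one_mul, sub_self, ne_eq, OfNat.ofNat_ne_zero,
    not_false_eq_true, zero_pow, integral_zero, zero_add] at t0 t1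
  have c1 := b1.comp (measurable_prodMk_left (x := T))
  have c2 := b2.comp (measurable_prodMk_left (x := T))
  have t2 : ∫ U, mm G θ (st G θ Λ T U r' 0) a ^ 2 ∂PI (ℕ × V) ≤ 1 := by
    have := (c2.pow 2).mono (Bd.const 1) (PI (ℕ × V)) fun U => by
      have hw := rw_st (θ := θ) (Λ := Λ) (Θ := Unit) (T := fun _ => T) (U := fun _ => U) hG.tree
        (fun _ => measurable_const) (fun _ => measurable_const) (σ := fun _ => 0)
        measurable_const r'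
      exact (mg_sq_lt (hw.B_pos hG h0 h3 (ok_self a) ())).le
    simpa using this
  rw [integral_sub ((Bd.const 1).int _) ((c1.pow 2).int _)]
  simp only [integral_const, probReal_univ, smul_eq_mul, one_mul]
  linarith

lemma jump_sq (h0' : 0 ≤ θ') (h3' : θ' ≤ 3 / 4) (T U : ℕ × V → ℝ) (a : V) (c : ℕ × V) :
    (jump G θ Λ T U a c - jump G θ' Λ' T U a c) ^ 2 ≤ kap (T c) ^ 2 *
      Xi G θ Λ θ' Λ' a c.2 (st G θ Λ T U c.1 (T c)) (st G θ' Λ' T U c.1 (T c)) := by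
  have hw := rw_st (θ := θ) (Λ := Λ) (Θ := Unit) (T := fun _ => T) (U := fun _ => U) hG.tree
    (fun _ => measurable_const) (fun _ => measurable_const) (σ := fun _ => T c)
    measurable_const c.1
  have hw' := rw_st (θ := θ') (Λ := Λ') (Θ := Unit) (T := fun _ => T) (U := fun _ => U) hG.tree
    (fun _ => measurable_const) (fun _ => measurable_const) (σ := fun _ => T c)
    measurable_const c.1
  have m1 : |mm G θ (st G θ Λ T U c.1 (T c)) c.2| ≤ 1 := hw.abs_mg_one hG h0 h3 (ok_self c.2) ()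
  have m2 : |mm G θ' (st G θ' Λ' T U c.1 (T c)) c.2| ≤ 1 :=
    hw'.abs_mg_one hG h0' h3' (ok_self c.2) ()
  have p1 := abs_psi (kap_nonneg (T c)) (kap_le _) m1 (U c)
  have p2 := abs_psi (kap_nonneg (T c)) (kap_le _) m2 (U c)
  have p3 := psi_lip (kap_nonneg (T c)) (kap_le _) m1 m2 (U c)
  unfold jump Xi
  generalize SG G θ (st G θ Λ T U c.1 (T c)) a c.2 = s at *
  generalize SG G θ' (st G θ' Λ' T U c.1 (T c)) a c.2 = s' at *
  generalize mm G θ (st G θ Λ T U c.1 (T c)) c.2 = m at *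
  generalize mm G θ' (st G θ' Λ' T U c.1 (T c)) c.2 = m' at *
  generalize psi (kap (T c)) m (U c) = ψ at *
  generalize psi (kap (T c)) m' (U c) = ψ' at *
  generalize kap (T c) = κ at *
  have q1 : ψ ^ 2 ≤ (2 * κ) ^ 2 := sq_le_sq' (abs_le.1 p1).1 (abs_le.1 p1).2
  have q2 : ψ' ^ 2 ≤ (2 * κ) ^ 2 := sq_le_sq' (abs_le.1 p2).1 (abs_le.1 p2).2
  have q3 : (ψ - ψ') ^ 2 ≤ κ ^ 2 * (m - m') ^ 2 := by
    rw [← sq_abs (m - m'), ← mul_pow]
    exact sq_le_sq' (abs_le.1 p3).1 (abs_le.1 p3).2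
  have r1 := mul_le_mul_of_nonneg_left q1 (sq_nonneg s)
  have r2 := mul_le_mul_of_nonneg_left q2 (sq_nonneg s')
  have k1 := mul_nonneg (sq_nonneg κ) (sq_nonneg s)
  have k2 := mul_nonneg (sq_nonneg κ) (sq_nonneg s')
  by_cases h1 : c.2 ∈ Λ <;> by_cases h2 : c.2 ∈ Λ' <;>
    simp only [h1, h2, and_self, and_true, and_false, if_true, if_false]
  · have r3 := mul_le_mul_of_nonneg_left q1 (sq_nonneg (s - s'))
    have r4 := mul_le_mul_of_nonneg_left q3 (sq_nonneg s')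
    nlinarith [sq_nonneg ((s - s') * ψ - s' * (ψ - ψ'))]
  · nlinarith
  · nlinarith
  · nlinarith

/-- Growth of the mean square distance. -/
theorem jump_le (h0' : 0 ≤ θ') (h3' : θ' ≤ 3 / 4) (a : V) (r : ℕ) {σ₁ σ₂ β : ℝ} (h12 : σ₁ ≤ σ₂)
    (h2 : σ₂ ≤ 1 / 2) (hβ : 0 ≤ β) (h : ∀ t, σ₁ ≤ t → t < σ₂ → kap t ^ 2 * ∑ v ∈ Λ ∪ Λ',
      ∫ ω, Xi G θ Λ θ' Λ' a v (St G θ Λ r t ω) (St G θ' Λ' r t ω) ∂PI (ℕ × V) ≤ β) :
    ff G θ Λ θ' Λ' a r σ₂ ≤ ff G θ Λ θ' Λ' a r σ₁ + 2 * (σ₂ - σ₁) * β := by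
  have := countable_V hG.tree
  have b1 := fun σ => ((bd_pair (Λ := Λ) hG h0 h3 r σ a).sub
    (bd_pair (Λ := Λ') hG h0' h3' r σ a)).pow 2
  set Φ : V → ℝ × (ℕ × V → ℝ) → ℝ := fun v p => ∫ U, kap p.1 ^ 2 *
    Xi G θ Λ θ' Λ' a v (st G θ Λ p.2 U r p.1) (st G θ' Λ' p.2 U r p.1) ∂PI (ℕ × V) with hΦ
  have bX : ∀ v, Bd fun q : (ℝ × (ℕ × V → ℝ)) × (ℕ × V → ℝ) => kap q.1.1 ^ 2 *
      Xi G θ Λ θ' Λ' a v (st G θ Λ q.1.2 q.2 r q.1.1) (st G θ' Λ' q.1.2 q.2 r q.1.1) := by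
    intro v
    refine ((bd_kap.comp (by fun_prop)).pow 2).mul (bd_Xi hG h0 h3 h0' h3' (M := 2 ^ (r + 1)) ?_ ?_ a v)
    · exact rw_st hG.tree (fun c => by fun_prop) (fun c => by fun_prop) (by fun_prop) r
    · exact rw_st hG.tree (fun c => by fun_prop) (fun c => by fun_prop) (by fun_prop) r
  have bΦ : ∀ v, Bd (Φ v) := fun v => (bX v).integral _
  have hI : MeasurableSet {t : ℝ | σ₁ ≤ t ∧ t < σ₂} := measurableSet_Ico
  have bI : ∀ v, Bd fun T : ℕ × V → ℝ =>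
      if σ₁ ≤ T (r, v) ∧ T (r, v) < σ₂ then Φ v (T (r, v), T) else 0 := fun v =>
    Bd.ite ((measurable_pi_apply (X := fun _ : ℕ × V => ℝ) (r, v)) hI)
      ((bΦ v).comp (by fun_prop)) (Bd.const 0)
  have s1 : ff G θ Λ θ' Λ' a r σ₂ ≤ ff G θ Λ θ' Λ' a r σ₁ + ∑ v ∈ Λ ∪ Λ',
      ∫ T, (if σ₁ ≤ T (r, v) ∧ T (r, v) < σ₂ then Φ v (T (r, v), T) else 0) ∂PI (ℕ × V) := by
    unfold ff
    refine (integral_split (b1 σ₂)).trans_le ?_
    rw [← integral_finsetSum _ fun v _ => (bI v).int _]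
    refine LE.le.trans_eq ?_ (congrArg (· + _) (integral_split (b1 σ₁)).symm)
    rw [← integral_add (((b1 σ₁).integral _).int _) ((Bd.sum fun v _ => bI v).int _)]
    refine integral_mono_ae (((b1 σ₂).integral _).int _)
      ((((b1 σ₁).integral _).add (Bd.sum fun v _ => bI v)).int _) ?_
    filter_upwards [ae_injective (ℕ × V)] with T hT
    have := orth_T (Λ := Λ) (Λ' := Λ') hG h0 h3 h0' h3' a (Or.inr ⟨(rfl : r = r), h12⟩) 0 hT
    simp only [zero_mul, sub_zero] at this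
    rw [this]
    refine add_le_add le_rfl ?_
    rw [← Finset.sum_filter]
    have e : Dt (Λ ∪ Λ') T r σ₂ \ Dt (Λ ∪ Λ') T r σ₁ = ((Λ ∪ Λ').filter
        fun v => σ₁ ≤ T (r, v) ∧ T (r, v) < σ₂).map ⟨fun v => (r, v), fun _ _ h => by
          simpa using h⟩ := by
      ext ⟨r', v⟩
      simp only [Finset.mem_sdiff, mem_Dt, bft, Finset.mem_map, Finset.mem_filter,
        Function.Embedding.coeFn_mk, Prod.mk.injEq]
      constructor
      · rintro ⟨⟨h1, h2⟩, h3⟩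
        have h4 : ¬ r' < r := fun h => h3 ⟨h1, Or.inl h⟩
        obtain ⟨rfl, h5⟩ := h2.resolve_left h4
        exact ⟨v, ⟨h1, not_lt.1 fun h => h3 ⟨h1, Or.inr ⟨rfl, h⟩⟩, h5⟩, rfl, rfl⟩
      · rintro ⟨v', ⟨h1, h2, h3⟩, rfl, rfl⟩
        refine ⟨⟨h1, Or.inr ⟨rfl, h3⟩⟩, fun h => ?_⟩
        rcases h.2 with h | h
        · exact lt_irrefl _ h
        · exact absurd h.2 (not_lt.2 h2)
    rw [e, Finset.sum_map]
    refine Finset.sum_le_sum fun v _ => ?_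
    have j1 := bd_jump (Λ := Λ) (T := fun _ => T) (U := fun U : ℕ × V → ℝ => U) hG h0 h3
      (fun _ => measurable_const) (fun c => measurable_pi_apply c) a (r, v)
    have j2 := bd_jump (Λ := Λ') (T := fun _ => T) (U := fun U : ℕ × V → ℝ => U) hG h0' h3'
      (fun _ => measurable_const) (fun c => measurable_pi_apply c) a (r, v)
    exact ((j1.sub j2).pow 2).mono ((bX v).comp (measurable_prodMk_left (x := (T (r, v), T)))) _
      fun U => jump_sq hG h0 h3 h0' h3' T U a (r, v)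
  have bJ : ∀ v, Bd fun t : ℝ => if σ₁ ≤ t ∧ t < σ₂ then 4 * ∫ T, Φ v (t, T) ∂PI (ℕ × V) else 0 :=
    fun v => Bd.ite hI (((bΦ v).integral _).cmul 4) (Bd.const 0)
  have s2 : ∀ v, ∫ T, (if σ₁ ≤ T (r, v) ∧ T (r, v) < σ₂ then Φ v (T (r, v), T) else 0)
      ∂PI (ℕ × V) ≤ ∫ t, (if σ₁ ≤ t ∧ t < σ₂ then 4 * ∫ T, Φ v (t, T) ∂PI (ℕ × V) else 0)
        ∂unif := by
    intro v
    refine cond_time (r, v) (bΦ v) (fun p => integral_nonneg fun U =>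
      mul_nonneg (sq_nonneg _) (Xi_nonneg _ _ _ _)) h2 fun t T t' ht => ?_
    have key : ∀ (θ : ℝ) (Λ : Finset V) U, st G θ Λ (Function.update T (r, v) t') U r t =
        st G θ Λ (Function.update T (r, v) t) U r t := by
      intro θ Λ U
      refine st_causal fun c _ => ?_
      by_cases hc : c = (r, v)
      · subst hc
        simp [bft, not_lt.2 ht]
      · simp [bft, Function.update_of_ne hc]
    simp only [hΦ, key]
  refine s1.trans (add_le_add le_rfl ((Finset.sum_le_sum fun v _ => s2 v).trans ?_))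
  rw [← integral_finsetSum _ fun v _ => (bJ v).int _]
  refine ((Bd.sum fun v _ => bJ v).mono (Bd.ite hI (Bd.const (4 * β)) (Bd.const 0)) unif
    fun t => ?_).trans ((integral_window h12 (by linarith)).trans_eq (by ring))
  by_cases ht : σ₁ ≤ t ∧ t < σ₂
  · simp only [ht, and_self, if_true]
    rw [← Finset.mul_sum]
    refine mul_le_mul_of_nonneg_left (le_trans (le_of_eq ?_) (h t ht.1 ht.2)) (by norm_num)
    rw [Finset.mul_sum]
    refine Finset.sum_congr rfl fun v _ => ?_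
    rw [← integral_const_mul]
    exact (integral_split ((bX v).comp (φ := fun p : (ℕ × V → ℝ) × (ℕ × V → ℝ) =>
      ((t, p.1), p.2)) (by fun_prop))).symm
  · simp [ht]

end Main

end Crest.Agent.Ising
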