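import Crest.Agent.Ising.Tree
import Crest.Agent.FIID.OneDim

/-!
Partition functions of the Ising model on a tree with finitely supported site weights.
-/

set_option maxHeartbeats 400000

open SimpleGraph Filter Topology
open Crest.Agent.FIID (sg)

namespace Crest.Agent.Ising

/-- The edge channel. -/
noncomputable def Pk (θ : ℝ) (f : Bool → ℝ) (s : Bool) : ℝ := ((1 + θ) * f s + (1 - θ) * f (!s)) / 2

/-- Average of the two weights. -/
noncomputable def av (f : Bool → ℝ) : ℝ := (f true + f false) / 2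

/-- Magnetisation of a pair of weights. -/
noncomputable def mg (f : Bool → ℝ) : ℝ := (f true - f false) / (f true + f false)

/-- Normalised edge response. -/
noncomputable def ph (θ γ : ℝ) : ℝ := (1 - γ ^ 2) / (1 - θ ^ 2 * γ ^ 2)

section Alg
variable {θ : ℝ} {f : Bool → ℝ}

lemma Pk_one (θ : ℝ) (s : Bool) : Pk θ (fun _ => 1) s = 1 := by unfold Pk; ring

lemma Pk_pos (h0 : 0 ≤ θ) (h1 : θ ≤ 1) (hf : ∀ s, 0 < f s) (s : Bool) : 0 < Pk θ f s := by
  unfold Pk
  have := hf s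
  have := hf (!s)
  have : 0 ≤ (1 - θ) * f (!s) := mul_nonneg (by linarith) (by linarith)
  have : 0 < (1 + θ) * f s := mul_pos (by linarith) (by linarith)
  linarith

lemma av_pos (hf : ∀ s, 0 < f s) : 0 < av f := by
  unfold av; linarith [hf true, hf false]

lemma eq_av_mg (hf : ∀ s, 0 < f s) (s : Bool) : f s = av f * (1 + sg s * mg f) := by
  have := hf true; have := hf false
  unfold av mg sg
  cases s <;> simp <;> field_simp <;> ring

lemma Pk_eq (hf : ∀ s, 0 < f s) (s : Bool) : Pk θ f s = av f * (1 + sg s * (θ * mg f)) := by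
  have := hf true; have := hf false
  unfold Pk av mg sg
  cases s <;> simp <;> field_simp <;> ring

lemma abs_mg_lt (hf : ∀ s, 0 < f s) : |mg f| < 1 := by
  have := hf true; have := hf false
  unfold mg
  rw [abs_lt, lt_div_iff₀ (by linarith), div_lt_iff₀ (by linarith)]
  constructor <;> linarith

lemma mg_sq_lt (hf : ∀ s, 0 < f s) : mg f ^ 2 < 1 := by
  have := abs_mg_lt hf
  rw [← sq_abs]; nlinarith [abs_nonneg (mg f)]

lemma mul_eq (hf : ∀ s, 0 < f s) : f true * f false = av f ^ 2 * (1 - mg f ^ 2) := by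
  rw [eq_av_mg hf true, eq_av_mg hf false]; simp [sg]; ring

lemma Pk_mul (hf : ∀ s, 0 < f s) :
    Pk θ f true * Pk θ f false = av f ^ 2 * (1 - θ ^ 2 * mg f ^ 2) := by
  rw [Pk_eq hf, Pk_eq hf]; simp [sg]; ring

lemma den_pos (h0 : 0 ≤ θ) (h1 : θ ≤ 1) {γ : ℝ} (hγ : γ ^ 2 < 1) : 0 < 1 - θ ^ 2 * γ ^ 2 := by
  have : θ ^ 2 ≤ 1 := by nlinarith
  nlinarith [sq_nonneg γ]

lemma ph_pos (h0 : 0 ≤ θ) (h1 : θ ≤ 1) {γ : ℝ} (hγ : γ ^ 2 < 1) : 0 < ph θ γ :=
  div_pos (by linarith) (den_pos h0 h1 hγ)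

lemma ph_le (h0 : 0 ≤ θ) (h1 : θ ≤ 1) {γ : ℝ} (hγ : γ ^ 2 < 1) : ph θ γ ≤ 1 := by
  unfold ph
  rw [div_le_one (den_pos h0 h1 hγ)]
  have : θ ^ 2 ≤ 1 := by nlinarith
  nlinarith [sq_nonneg γ]

lemma ph_eq (h0 : 0 ≤ θ) (h1 : θ ≤ 1) (hf : ∀ s, 0 < f s) :
    Pk θ f true * Pk θ f false * ph θ (mg f) = f true * f false := by
  have := den_pos h0 h1 (mg_sq_lt hf)
  rw [Pk_mul hf, mul_eq hf]
  unfold ph
  field_simp

lemma abs_mg_le {R : ℝ} (hf : ∀ s, 0 < f s) (hR : ∀ s, f s ≤ R * f (!s)) :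
    |mg f| ≤ 1 - 2 / (1 + R) := by
  have a := hf true; have b := hf false
  have c := hR true; have d := hR false
  simp only [Bool.not_true, Bool.not_false] at c d
  have hR0 : 0 < R := by
    by_contra h
    have : R * f false ≤ 0 := mul_nonpos_of_nonpos_of_nonneg (not_lt.1 h) b.le
    linarith
  have e : 1 - 2 / (1 + R) = (R - 1) / (1 + R) := by field_simp; ring
  unfold mg
  rw [e, abs_le, ← neg_div, div_le_div_iff₀ (by linarith) (by linarith),
    div_le_div_iff₀ (by linarith) (by linarith)]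
  constructor <;> nlinarith

lemma Pk_ratio (h0 : 0 ≤ θ) (h1 : θ ≤ 3 / 4) (hf : ∀ s, 0 < f s) (s : Bool) :
    Pk θ f s ≤ 7 * Pk θ f (!s) := by
  have a := hf s; have b := hf (!s)
  unfold Pk
  rw [Bool.not_not]
  nlinarith

/-- The determinant of two weight pairs. -/
def dt (f g : Bool → ℝ) : ℝ := g true * f false - g false * f true

lemma dt_Pk (θ : ℝ) (f g : Bool → ℝ) : dt (Pk θ f) (Pk θ g) = θ * dt f g := by
  unfold dt Pk; simp; ring

lemma mg_sub {g : Bool → ℝ} (hf : ∀ s, 0 < f s) (hg : ∀ s, 0 < g s) :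
    mg g - mg f = dt f g / (2 * av f * av g) := by
  have := hf true; have := hf false; have := hg true; have := hg false
  unfold mg av dt
  field_simp
  ring

end Alg

variable {V : Type*} [DecidableEq V] (G : SimpleGraph V) [G.LocallyFinite]

/-- Truncated partition functions. -/
noncomputable def Y (θ : ℝ) (w : V → Bool → ℝ) : ℕ → V → V → Bool → ℝ
  | 0, _, _, _ => 1
  | n + 1, p, u, s => w u s * ∏ c ∈ ch G p u, Pk θ (Y θ w n u c) s

/-- Partition function of the half tree with prescribed spin at its root. -/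
noncomputable def B (θ : ℝ) (w : V → Bool → ℝ) (p u : V) (s : Bool) : ℝ :=
  limUnder atTop fun n => Y G θ w n p u s

/-- Covariance along a path. -/
noncomputable def Sig (θ : ℝ) (w : V → Bool → ℝ) (z : ℕ → V) (k : ℕ) : ℝ :=
  (1 - mg (B G θ w (z 0) (z 0)) ^ 2) *
    ∏ j ∈ Finset.range k, θ * ph θ (mg (B G θ w (z j) (z (j + 1))))

/-- Product weight along a path. -/
noncomputable def PW (θ : ℝ) (w : V → Bool → ℝ) (z : ℕ → V) (k : ℕ) : ℝ :=
  ∏ j ∈ Finset.range k, √(ph θ (mg (B G θ w (z j) (z (j + 1)))))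

variable {G}

/-- Weights supported in a finite set. -/
def Supp (w : V → Bool → ℝ) (Λ : Finset V) : Prop := ∀ v ∉ Λ, w v = fun _ => 1

/-- Admissible weights. -/
def Adm (M : ℝ) (w : V → Bool → ℝ) : Prop := ∀ v s, M⁻¹ ≤ w v s ∧ w v s ≤ M

/-- Regular trees with branching number `b`. -/
structure Reg (G : SimpleGraph V) [G.LocallyFinite] (b : ℕ) : Prop where
  tree : G.IsTree
  card : ∀ p u, G.Adj p u → (ch G p u).card = b
  root : ∀ u, (ch G u u).card ≤ 2 * b
  two : 2 ≤ b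

lemma Reg.card_le {b : ℕ} (h : Reg G b) {p u : V} (hp : Ok G p u) : (ch G p u).card ≤ 2 * b := by
  rcases hp with rfl | hp
  · exact h.root _
  · rw [h.card p u hp]; omega

omit [DecidableEq V] in
lemma Supp.mono {w : V → Bool → ℝ} {Λ Λ' : Finset V} (h : Supp w Λ) (h' : Λ ⊆ Λ') : Supp w Λ' :=
  fun v hv => h v fun h1 => hv (h' h1)

omit [DecidableEq V] in
lemma Adm.pos {M : ℝ} {w : V → Bool → ℝ} (h : Adm M w) (hM : 1 ≤ M) (v : V) (s : Bool) :
    0 < w v s := lt_of_lt_of_le (inv_pos.2 (by linarith)) (h v s).1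

variable {θ : ℝ} {w w' : V → Bool → ℝ} {Λ : Finset V}

lemma B_map (g : G ≃g G) (θ : ℝ) (w : V → Bool → ℝ) (p u : V) :
    B G θ (fun v => w (g v)) p u = B G θ w (g p) (g u) := by
  have key : ∀ n p u, Y G θ (fun v => w (g v)) n p u = Y G θ w n (g p) (g u) := by
    intro n
    induction n with
    | zero => intro p u; rfl
    | succ n ih =>
      intro p u
      funext s
      simp only [Y, ch_map, Finset.prod_map, ih]
      rfl
  funext s
  simp only [B, key]

lemma B_flip (θ : ℝ) (w : V → Bool → ℝ) (p u : V) (s : Bool) :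
    B G θ (fun v s => w v (!s)) p u s = B G θ w p u (!s) := by
  have key : ∀ n p u s, Y G θ (fun v s => w v (!s)) n p u s = Y G θ w n p u (!s) := by
    intro n
    induction n with
    | zero => intro p u s; rfl
    | succ n ih =>
      intro p u s
      simp only [Y, Pk, ih]
  simp only [B, key]

lemma Y_bound {b : ℕ} (hG : Reg G b) {M : ℝ} (hM : 1 ≤ M) (n : ℕ) : ∃ C : ℝ, 1 ≤ C ∧
    ∀ θ, 0 ≤ θ → θ ≤ 1 → ∀ w, Adm M w → ∀ p u, Ok G p u → ∀ s,
      C⁻¹ ≤ Y G θ w n p u s ∧ Y G θ w n p u s ≤ C := by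
  induction n with
  | zero => exact ⟨1, le_rfl, fun _ _ _ _ _ _ _ _ _ => by simp [Y]⟩
  | succ n ih =>
    obtain ⟨C, hC, h⟩ := ih
    have hC0 : 0 < C⁻¹ := inv_pos.2 (by linarith)
    refine ⟨M * C ^ (2 * b), one_le_mul_of_one_le_of_one_le hM (one_le_pow₀ hC), ?_⟩
    intro θ h0 h1 w hw p u hp s
    have hk : ∀ c ∈ ch G p u, C⁻¹ ≤ Pk θ (Y G θ w n u c) s ∧ Pk θ (Y G θ w n u c) s ≤ C := by
      intro c hc
      have a := h θ h0 h1 w hw u c (ok_of_ch hc) s
      have a' := h θ h0 h1 w hw u c (ok_of_ch hc) (!s)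
      unfold Pk
      constructor <;> nlinarith [a.1, a.2, a'.1, a'.2]
    have l1 : C⁻¹ ^ (2 * b) ≤ ∏ c ∈ ch G p u, Pk θ (Y G θ w n u c) s := by
      calc C⁻¹ ^ (2 * b) ≤ C⁻¹ ^ (ch G p u).card :=
            pow_le_pow_of_le_one hC0.le (inv_le_one_of_one_le₀ hC) (hG.card_le hp)
        _ = ∏ _c ∈ ch G p u, C⁻¹ := by rw [Finset.prod_const]
        _ ≤ _ := Finset.prod_le_prod (fun _ _ => hC0.le) fun c hc => (hk c hc).1
    have l2 : ∏ c ∈ ch G p u, Pk θ (Y G θ w n u c) s ≤ C ^ (2 * b) := by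
      calc _ ≤ ∏ _c ∈ ch G p u, C :=
            Finset.prod_le_prod (fun c hc => hC0.le.trans (hk c hc).1) fun c hc => (hk c hc).2
        _ = C ^ (ch G p u).card := by rw [Finset.prod_const]
        _ ≤ _ := pow_le_pow_right₀ hC (hG.card_le hp)
    have hw0 := hw.pos hM u s
    simp only [Y]
    constructor
    · rw [mul_inv, ← inv_pow]
      exact mul_le_mul (hw u s).1 l1 (by positivity) hw0.le
    · exact mul_le_mul (hw u s).2 l2 ((by positivity : (0 : ℝ) ≤ C⁻¹ ^ (2 * b)).trans l1)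
        (by linarith)

section T
variable (hT : G.IsTree)
include hT

lemma Y_congr (n : ℕ) : ∀ p u, Ok G p u → (∀ x ∈ H G p u, w x = w' x) →
    Y G θ w n p u = Y G θ w' n p u := by
  induction n with
  | zero => intro p u _ _; rfl
  | succ n ih =>
    intro p u hp h
    funext s
    simp only [Y]
    rw [h u (mem_H_self _ _)]
    congr 1
    exact Finset.prod_congr rfl fun c hc => by
      rw [ih u c (ok_of_ch hc) fun x hx => h x (H_sub hT hp hc hx)]

lemma B_congr {p u : V} (hp : Ok G p u) (h : ∀ x ∈ H G p u, w x = w' x) :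
    B G θ w p u = B G θ w' p u := by
  funext s
  simp only [B, fun n => Y_congr (θ := θ) hT n p u hp h]

omit hT in
lemma Y_const (n : ℕ) : ∀ p u, Y G θ (fun _ _ => 1) n p u = fun _ => 1 := by
  induction n with
  | zero => intro p u; rfl
  | succ n ih => intro p u; funext s; simp [Y, ih, Pk_one]

lemma Y_stab (hw : Supp w Λ) (n : ℕ) : ∀ p u, Ok G p u → (∀ x ∈ Λ, x ∈ H G p u → G.dist x u < n) →
    ∀ m, n ≤ m → Y G θ w m p u = Y G θ w n p u := by
  induction n with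
  | zero =>
    intro p u hp h m _
    rw [Y_congr hT m p u hp (w' := fun _ _ => 1) fun x hx =>
      hw x fun hx' => absurd (h x hx' hx) (by omega), Y_const]
    rfl
  | succ n ih =>
    intro p u hp h m hm
    obtain ⟨m, rfl⟩ : ∃ k, m = k + 1 := ⟨m - 1, by omega⟩
    funext s
    simp only [Y]
    congr 1
    refine Finset.prod_congr rfl fun c hc => ?_
    rw [ih u c (ok_of_ch hc) (fun x hx1 hx2 => ?_) m (by omega)]
    have := h x hx1 (H_sub hT hp hc hx2)
    have := dist_ch hT hc hx2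
    omega

lemma B_eq_Y (hw : Supp w Λ) {p u : V} (hp : Ok G p u) {n : ℕ}
    (h : ∀ x ∈ Λ, x ∈ H G p u → G.dist x u < n) : B G θ w p u = Y G θ w n p u := by
  funext s
  refine Tendsto.limUnder_eq (tendsto_const_nhds.congr' ?_)
  filter_upwards [eventually_ge_atTop n] with m hm
  rw [Y_stab hT hw n p u hp h m hm]

omit [DecidableEq V] [G.LocallyFinite] hT in
lemma lt_sup (Λ : Finset V) (u : V) :
    ∀ x ∈ Λ, G.dist x u < Λ.sup (fun x => G.dist x u) + 1 := fun _ hx =>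
  Nat.lt_succ_of_le (Finset.le_sup (f := fun x => G.dist x u) hx)

lemma B_rec (hw : Supp w Λ) {p u : V} (hp : Ok G p u) (s : Bool) :
    B G θ w p u s = w u s * ∏ c ∈ ch G p u, Pk θ (B G θ w u c) s := by
  set n := Λ.sup (fun x => G.dist x u) + 1
  rw [B_eq_Y hT hw hp (n := n + 1) fun x hx _ => (lt_sup Λ u x hx).trans (by omega)]
  simp only [Y]
  congr 1
  refine Finset.prod_congr rfl fun c hc => ?_
  rw [B_eq_Y hT hw (ok_of_ch hc) (n := n) fun x hx hx' => ?_]
  have := lt_sup (G := G) Λ u x hx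
  have := dist_ch hT hc hx'
  omega

lemma B_one (hw : Supp w Λ) {p u : V} (hp : Ok G p u) (h : ∀ x ∈ Λ, x ∉ H G p u) :
    B G θ w p u = fun _ => 1 := by
  rw [B_eq_Y hT hw hp (n := 0) fun x hx hx' => absurd hx' (h x hx)]
  rfl

lemma B_pos (h0 : 0 ≤ θ) (h1 : θ ≤ 1) (hw : Supp w Λ) (hp : ∀ v s, 0 < w v s) {p u : V}
    (h : Ok G p u) : ∀ s, 0 < B G θ w p u s := by
  refine half_induction hT Λ (P := fun p u => ∀ s, 0 < B G θ w p u s) (fun p u h hx s => ?_)
    (fun p u h ih s => ?_) h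
  · rw [B_one hT hw h hx]; norm_num
  · rw [B_rec hT hw h]
    exact mul_pos (hp u s) (Finset.prod_pos fun c hc => Pk_pos h0 h1 (ih c hc) s)

omit hT in
lemma ch_root {p u : V} (h : G.Adj p u) : ch G u u = insert p (ch G p u) := by
  ext c
  simp only [mem_ch, Finset.mem_insert]
  constructor
  · rintro ⟨_, h2⟩
    by_cases hc : c = p
    · exact Or.inl hc
    · exact Or.inr ⟨hc, h2⟩
  · rintro (rfl | ⟨_, h2⟩)
    · exact ⟨h.ne, h.symm⟩
    · exact ⟨h2.ne', h2⟩

lemma B_split (hw : Supp w Λ) {p u : V} (h : G.Adj p u) (s : Bool) :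
    B G θ w u u s = B G θ w p u s * Pk θ (B G θ w u p) s := by
  rw [B_rec hT hw (ok_self u), B_rec hT hw (Or.inr h), ch_root h,
    Finset.prod_insert (by simp [mem_ch])]
  ring

lemma Z_adj (hw : Supp w Λ) {p u : V} (h : G.Adj p u) :
    av (B G θ w u u) = av (B G θ w p p) := by
  unfold av
  simp only [B_split hT hw h, B_split hT hw h.symm, Pk, Bool.not_true, Bool.not_false]
  ring

lemma Z_eq (hw : Supp w Λ) (u v : V) : av (B G θ w u u) = av (B G θ w v v) := by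
  obtain ⟨p⟩ := hT.connected u v
  induction p with
  | nil => rfl
  | cons h _ ih => rw [← ih, Z_adj hT hw h]

lemma B_bound {b : ℕ} (hG : Reg G b) {M : ℝ} (hM : 1 ≤ M) (Λ : Finset V) {p u : V}
    (hp : Ok G p u) : ∃ C : ℝ, 1 ≤ C ∧ ∀ θ, 0 ≤ θ → θ ≤ 1 → ∀ w, Adm M w → Supp w Λ → ∀ s,
      C⁻¹ ≤ B G θ w p u s ∧ B G θ w p u s ≤ C := by
  obtain ⟨C, hC, h⟩ := Y_bound hG hM (Λ.sup (fun x => G.dist x u) + 1)
  refine ⟨C, hC, fun θ h0 h1 w hw hs s => ?_⟩
  rw [B_eq_Y hT hs hp fun x hx _ => lt_sup Λ u x hx]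
  exact h θ h0 h1 w hw p u hp s

omit hT in
lemma abs_mg_B {b : ℕ} (hG : Reg G b) {M : ℝ} (hM : 1 ≤ M) (h0 : 0 ≤ θ) (h1 : θ ≤ 3 / 4)
    (hw : Supp w Λ) (ha : Adm M w) {p u : V} (hp : Ok G p u) :
    |mg (B G θ w p u)| ≤ 1 - 2 / (1 + M ^ 2 * 7 ^ (2 * b)) := by
  have h1' : θ ≤ 1 := by linarith
  refine abs_mg_le (B_pos hG.tree h0 h1' hw (ha.pos hM) hp) fun s => ?_
  rw [B_rec hG.tree hw hp, B_rec hG.tree hw hp]
  have hk := fun c (hc : c ∈ ch G p u) => B_pos hG.tree h0 h1' hw (ha.pos hM) (ok_of_ch hc)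
  have l : ∏ c ∈ ch G p u, Pk θ (B G θ w u c) s ≤
      7 ^ (2 * b) * ∏ c ∈ ch G p u, Pk θ (B G θ w u c) (!s) := by
    calc _ ≤ ∏ c ∈ ch G p u, 7 * Pk θ (B G θ w u c) (!s) :=
          Finset.prod_le_prod (fun c hc => (Pk_pos h0 h1' (hk c hc) s).le)
            fun c hc => Pk_ratio h0 h1 (hk c hc) s
      _ = 7 ^ (ch G p u).card * ∏ c ∈ ch G p u, Pk θ (B G θ w u c) (!s) := by
          rw [Finset.prod_mul_distrib, Finset.prod_const]
      _ ≤ _ := mul_le_mul_of_nonneg_right (pow_le_pow_right₀ (by norm_num) (hG.card_le hp))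
          (Finset.prod_nonneg fun c hc => (Pk_pos h0 h1' (hk c hc) _).le)
  have l2 : w u s ≤ M ^ 2 * w u (!s) := by
    have a := (ha u s).2
    have a' := (ha u (!s)).1
    have : M ^ 2 * M⁻¹ = M := by field_simp
    nlinarith [mul_le_mul_of_nonneg_left a' (sq_nonneg M)]
  calc _ ≤ (M ^ 2 * w u (!s)) * (7 ^ (2 * b) * ∏ c ∈ ch G p u, Pk θ (B G θ w u c) (!s)) :=
        mul_le_mul l2 l (Finset.prod_nonneg fun c hc => (Pk_pos h0 h1' (hk c hc) _).le)
          (mul_nonneg (sq_nonneg _) (ha.pos hM _ _).le)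
    _ = _ := by ring

/-! ### Updating one weight -/

variable {v : V} {f : Bool → ℝ}

lemma B_upd_root (hw : Supp w Λ) (hw' : Supp w' Λ) (hv : ∀ s, w' v s = w v s * f s)
    (ho : ∀ x, x ≠ v → w' x = w x) {p : V} (hp : Ok G p v) (s : Bool) :
    B G θ w' p v s = B G θ w p v s * f s := by
  rw [B_rec hT hw hp, B_rec hT hw' hp, hv]
  have : ∀ c ∈ ch G p v, Pk θ (B G θ w' v c) s = Pk θ (B G θ w v c) s := by
    intro c hc
    rw [B_congr hT (ok_of_ch hc) fun x hx => ho x ?_]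
    rintro rfl
    exact not_mem_H_tail hT (adj_of_ch hc) hx
  rw [Finset.prod_congr rfl this]
  ring

lemma Z_upd (h0 : 0 ≤ θ) (h1 : θ ≤ 1) (hw : Supp w Λ) (hw' : Supp w' Λ) (hpos : ∀ v s, 0 < w v s)
    (hv : ∀ s, w' v s = w v s * f s) (ho : ∀ x, x ≠ v → w' x = w x) (a : V) :
    av (B G θ w' a a) = av (B G θ w a a) *
      (av f + (f true - f false) / 2 * mg (B G θ w v v)) := by
  rw [Z_eq hT hw a v, Z_eq hT hw' a v]
  have hB := B_pos hT h0 h1 hw hpos (ok_self v)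
  have e := B_upd_root (θ := θ) hT hw hw' hv ho (ok_self v)
  have a1 := eq_av_mg hB true
  have a2 := eq_av_mg hB false
  set A := av (B G θ w v v)
  unfold av
  rw [e, e, a1, a2]
  simp only [sg, if_true, Bool.false_eq_true, if_false]
  ring

lemma dt_path (h0 : 0 ≤ θ) (h1 : θ ≤ 1) (hw : Supp w Λ) (hw' : Supp w' Λ)
    (hpos : ∀ v s, 0 < w v s) (hv : ∀ s, w' v s = w v s * f s) (ho : ∀ x, x ≠ v → w' x = w x)
    (k : ℕ) : ∀ (p : V) (z : ℕ → V), Ok G p (z 0) → NB G z k → z k = v → (1 ≤ k → z 1 ≠ p) →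
      dt (B G θ w p (z 0)) (B G θ w' p (z 0)) = B G θ w p (z 0) true * B G θ w p (z 0) false *
        (f true - f false) * ∏ j ∈ Finset.range k, θ * ph θ (mg (B G θ w (z j) (z (j + 1)))) := by
  induction k with
  | zero =>
    intro p z hp _ hz _
    rw [hz] at hp ⊢
    unfold dt
    rw [B_upd_root hT hw hw' hv ho hp, B_upd_root hT hw hw' hv ho hp]
    simp; ring
  | succ k ih =>
    intro p z hp hz hk h1p
    have hadj := hz.1 0 (by omega)
    have hc : z 1 ∈ ch G p (z 0) := mem_ch.2 ⟨h1p (by omega), hadj⟩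
    have hvH : v ∈ H G (z 0) (z 1) := by
      rw [← hk]
      exact (hz.H_sub hT (Nat.zero_le k) (by omega) (mem_H_self _ _)).1
    have hne : z 0 ≠ v := by
      rintro h
      rw [← h] at hvH
      exact not_mem_H_tail hT hadj hvH
    have IH := ih (z 0) (fun i => z (1 + i)) (Or.inr hadj) (hz.shift 1 k (by omega))
      (by rw [add_comm]; exact hk) (fun hk1 => hz.2 0 (by omega))
    simp only [add_zero] at IH
    set C : Bool → ℝ := fun s => w (z 0) s * ∏ c ∈ (ch G p (z 0)).erase (z 1),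
      Pk θ (B G θ w (z 0) c) s with hC
    have e1 : ∀ s, B G θ w p (z 0) s = C s * Pk θ (B G θ w (z 0) (z 1)) s := by
      intro s
      rw [B_rec hT hw hp, ← Finset.mul_prod_erase _ _ hc]
      simp only [hC]; ring
    have e2 : ∀ s, B G θ w' p (z 0) s = C s * Pk θ (B G θ w' (z 0) (z 1)) s := by
      intro s
      rw [B_rec hT hw' hp, ← Finset.mul_prod_erase _ _ hc, ho _ hne]
      have : ∀ c ∈ (ch G p (z 0)).erase (z 1),
          Pk θ (B G θ w' (z 0) c) s = Pk θ (B G θ w (z 0) c) s := by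
        intro c hc'
        have hc'' := Finset.mem_of_mem_erase hc'
        rw [B_congr hT (ok_of_ch hc'') fun x hx => ho x ?_]
        rintro rfl
        exact Finset.ne_of_mem_erase hc' (step_unique hT (adj_of_ch hc'') hadj hx hvH)
      rw [Finset.prod_congr rfl this]
      simp only [hC]; ring
    have e3 := dt_Pk θ (B G θ w (z 0) (z 1)) (B G θ w' (z 0) (z 1))
    have e4 := ph_eq h0 h1 (B_pos hT h0 h1 hw hpos (p := z 0) (u := z 1) (Or.inr hadj))
    have e5 : dt (B G θ w p (z 0)) (B G θ w' p (z 0)) = C true * C false *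
        dt (Pk θ (B G θ w (z 0) (z 1))) (Pk θ (B G θ w' (z 0) (z 1))) := by
      unfold dt; rw [e1, e1, e2, e2]; ring
    rw [e5, e3, IH, Finset.prod_range_succ', e1, e1, ← e4]
    simp only [add_comm 1, zero_add, add_assoc]
    ring

/-- The jump of a posterior mean. -/
lemma m_upd (h0 : 0 ≤ θ) (h1 : θ ≤ 1) (hw : Supp w Λ) (hw' : Supp w' Λ)
    (hpos : ∀ v s, 0 < w v s) (hf : ∀ s, 0 < f s) (hv : ∀ s, w' v s = w v s * f s)
    (ho : ∀ x, x ≠ v → w' x = w x) {z : ℕ → V} {k : ℕ} (hz : NB G z k) (hk : z k = v) :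
    mg (B G θ w' (z 0) (z 0)) - mg (B G θ w (z 0) (z 0)) = Sig G θ w z k *
      ((f true - f false) / 2 / (av f + (f true - f false) / 2 * mg (B G θ w v v))) := by
  have hpos' : ∀ x s, 0 < w' x s := by
    intro x s
    by_cases hx : x = v
    · rw [hx, hv]; exact mul_pos (hpos _ _) (hf _)
    · rw [ho x hx]; exact hpos _ _
  have hB := B_pos hT h0 h1 hw hpos (ok_self (z 0))
  have hB' := B_pos hT h0 h1 hw' hpos' (ok_self (z 0))
  have hZ := Z_upd hT h0 h1 hw hw' hpos hv ho (z 0)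
  have hA := av_pos hB
  have hA' := av_pos hB'
  have hD : 0 < av f + (f true - f false) / 2 * mg (B G θ w v v) := by
    rw [hZ] at hA'
    exact (mul_pos_iff_of_pos_left hA).1 hA'
  rw [mg_sub hB hB', dt_path hT h0 h1 hw hw' hpos hv ho k (z 0) z (ok_self _) hz hk
    (fun h => (hz.1 0 h).ne'), mul_eq hB, hZ]
  unfold Sig
  field_simp

/-! ### Edge algebra -/

lemma m_edge (h0 : 0 ≤ θ) (h1 : θ ≤ 1) (hw : Supp w Λ) (hpos : ∀ v s, 0 < w v s) {p u : V}
    (h : G.Adj p u) : mg (B G θ w u u) * (1 + θ * mg (B G θ w p u) * mg (B G θ w u p)) =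
      mg (B G θ w p u) + θ * mg (B G θ w u p) := by
  have a := B_pos hT h0 h1 hw hpos (p := p) (u := u) (Or.inr h)
  have a' := B_pos hT h0 h1 hw hpos (p := u) (u := p) (Or.inr h.symm)
  have hB := B_pos hT h0 h1 hw hpos (ok_self u)
  have e1 := B_split (θ := θ) hT hw h true
  have e2 := B_split (θ := θ) hT hw h false
  rw [eq_av_mg a, Pk_eq a'] at e1 e2
  have p1 := av_pos a
  have p2 := av_pos a'
  have b1 := hB true
  have b2 := hB false
  set γ := mg (B G θ w p u)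
  set γ' := mg (B G θ w u p)
  simp only [sg, if_true, Bool.false_eq_true, if_false] at e1 e2
  unfold mg
  rw [div_mul_eq_mul_div, div_eq_iff (by linarith), e1, e2]
  ring

lemma cov_edge (h0 : 0 ≤ θ) (h1 : θ ≤ 1) (hw : Supp w Λ) (hpos : ∀ v s, 0 < w v s) {p u : V}
    (h : G.Adj p u) : (1 - mg (B G θ w p p) ^ 2) * ph θ (mg (B G θ w p u)) =
      (1 - mg (B G θ w u u) ^ 2) * ph θ (mg (B G θ w u p)) := by
  have key : ∀ {p u : V}, G.Adj p u → av (B G θ w p p) ^ 2 * ((1 - mg (B G θ w p p) ^ 2) *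
      ph θ (mg (B G θ w p u))) = B G θ w p u true * B G θ w p u false *
        (B G θ w u p true * B G θ w u p false) := by
    intro p u h
    have a := B_pos hT h0 h1 hw hpos (p := p) (u := u) (Or.inr h)
    have hB := B_pos hT h0 h1 hw hpos (ok_self p)
    rw [← mul_assoc, ← mul_eq hB, B_split hT hw h.symm, B_split hT hw h.symm, ← ph_eq h0 h1 a]
    ring
  have e1 := key h
  have e2 := key h.symm
  rw [Z_adj hT hw h] at e2
  have := av_pos (B_pos hT h0 h1 hw hpos (ok_self p))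
  apply mul_left_cancel₀ (pow_ne_zero 2 this.ne')
  rw [e1, e2]; ring

lemma Sig_split (h0 : 0 ≤ θ) (h1 : θ ≤ 1) (hw : Supp w Λ) (hpos : ∀ v s, 0 < w v s)
    {z : ℕ → V} {k : ℕ} (hz : NB G z k) {j : ℕ} (hj : j ≤ k) :
    Sig G θ w z j = θ ^ j * (1 - mg (B G θ w (z j) (z j)) ^ 2) *
      ∏ i ∈ Finset.range j, ph θ (mg (B G θ w (z (i + 1)) (z i))) := by
  induction j with
  | zero => simp [Sig]
  | succ j ih =>
    have e := cov_edge hT h0 h1 hw hpos (hz.1 j (by omega))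
    have : Sig G θ w z (j + 1) = Sig G θ w z j * (θ * ph θ (mg (B G θ w (z j) (z (j + 1))))) := by
      unfold Sig; rw [Finset.prod_range_succ]; ring
    rw [this, ih (by omega), Finset.prod_range_succ]
    linear_combination (θ ^ (j + 1) * ∏ i ∈ Finset.range j,
      ph θ (mg (B G θ w (z (i + 1)) (z i)))) * e

lemma ph_B (h0 : 0 ≤ θ) (h1 : θ ≤ 1) (hw : Supp w Λ) (hpos : ∀ v s, 0 < w v s) {p u : V}
    (h : Ok G p u) : 0 < ph θ (mg (B G θ w p u)) ∧ ph θ (mg (B G θ w p u)) ≤ 1 :=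
  ⟨ph_pos h0 h1 (mg_sq_lt (B_pos hT h0 h1 hw hpos h)),
    ph_le h0 h1 (mg_sq_lt (B_pos hT h0 h1 hw hpos h))⟩

omit hT in
lemma prod_le_sqrt {a : ℕ → ℝ} {n k : ℕ} (hn : n ≤ k) (h : ∀ i < k, 0 < a i ∧ a i ≤ 1) :
    ∏ i ∈ Finset.range k, a i ≤ ∏ i ∈ Finset.range n, √(a i) := by
  calc ∏ i ∈ Finset.range k, a i ≤ ∏ i ∈ Finset.range n, a i :=
        Finset.prod_le_prod_of_subset_of_le_one (Finset.range_mono hn)
          (fun i hi => (h i (Finset.mem_range.1 hi)).1.le)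
          fun i hi _ => (h i (Finset.mem_range.1 hi)).2
    _ ≤ _ := Finset.prod_le_prod (fun i hi => (h i (by simp at hi; omega)).1.le) fun i hi => by
        have := h i (by simp at hi; omega)
        exact Real.le_sqrt_of_sq_le (by nlinarith [this.1, this.2])

lemma Sig_nonneg (h0 : 0 ≤ θ) (h1 : θ ≤ 1) (hw : Supp w Λ) (hpos : ∀ v s, 0 < w v s)
    {z : ℕ → V} {k : ℕ} (hz : NB G z k) : 0 ≤ Sig G θ w z k :=
  mul_nonneg (by linarith [mg_sq_lt (B_pos hT h0 h1 hw hpos (ok_self (z 0)))])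
    (Finset.prod_nonneg fun j hj => mul_nonneg h0
      (ph_B hT h0 h1 hw hpos (Or.inr (hz.1 j (Finset.mem_range.1 hj)))).1.le)

lemma Sig_le_fwd (h0 : 0 ≤ θ) (h1 : θ ≤ 1) (hw : Supp w Λ) (hpos : ∀ v s, 0 < w v s)
    {z : ℕ → V} {k : ℕ} (hz : NB G z k) {j n : ℕ} (hj : j + n ≤ k) :
    Sig G θ w z k ≤ θ ^ k * PW G θ w (fun i => z (j + i)) n := by
  have hp := fun i (hi : i < k) => ph_B hT h0 h1 hw hpos (Or.inr (hz.1 i hi))
  unfold Sig PW
  rw [Finset.prod_mul_distrib, Finset.prod_const, Finset.card_range]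
  obtain ⟨l, rfl⟩ : ∃ l, k = j + l := ⟨k - j, by omega⟩
  rw [Finset.prod_range_add]
  have a1 : ∏ i ∈ Finset.range j, ph θ (mg (B G θ w (z i) (z (i + 1)))) ≤ 1 :=
    Finset.prod_le_one (fun i hi => (hp i (by simp at hi; omega)).1.le)
      fun i hi => (hp i (by simp at hi; omega)).2
  have a2 := prod_le_sqrt (a := fun i => ph θ (mg (B G θ w (z (j + i)) (z (j + i + 1)))))
    (n := n) (k := l) (by omega) fun i hi => hp (j + i) (by omega)
  have a3 : 0 ≤ ∏ i ∈ Finset.range l, ph θ (mg (B G θ w (z (j + i)) (z (j + i + 1)))) :=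
    Finset.prod_nonneg fun i hi => (hp (j + i) (by simp at hi; omega)).1.le
  have a4 : 0 ≤ ∏ i ∈ Finset.range j, ph θ (mg (B G θ w (z i) (z (i + 1)))) :=
    Finset.prod_nonneg fun i hi => (hp i (by simp at hi; omega)).1.le
  have a5 := sq_nonneg (mg (B G θ w (z 0) (z 0)))
  have a6 : 0 ≤ θ ^ (j + l) := by positivity
  have a8 := mul_le_mul a1 a2 a3 zero_le_one
  have a9 := mul_le_mul_of_nonneg_left a8 a6
  have a10 := mul_nonneg a6 (mul_nonneg a4 a3)
  have a11 := mul_le_mul (show 1 - mg (B G θ w (z 0) (z 0)) ^ 2 ≤ 1 by linarith) a9 a10 zero_le_one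
  simpa only [one_mul, add_assoc] using a11

lemma Sig_le_bwd (h0 : 0 ≤ θ) (h1 : θ ≤ 1) (hw : Supp w Λ) (hpos : ∀ v s, 0 < w v s)
    {z : ℕ → V} {k : ℕ} (hz : NB G z k) {j n : ℕ} (hj : j ≤ k) (hn : n ≤ j) :
    Sig G θ w z k ≤ θ ^ k * PW G θ w (fun i => z (j - i)) n := by
  have hp := fun i (hi : i < k) => ph_B hT h0 h1 hw hpos (Or.inr (hz.1 i hi))
  have hq := fun i (hi : i < k) => ph_B hT h0 h1 hw hpos (Or.inr (hz.1 i hi).symm)
  obtain ⟨l, rfl⟩ : ∃ l, k = j + l := ⟨k - j, by omega⟩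
  have e : Sig G θ w z (j + l) = Sig G θ w z j * (θ ^ l *
      ∏ i ∈ Finset.range l, ph θ (mg (B G θ w (z (j + i)) (z (j + i + 1))))) := by
    unfold Sig
    rw [Finset.prod_range_add, Finset.prod_mul_distrib (s := Finset.range l), Finset.prod_const,
      Finset.card_range]
    ring
  rw [e, Sig_split hT h0 h1 hw hpos hz hj,
    ← Finset.prod_range_reflect (fun i => ph θ (mg (B G θ w (z (i + 1)) (z i)))) j]
  have a1 : ∏ i ∈ Finset.range l, ph θ (mg (B G θ w (z (j + i)) (z (j + i + 1)))) ≤ 1 :=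
    Finset.prod_le_one (fun i hi => (hp (j + i) (by simp at hi; omega)).1.le)
      fun i hi => (hp (j + i) (by simp at hi; omega)).2
  have a3 : 0 ≤ ∏ i ∈ Finset.range l, ph θ (mg (B G θ w (z (j + i)) (z (j + i + 1)))) :=
    Finset.prod_nonneg fun i hi => (hp (j + i) (by simp at hi; omega)).1.le
  have a2 := prod_le_sqrt (a := fun i => ph θ (mg (B G θ w (z (j - 1 - i + 1)) (z (j - 1 - i)))))
    (n := n) (k := j) hn fun i hi => hq (j - 1 - i) (by omega)
  have a4 : 0 ≤ ∏ i ∈ Finset.range j, ph θ (mg (B G θ w (z (j - 1 - i + 1)) (z (j - 1 - i)))) :=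
    Finset.prod_nonneg fun i hi => (hq (j - 1 - i) (by simp at hi; omega)).1.le
  have a5 := sq_nonneg (mg (B G θ w (z j) (z j)))
  have a7 := mg_sq_lt (B_pos hT h0 h1 hw hpos (ok_self (z j)))
  have e2 : PW G θ w (fun i => z (j - i)) n = ∏ i ∈ Finset.range n,
      √(ph θ (mg (B G θ w (z (j - 1 - i + 1)) (z (j - 1 - i))))) := by
    unfold PW
    refine Finset.prod_congr rfl fun i hi => ?_
    have hi' := Finset.mem_range.1 hi
    rw [show j - 1 - i + 1 = j - i by omega, show j - 1 - i = j - (i + 1) by omega]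
  rw [e2]
  have t1 : 0 ≤ θ ^ j := by positivity
  have t2 : 0 ≤ θ ^ l := by positivity
  have b1 := mul_le_mul_of_nonneg_left
    (show 1 - mg (B G θ w (z j) (z j)) ^ 2 ≤ 1 by linarith) t1
  have b2 := mul_le_mul b1 a2 a4 (by positivity)
  have b3 := mul_le_mul b2 (mul_le_mul_of_nonneg_left a1 t2) (mul_nonneg t2 a3)
    (mul_nonneg (by positivity) (a4.trans a2))
  refine b3.trans (le_of_eq ?_)
  ring

end T

attribute [irreducible] B

end Crest.Agent.Ising
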