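import Crest.Agent.Ising.RW

/-!
The sequential revelation dynamics in finite volume: definition, causality, exact law and
orthogonality of the jumps.
-/

set_option maxHeartbeats 400000

open MeasureTheory Set Filter Topology SimpleGraph
open Crest.Agent.FIID

namespace Crest.Agent.Ising

variable {V : Type*}

/-- The mark `c` precedes the time `(r, σ)`. -/
def bft (T : ℕ × V → ℝ) (c : ℕ × V) (r : ℕ) (σ : ℝ) : Prop := c.1 < r ∨ (c.1 = r ∧ T c < σ)

/-- Weights built from the observations preceding `(r, σ)`. -/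
noncomputable def wt (T y : ℕ × V → ℝ) (r : ℕ) (σ : ℝ) (v : V) (s : Bool) : ℝ :=
  ∏ r' ∈ Finset.range (r + 1),
    if r' < r ∨ T (r', v) < σ then fac (T (r', v)) (y (r', v)) s else 1

lemma bft_trans {T : ℕ × V → ℝ} {c c' : ℕ × V} {r : ℕ} {σ : ℝ} (h1 : bft T c' c.1 (T c))
    (h2 : bft T c r σ) : bft T c' r σ := by
  rcases h1 with h1 | ⟨h1, h1'⟩ <;> rcases h2 with h2 | ⟨h2, h2'⟩
  · left; omega
  · left; omega
  · left; omega
  · right; exact ⟨by omega, h1'.trans h2'⟩

lemma not_bft_self (T : ℕ × V → ℝ) (c : ℕ × V) : ¬ bft T c c.1 (T c) := by simp [bft]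

lemma bft_iff {T : ℕ × V → ℝ} {r r' : ℕ} {σ : ℝ} {v : V} (h : r' < r + 1) :
    (r' < r ∨ T (r', v) < σ) ↔ bft T (r', v) r σ := by
  unfold bft
  constructor
  · rintro (h1 | h1)
    · exact Or.inl h1
    · by_cases h2 : r' < r
      · exact Or.inl h2
      · exact Or.inr ⟨by simp only; omega, h1⟩
  · rintro (h1 | h1)
    · exact Or.inl h1
    · exact Or.inr h1.2

lemma wt_congr {T T' y y' : ℕ × V → ℝ} {r : ℕ} {σ σ' : ℝ} {v : V}
    (h : ∀ r', (bft T (r', v) r σ ↔ bft T' (r', v) r σ') ∧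
      (bft T (r', v) r σ → T (r', v) = T' (r', v) ∧ y (r', v) = y' (r', v))) :
    wt T y r σ v = wt T' y' r σ' v := by
  funext s
  refine Finset.prod_congr rfl fun r' hr => ?_
  have hr' := Finset.mem_range.1 hr
  by_cases hb : bft T (r', v) r σ
  · rw [if_pos ((bft_iff hr').2 hb), if_pos ((bft_iff hr').2 ((h r').1.1 hb)),
      ((h r').2 hb).1, ((h r').2 hb).2]
  · rw [if_neg fun h' => hb ((bft_iff hr').1 h'),
      if_neg fun h' => hb ((h r').1.2 ((bft_iff hr').1 h'))]

lemma prod_adm {ι : Type*} (s : Finset ι) {f : ι → ℝ} (h : ∀ i ∈ s, (2 : ℝ)⁻¹ ≤ f i ∧ f i ≤ 2)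
    {n : ℕ} (hn : s.card ≤ n) : ((2 : ℝ) ^ n)⁻¹ ≤ ∏ i ∈ s, f i ∧ ∏ i ∈ s, f i ≤ 2 ^ n := by
  constructor
  · calc ((2 : ℝ) ^ n)⁻¹ = 2⁻¹ ^ n := (inv_pow _ _).symm
      _ ≤ 2⁻¹ ^ s.card := pow_le_pow_of_le_one (by norm_num) (by norm_num) hn
      _ = ∏ _i ∈ s, (2 : ℝ)⁻¹ := by rw [Finset.prod_const]
      _ ≤ _ := Finset.prod_le_prod (fun _ _ => by norm_num) fun i hi => (h i hi).1
  · calc ∏ i ∈ s, f i ≤ ∏ _i ∈ s, (2 : ℝ) :=
          Finset.prod_le_prod (fun i hi => le_trans (by norm_num) (h i hi).1) fun i hi => (h i hi).2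
      _ = 2 ^ s.card := by rw [Finset.prod_const]
      _ ≤ _ := pow_le_pow_right₀ (by norm_num) hn

lemma wt_adm (T y : ℕ × V → ℝ) (r : ℕ) (σ : ℝ) : Adm (2 ^ (r + 1)) (wt T y r σ) := by
  intro v s
  refine prod_adm _ (fun i _ => ?_) (by simp)
  split_ifs
  · exact fac_bound _ _ _
  · norm_num

lemma measurable_fac {Θ : Type*} [MeasurableSpace Θ] {T y : Θ → ℝ} (hT : Measurable T)
    (hy : Measurable y) (s : Bool) : Measurable fun x => fac (T x) (y x) s := by
  unfold fac; fun_prop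

lemma measurable_wt' {Θ : Type*} [MeasurableSpace Θ] {T y : Θ → ℕ × V → ℝ} {σ : Θ → ℝ}
    (hT : ∀ c, Measurable fun x => T x c) (hy : ∀ c, Measurable fun x => y x c)
    (hσ : Measurable σ) (r : ℕ) (v : V) (s : Bool) :
    Measurable fun x => wt (T x) (y x) r (σ x) v s := by
  refine Finset.measurable_prod _ fun r' _ => ?_
  exact Measurable.ite ((MeasurableSet.const _).union (measurableSet_lt (hT _) hσ))
    (measurable_fac (hT _) (hy _) s) measurable_const

lemma wt_round (T y : ℕ × V → ℝ) (r : ℕ) : wt T y (r + 1) 0 = wt T y r (1 / 2) := by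
  funext v s
  unfold wt
  rw [Finset.prod_range_succ _ (r + 1)]
  have e : (if r + 1 < r + 1 ∨ T (r + 1, v) < 0 then fac (T (r + 1, v)) (y (r + 1, v)) s else 1)
      = 1 := by
    split_ifs with h
    · have : T (r + 1, v) < 0 := by simpa using h
      simp [fac, kap, not_le.2 this]
    · rfl
  rw [e, mul_one]
  refine Finset.prod_congr rfl fun r' hr => ?_
  rw [if_pos (Or.inl (Finset.mem_range.1 hr))]
  split_ifs with h
  · rfl
  · have : ¬ T (r', v) < 1 / 2 := fun h' => h (Or.inr h')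
    simp only [fac, kap, this, and_false, if_false]
    ring

lemma wt_start (T y : ℕ × V → ℝ) : wt T y 0 0 = fun _ _ => 1 := by
  funext v s
  unfold wt
  simp only [zero_add, Finset.range_one, Finset.prod_singleton, lt_irrefl, false_or]
  split_ifs with h
  · simp [fac, kap, not_le.2 h]
  · rfl

variable [DecidableEq V]

lemma rw_wt {Θ : Type*} [MeasurableSpace Θ] {T y : Θ → ℕ × V → ℝ} {σ : Θ → ℝ}
    (hT : ∀ c, Measurable fun x => T x c) (hy : ∀ c, Measurable fun x => y x c)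
    (hσ : Measurable σ) (Λ : Finset V) (r : ℕ) :
    RW Λ (2 ^ (r + 1)) fun x => res Λ (wt (T x) (y x) r (σ x)) :=
  ⟨one_le_pow₀ (by norm_num), measurable_res (measurable_wt' hT hy hσ r) Λ,
    fun _ => res_supp _ _, fun _ => (wt_adm _ _ _ _).res (one_le_pow₀ (by norm_num)) Λ⟩

/-- Weights built from a finite set of marks. -/
noncomputable def wD (T y : ℕ × V → ℝ) (D : Finset (ℕ × V)) (v : V) (s : Bool) : ℝ :=
  ∏ c ∈ D with c.2 = v, fac (T c) (y c) s

lemma wD_eq_wt {T y : ℕ × V → ℝ} {D : Finset (ℕ × V)} {r : ℕ} {σ : ℝ} {v : V}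
    (h : ∀ r', (r', v) ∈ D ↔ bft T (r', v) r σ) : wD T y D v = wt T y r σ v := by
  funext s
  unfold wD wt
  rw [← Finset.prod_filter]
  refine Finset.prod_nbij' (fun c => c.1) (fun r' => (r', v)) ?_ ?_ ?_ ?_ ?_
  · rintro ⟨r', v'⟩ hc
    simp only [Finset.mem_filter, Finset.mem_range] at hc ⊢
    obtain ⟨h1, rfl⟩ := hc
    have := (h r').1 h1
    have h2 : r' < r + 1 := by rcases this with h | h <;> simp only at h <;> omega
    exact ⟨h2, (bft_iff h2).2 this⟩
  · intro r' hr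
    simp only [Finset.mem_filter, Finset.mem_range] at hr ⊢
    exact ⟨(h r').2 ((bft_iff hr.1).1 hr.2), trivial⟩
  · rintro ⟨r', v'⟩ hc
    simp only [Finset.mem_filter] at hc
    simp [← hc.2]
  · intro r' _; rfl
  · rintro ⟨r', v'⟩ hc
    simp only [Finset.mem_filter] at hc
    obtain ⟨_, rfl⟩ := hc
    rfl

lemma wD_congr {T y y' : ℕ × V → ℝ} {D : Finset (ℕ × V)} {v : V}
    (h : ∀ c ∈ D, c.2 = v → cl (y c) = cl (y' c)) : wD T y D v = wD T y' D v := by
  funext s
  refine Finset.prod_congr rfl fun c hc => ?_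
  rw [Finset.mem_filter] at hc
  unfold fac
  rw [h c hc.1 hc.2]

lemma rw_wD {Θ : Type*} [MeasurableSpace Θ] (T : ℕ × V → ℝ) {y : Θ → ℕ × V → ℝ}
    (hy : ∀ c, Measurable fun x => y x c) (Λ : Finset V) (D : Finset (ℕ × V)) :
    RW Λ (2 ^ D.card) fun x => res Λ (wD T (y x) D) := by
  refine ⟨one_le_pow₀ (by norm_num), measurable_res (fun v s => ?_) Λ, fun _ => res_supp _ _,
    fun x => Adm.res (one_le_pow₀ (by norm_num)) (fun v s => ?_) Λ⟩
  · exact Finset.measurable_prod _ fun c _ => measurable_fac measurable_const (hy c) s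
  · exact prod_adm _ (fun c _ => fac_bound _ _ _) (Finset.card_filter_le _ _)

lemma wD_insert {T y : ℕ × V → ℝ} {D : Finset (ℕ × V)} {a : ℕ × V} (ha : a ∉ D) (Λ : Finset V) :
    (a.2 ∈ Λ → ∀ s, res Λ (wD T y (insert a D)) a.2 s = res Λ (wD T y D) a.2 s * fac (T a) (y a) s)
      ∧ ∀ x, (x ≠ a.2 ∨ a.2 ∉ Λ) → res Λ (wD T y (insert a D)) x = res Λ (wD T y D) x := by
  constructor
  · intro h s
    rw [res_of_mem h, res_of_mem h]
    unfold wD
    rw [Finset.filter_insert, if_pos rfl, Finset.prod_insert (by simp [ha]), mul_comm]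
  · intro x hx
    unfold res
    split_ifs with h
    · funext s
      unfold wD
      rw [Finset.filter_insert, if_neg]
      rintro rfl
      exact hx.elim (fun h => h rfl) fun h' => h' h
    · rfl

variable (G : SimpleGraph V) [G.LocallyFinite]

/-- Iteration towards the observations. -/
noncomputable def iter (θ : ℝ) (Λ : Finset V) (T U : ℕ × V → ℝ) : ℕ → ℕ × V → ℝ
  | 0 => fun _ => 0
  | j + 1 => fun c =>
      Gf (kap (T c) * mm G θ (res Λ (wt T (iter θ Λ T U j) c.1 (T c))) c.2) (cl (U c))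

/-- The observations. -/
noncomputable def xs (θ : ℝ) (Λ : Finset V) (T U : ℕ × V → ℝ) (c : ℕ × V) : ℝ :=
  iter G θ Λ T U (Λ.card * (c.1 + 1) + 1) c

/-- The state at time `(r, σ)`. -/
noncomputable def st (θ : ℝ) (Λ : Finset V) (T U : ℕ × V → ℝ) (r : ℕ) (σ : ℝ) : V → Bool → ℝ :=
  res Λ (wt T (xs G θ Λ T U) r σ)

/-- The jump of the posterior mean at `a` caused by the mark `c`. -/
noncomputable def jump (θ : ℝ) (Λ : Finset V) (T U : ℕ × V → ℝ) (a : V) (c : ℕ × V) : ℝ :=
  if c.2 ∈ Λ then SG G θ (st G θ Λ T U c.1 (T c)) a c.2 *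
    psi (kap (T c)) (mm G θ (st G θ Λ T U c.1 (T c)) c.2) (U c) else 0

variable {G} {θ θ' : ℝ} {Λ Λ' : Finset V}

lemma xs_fix (T U : ℕ × V → ℝ) (c : ℕ × V) :
    xs G θ Λ T U c = Gf (kap (T c) * mm G θ (st G θ Λ T U c.1 (T c)) c.2) (cl (U c)) := by
  classical
  set rk : ℕ × V → ℕ := fun c =>
    ((Finset.range (c.1 + 1) ×ˢ Λ).filter fun c' => bft T c' c.1 (T c)).card with hrk
  have rk_le : ∀ c, rk c ≤ Λ.card * (c.1 + 1) := fun c =>
    (Finset.card_filter_le _ _).trans (by simp [mul_comm])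
  have rk_lt : ∀ c c', c'.2 ∈ Λ → bft T c' c.1 (T c) → rk c' < rk c := by
    intro c c' h1 h2
    have h3 : c'.1 < c.1 + 1 := by rcases h2 with h | h <;> omega
    refine Finset.card_lt_card ⟨fun x hx => ?_, fun h => ?_⟩
    · simp only [Finset.mem_filter, Finset.mem_product, Finset.mem_range] at hx ⊢
      exact ⟨⟨by omega, hx.1.2⟩, bft_trans hx.2 h2⟩
    · have := h (Finset.mem_filter.2 ⟨Finset.mem_product.2 ⟨Finset.mem_range.2 h3, h1⟩, h2⟩)
      exact not_bft_self T c' (Finset.mem_filter.1 this).2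
  have stab : ∀ n c, rk c < n → ∀ j j', n ≤ j → n ≤ j' →
      iter G θ Λ T U j c = iter G θ Λ T U j' c := by
    intro n
    induction n with
    | zero => intro c h; omega
    | succ n ih =>
      intro c h j j' hj hj'
      obtain ⟨j, rfl⟩ : ∃ k, j = k + 1 := ⟨j - 1, by omega⟩
      obtain ⟨j', rfl⟩ : ∃ k, j' = k + 1 := ⟨j' - 1, by omega⟩
      simp only [iter]
      rw [res_congr fun v hv => wt_congr (T' := T) (σ' := T c) fun r' => ⟨Iff.rfl, fun hb =>
        ⟨rfl, ih _ (by have := rk_lt c (r', v) hv hb; omega) j j' (by omega) (by omega)⟩⟩]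
  unfold st
  conv_lhs => rw [xs]
  simp only [iter]
  rw [res_congr fun v hv => wt_congr (T' := T) (σ' := T c) (y' := xs G θ Λ T U) fun r' =>
    ⟨Iff.rfl, fun hb => ⟨rfl, stab (rk (r', v) + 1) _ (by omega) _ _ ?_ ?_⟩⟩]
  · have := rk_lt c (r', v) hv hb
    have := rk_le c
    omega
  · have := rk_le (r', v)
    omega

/-- Causality. -/
lemma xs_causal {T T' U U' : ℕ × V → ℝ} {P : ℕ × V → Prop}
    (h1 : ∀ c, c.2 ∈ Λ → P c → T c = T' c ∧ U c = U' c)
    (h2 : ∀ c c', c.2 ∈ Λ → c'.2 ∈ Λ → P c →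
      (bft T c' c.1 (T c) → P c') ∧ (bft T' c' c.1 (T' c) → P c'))
    (c : ℕ × V) (hc : c.2 ∈ Λ) (hP : P c) : xs G θ Λ T U c = xs G θ Λ T' U' c := by
  have key : ∀ j c, c.2 ∈ Λ → P c → iter G θ Λ T U j c = iter G θ Λ T' U' j c := by
    intro j
    induction j with
    | zero => intro c _ _; rfl
    | succ j ih =>
      intro c hc hP
      simp only [iter]
      have e := h1 c hc hP
      rw [res_congr fun v hv => wt_congr (T' := T') (σ' := T' c) (y' := iter G θ Λ T' U' j)
        fun r' => ⟨⟨fun hb => ?_, fun hb => ?_⟩, fun hb => ?_⟩, e.1, e.2]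
      · have := h1 _ hv ((h2 c (r', v) hc hv hP).1 hb)
        unfold bft at hb ⊢
        rwa [← this.1, ← e.1]
      · have := h1 _ hv ((h2 c (r', v) hc hv hP).2 hb)
        unfold bft at hb ⊢
        rwa [this.1, e.1]
      · have h3 := (h2 c (r', v) hc hv hP).1 hb
        exact ⟨(h1 _ hv h3).1, ih _ hv h3⟩
  exact key _ c hc hP

lemma st_causal {T T' U U' : ℕ × V → ℝ} {r : ℕ} {σ : ℝ}
    (h : ∀ c, c.2 ∈ Λ → (bft T c r σ ↔ bft T' c r σ) ∧ (bft T c r σ → T c = T' c ∧ U c = U' c)) :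
    st G θ Λ T U r σ = st G θ Λ T' U' r σ := by
  refine res_congr fun v hv => wt_congr fun r' => ⟨(h _ hv).1, fun hb =>
    ⟨((h _ hv).2 hb).1, xs_causal (P := fun c => bft T c r σ) (fun c hc => (h c hc).2)
      (fun c c' hc hc' hP => ⟨fun hb => bft_trans hb hP, fun hb => ?_⟩) _ hv hb⟩⟩
  exact (h c' hc').1.2 (bft_trans hb ((h c hc).1.1 hP))

lemma st_map (g : G ≃g G) (T U : ℕ × V → ℝ) (r : ℕ) (σ : ℝ) :
    st G θ Λ (fun c => T (c.1, g c.2)) (fun c => U (c.1, g c.2)) r σ =
      fun v => st G θ (Λ.map g.toEquiv.toEmbedding) T U r σ (g v) := by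
  have hres : ∀ w : V → Bool → ℝ, res Λ (fun v => w (g v)) =
      fun v => res (Λ.map g.toEquiv.toEmbedding) w (g v) := by
    intro w
    funext v
    have : g v ∈ Λ.map g.toEquiv.toEmbedding ↔ v ∈ Λ := Finset.mem_map' _
    simp only [res, this]
  have key : ∀ j, iter G θ Λ (fun c => T (c.1, g c.2)) (fun c => U (c.1, g c.2)) j =
      fun c => iter G θ (Λ.map g.toEquiv.toEmbedding) T U j (c.1, g c.2) := by
    intro j
    induction j with
    | zero => rfl
    | succ j ih =>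
      funext c
      simp only [iter, ih, mm]
      rw [← B_map g, ← hres]
      rfl
  have k2 : xs G θ Λ (fun c => T (c.1, g c.2)) (fun c => U (c.1, g c.2)) =
      fun c => xs G θ (Λ.map g.toEquiv.toEmbedding) T U (c.1, g c.2) := by
    funext c
    simp only [xs, key, Finset.card_map]
  unfold st
  rw [k2, ← hres]
  rfl

section Meas
variable {Θ : Type*} [MeasurableSpace Θ] {T U : Θ → ℕ × V → ℝ}

lemma measurable_xs (hT : G.IsTree) (h1 : ∀ c, Measurable fun x => T x c)
    (h2 : ∀ c, Measurable fun x => U x c) (c : ℕ × V) :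
    Measurable fun x => xs G θ Λ (T x) (U x) c := by
  have key : ∀ j c, Measurable fun x => iter G θ Λ (T x) (U x) j c := by
    intro j
    induction j with
    | zero => intro c; exact measurable_const
    | succ j ih =>
      intro c
      simp only [iter]
      have hw := rw_wt h1 ih (h1 c) Λ c.1
      have a := measurable_B hT θ hw.meas hw.supp (ok_self c.2) true
      have a' := measurable_B hT θ hw.meas hw.supp (ok_self c.2) false
      exact measurable_Gf ((measurable_kap.comp (h1 c)).mul ((a.sub a').div (a.add a')))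
        (measurable_cl.comp (h2 c))
  exact key _ c

attribute [irreducible] xs

lemma rw_st (hT : G.IsTree) (h1 : ∀ c, Measurable fun x => T x c)
    (h2 : ∀ c, Measurable fun x => U x c) {σ : Θ → ℝ} (hσ : Measurable σ) (r : ℕ) :
    RW Λ (2 ^ (r + 1)) fun x => st G θ Λ (T x) (U x) r (σ x) :=
  rw_wt h1 (measurable_xs hT h1 h2) hσ Λ r

lemma bd_jump {b : ℕ} (hG : Reg G b) (h0 : 0 ≤ θ) (h3 : θ ≤ 3 / 4)
    (h1 : ∀ c, Measurable fun x => T x c) (h2 : ∀ c, Measurable fun x => U x c) (a : V)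
    (c : ℕ × V) : Bd fun x => jump G θ Λ (T x) (U x) a c := by
  unfold jump
  split_ifs
  · have hw := rw_st (θ := θ) (Λ := Λ) hG.tree h1 h2 (h1 c) c.1
    refine (hw.bd_Sig hG h0 h3 (geo_spec hG.tree a c.2).2.2).mul ⟨?_, 2, fun x => ?_⟩
    · have a1 := (hw.bd_mg hG h0 h3 (ok_self c.2)).meas
      have a2 := h1 c
      have a3 := h2 c
      unfold psi mm
      fun_prop
    · exact (abs_psi (kap_nonneg _) (kap_le _) (hw.abs_mg_one hG h0 h3 (ok_self c.2) x) _).trans
        (by linarith [kap_le (T x c)])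
  · exact Bd.const 0

end Meas

/-- Initial segments of marks. -/
def DC (Λ : Finset V) (T : ℕ × V → ℝ) (D : Finset (ℕ × V)) : Prop :=
  (∀ a ∈ D, a.2 ∈ Λ) ∧ ∀ a ∈ D, ∀ c : ℕ × V, c.2 ∈ Λ → bft T c a.1 (T a) → c ∈ D

omit [DecidableEq V] in
lemma bft_of_le {T : ℕ × V → ℝ} (hT : Function.Injective T) {a c : ℕ × V} (hne : c ≠ a)
    (h : toLex (c.1, T c) ≤ toLex (a.1, T a)) : bft T c a.1 (T a) := by
  rw [Prod.Lex.toLex_le_toLex] at h
  rcases h with h | ⟨h, h'⟩
  · exact Or.inl h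
  · exact Or.inr ⟨h, lt_of_le_of_ne h' fun e => hne (hT e)⟩

lemma DC_step {T : ℕ × V → ℝ} (hT : Function.Injective T) {D : Finset (ℕ × V)} {a : ℕ × V}
    (ha : a ∉ D) (hmax : ∀ c ∈ D, toLex (c.1, T c) ≤ toLex (a.1, T a))
    (h : DC Λ T (insert a D)) :
    DC Λ T D ∧ a.2 ∈ Λ ∧ ∀ c : ℕ × V, c.2 ∈ Λ → (c ∈ D ↔ bft T c a.1 (T a)) := by
  have key : ∀ c ∈ D, bft T c a.1 (T a) := fun c hc =>
    bft_of_le hT (by rintro rfl; exact ha hc) (hmax c hc)
  refine ⟨⟨fun c hc => h.1 c (by simp [hc]), fun c hc c' h1 h2 => ?_⟩, h.1 a (by simp),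
    fun c hc => ⟨key c, fun hb => ?_⟩⟩
  · rcases Finset.mem_insert.1 (h.2 c (by simp [hc]) c' h1 h2) with rfl | h3
    · exact absurd (bft_trans h2 (key c hc)) (not_bft_self T _)
    · exact h3
  · rcases Finset.mem_insert.1 (h.2 a (by simp) c hc hb) with rfl | h3
    · exact absurd hb (not_bft_self T _)
    · exact h3

open Classical in
/-- The marks preceding a time. -/
noncomputable def Dt (Λ : Finset V) (T : ℕ × V → ℝ) (r : ℕ) (σ : ℝ) : Finset (ℕ × V) :=
  (Finset.range (r + 1) ×ˢ Λ).filter fun c => bft T c r σ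

omit [DecidableEq V] in
lemma mem_Dt {T : ℕ × V → ℝ} {r : ℕ} {σ : ℝ} {c : ℕ × V} :
    c ∈ Dt Λ T r σ ↔ c.2 ∈ Λ ∧ bft T c r σ := by
  simp only [Dt, Finset.mem_filter, Finset.mem_product, Finset.mem_range]
  constructor
  · exact fun h => ⟨h.1.2, h.2⟩
  · rintro ⟨h1, h2⟩
    exact ⟨⟨by rcases h2 with h | h <;> omega, h1⟩, h2⟩

omit [DecidableEq V] in
lemma DC_Dt (T : ℕ × V → ℝ) (r : ℕ) (σ : ℝ) : DC Λ T (Dt Λ T r σ) :=
  ⟨fun _ h => (mem_Dt.1 h).1, fun _ h _ h1 h2 => mem_Dt.2 ⟨h1, bft_trans h2 (mem_Dt.1 h).2⟩⟩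

lemma res_wD {L : Finset V} (hL : Λ ⊆ L) {T y : ℕ × V → ℝ} {D : Finset (ℕ × V)} {r : ℕ} {σ : ℝ}
    (h : ∀ c : ℕ × V, c.2 ∈ L → (c ∈ D ↔ bft T c r σ)) :
    res Λ (wD T y D) = res Λ (wt T y r σ) :=
  res_congr fun _ hv => wD_eq_wt fun _ => h _ (hL hv)

lemma xs_dep {L : Finset V} (hL : Λ ⊆ L) {T : ℕ × V → ℝ} {D : Finset (ℕ × V)} (hD : DC L T D)
    {U U' : ℕ × V → ℝ} (h : ∀ c ∈ D, U c = U' c) {c : ℕ × V} (hc : c.2 ∈ Λ) (hcD : c ∈ D) :
    xs G θ Λ T U c = xs G θ Λ T U' c :=
  xs_causal (P := fun c => c ∈ D) (fun c _ hc => ⟨rfl, h c hc⟩)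
    (fun c c' _ hc' hP => ⟨hD.2 c hP c' (hL hc'), hD.2 c hP c' (hL hc')⟩) c hc hcD

lemma wD_dep {L : Finset V} (hL : Λ ⊆ L) {T : ℕ × V → ℝ} {D : Finset (ℕ × V)} (hD : DC L T D)
    {U U' : ℕ × V → ℝ} (h : ∀ c ∈ D, U c = U' c) :
    res Λ (wD T (xs G θ Λ T U) D) = res Λ (wD T (xs G θ Λ T U') D) :=
  res_congr fun v hv => wD_congr fun c hc e => by
    rw [xs_dep hL hD h (by rw [e]; exact hv) hc]

section Main
variable {b : ℕ} (hG : Reg G b) (h0 : 0 ≤ θ) (h3 : θ ≤ 3 / 4)
include hG h0 h3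

lemma abs_xs (T U : ℕ × V → ℝ) (c : ℕ × V) : |xs G θ Λ T U c| ≤ 1 := by
  rw [xs_fix]
  have hw := rw_st (θ := θ) (Λ := Λ) (Θ := Unit) (T := fun _ => T) (U := fun _ => U) hG.tree
    (fun _ => measurable_const) (fun _ => measurable_const) (σ := fun _ => T c)
    measurable_const c.1
  exact (Gf_spec ((abs_kap_mul _ (hw.abs_mg_one hG h0 h3 (ok_self c.2) ())).trans (by norm_num))
    (abs_cl_le _)).1

lemma exact_D (o : V) {T : ℕ × V → ℝ} (hT : Function.Injective T) (D : Finset (ℕ × V)) :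
    DC Λ T D → ∀ F : (ℕ × V → ℝ) → ℝ, Bd F → DependsOn F (D : Set (ℕ × V)) →
      ∫ U, F (xs G θ Λ T U) ∂PI (ℕ × V) =
        ∫ U, av (B G θ (res Λ (wD T U D)) o o) * F (fun c => cl (U c)) ∂PI (ℕ × V) := by
  have hx : Measurable fun U => xs G θ Λ T U := measurable_pi_iff.2 fun c =>
    measurable_xs (T := fun _ => T) (U := fun U => U) hG.tree (fun _ => measurable_const)
      (fun c => measurable_pi_apply c) c
  have hcl : Measurable fun (U : ℕ × V → ℝ) c => cl (U c) := by fun_prop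
  induction D using Finset.induction_on_max_value (fun a : ℕ × V => toLex (a.1, T a)) with
  | empty =>
    intro _ F _ dF
    have e : ∀ U, res Λ (wD T U ∅) = fun _ _ => 1 := by
      intro U; funext v s; unfold res; split_ifs <;> simp [wD]
    have e2 : ∀ y, F y = F 0 := fun y => dF (by simp)
    simp_rw [e, e2]
    rw [B_one hG.tree (Λ := ∅) (fun _ _ => rfl) (ok_self o) (by simp)]
    simp [av]
  | insert a D ha hmax ih =>
    intro hD F hF dF
    obtain ⟨hD', haΛ, hbf⟩ := DC_step hT ha hmax hD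
    have hw := rw_wD (Θ := ℕ × V → ℝ) T (y := fun U => U) (fun c => measurable_pi_apply c) Λ D
    have hw' := rw_wD (Θ := ℕ × V → ℝ) T (y := fun U => U) (fun c => measurable_pi_apply c) Λ (insert a D)
    have hm := hw.bd_mg hG h0 h3 (ok_self a.2)
    set F' : (ℕ × V → ℝ) → ℝ := fun y => ∫ t, (1 + kap (T a) * mm G θ (res Λ (wD T y D)) a.2 *
      cl t) * F (Function.update y a (cl t)) ∂unif with hF'
    have hu : Measurable fun p : (ℕ × V → ℝ) × ℝ => Function.update p.1 a (cl p.2) :=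
      measurable_update'.comp (measurable_fst.prodMk (measurable_cl.comp measurable_snd))
    have bF' : Bd F' := Bd.integral (f := fun p : (ℕ × V → ℝ) × ℝ =>
      (1 + kap (T a) * mm G θ (res Λ (wD T p.1 D)) a.2 * cl p.2) *
        F (Function.update p.1 a (cl p.2)))
      (((Bd.const 1).add (((hm.comp measurable_fst).cmul _).mul (bd_cl.comp measurable_snd))).mul
        (hF.comp hu)) _
    have dF' : DependsOn F' (D : Set (ℕ × V)) := by
      intro y y' h
      simp only [hF']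
      rw [res_congr (w' := wD T y' D) fun v _ => wD_congr fun c hc _ => by rw [h c hc]]
      congr 1; ext t; congr 1
      refine dF fun c hc => ?_
      rcases Finset.mem_insert.1 hc with rfl | hc'
      · simp
      · rw [Function.update_of_ne (by rintro rfl; exact ha hc'),
          Function.update_of_ne (by rintro rfl; exact ha hc'), h c hc']
    have hup : ∀ (U : ℕ × V → ℝ) t, ∀ c ∈ D, Function.update U a t c = U c := fun U t c hc =>
      Function.update_of_ne (by rintro rfl; exact ha hc) _ _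
    have L : ∫ U, F (xs G θ Λ T U) ∂PI (ℕ × V) = ∫ U, F' (xs G θ Λ T U) ∂PI (ℕ × V) := by
      rw [integral_update a (hF.comp hx)]
      congr 1; ext U
      simp only [hF', mm]
      rw [← pit (abs_kap_mul _ (hw.abs_mg_one hG h0 h3 (ok_self a.2) _))
        (fun t => F (Function.update (xs G θ Λ T U) a t))]
      congr 1; ext t
      refine dF fun c hc => ?_
      rcases Finset.mem_insert.1 hc with rfl | hc'
      · rw [Function.update_self, xs_fix, Function.update_self]
        unfold st mm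
        rw [← res_wD subset_rfl hbf, wD_dep subset_rfl hD' (hup U t)]
      · rw [Function.update_of_ne (by rintro rfl; exact ha hc')]
        exact xs_dep subset_rfl hD' (hup U t) (hD'.1 c hc') hc'
    rw [L, ih hD' F' bF' dF',
      integral_update a ((hw'.bd_av hG h0 h3 (ok_self o)).mul (hF.comp hcl))]
    congr 1; ext U
    simp only [hF']
    rw [← integral_const_mul]
    congr 1; ext t
    have e1 : res Λ (wD T (Function.update U a t) D) = res Λ (wD T U D) :=
      res_congr fun v _ => wD_congr fun c hc _ => by rw [hup U t c hc]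
    have e2 : res Λ (wD T (fun c => cl (U c)) D) = res Λ (wD T U D) :=
      res_congr fun v _ => wD_congr fun c _ _ => cl_cl _
    have hi := wD_insert (T := T) (y := Function.update U a t) ha Λ
    rw [Z_upd hG.tree h0 (by linarith) (res_supp _ _) (res_supp _ _)
      (hw.pos (Function.update U a t)) (hi.1 haΛ) (fun x hx => hi.2 x (Or.inl hx)) o, e1, e2]
    have e3 : (fun c => cl (Function.update U a t c)) =
        Function.update (fun c => cl (U c)) a (cl t) := by
      funext c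
      by_cases hc : c = a
      · subst hc; simp
      · simp [Function.update_of_ne hc]
    rw [e3]
    simp only [Function.update_self, fac, av, sg, mm, if_true, Bool.false_eq_true, if_false]
    ring

lemma mm_step {L : Finset V} (hL : Λ ⊆ L) {T : ℕ × V → ℝ} {D : Finset (ℕ × V)} {c : ℕ × V}
    (hc : c ∉ D) (hbf : ∀ c' : ℕ × V, c'.2 ∈ L → (c' ∈ D ↔ bft T c' c.1 (T c))) (U : ℕ × V → ℝ)
    (a : V) : mm G θ (res Λ (wD T (xs G θ Λ T U) (insert c D))) a =
      mm G θ (res Λ (wD T (xs G θ Λ T U) D)) a + jump G θ Λ T U a c := by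
  have hi := wD_insert (T := T) (y := xs G θ Λ T U) hc Λ
  unfold jump
  split_ifs with h
  · have hw := rw_wD (Θ := ℕ × V → ℝ) T (y := fun U => U) (fun c => measurable_pi_apply c) Λ D
    obtain ⟨g0, g1, g2⟩ := geo_spec hG.tree a c.2
    have := m_upd hG.tree h0 (by linarith) (res_supp _ _) (res_supp _ _)
      (hw.pos (xs G θ Λ T U)) (fun s => lt_of_lt_of_le (by norm_num) (fac_bound _ _ s).1)
      (hi.1 h) (fun x hx => hi.2 x (Or.inl hx)) g2 g1
    rw [g0] at this
    unfold mm SG psi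
    rw [← sub_eq_iff_eq_add', this, res_wD hL hbf]
    have e := xs_fix (G := G) (θ := θ) (Λ := Λ) T U c
    unfold mm at e
    rw [← e]
    unfold st
    simp only [fac, av, sg, if_true, Bool.false_eq_true, if_false,
      cl_of_abs_le (abs_xs hG h0 h3 T U c)]
    congr 2 <;> ring
  · rw [add_zero, show res Λ (wD T (xs G θ Λ T U) (insert c D)) = res Λ (wD T (xs G θ Λ T U) D)
      from funext fun x => hi.2 x (Or.inr h)]

lemma jump_mean (T U : ℕ × V → ℝ) (a : V) (c : ℕ × V) :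
    ∫ t, jump G θ Λ T (Function.update U c t) a c ∂unif = 0 := by
  unfold jump
  split_ifs with h
  · have e : ∀ t, st G θ Λ T (Function.update U c t) c.1 (T c) = st G θ Λ T U c.1 (T c) :=
      fun t => st_causal fun c' _ => ⟨Iff.rfl, fun hb => ⟨rfl, Function.update_of_ne
        (by rintro rfl; exact not_bft_self T _ hb) _ _⟩⟩
    simp only [e, Function.update_self]
    have hw := rw_st (θ := θ) (Λ := Λ) (Θ := Unit) (T := fun _ => T) (U := fun _ => U) hG.tree
      (fun _ => measurable_const) (fun _ => measurable_const) (σ := fun _ => T c)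
      measurable_const c.1
    unfold mm
    rw [integral_const_mul, integral_psi (kap_nonneg _) (kap_le _)
      (hw.abs_mg_one hG h0 h3 (ok_self c.2) ()), mul_zero]
  · simp

lemma bd_mmD (T : ℕ × V → ℝ) (D : Finset (ℕ × V)) (a : V) :
    Bd fun U => mm G θ (res Λ (wD T (xs G θ Λ T U) D)) a :=
  (rw_wD T (y := fun U => xs G θ Λ T U) (measurable_xs (T := fun _ => T) (U := fun U => U)
    hG.tree (fun _ => measurable_const) fun c => measurable_pi_apply c)
    Λ D).bd_mg hG h0 h3 (ok_self a)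

lemma orth_D (h0' : 0 ≤ θ') (h3' : θ' ≤ 3 / 4) {L : Finset V} (hL : Λ ⊆ L) (hL' : Λ' ⊆ L) (a : V)
    {T : ℕ × V → ℝ} (hT : Function.Injective T) {D₁ : Finset (ℕ × V)} (hD₁ : DC L T D₁)
    {g : (ℕ × V → ℝ) → ℝ} (hg : Bd g) (dg : DependsOn g (D₁ : Set (ℕ × V)))
    (D : Finset (ℕ × V)) : DC L T D → D₁ ⊆ D →
      ∫ U, (mm G θ (res Λ (wD T (xs G θ Λ T U) D)) a -
        mm G θ' (res Λ' (wD T (xs G θ' Λ' T U) D)) a - g U) ^ 2 ∂PI (ℕ × V) =
      ∫ U, (mm G θ (res Λ (wD T (xs G θ Λ T U) D₁)) a -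
        mm G θ' (res Λ' (wD T (xs G θ' Λ' T U) D₁)) a - g U) ^ 2 ∂PI (ℕ × V) +
      ∑ c ∈ D \ D₁, ∫ U, (jump G θ Λ T U a c - jump G θ' Λ' T U a c) ^ 2 ∂PI (ℕ × V) := by
  induction D using Finset.induction_on_max_value (fun a : ℕ × V => toLex (a.1, T a)) with
  | empty =>
    intro _ h
    rw [Finset.subset_empty.1 h]; simp
  | insert c D hc hmax ih =>
    intro hD hsub
    obtain ⟨hD', hcL, hbf⟩ := DC_step hT hc hmax hD
    by_cases hc1 : c ∈ D₁
    · have : insert c D = D₁ := by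
        refine Finset.Subset.antisymm (Finset.insert_subset hc1 fun x hx => ?_) hsub
        exact hD₁.2 c hc1 x (hD'.1 x hx) ((hbf x (hD'.1 x hx)).1 hx)
      rw [this]; simp
    · have hsub' : D₁ ⊆ D := fun x hx =>
        (Finset.mem_insert.1 (hsub hx)).resolve_left (by rintro rfl; exact hc1 hx)
      rw [Finset.insert_sdiff_of_notMem _ hc1, Finset.sum_insert (by simp [hc]), add_comm
        (∫ U, (jump G θ Λ T U a c - jump G θ' Λ' T U a c) ^ 2 ∂PI (ℕ × V)), ← add_assoc,
        ← ih hD' hsub']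
      set A : (ℕ × V → ℝ) → ℝ := fun U => mm G θ (res Λ (wD T (xs G θ Λ T U) D)) a -
        mm G θ' (res Λ' (wD T (xs G θ' Λ' T U) D)) a - g U with hA
      set J : (ℕ × V → ℝ) → ℝ := fun U => jump G θ Λ T U a c - jump G θ' Λ' T U a c with hJ
      have bA : Bd A := ((bd_mmD hG h0 h3 T D a).sub (bd_mmD hG h0' h3' T D a)).sub hg
      have j1 := bd_jump (Λ := Λ) (T := fun _ => T) (U := fun U : ℕ × V → ℝ => U) hG h0 h3
        (fun _ => measurable_const) (fun c => measurable_pi_apply c) a c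
      have j2 := bd_jump (Λ := Λ') (T := fun _ => T) (U := fun U : ℕ × V → ℝ => U) hG h0' h3'
        (fun _ => measurable_const) (fun c => measurable_pi_apply c) a c
      have bJ : Bd J := j1.sub j2
      have e : ∀ U, (mm G θ (res Λ (wD T (xs G θ Λ T U) (insert c D))) a -
          mm G θ' (res Λ' (wD T (xs G θ' Λ' T U) (insert c D))) a - g U) ^ 2 =
          A U ^ 2 + J U ^ 2 + 2 * (A U * J U) := by
        intro U
        rw [mm_step hG h0 h3 hL hc hbf, mm_step hG h0' h3' hL' hc hbf]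
        simp only [hA, hJ]; ring
      have z : ∫ U, A U * J U ∂PI (ℕ × V) = 0 := by
        rw [integral_update c (bA.mul bJ)]
        have : ∀ U, ∫ t, A (Function.update U c t) * J (Function.update U c t) ∂unif = 0 := by
          intro U
          have hup : ∀ t, ∀ x ∈ D, Function.update U c t x = U x := fun t x hx =>
            Function.update_of_ne (by rintro rfl; exact hc hx) _ _
          have : ∀ t, A (Function.update U c t) = A U := by
            intro t
            simp only [hA]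
            rw [wD_dep hL hD' (hup t), wD_dep hL' hD' (hup t), dg fun x hx => hup t x (hsub' hx)]
          simp_rw [this]
          have hm : Measurable fun t : ℝ => Function.update U c t :=
            measurable_update'.comp (measurable_const.prodMk measurable_id)
          rw [integral_const_mul]
          simp only [hJ]
          rw [integral_sub ((j1.comp hm).int _) ((j2.comp hm).int _), jump_mean hG h0 h3,
            jump_mean hG h0' h3']
          simp
        simp [this]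
      simp_rw [e]
      rw [integral_add (((bA.pow 2).add (bJ.pow 2)).int _) (((bA.mul bJ).cmul 2).int _),
        integral_add ((bA.pow 2).int _) ((bJ.pow 2).int _), integral_const_mul, z]
      simp only [hA, hJ, mul_zero, add_zero]

end Main

end Crest.Agent.Ising
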