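import Crest.Agent.Ising.Api

/-!
Linear estimators of a planted spin and the law of the raw site weights.
-/

set_option maxHeartbeats 400000

open MeasureTheory Set Filter Topology SimpleGraph
open Crest.Agent.FIID

namespace Crest.Agent.Ising

section
variable {Ω : Type*} [MeasurableSpace Ω] {f g : Ω → ℝ}

lemma Bd.iadd (hf : Bd f) (hg : Bd g) (μ : Measure Ω) [IsFiniteMeasure μ] :
    ∫ x, (f x + g x) ∂μ = ∫ x, f x ∂μ + ∫ x, g x ∂μ := integral_add (hf.int _) (hg.int _)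

lemma Bd.isub (hf : Bd f) (hg : Bd g) (μ : Measure Ω) [IsFiniteMeasure μ] :
    ∫ x, (f x - g x) ∂μ = ∫ x, f x ∂μ - ∫ x, g x ∂μ := integral_sub (hf.int _) (hg.int _)

lemma iconst (μ : Measure Ω) [IsProbabilityMeasure μ] (c : ℝ) : ∫ _x, c ∂μ = c := by simp

lemma Bd.bav {w : Ω → Bool → ℝ} (h : ∀ s, Bd fun x => w x s) : Bd fun x => av (w x) :=
  ((h true).add (h false)).divc 2

lemma Bd.bPk {w : Ω → Bool → ℝ} (h : ∀ s, Bd fun x => w x s) (θ : ℝ) (s : Bool) :
    Bd fun x => Pk θ (w x) s := (((h s).cmul _).add ((h (!s)).cmul _)).divc 2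

lemma Bd.bmg {w : Ω → Bool → ℝ} (h : ∀ s, Bd fun x => w x s) (hp : ∀ x s, 0 < w x s) :
    Bd fun x => mg (w x) :=
  ⟨((h true).meas.sub (h false).meas).div ((h true).meas.add (h false).meas), 1,
    fun x => (abs_mg_lt (hp x)).le⟩

lemma int_av {w : Ω → Bool → ℝ} (h : ∀ s, Bd fun x => w x s) (hg : Bd g) (μ : Measure Ω)
    [IsFiniteMeasure μ] : ∫ x, av (w x) * g x ∂μ =
      (∫ x, w x true * g x ∂μ + ∫ x, w x false * g x ∂μ) / 2 := by
  rw [← ((h true).mul hg).iadd ((h false).mul hg), ← integral_div]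
  congr 1; ext x; unfold av; ring

lemma int_avmg {w : Ω → Bool → ℝ} (h : ∀ s, Bd fun x => w x s) (hp : ∀ x s, 0 < w x s)
    (hg : Bd g) (μ : Measure Ω) [IsFiniteMeasure μ] : ∫ x, av (w x) * mg (w x) * g x ∂μ =
      (∫ x, w x true * g x ∂μ - ∫ x, w x false * g x ∂μ) / 2 := by
  rw [← ((h true).mul hg).isub ((h false).mul hg), ← integral_div]
  congr 1; ext x
  have := hp x true; have := hp x false
  unfold av mg; field_simp

lemma int_Pk {w : Ω → Bool → ℝ} (h : ∀ s, Bd fun x => w x s) (hg : Bd g) (μ : Measure Ω)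
    [IsFiniteMeasure μ] (θ : ℝ) (s : Bool) : ∫ x, Pk θ (w x) s * g x ∂μ =
      ((1 + θ) * ∫ x, w x s * g x ∂μ + (1 - θ) * ∫ x, w x (!s) * g x ∂μ) / 2 := by
  rw [← integral_const_mul, ← integral_const_mul,
    ← (((h s).mul hg).cmul _).iadd (((h (!s)).mul hg).cmul _), ← integral_div]
  congr 1; ext x; unfold Pk; ring

end

section Dep
variable {K : Type*} {A A' : Set K} {α β γ : Type*}

lemma dep_comp {w : (K → ℝ) → α} (h : DependsOn w A) (F : α → β) :
    DependsOn (fun x => F (w x)) A := fun _ _ hxy => congrArg F (h hxy)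

lemma dep₂ {w : (K → ℝ) → α} {w' : (K → ℝ) → β} (h : DependsOn w A) (h' : DependsOn w' A)
    (F : α → β → γ) : DependsOn (fun x => F (w x) (w' x)) A := fun x y hxy => by
  show F (w x) (w' x) = F (w y) (w' y)
  rw [h hxy, h' hxy]

lemma dep_const (c : α) (A : Set K) : DependsOn (fun _ : K → ℝ => c) A := fun _ _ _ => rfl

lemma dep_coord {k : K} (hk : k ∈ A) (F : ℝ → α) : DependsOn (fun x : K → ℝ => F (x k)) A :=
  fun _ _ h => congrArg F (h k hk)

end Dep

/-- A pair of likelihoods with a linear estimator of signal `τ`. -/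
structure Est {K : Type*} (A : Set K) (w : (K → ℝ) → Bool → ℝ) (τ : ℝ) : Prop where
  bd : ∀ s, Bd fun x => w x s
  dep : DependsOn w A
  one : ∀ s, ∫ x, w x s ∂PI K = 1
  ex : ∃ f, Bd f ∧ DependsOn f A ∧ (∀ s, ∫ x, w x s * f x ∂PI K = sg s * τ) ∧
    ∫ x, w x true * f x ^ 2 ∂PI K + ∫ x, w x false * f x ^ 2 ∂PI K ≤ 2 * (τ + τ ^ 2)

section Est
variable {K : Type*} {A A' : Set K} {w w' : (K → ℝ) → Bool → ℝ} {τ τ' : ℝ}

lemma est_one (A : Set K) : Est A (fun _ _ => 1) 0 :=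
  ⟨fun _ => Bd.const 1, dep_const _ _, fun _ => by simp,
    fun _ => 0, Bd.const 0, dep_const _ _, fun _ => by simp, by simp⟩

lemma Est.sub (h : Est A w τ) (hA : A ⊆ A') : Est A' w τ := by
  obtain ⟨f, h1, h2, h3⟩ := h.ex
  exact ⟨h.bd, h.dep.mono hA, h.one, f, h1, h2.mono hA, h3⟩

lemma Est.mono (h : Est A w τ) (h0 : 0 ≤ τ') (h1 : τ' ≤ τ) : Est A w τ' := by
  rcases (h0.trans h1).eq_or_lt with e | e
  · have : τ' = τ := by linarith
    rwa [this]
  obtain ⟨f, hf, df, m1, m2⟩ := h.ex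
  obtain ⟨l, rfl⟩ : ∃ l, τ' = l * τ := ⟨τ' / τ, by field_simp⟩
  have l0 : 0 ≤ l := by by_contra hl; nlinarith
  have l1 : l ≤ 1 := by by_contra hl; nlinarith
  refine ⟨h.bd, h.dep, h.one, fun x => l * f x, hf.cmul l, dep_comp df _, fun s => ?_, ?_⟩
  · have : ∀ x, w x s * (l * f x) = l * (w x s * f x) := fun x => by ring
    simp_rw [this]
    rw [integral_const_mul, m1]; ring
  · have : ∀ x s, w x s * (l * f x) ^ 2 = l ^ 2 * (w x s * f x ^ 2) := fun x s => by ring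
    simp_rw [this]
    rw [integral_const_mul, integral_const_mul, ← mul_add]
    have := mul_le_mul_of_nonneg_left m2 (sq_nonneg l)
    nlinarith [mul_nonneg (mul_nonneg l0 e.le) (sub_nonneg.2 l1)]

lemma Est.mul (h : Est A w τ) (h' : Est A' w' τ') (hd : Disjoint A A') :
    Est (A ∪ A') (fun x s => w x s * w' x s) (τ + τ') := by
  obtain ⟨f, hf, df, m1, m2⟩ := h.ex
  obtain ⟨f', hf', df', m1', m2'⟩ := h'.ex
  have key : ∀ s (i j : ℕ), ∫ x, (w x s * f x ^ i) * (w' x s * f' x ^ j) ∂PI K =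
      (∫ x, w x s * f x ^ i ∂PI K) * ∫ x, w' x s * f' x ^ j ∂PI K := fun s i j =>
    indep ((h.bd s).mul (hf.pow i)) ((h'.bd s).mul (hf'.pow j))
      (dep₂ h.dep df fun a b => a s * b ^ i) (dep₂ h'.dep df' fun a b => a s * b ^ j) hd
  have bk : ∀ s (i j : ℕ), Bd fun x => (w x s * f x ^ i) * (w' x s * f' x ^ j) := fun s i j =>
    ((h.bd s).mul (hf.pow i)).mul ((h'.bd s).mul (hf'.pow j))
  refine ⟨fun s => (h.bd s).mul (h'.bd s),
    dep₂ (h.dep.mono subset_union_left) (h'.dep.mono subset_union_right) fun a b s => a s * b s,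
    fun s => ?_, fun x => f x + f' x, hf.add hf',
    dep₂ (df.mono subset_union_left) (df'.mono subset_union_right) (· + ·), fun s => ?_, ?_⟩
  · simpa [h.one, h'.one] using key s 0 0
  · have : ∀ x, w x s * w' x s * (f x + f' x) = (w x s * f x ^ 1) * (w' x s * f' x ^ 0) +
        (w x s * f x ^ 0) * (w' x s * f' x ^ 1) := fun x => by ring
    simp_rw [this]
    rw [(bk s 1 0).iadd (bk s 0 1), key, key]
    simp only [pow_one, pow_zero, mul_one, h.one, h'.one, m1, m1']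
    ring
  · have : ∀ s, ∫ x, w x s * w' x s * (f x + f' x) ^ 2 ∂PI K = ∫ x, w x s * f x ^ 2 ∂PI K +
        2 * (τ * τ') + ∫ x, w' x s * f' x ^ 2 ∂PI K := by
      intro s
      have : ∀ x, w x s * w' x s * (f x + f' x) ^ 2 = (w x s * f x ^ 2) * (w' x s * f' x ^ 0) +
          2 * ((w x s * f x ^ 1) * (w' x s * f' x ^ 1)) +
            (w x s * f x ^ 0) * (w' x s * f' x ^ 2) := fun x => by ring
      simp_rw [this]
      rw [((bk s 2 0).add ((bk s 1 1).cmul 2)).iadd (bk s 0 2),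
        (bk s 2 0).iadd ((bk s 1 1).cmul 2), integral_const_mul, key, key, key]
      simp only [pow_one, pow_zero, mul_one, h.one, h'.one, m1, m1', one_mul]
      cases s <;> simp [sg]
    rw [this, this]
    nlinarith

lemma Est.prod {ι : Type*} (C : Finset ι) {A : ι → Set K} {w : ι → (K → ℝ) → Bool → ℝ}
    {τ : ι → ℝ} (h : ∀ c ∈ C, Est (A c) (w c) (τ c))
    (hd : ∀ c ∈ C, ∀ c' ∈ C, c ≠ c' → Disjoint (A c) (A c')) :
    Est (⋃ c ∈ C, A c) (fun x s => ∏ c ∈ C, w c x s) (∑ c ∈ C, τ c) := by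
  classical
  induction C using Finset.induction_on with
  | empty => simpa using est_one (∅ : Set K)
  | insert a C ha ih =>
    simp only [Finset.prod_insert ha, Finset.sum_insert ha, Finset.set_biUnion_insert]
    refine (h a (by simp)).mul (ih (fun c hc => h c (by simp [hc]))
      fun c hc c' hc' => hd c (by simp [hc]) c' (by simp [hc'])) ?_
    simp only [disjoint_iUnion_right]
    exact fun c hc => hd a (by simp) c (by simp [hc]) (by rintro rfl; exact ha hc)

/-- The second moment of the posterior mean. -/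
noncomputable def qq (w : (K → ℝ) → Bool → ℝ) : ℝ := ∫ x, av (w x) * mg (w x) ^ 2 ∂PI K

lemma qq_nonneg (hp : ∀ x s, 0 < w x s) : 0 ≤ qq w :=
  integral_nonneg fun x => mul_nonneg (av_pos (hp x)).le (sq_nonneg _)

lemma Est.int_av (h : Est A w τ) : ∫ x, av (w x) ∂PI K = 1 := by
  have := Ising.int_av h.bd (Bd.const 1) (PI K)
  simp only [mul_one, h.one] at this
  rw [this]; norm_num

lemma Est.qq_ge (h : Est A w τ) (hp : ∀ x s, 0 < w x s) (h0 : 0 ≤ τ) : τ / (1 + τ) ≤ qq w := by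
  obtain ⟨f, hf, -, m1, m2⟩ := h.ex
  have ba := Bd.bav h.bd
  have bm := Bd.bmg h.bd hp
  have e1 := int_avmg h.bd hp hf (PI K)
  have e2 := Ising.int_av h.bd (hf.pow 2) (PI K)
  rw [m1, m1] at e1
  set l := 1 / (1 + τ) with hl
  have l0 : 0 < l := by positivity
  have l1 : l * (1 + τ) = 1 := by rw [hl]; field_simp
  have := (((ba.mul bm).mul hf).cmul (2 * l)).mono ((ba.mul (bm.pow 2)).add
    ((ba.mul (hf.pow 2)).cmul (l ^ 2))) (PI K) fun x => by
      nlinarith [mul_nonneg (av_pos (hp x)).le (sq_nonneg (mg (w x) - l * f x))]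
  rw [(ba.mul (bm.pow 2)).iadd ((ba.mul (hf.pow 2)).cmul (l ^ 2)), integral_const_mul,
    integral_const_mul, e1, e2] at this
  have e3 : l ^ 2 * (τ + τ ^ 2) = l * τ := by
    calc _ = l * τ * (l * (1 + τ)) := by ring
      _ = _ := by rw [l1, mul_one]
  have e4 : τ / (1 + τ) = l * τ := by rw [hl]; ring
  simp only [sg, if_true, Bool.false_eq_true, if_false] at this
  unfold qq
  nlinarith [mul_le_mul_of_nonneg_left m2 (sq_nonneg l)]

lemma Est.Pk (h : Est A w τ) (hp : ∀ x s, 0 < w x s) (θ : ℝ) :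
    Est A (fun x => Pk θ (w x)) (θ ^ 2 * qq w) := by
  have ba := Bd.bav h.bd
  have bm := Bd.bmg h.bd hp
  have z : ∫ x, av (w x) * mg (w x) ∂PI K = 0 := by
    have := int_avmg h.bd hp (Bd.const 1) (PI K)
    simpa only [mul_one, h.one, sub_self, zero_div] using this
  refine ⟨Bd.bPk h.bd θ, dep_comp h.dep _, fun s => ?_, fun x => θ * mg (w x), bm.cmul θ,
    dep_comp h.dep fun a => θ * mg a, fun s => ?_, ?_⟩
  · have := int_Pk h.bd (Bd.const 1) (PI K) θ s
    simp only [mul_one, h.one] at this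
    rw [this]; ring
  · have : ∀ x, Ising.Pk θ (w x) s * (θ * mg (w x)) = θ * (av (w x) * mg (w x)) +
        (sg s * θ ^ 2) * (av (w x) * mg (w x) ^ 2) := fun x => by rw [Pk_eq (hp x)]; ring
    simp_rw [this]
    rw [((ba.mul bm).cmul _).iadd ((ba.mul (bm.pow 2)).cmul _), integral_const_mul,
      integral_const_mul, z]
    unfold qq; ring
  · rw [← ((Bd.bPk h.bd θ true).mul ((bm.cmul θ).pow 2)).iadd
      ((Bd.bPk h.bd θ false).mul ((bm.cmul θ).pow 2))]
    have : ∀ x, Ising.Pk θ (w x) true * (θ * mg (w x)) ^ 2 + Ising.Pk θ (w x) false *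
        (θ * mg (w x)) ^ 2 = (2 * θ ^ 2) * (av (w x) * mg (w x) ^ 2) := fun x => by
      rw [Pk_eq (hp x), Pk_eq (hp x)]; simp [sg]; ring
    simp_rw [this]
    rw [integral_const_mul]
    unfold qq
    nlinarith [sq_nonneg (θ ^ 2 * ∫ x, av (w x) * mg (w x) ^ 2 ∂PI K)]

lemma integral_cl_neg {φ : ℝ → ℝ} (hφ : Continuous φ) (h : ∀ x, φ (-x) = -φ x) :
    ∫ x, φ (cl x) ∂unif = 0 := by
  have := (bd_cl.cont hφ).map measurable_neg unif_map_neg
  simp only [cl_neg, h, integral_neg] at this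
  linarith

lemma est_obs {k : ℝ → ℝ} (hk : Bd k) {a a' : K} (ha : a ≠ a') :
    Est {a, a'} (fun x s => 1 + k (x a) * cl (x a') * sg s)
      ((∫ t, k t ^ 2 ∂unif) * ∫ t, cl t ^ 2 ∂unif) := by
  have b1 : Bd fun x : K → ℝ => k (x a) := hk.comp (measurable_pi_apply a)
  have b2 : Bd fun x : K → ℝ => cl (x a') := bd_cl.comp (measurable_pi_apply a')
  have bf := b1.mul b2
  have key : ∀ i : ℕ, ∫ x, (k (x a) * cl (x a')) ^ i ∂PI K =
      (∫ t, k t ^ i ∂unif) * ∫ t, cl t ^ i ∂unif := by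
    intro i
    simp_rw [mul_pow]
    rw [indep (A := {a}) (A' := {a'}) (b1.pow i) (b2.pow i)
      (dep_coord (mem_singleton a) fun t => k t ^ i) (dep_coord (mem_singleton a') fun t => cl t ^ i)
      (disjoint_singleton.2 ha), integral_coord a (hk.pow i), integral_coord a' (bd_cl.pow i)]
  have k1 := key 1
  simp only [pow_one, integral_cl, mul_zero] at k1
  have df : DependsOn (fun x : K → ℝ => k (x a) * cl (x a')) {a, a'} :=
    dep₂ (dep_coord (by simp) k) (dep_coord (by simp) cl) (· * ·)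
  refine ⟨fun s => (Bd.const 1).add (bf.mul (Bd.const _)), dep_comp df fun y s => 1 + y * sg s,
    fun s => ?_, _, bf, df, fun s => ?_, ?_⟩
  · rw [(Bd.const 1).iadd (bf.mul (Bd.const _)), integral_mul_const, k1]; simp
  · have : ∀ x : K → ℝ, (1 + k (x a) * cl (x a') * sg s) * (k (x a) * cl (x a')) =
        k (x a) * cl (x a') + sg s * (k (x a) * cl (x a')) ^ 2 := fun x => by ring
    simp_rw [this]
    rw [bf.iadd ((bf.pow 2).cmul _), integral_const_mul, k1, key, zero_add]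
  · rw [← (((Bd.const 1).add (bf.mul (Bd.const _))).mul (bf.pow 2)).iadd
      (((Bd.const 1).add (bf.mul (Bd.const _))).mul (bf.pow 2))]
    have : ∀ x : K → ℝ, (1 + k (x a) * cl (x a') * sg true) * (k (x a) * cl (x a')) ^ 2 +
        (1 + k (x a) * cl (x a') * sg false) * (k (x a) * cl (x a')) ^ 2 =
          2 * (k (x a) * cl (x a')) ^ 2 := fun x => by simp [sg]; ring
    simp_rw [this]
    rw [integral_const_mul, key]
    nlinarith [sq_nonneg ((∫ t, k t ^ 2 ∂unif) * ∫ t, cl t ^ 2 ∂unif)]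

end Est

lemma window_le {φ : ℝ → ℝ} (hφ : Bd φ) (h0 : ∀ t, 0 ≤ φ t) {σ₁ σ₂ c : ℝ} (h1 : 0 ≤ σ₁)
    (h12 : σ₁ ≤ σ₂) (h2 : σ₂ ≤ 1) (h : ∀ t, σ₁ ≤ t → t < σ₂ → c ≤ φ t) :
    (σ₂ - σ₁) / 2 * c ≤ ∫ t, φ t ∂unif := by
  have hI : MeasurableSet {t : ℝ | σ₁ ≤ t ∧ t < σ₂} := measurableSet_Ico
  refine le_trans (le_of_eq ?_) ((Bd.ite hI (Bd.const c) (Bd.const 0)).mono hφ unif fun t => ?_)
  · have : (fun t : ℝ => if σ₁ ≤ t ∧ t < σ₂ then c else 0) = (Ico σ₁ σ₂).indicator fun _ => c := by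
      ext t'; simp [indicator, mem_Ico]
    rw [this, integral_indicator_const _ measurableSet_Ico, smul_eq_mul]
    congr 1
    have e : Ico σ₁ σ₂ ∩ Icc (-1) 1 = Ico σ₁ σ₂ :=
      inter_eq_left.2 fun t ht => ⟨by linarith [ht.1], by linarith [ht.2]⟩
    simp only [unif, Measure.real, Measure.smul_apply, Measure.restrict_apply measurableSet_Ico, e,
      Real.volume_Ico, smul_eq_mul, ENNReal.toReal_mul]
    rw [ENNReal.toReal_ofReal (by linarith)]
    norm_num; ring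
  · split_ifs with ht
    · exact h t ht.1 ht.2
    · exact h0 t

variable {V : Type*}

/-- Independent site weights with signal `τ`. -/
structure GW (M τ : ℝ) (w : (ℕ × V → ℝ) → V → Bool → ℝ) : Prop where
  one : 1 ≤ M
  adm : ∀ x, Adm M (w x)
  est : ∀ v, Est (co {v}) (fun x => w x v) τ

/-- The raw site weights. -/
noncomputable def W0 (r : ℕ) (σ : ℝ) (ω : ℕ × V → ℝ) : V → Bool → ℝ := wt (Tm ω) (Um ω) r σ

lemma GW.mono {M τ τ' : ℝ} {w : (ℕ × V → ℝ) → V → Bool → ℝ} (h : GW M τ w) (h0 : 0 ≤ τ')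
    (h1 : τ' ≤ τ) : GW M τ' w := ⟨h.one, h.adm, fun v => (h.est v).mono h0 h1⟩

lemma gw_W0 (r : ℕ) {σ : ℝ} (h0 : 0 ≤ σ) (h1 : σ ≤ 1 / 2) :
    GW (V := V) (2 ^ (r + 1)) (r * ((1 / 2) ^ 22 / 2 ^ 26) + σ ^ 22 / 2 ^ 26) (W0 r σ) := by
  refine ⟨one_le_pow₀ (by norm_num), fun x => wt_adm _ _ _ _, fun v => ?_⟩
  set k : ℕ → ℝ → ℝ := fun r' t => if r' < r ∨ t < σ then kap t else 0 with hk
  have bk : ∀ r', Bd (k r') := fun r' =>
    Bd.ite ((MeasurableSet.const _).union measurableSet_Iio) bd_kap (Bd.const 0)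
  have c2 : 1 / 16 ≤ ∫ t, cl t ^ 2 ∂unif := by
    refine le_trans (by norm_num) (window_le (σ₁ := 1 / 2) (σ₂ := 1) (c := 1 / 4) (bd_cl.pow 2)
      (fun _ => sq_nonneg _) (by norm_num) (by norm_num) le_rfl fun t a b => ?_)
    rw [cl_of_abs_le (abs_le.2 ⟨by linarith, b.le⟩)]; nlinarith
  have lo : ∀ r' s, 0 ≤ s → s ≤ 1 / 2 → (r' < r ∨ s ≤ σ) →
      s ^ 22 / 2 ^ 26 ≤ (∫ t, k r' t ^ 2 ∂unif) * ∫ t, cl t ^ 2 ∂unif := by
    intro r' s s0 s1 hs
    have := window_le (σ₁ := s / 2) (σ₂ := s) (c := (s / 2) ^ 20) ((bk r').pow 2)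
      (fun _ => sq_nonneg _) (by linarith) (by linarith) (by linarith) fun t a b => by
        have e : k r' t = t ^ 10 := by
          simp only [hk]
          rw [if_pos (hs.imp_right fun h => lt_of_lt_of_le b h), kap,
            if_pos ⟨by linarith, by linarith⟩]
        rw [e, ← pow_mul]
        exact pow_le_pow_left₀ (by linarith) a _
    have t : s ^ 22 ≤ s ^ 21 := pow_le_pow_of_le_one s0 (by linarith) (by norm_num)
    calc s ^ 22 / 2 ^ 26 ≤ (s - s / 2) / 2 * (s / 2) ^ 20 * (1 / 16) := by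
          have : (s - s / 2) / 2 * (s / 2) ^ 20 * (1 / 16) = s ^ 21 / 2 ^ 26 := by ring
          rw [this]; gcongr
      _ ≤ _ := mul_le_mul this c2 (by norm_num) (integral_nonneg fun _ => sq_nonneg _)
  have E := Est.prod (K := ℕ × V) (Finset.range (r + 1))
    (A := fun r' => {(2 * r', v), (2 * r' + 1, v)})
    (w := fun r' x s => 1 + k r' (x (2 * r', v)) * cl (x (2 * r' + 1, v)) * sg s)
    (τ := fun r' => if r' < r then (1 / 2) ^ 22 / 2 ^ 26 else σ ^ 22 / 2 ^ 26)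
    (fun r' _ => (est_obs (bk r') (by simp)).mono (by split_ifs <;> positivity) (by
      split_ifs with h
      · exact lo r' _ (by norm_num) le_rfl (Or.inl h)
      · exact lo r' _ h0 h1 (Or.inr le_rfl)))
    (fun c _ c' _ h => by
      simp only [disjoint_insert_left, mem_insert_iff, mem_singleton_iff, Prod.mk.injEq,
        disjoint_singleton_left]
      omega)
  rw [Finset.sum_range_succ, if_neg (lt_irrefl r),
    Finset.sum_congr rfl fun x hx => if_pos (Finset.mem_range.1 hx), Finset.sum_const,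
    Finset.card_range, nsmul_eq_mul] at E
  have E2 := E.sub (A' := co {v}) (by
    simp only [iUnion_subset_iff]
    rintro r' _ c (rfl | rfl) <;> simp [co])
  convert E2 using 3 with x s
  unfold W0 wt
  refine Finset.prod_congr rfl fun r' _ => ?_
  simp only [hk, Tm, Um, fac]
  split_ifs <;> simp

lemma near_W0 (σ : ℝ) (ω : ℕ × V → ℝ) (v : V) :
    ∃ x, |x| ≤ σ ^ 10 ∧ ∀ s, W0 0 σ ω v s = 1 + sg s * x := by
  unfold W0 wt
  simp only [zero_add, Finset.range_one, Finset.prod_singleton, lt_irrefl, false_or]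
  by_cases h : Tm ω (0, v) < σ
  · refine ⟨kap (Tm ω (0, v)) * cl (Um ω (0, v)), ?_, fun s => ?_⟩
    · rw [abs_mul, abs_of_nonneg (kap_nonneg _)]
      nlinarith [kap_le_pow h.le, abs_cl_le (Um ω (0, v)), kap_nonneg (Tm ω (0, v)),
        abs_nonneg (cl (Um ω (0, v)))]
    · rw [if_pos h, fac]; ring
  · exact ⟨0, by simpa using by positivity, fun s => by simp [h]⟩

end Crest.Agent.Ising
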