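import Crest.Agent.Ising.Nest
import Crest.Prelude.Def_TreeIsing

/-!
Identification of the limiting law.
-/

set_option maxHeartbeats 400000

open MeasureTheory Set Filter Topology SimpleGraph
open Crest.Agent.FIID Crest.ProbabilityR.TreeIsing

namespace Crest.Agent.Ising

variable {V : Type*} [DecidableEq V] {G : SimpleGraph V} [G.LocallyFinite]

/-- Weights prescribing a pattern on `S`. -/
def ind (η : V → Bool) (S : Finset V) (v : V) (s : Bool) : ℝ :=
  if v ∈ S then (if s = η v then 1 else 0) else 1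

lemma ind_supp (η : V → Bool) (S : Finset V) : Supp (ind η S) S := fun v hv => by
  funext s; simp [ind, hv]

section T
variable (hT : G.IsTree)
include hT

omit [G.LocallyFinite] in
lemma parent_mem {S : Finset V} (hS : (G.induce (S : Set V)).Connected) {o x : V} (ho : o ∈ S)
    (hx : x ∈ S) (hne : o ≠ x) : ∃ p ∈ S, G.Adj x p ∧ G.dist o x = G.dist o p + 1 := by
  obtain ⟨c, hc, hd⟩ := exists_step hT hne
  refine ⟨c, ?_, hc, hd⟩
  have key : ∀ (y y' : (S : Set V)) (_ : (G.induce (S : Set V)).Walk y y'),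
      (y : V) ∈ H G x c → (y' : V) ∉ H G x c → c ∈ S := by
    intro y y' p
    induction p with
    | nil => intro h h'; exact absurd h h'
    | @cons a a' _ h _ ih =>
      intro h1 h2
      by_cases h3 : (a' : V) ∈ H G x c
      · exact ih h3 h2
      · rw [← (adj_cross hT hc h1 h3 h).1]; exact a.2
  obtain ⟨p⟩ := hS ⟨o, ho⟩ ⟨x, hx⟩
  exact key _ _ p (by simp only [H, mem_ofPred_eq]; omega) (not_mem_H_tail hT hc)

lemma dist_through {o v p y : V} (h : G.Adj v p) (hd : G.dist o v = G.dist o p + 1)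
    (hy : y ∈ H G p v) : G.dist o y = G.dist y v + G.dist o v := by
  obtain ⟨z, z0, z1, hz⟩ := exists_geo hT o v
  rw [dist_comm] at z1 hz
  obtain ⟨k, hk⟩ : ∃ k, G.dist o v = k + 1 := ⟨_, hd⟩
  rw [hk] at z1 hz
  have a := hz.1 k (by omega)
  have d := hz.dist hT (j := k) (by omega)
  rw [z1] at a
  rw [z0, dist_comm] at d
  have e : z k = p := step_unique hT a.symm h (x := o) (by simp only [H, mem_ofPred_eq]; omega)
    (by simp only [H, mem_ofPred_eq]; omega)
  obtain ⟨h1, h2⟩ := hz.H_sub hT (Nat.zero_le k) (by omega) (x := y) (by rw [e, z1]; exact hy)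
  have h3 := dist_of_mem_H hT (hz.1 0 (by omega)) h1
  rw [z1] at h2
  rw [z0, dist_comm] at h3
  omega

theorem Z_ind (θ : ℝ) (η : V → Bool) {o : V} (n : ℕ) : ∀ S : Finset V, S.card = n + 1 → o ∈ S →
    (∀ x ∈ S, o ≠ x → ∃ p ∈ S, G.Adj x p ∧ G.dist o x = G.dist o p + 1) →
    av (B G θ (ind η S) o o) = isingWeight G θ S η := by
  induction n with
  | zero =>
    intro S hS ho _
    obtain ⟨a, rfl⟩ := Finset.card_eq_one.1 hS
    obtain rfl := Finset.mem_singleton.1 ho
    have e : ∀ s, B G θ (ind η {o}) o o s = ind η {o} o s := by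
      intro s
      rw [B_rec hT (ind_supp η _) (ok_self o), Finset.prod_eq_one, mul_one]
      intro c hc
      rw [B_one hT (ind_supp η _) (ok_of_ch hc) (by
        simpa using not_mem_H_tail hT (adj_of_ch hc)), Pk_one]
    unfold av isingWeight
    rw [e, e, Finset.prod_eq_one]
    · cases h : η o <;> simp [ind, h]
    · intro e he
      simp only [Finset.sym2_singleton, Finset.mem_filter, Finset.mem_singleton] at he
      rw [he.1] at he
      simp at he
  | succ n ih =>
    intro S hS ho hp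
    obtain ⟨v, hv, hmax⟩ := S.exists_max_image (fun x => G.dist o x) ⟨o, ho⟩
    have hne : o ≠ v := by
      rintro rfl
      obtain ⟨x, hx, hxo⟩ := Finset.exists_mem_ne (show 1 < S.card by omega) o
      have := hmax x hx
      simp only [dist_self, nonpos_iff_eq_zero] at this
      exact hxo (dist_zero hT this).symm
    obtain ⟨p, hpS, hvp, hd⟩ := hp v hv hne
    have hH : ∀ y ∈ S, y ∈ H G p v → y = v := fun y hy hy' => by
      have a := dist_through hT hvp hd hy'
      have := hmax y hy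
      exact dist_zero hT (by omega)
    set S' := S.erase v with hS'
    have hp' : p ∈ S' := Finset.mem_erase.2 ⟨hvp.ne', hpS⟩
    have IH := ih S' (by rw [Finset.card_erase_of_mem hv]; omega) (Finset.mem_erase.2 ⟨hne, ho⟩)
      fun x hx hox => by
        obtain ⟨q, hq, h1, h2⟩ := hp x (Finset.mem_of_mem_erase hx) hox
        refine ⟨q, Finset.mem_erase.2 ⟨?_, hq⟩, h1, h2⟩
        rintro rfl
        have := hmax x (Finset.mem_of_mem_erase hx)
        omega
    have s1 := ind_supp η S'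
    have e1 : B G θ (ind η S') p v = fun _ => 1 := B_one hT s1 (Or.inr hvp.symm) fun x hx h =>
      Finset.ne_of_mem_erase hx (hH x (Finset.mem_of_mem_erase hx) h)
    have e2 : B G θ (ind η S') v p (!η p) = 0 := by
      rw [B_rec hT s1 (Or.inr hvp)]
      simp [ind, hp']
    have e3 : ∀ s, B G θ (ind η S) v v s =
        Pk θ (B G θ (ind η S') v p) s * if s = η v then 1 else 0 := by
      intro s
      rw [B_upd_root hT (s1.mono (Finset.erase_subset _ _)) (ind_supp η S)
        (f := fun s => if s = η v then 1 else 0) (fun s => by simp [ind, hv, hS'])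
        (fun x hx => by funext s; simp [ind, hS', hx]) (ok_self v), B_split hT s1 hvp.symm, e1,
        one_mul]
    have e4 : ∀ s, B G θ (ind η S') p p s = B G θ (ind η S') v p s := by
      intro s; rw [B_split hT s1 hvp, e1, Pk_one, mul_one]
    have e5 : isingWeight G θ S η =
        (if η p = η v then (1 + θ) / 2 else (1 - θ) / 2) * isingWeight G θ S' η := by
      unfold isingWeight
      have : ∀ [DecidablePred (· ∈ G.edgeSet)], S.sym2.filter (· ∈ G.edgeSet) =
          insert s(p, v) (S'.sym2.filter (· ∈ G.edgeSet)) := by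
        intro _
        ext e
        induction e using Sym2.ind with
        | h a c =>
          have nb : ∀ y ∈ S, G.Adj v y → y = p := fun y hy h => by
            by_contra hc
            exact h.ne' (hH y hy (H_sub hT (Or.inr hvp.symm) (mem_ch.2 ⟨hc, h⟩) (mem_H_self _ _)))
          simp only [Finset.mem_filter, Finset.mk_mem_sym2_iff, mem_edgeSet, Finset.mem_insert,
            Sym2.eq_iff, hS', Finset.mem_erase]
          constructor
          · rintro ⟨⟨h1, h2⟩, h3⟩
            by_cases ha : a = v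
            · subst ha; exact Or.inl (Or.inr ⟨rfl, nb c h2 h3⟩)
            · by_cases hc : c = v
              · subst hc; exact Or.inl (Or.inl ⟨nb a h1 h3.symm, rfl⟩)
              · exact Or.inr ⟨⟨⟨ha, h1⟩, hc, h2⟩, h3⟩
          · rintro ((⟨rfl, rfl⟩ | ⟨rfl, rfl⟩) | ⟨⟨h1, h2⟩, h3⟩)
            · exact ⟨⟨hpS, hv⟩, hvp.symm⟩
            · exact ⟨⟨hv, hpS⟩, hvp⟩
            · exact ⟨⟨h1.2, h2.2⟩, h3⟩
      rw [@this (_), Finset.prod_insert (by simp [hS'])]
      simp only [Sym2.map_mk, Sym2.mk_isDiag_iff]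
      ring
    rw [e5, ← IH, Z_eq hT (ind_supp η S) o v, Z_eq hT s1 o p]
    unfold av
    rw [e3, e3, e4, e4]
    unfold Pk
    cases h1 : η p <;> cases h2 : η v <;> simp only [h1, Bool.not_true, Bool.not_false] at e2 <;>
      simp [e2] <;> ring

lemma Z_scale (θ : ℝ) {w : V → Bool → ℝ} {Λ : Finset V} (hw : Supp w Λ) (c : V → ℝ) (o : V)
    (T : Finset V) (hΛ : T ⊆ Λ) : av (B G θ (fun v s => w v s * if v ∈ T then c v else 1) o o) =
      av (B G θ w o o) * ∏ v ∈ T, c v := by
  have supp : ∀ T : Finset V, T ⊆ Λ → Supp (fun v s => w v s * if v ∈ T then c v else 1) Λ := by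
    intro T hT v hv
    funext s
    beta_reduce
    rw [hw v hv, if_neg fun h => hv (hT h), mul_one]
  induction T using Finset.induction_on with
  | empty => simp
  | insert v T hv ih =>
    have s1 := (Finset.subset_insert v T).trans hΛ
    rw [Finset.prod_insert hv, mul_left_comm, ← ih s1, Z_eq hT (supp _ hΛ) o v,
      Z_eq hT (supp _ s1) o v]
    have := B_upd_root (θ := θ) hT (supp _ s1) (supp _ hΛ) (v := v) (f := fun _ => c v)
      (fun s => by simp [hv]) (fun x hx => by simp [hx]) (ok_self v)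
    unfold av
    rw [this, this]; ring

lemma int_B (θ : ℝ) {w : (ℕ × V → ℝ) → V → Bool → ℝ} {Λ : Finset V} (hw : ∀ x, Supp (w x) Λ)
    (bw : ∀ v s, Bd fun x => w x v s) (dw : ∀ v, DependsOn (fun x => w x v) (co {v})) {p u : V}
    (hp : Ok G p u) : (∀ s, Bd fun x => B G θ (w x) p u s) ∧ ∀ s,
      ∫ x, B G θ (w x) p u s ∂PI (ℕ × V) = B G θ (fun v s => ∫ x, w x v s ∂PI (ℕ × V)) p u s := by
  have hs : Supp (fun v s => ∫ x, w x v s ∂PI (ℕ × V)) Λ := fun v hv => by
    funext s; simp [fun x => hw x v hv]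
  refine half_induction hT Λ (P := fun p u => (∀ s, Bd fun x => B G θ (w x) p u s) ∧ ∀ s,
      ∫ x, B G θ (w x) p u s ∂PI (ℕ × V) = B G θ (fun v s => ∫ x, w x v s ∂PI (ℕ × V)) p u s)
    (fun p u hp hx => ?_) (fun p u hp ih => ?_) hp
  · simp only [fun x => B_one (θ := θ) hT (hw x) hp hx, B_one (θ := θ) hT hs hp hx]
    exact ⟨fun _ => Bd.const 1, fun _ => by simp⟩
  · simp only [fun x => B_rec (θ := θ) hT (hw x) hp, B_rec (θ := θ) hT hs hp]
    refine ⟨fun s => (bw u s).mul (Bd.prod fun c hc => Bd.bPk (ih c hc).1 θ s), fun s => ?_⟩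
    rw [tree_prod hT (fun c hc => adj_of_ch hc) (bw u s) (dep_comp (dw u) fun f => f s)
      (fun c hc => Bd.bPk (ih c hc).1 θ s) fun c hc x y hxy => by
        show Pk θ (B G θ (w x) u c) s = Pk θ (B G θ (w y) u c) s
        rw [B_congr hT (ok_of_ch hc) fun v hv =>
          dw v fun k hk => hxy k (co_mono (singleton_subset_iff.2 hv) hk)]]
    congr 1
    refine Finset.prod_congr rfl fun c hc => ?_
    have := int_Pk (ih c hc).1 (Bd.const 1) (PI (ℕ × V)) θ s
    simp only [mul_one, (ih c hc).2] at this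
    exact this

lemma tendsto_Z {θ : ℕ → ℝ} {θ₀ : ℝ} (hθ : Tendsto θ atTop (𝓝 θ₀)) {w : ℕ → V → Bool → ℝ}
    {w₀ : V → Bool → ℝ} {S : Finset V} (hw : ∀ n, Supp (w n) S) (hw₀ : Supp w₀ S)
    (h : ∀ v s, Tendsto (fun n => w n v s) atTop (𝓝 (w₀ v s))) (o : V) :
    Tendsto (fun n => av (B G (θ n) (w n) o o)) atTop (𝓝 (av (B G θ₀ w₀ o o))) := by
  have key : ∀ N p u s, Tendsto (fun n => Y G (θ n) (w n) N p u s) atTop
      (𝓝 (Y G θ₀ w₀ N p u s)) := by
    intro N
    induction N with
    | zero => intro p u s; exact tendsto_const_nhds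
    | succ N ih =>
      intro p u s
      exact (h u s).mul (tendsto_finset_prod _ fun c _ =>
        (((hθ.const_add 1).mul (ih u c s)).add ((hθ.const_sub 1).mul (ih u c (!s)))).div_const 2)
  simp only [fun n => B_eq_Y (θ := θ n) hT (hw n) (ok_self o) fun x hx _ => lt_sup S o x hx,
    B_eq_Y (θ := θ₀) hT hw₀ (ok_self o) fun x hx _ => lt_sup S o x hx]
  exact ((key _ o o true).add (key _ o o false)).div_const 2

end T

lemma abs_prod_sub_le' {ι : Type*} {a a' : ι → ℝ} (S : Finset ι) (h : ∀ j ∈ S, |a j| ≤ 1)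
    (h' : ∀ j ∈ S, |a' j| ≤ 1) :
    |∏ j ∈ S, a j - ∏ j ∈ S, a' j| ≤ ∑ j ∈ S, |a j - a' j| := by
  classical
  induction S using Finset.induction_on with
  | empty => simp
  | insert n S hn ih =>
    rw [Finset.prod_insert hn, Finset.prod_insert hn, Finset.sum_insert hn]
    have i := ih (fun j hj => h j (by simp [hj])) fun j hj => h' j (by simp [hj])
    have p : |∏ j ∈ S, a' j| ≤ 1 := by
      rw [Finset.abs_prod]
      exact Finset.prod_le_one (fun j _ => abs_nonneg _) fun j hj => h' j (by simp [hj])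
    have e : a n * ∏ j ∈ S, a j - a' n * ∏ j ∈ S, a' j =
        a n * (∏ j ∈ S, a j - ∏ j ∈ S, a' j) + (a n - a' n) * ∏ j ∈ S, a' j := by ring
    rw [e]
    linarith [abs_add_le (a n * (∏ j ∈ S, a j - ∏ j ∈ S, a' j)) ((a n - a' n) * ∏ j ∈ S, a' j),
      abs_mul_le (h n (by simp)) i, abs_mul_le (le_refl |a n - a' n|) p]

/-- The test function of a pattern. -/
noncomputable def tst (η : V → Bool) (S : Finset V) (m : V → ℝ) : ℝ :=
  ∏ v ∈ S, (1 + sg (η v) * m v) / 2

omit [DecidableEq V] in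
lemma tst_lip (η : V → Bool) (S : Finset V) {m m' : V → ℝ} (h : ∀ v, |m v| ≤ 1)
    (h' : ∀ v, |m' v| ≤ 1) : |tst η S m - tst η S m'| ≤ ∑ v ∈ S, |m v - m' v| := by
  have key : ∀ {m : V → ℝ}, (∀ v, |m v| ≤ 1) → ∀ v ∈ S, |(1 + sg (η v) * m v) / 2| ≤ 1 := by
    intro m h v _
    have := abs_le.1 (abs_mul_le (abs_sg (η v)).le (h v))
    rw [abs_le]; constructor <;> linarith [this.1, this.2]
  refine (abs_prod_sub_le' S (key h) (key h')).trans (Finset.sum_le_sum fun v _ => ?_)
  rw [show (1 + sg (η v) * m v) / 2 - (1 + sg (η v) * m' v) / 2 = sg (η v) * (m v - m' v) / 2 by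
    ring, abs_div, abs_mul, abs_sg, abs_two]
  linarith [abs_nonneg (m v - m' v)]

omit [DecidableEq V] in
lemma bd_tst {Ω : Type*} [MeasurableSpace Ω] (η : V → Bool) (S : Finset V) {m : Ω → V → ℝ}
    (h : ∀ v, Bd fun x => m x v) : Bd fun x => tst η S (m x) :=
  Bd.prod fun v _ => ((Bd.const 1).add ((h v).cmul _)).divc 2

lemma Est.qq_le {K : Type*} {A : Set K} {w : (K → ℝ) → Bool → ℝ} {τ : ℝ} (h : Est A w τ)
    (hp : ∀ x s, 0 < w x s) : qq w ≤ 1 := by
  rw [← h.int_av]
  exact ((Bd.bav h.bd).mul ((Bd.bmg h.bd hp).pow 2)).mono (Bd.bav h.bd) _ fun x =>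
    mul_le_of_le_one_right (av_pos (hp x)).le (mg_sq_lt (hp x)).le

lemma Est.int_tst {K : Type*} {A : Set K} {w : (K → ℝ) → Bool → ℝ} {τ : ℝ} (h : Est A w τ)
    (hp : ∀ x s, 0 < w x s) (e s : Bool) :
    ∫ x, w x s * ((1 + sg e * mg (w x)) / 2) ∂PI K = (1 + sg e * sg s * qq w) / 2 := by
  have ba := Bd.bav h.bd
  have bm := Bd.bmg h.bd hp
  have z : ∫ x, av (w x) * mg (w x) ∂PI K = 0 := by
    have := int_avmg h.bd hp (Bd.const 1) (PI K)
    simpa only [mul_one, h.one, sub_self, zero_div] using this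
  have : ∀ x, w x s * ((1 + sg e * mg (w x)) / 2) = (w x s + sg e * (av (w x) * mg (w x)) +
      sg e * sg s * (av (w x) * mg (w x) ^ 2)) / 2 := fun x => by
    linear_combination (sg e * mg (w x) / 2) * eq_av_mg (hp x) s
  simp_rw [this]
  rw [integral_div, ((h.bd s).add ((ba.mul bm).cmul _)).iadd ((ba.mul (bm.pow 2)).cmul _),
    (h.bd s).iadd ((ba.mul bm).cmul _), integral_const_mul, integral_const_mul, z, h.one]
  unfold qq; ring

/-- The planted expectation of the test function. -/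
lemma GW.tst_le {b : ℕ} (hG : Reg G b) {θ : ℝ} (h0 : 0 ≤ θ) (h1 : θ ≤ 3 / 4) {M τ : ℝ}
    {w : (ℕ × V → ℝ) → V → Bool → ℝ} (h : GW M τ w) (t0 : 0 ≤ τ) {ζ : ℝ} (hζ : 0 < ζ)
    (hτ : 1 / (1 + τ) ≤ ζ ^ 2) (η : V → Bool) {S Λ : Finset V} (hS : S ⊆ Λ) (o : V) :
    |∫ x, av (B G θ (res Λ (w x)) o o) * tst η S (mm G θ (res Λ (w x))) ∂PI (ℕ × V) -
      av (B G θ (fun v s => if v ∈ S then (1 + sg (η v) * sg s * qq fun x => w x v) / 2 else 1)
        o o)| ≤ S.card * ζ := by
  have W := h.sw t0 Λ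
  have pos := fun x => (h.adm x).pos h.one
  have bZ := W.rw.bd_av hG h0 h1 (ok_self o)
  have bm := bd_mm hG h0 h1 W.rw
  have bg : ∀ v, Bd fun x => mg (w x v) := fun v => Bd.bmg (h.est v).bd fun x => pos x v
  have Z0 := fun x => (av_pos (W.rw.B_pos hG h0 h1 (ok_self o) x)).le
  have e1 := (int_B hG.tree θ (Λ := Λ) (w := fun x v s => res Λ (w x) v s *
    if v ∈ S then (1 + sg (η v) * mg (w x v)) / 2 else 1) (fun x v hv => by
      funext s; beta_reduce; rw [res_supp _ _ v hv, if_neg fun h => hv (hS h), mul_one])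
    (fun v s => (W.rw.bd_w v s).mul (by
      split_ifs
      · exact ((Bd.const 1).add ((bg v).cmul _)).divc 2
      · exact Bd.const 1))
    (fun v => dep₂ (W.est v).dep (h.est v).dep fun f g s =>
      f s * if v ∈ S then (1 + sg (η v) * mg g) / 2 else 1) (ok_self o))
  have e2 : (fun v s => ∫ x, res Λ (w x) v s *
      (if v ∈ S then (1 + sg (η v) * mg (w x v)) / 2 else 1) ∂PI (ℕ × V)) =
      fun v s => if v ∈ S then (1 + sg (η v) * sg s * qq fun x => w x v) / 2 else 1 := by
    funext v s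
    split_ifs with hv
    · simp only [res_of_mem (hS hv)]
      exact (h.est v).int_tst (fun x => pos x v) _ _
    · simp only [mul_one]; exact (W.est v).one s
  rw [e2] at e1
  have e3 : ∫ x, av (B G θ (res Λ (w x)) o o) * tst η S (fun v => mg (w x v)) ∂PI (ℕ × V) =
      av (B G θ (fun v s => if v ∈ S then (1 + sg (η v) * sg s * qq fun x => w x v) / 2 else 1)
        o o) := by
    unfold tst
    simp only [fun x => (Z_scale hG.tree θ (res_supp Λ (w x))
      (fun v => (1 + sg (η v) * mg (w x v)) / 2) o S hS).symm]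
    unfold av
    rw [integral_div, (e1.1 true).iadd (e1.1 false), e1.2, e1.2]
  rw [← e3, ← (bZ.mul (bd_tst η S bm)).isub (bZ.mul (bd_tst η S bg))]
  refine abs_integral_le_integral_abs.trans ?_
  have bs : ∀ v ∈ S, Bd fun x => av (B G θ (res Λ (w x)) o o) *
      |mm G θ (res Λ (w x)) v - mg (w x v)| := fun v _ => bZ.mul ((bm v).sub (bg v)).abs
  refine (((bZ.mul (bd_tst η S bm)).sub (bZ.mul (bd_tst η S bg))).abs.mono (Bd.sum bs) _
    fun x => ?_).trans ?_
  · rw [← mul_sub, abs_mul, abs_of_nonneg (Z0 x), ← Finset.mul_sum]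
    exact mul_le_mul_of_nonneg_left (tst_lip η S (fun v => W.rw.abs_mg_one hG h0 h1 (ok_self v) x)
      fun v => (abs_mg_lt (pos x v)).le) (Z0 x)
  rw [integral_finsetSum _ fun v hv => (bs v hv).int _, ← nsmul_eq_mul]
  refine Finset.sum_le_card_nsmul _ _ _ fun v hv => (le_abs_self _).trans ?_
  refine wabs_le _ bZ ((bm v).sub (bg v)).abs Z0 (W.est0 hG h0 h1 (ok_self o)).int_av hζ ?_
  have eB : ∀ x, B G θ (res {v} (w x)) v v = w x v := by
    intro x
    funext s
    rw [B_rec hG.tree (res_supp _ _) (ok_self v), Finset.prod_eq_one, mul_one,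
      res_of_mem (Finset.mem_singleton_self v)]
    intro c hc
    rw [B_one hG.tree (res_supp _ _) (ok_of_ch hc) (by
      simpa using not_mem_H_tail hG.tree (adj_of_ch hc)), Pk_one]
  have n := h.nest_sq hG h0 h1 t0 (Finset.singleton_subset_iff.2 (hS hv)) o v
  have q1 := (W.est0 hG h0 h1 (ok_self v)).qq_le (W.rw.B_pos hG h0 h1 (ok_self v))
  have q2 := (h.est v).qq_ge (fun x => pos x v) t0
  simp only [mm, Q, eB] at n
  simp only [sq_abs, mm]
  rw [n]
  have : τ / (1 + τ) = 1 - 1 / (1 + τ) := by field_simp; ring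
  linarith

end Crest.Agent.Ising
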