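import Crest.Agent.Ising.Main
import Crest.Agent.Ising.Weight

/-!
The factor map.
-/

set_option maxHeartbeats 400000

open MeasureTheory Set Filter Topology SimpleGraph
open Crest.Agent.FIID Crest.ProbabilityR.TreeIsing

namespace Crest.Agent.Ising

lemma ae_summable {Ω : Type*} [MeasurableSpace Ω] (μ : Measure Ω) [IsFiniteMeasure μ]
    {f : ℕ → Ω → ℝ} (hf : ∀ n, Bd (f n)) {c : ℝ} (h : ∀ n, ∫ x, |f n x| ∂μ ≤ c * (1 / 2) ^ n) :
    ∀ᵐ x ∂μ, Summable fun n => ‖f n x‖ := by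
  refine summable_norm_of_tsum_eLpNorm_ne_top (p := 1) le_rfl
    (fun n => (hf n).meas.aestronglyMeasurable) ?_
  have s : Summable fun n : ℕ => c * (1 / 2 : ℝ) ^ n := summable_geometric_two.mul_left c
  refine ne_top_of_le_ne_top (s.tsum_ofReal_ne_top) (ENNReal.tsum_le_tsum fun n => ?_)
  rw [eLpNorm_one_eq_lintegral_enorm, ← ofReal_integral_norm_eq_lintegral_enorm ((hf n).int μ)]
  exact ENNReal.ofReal_le_ofReal (h n)

lemma tendsto_sign {u : ℕ → ℝ} (h1 : Summable fun n => ‖u (n + 1) - u n‖)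
    (h2 : Summable fun n => ‖1 - u n ^ 2‖) :
    Tendsto u atTop (𝓝 (sg (decide (0 < limsup u atTop)))) := by
  obtain ⟨l, hl⟩ := cauchySeq_tendsto_of_complete (cauchySeq_of_summable_dist (f := u)
    (by simpa only [dist_eq_norm, norm_sub_rev] using h1))
  have e := tendsto_nhds_unique ((hl.pow 2).const_sub 1) h2.of_norm.tendsto_atTop_zero
  rw [hl.limsup_eq]
  convert hl using 2
  by_cases h : 0 < l
  · simp only [h, decide_true, sg, if_true]; nlinarith
  · simp only [h, decide_false, sg, Bool.false_eq_true, if_false]; nlinarith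

variable {V : Type*} [DecidableEq V] {G : SimpleGraph V} [G.LocallyFinite]

lemma Bnd.round {θ θ' x : ℝ} {r ρ : ℕ} (h : Bnd G θ θ' r (1 / 2) ρ x) : Bnd G θ θ' (r + 1) 0 ρ x := by
  simpa only [Bnd, ff, St_round] using h

/-- The number of rounds. -/
def rn (n : ℕ) : ℕ := 2 ^ 48 * 4 ^ n + 1

lemma gw_rn (n : ℕ) : GW (V := V) (2 ^ (rn n + 1)) (4 ^ n) (W0 (rn n) 0) := by
  refine (gw_W0 (rn n) le_rfl (by norm_num)).mono (by positivity) ?_
  unfold rn
  push_cast
  linarith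

lemma four_pow (n : ℕ) : 1 / (1 + (4 : ℝ) ^ n) ≤ ((1 / 2) ^ n) ^ 2 := by
  rw [← pow_mul, mul_comm, pow_mul, show ((1 / 2 : ℝ) ^ 2) = 1 / 4 by norm_num, one_div_pow]
  exact one_div_le_one_div_of_le (by positivity) (by linarith)

variable {b : ℕ} (hG : Reg G b)
include hG

lemma exists_theta {θ₀ : ℝ} (h0 : 0 ≤ θ₀) (h1 : θ₀ ≤ 3 / 4) (hb : b * θ₀ ^ 2 ≤ 1) :
    ∃ θ : ℕ → ℝ, (∀ n, 0 ≤ θ n ∧ θ n ≤ 3 / 4 ∧ b * θ n ^ 2 < 1) ∧ Tendsto θ atTop (𝓝 θ₀) ∧
      ∀ n, ∃ ρ, Bnd G (θ n) (θ (n + 1)) (rn n) 0 ρ (((1 / 2) ^ n) ^ 2) := by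
  rcases hb.lt_or_eq with hb | hb
  · refine ⟨fun _ => θ₀, fun _ => ⟨h0, h1, hb⟩, tendsto_const_nhds, fun n => ?_⟩
    obtain ⟨ρ, h⟩ := locality hG h0 h1 hb (2 ^ 48 * 4 ^ n) (η := ((1 / 2) ^ n) ^ 2) (by positivity)
    exact ⟨ρ, h.round⟩
  choose η η0 hη using fun n : ℕ =>
    cauchy hG (2 ^ 48 * 4 ^ n) (((1 / 2) ^ n) ^ 2 / 2) (by positivity)
  set d : ℕ → ℝ := fun n => min (η n) (min (η (n - 1)) (1 / ((n : ℝ) + 1))) / 2 with hd
  have d0 : ∀ n, 0 < d n := fun n => half_pos (lt_min (η0 _) (lt_min (η0 _) (by positivity)))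
  have d1 : ∀ n, 2 * d n ≤ η n := fun n => by
    simp only [hd]; linarith [min_le_left (η n) (min (η (n - 1)) (1 / ((n : ℝ) + 1)))]
  have d2 : ∀ n, 2 * d (n + 1) ≤ η n := fun n => by
    simp only [hd]
    have : min (η (n + 1)) (min (η (n + 1 - 1)) (1 / (((n + 1 : ℕ) : ℝ) + 1))) ≤ η n :=
      (min_le_right _ _).trans (min_le_left _ _)
    linarith
  have d3 : ∀ n, 2 * d n ≤ 1 / ((n : ℝ) + 1) := fun n => by
    simp only [hd]
    linarith [(min_le_right (η n) _).trans (min_le_right (η (n - 1)) (1 / ((n : ℝ) + 1)))]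
  have d4 : ∀ n, d n ≤ 1 / 2 := fun n => by
    have : 1 / ((n : ℝ) + 1) ≤ 1 := by
      rw [div_le_one (by positivity)]; linarith [(Nat.cast_nonneg n : (0 : ℝ) ≤ n)]
    linarith [d3 n]
  have nc : ∀ n e, 2 * d n ≤ e → NearC b e (θ₀ * (1 - d n)) := fun n e he => by
    have : b * (θ₀ * (1 - d n)) ^ 2 = (1 - d n) ^ 2 := by rw [mul_pow, ← mul_assoc, hb, one_mul]
    refine ⟨mul_nonneg h0 (by linarith [d4 n]), by nlinarith [d0 n], ?_, ?_⟩ <;> rw [this] <;>
      nlinarith [d0 n, d4 n]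
  refine ⟨fun n => θ₀ * (1 - d n), fun n => ⟨(nc n _ le_rfl).h0, (nc n _ le_rfl).h1,
    (nc n _ le_rfl).lt⟩, ?_, fun n => ?_⟩
  · have : Tendsto d atTop (𝓝 0) := squeeze_zero (fun n => (d0 n).le)
      (fun n => by linarith [d3 n, d0 n]) tendsto_one_div_add_atTop_nhds_zero_nat
    simpa using (this.const_sub 1).const_mul θ₀
  · have a := nc n _ (d1 n)
    have a' := nc (n + 1) _ (d2 n)
    obtain ⟨ρ, h⟩ := exists_bnd hG a.h0 a.h1 a'.h0 a'.h1 ((hη n _ _ a a' (by
      rw [abs_le]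
      constructor <;> nlinarith [d0 n, d0 (n + 1), d1 n, d2 n])).trans_lt
        (half_lt_self (by positivity)))
    exact ⟨ρ, h.round⟩

lemma q_root {θ : ℝ} (h0 : 0 ≤ θ) (h1 : θ ≤ 3 / 4) (n : ℕ) {Λ : Finset V} {v : V} (hv : v ∈ Λ) :
    1 - ∫ ω, mm G θ (St G θ Λ (rn n) 0 ω) v ^ 2 ∂PI (ℕ × V) ≤ ((1 / 2) ^ n) ^ 2 := by
  rw [exact_law hG h0 h1 v _ 0 (F := fun w => mm G θ w v ^ 2)
    ((bd_mm hG h0 h1 (rw_cw _ (one_le_M _)) v).pow 2)]
  have W := (gw_rn n).sw (by positivity) Λ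
  have q := W.Q_ge hG h0 h1 (ok_self v) hv (S := 4 ^ n) (by positivity) (le_add_of_nonneg_right
    (Finset.sum_nonneg fun c hc => mul_nonneg (sq_nonneg _) (W.Q_nonneg hG h0 h1 (ok_of_ch hc))))
  have e : (4 : ℝ) ^ n / (1 + 4 ^ n) = 1 - 1 / (1 + 4 ^ n) := by field_simp; ring
  have : Q G θ (fun x => res Λ (W0 (rn n) 0 x)) v v = ∫ ω, av (B G θ (R0 Λ (rn n) 0 ω) v v) *
    mm G θ (R0 Λ (rn n) 0 ω) v ^ 2 ∂PI (ℕ × V) := rfl
  linarith [four_pow n]

theorem exists_factor {θ₀ : ℝ} (h0 : 0 ≤ θ₀) (h1 : θ₀ ≤ 3 / 4) (hb : b * θ₀ ^ 2 ≤ 1) :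
    ∃ Ψ : (ℕ × V → ℝ) → V → Bool, Measurable Ψ ∧ (∀ (g : G ≃g G) ω, Ψ (rl g ω) = Ψ ω ∘ g) ∧
      ∀ (S : Finset V) (η : V → Bool), (G.induce (S : Set V)).Connected →
        (PI (ℕ × V)).map Ψ {σ | ∀ v ∈ S, σ v = η v} = ENNReal.ofReal (isingWeight G θ₀ S η) := by
  have := countable_V hG.tree
  obtain ⟨θ, hθ, tθ, hρ⟩ := exists_theta hG h0 h1 hb
  choose ρ hρ using hρ
  choose ρ' hρ' using fun n : ℕ => locality hG (hθ n).1 (hθ n).2.1 (hθ n).2.2 (2 ^ 48 * 4 ^ n)
    (η := ((1 / 2) ^ n) ^ 2) (by positivity)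
  set R : ℕ → ℕ := fun n => ρ n + ρ (n - 1) + ρ' n with hR
  set M : ℕ → V → (ℕ × V → ℝ) → ℝ := fun n v ω =>
    mm G (θ n) (St G (θ n) (ball G v (R n)) (rn n) 0 ω) v with hM
  have bm : ∀ n Λ r v, Bd fun ω => mm G (θ n) (St G (θ n) Λ r 0 ω) v := fun n Λ r v =>
    bd_mm hG (hθ n).1 (hθ n).2.1 (rw_St hG.tree _ _ _ _) v
  have bM : ∀ n v, Bd (M n v) := fun n v => bm n _ _ v
  have am : ∀ n Λ ω v, |mm G (θ n) (St G (θ n) Λ (rn n) 0 ω) v| ≤ 1 := fun n Λ ω v =>
    (rw_St hG.tree _ _ _ _).abs_mg_one hG (hθ n).1 (hθ n).2.1 (ok_self v) ω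
  have self : ∀ (v : V) n, v ∈ ball G v n := fun v n => (mem_ball hG.tree).2 (by simp)
  set Ψ : (ℕ × V → ℝ) → V → Bool := fun ω v => decide (0 < limsup (fun n => M n v ω) atTop) with hΨ
  have mΨ : Measurable Ψ := by
    refine measurable_pi_iff.2 fun v => measurable_to_bool ?_
    have : (fun ω => Ψ ω v) ⁻¹' {true} = {ω | 0 < limsup (fun n => M n v ω) atTop} := by
      ext ω; simp [hΨ]
    rw [this]
    exact measurableSet_lt measurable_const (Measurable.limsup fun n => (bM n v).meas)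
  refine ⟨Ψ, mΨ, fun g ω => ?_, fun S η hS => ?_⟩
  · funext v
    have : ∀ n, M n v (rl g ω) = M n (g v) ω := by
      intro n
      have := St_map (θ := θ n) (Λ := ball G v (R n)) g (rn n) 0 ω
      rw [← ball_map hG.tree] at this
      exact (congrArg (fun w => mm G (θ n) w v) this).trans (congrArg mg (B_map g _ _ v v))
    simp only [hΨ, this, Function.comp]
  have conv : ∀ v, ∀ᵐ ω ∂PI (ℕ × V), Tendsto (fun n => M n v ω) atTop (𝓝 (sg (Ψ ω v))) := by
    intro v
    have a1 := ae_summable (PI (ℕ × V)) (fun n => (bM (n + 1) v).sub (bM n v)) (c := 2) fun n => by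
      refine ((bM (n + 1) v).sub (bM n v)).abs_int_le _ (by positivity) ?_
      have c := (cross (Λ := ball G v (R (n + 1))) hG (hθ (n + 1)).1 (hθ (n + 1)).2.1 v
        (r := rn n) (r' := rn (n + 1)) (by unfold rn; gcongr <;> omega)).trans
        (q_root hG (hθ (n + 1)).1 (hθ (n + 1)).2.1 n (self v _))
      have f := hρ n v (ball G v (R n)) (ball G v (R (n + 1)))
        (ball_sub hG.tree (by simp [hR]; omega)) (ball_sub hG.tree (by simp [hR]; omega))
      have b1 := ((bM (n + 1) v).sub (bm (n + 1) (ball G v (R (n + 1))) (rn n) v)).pow 2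
      have b2 := ((bM n v).sub (bm (n + 1) (ball G v (R (n + 1))) (rn n) v)).pow 2
      have := (((bM (n + 1) v).sub (bM n v)).pow 2).mono ((b1.add b2).cmul 2) (PI (ℕ × V))
        fun ω => by
          nlinarith [sq_nonneg (M (n + 1) v ω + M n v ω - 2 * mm G (θ (n + 1))
            (St G (θ (n + 1)) (ball G v (R (n + 1))) (rn n) 0 ω) v)]
      rw [integral_const_mul, b1.iadd b2] at this
      unfold ff at f
      simp only [hM] at this ⊢
      linarith
    have a2 := ae_summable (PI (ℕ × V)) (fun n => (Bd.const 1).sub ((bM n v).pow 2)) (c := 1)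
      fun n => by
        have : ∀ ω, |1 - M n v ω ^ 2| = 1 - M n v ω ^ 2 := fun ω => abs_of_nonneg (by
          have := (rw_St hG.tree (θ n) (ball G v (R n)) (rn n) 0).mm_sq hG (hθ n).1 (hθ n).2.1 ω v
          simp only [hM]
          linarith)
        simp only [this]
        rw [(Bd.const 1).isub ((bM n v).pow 2), iconst]
        have p : ((1 / 2 : ℝ) ^ n) ≤ 1 := pow_le_one₀ (by norm_num) (by norm_num)
        have p0 : (0 : ℝ) ≤ (1 / 2) ^ n := by positivity
        have := q_root hG (hθ n).1 (hθ n).2.1 n (self v (R n))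
        simp only [hM]
        nlinarith
    filter_upwards [a1, a2] with ω h1 h2 using tendsto_sign h1 h2
  have t1 : Tendsto (fun n => ∫ ω, tst η S (fun v => M n v ω) ∂PI (ℕ × V)) atTop
      (𝓝 (∫ ω, tst η S (fun v => sg (Ψ ω v)) ∂PI (ℕ × V))) := by
    refine tendsto_integral_of_dominated_convergence (fun _ => 1)
      (fun n => (bd_tst η S (bM n)).meas.aestronglyMeasurable) (integrable_const _)
      (fun n => Eventually.of_forall fun ω => ?_) ?_
    · unfold tst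
      rw [Real.norm_eq_abs, Finset.abs_prod]
      refine Finset.prod_le_one (fun _ _ => abs_nonneg _) fun v _ => ?_
      have := abs_le.1 (abs_mul_le (abs_sg (η v)).le (am n (ball G v (R n)) ω v))
      rw [abs_le]; constructor <;> linarith [this.1, this.2]
    · filter_upwards [ae_all_iff.2 conv] with ω h
      exact tendsto_finset_prod _ fun v _ => (((h v).const_mul _).const_add 1).div_const 2
  obtain ⟨⟨o, ho⟩⟩ := hS.nonempty
  set D := S.sup (fun x => G.dist x o) + 1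
  have hD := lt_sup (G := G) S o
  set wh : ℕ → V → Bool → ℝ := fun n v s =>
    if v ∈ S then (1 + sg (η v) * sg s * qq fun x => W0 (rn n) 0 x v) / 2 else 1 with hwh
  have half : Tendsto (fun n : ℕ => (1 / 2 : ℝ) ^ n) atTop (𝓝 0) :=
    tendsto_pow_atTop_nhds_zero_of_lt_one (by norm_num) (by norm_num)
  have t2 : Tendsto (fun n => av (B G (θ n) (wh n) o o)) atTop (𝓝 (isingWeight G θ₀ S η)) := by
    rw [← Z_ind hG.tree θ₀ η (S.card - 1) S (by
      have := Finset.card_pos.2 ⟨o, ho⟩; omega) ho fun x hx hne => parent_mem hG.tree hS ho hx hne]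
    refine tendsto_Z hG.tree tθ (fun n v hv => by funext s; simp [hwh, hv]) (ind_supp η S)
      (fun v s => ?_) o
    by_cases hv : v ∈ S
    · have q : Tendsto (fun n => qq fun x => W0 (V := V) (rn n) 0 x v) atTop (𝓝 1) := by
        have gw := gw_rn (V := V)
        have h2 := (half.pow 2).const_sub 1
        rw [zero_pow two_ne_zero, sub_zero] at h2
        refine tendsto_of_tendsto_of_tendsto_of_le_of_le h2 tendsto_const_nhds (fun n => ?_)
          fun n => ((gw n).est v).qq_le fun x => ((gw n).adm x).pos (gw n).one v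
        have := ((gw n).est v).qq_ge (fun x => ((gw n).adm x).pos (gw n).one v)
          (by positivity)
        have e : (4 : ℝ) ^ n / (1 + 4 ^ n) = 1 - 1 / (1 + 4 ^ n) := by field_simp; ring
        beta_reduce
        linarith [four_pow n]
      simp only [hwh, ind, if_pos hv]
      convert ((q.const_mul (sg (η v) * sg s)).const_add 1).div_const 2 using 2
      cases η v <;> cases s <;> simp [sg]
    · simp only [hwh, ind, if_neg hv]; exact tendsto_const_nhds
  have t3 : ∀ n, |∫ ω, tst η S (fun v => M n v ω) ∂PI (ℕ × V) - av (B G (θ n) (wh n) o o)| ≤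
      2 * S.card * (1 / 2) ^ n := by
    intro n
    have s1 : ∀ v ∈ S, ball G v (R n) ⊆ ball G o (R n + D) := fun v hv =>
      ball_sub hG.tree (by have := hD v hv; omega)
    have a1 := (gw_rn n).tst_le hG (hθ n).1 (hθ n).2.1 (by positivity) (by positivity) (four_pow n)
      η (S := S) (Λ := ball G o (R n + D)) (fun v hv => s1 v hv (self v _)) o
    have e := exact_law (Λ := ball G o (R n + D)) hG (hθ n).1 (hθ n).2.1 o (rn n) 0
      (F := fun w => tst η S (mm G (θ n) w))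
      (bd_tst η S (bd_mm hG (hθ n).1 (hθ n).2.1 (rw_cw _ (one_le_M _))))
    have b1 := bd_tst η S (bM n)
    have b2 := bd_tst η S (bm n (ball G o (R n + D)) (rn n))
    have b3 := fun v => (bM n v).sub (bm n (ball G o (R n + D)) (rn n) v)
    have a2 : |∫ ω, tst η S (fun v => M n v ω) ∂PI (ℕ × V) - ∫ ω, tst η S (mm G (θ n)
        (St G (θ n) (ball G o (R n + D)) (rn n) 0 ω)) ∂PI (ℕ × V)| ≤ S.card * (1 / 2) ^ n := by
      rw [← b1.isub b2]
      refine abs_integral_le_integral_abs.trans (((b1.sub b2).abs.mono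
        (Bd.sum fun v _ => (b3 v).abs) _ fun ω => tst_lip η S (fun v => am n _ ω v)
          (am n _ ω)).trans ?_)
      rw [integral_finsetSum _ fun v _ => (b3 v).abs.int _, ← nsmul_eq_mul]
      refine Finset.sum_le_card_nsmul _ _ _ fun v hv => (b3 v).abs_int_le _ (by positivity) ?_
      have s2 : ball G v (ρ' n) ⊆ ball G v (R n) := ball_sub hG.tree (by simp [hR])
      exact (hρ' n).round v _ _ s2 (s2.trans (s1 v hv))
    rw [e] at a2
    exact (abs_sub_le _ _ _).trans ((add_le_add a2 a1).trans (le_of_eq (by ring)))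
  have t4 : Tendsto (fun n => ∫ ω, tst η S (fun v => M n v ω) ∂PI (ℕ × V) -
      av (B G (θ n) (wh n) o o)) atTop (𝓝 0) :=
    squeeze_zero_norm t3 (by simpa using half.const_mul (2 * (S.card : ℝ)))
  have t5 := tendsto_nhds_unique (t1.sub t2) t4
  have hE : MeasurableSet {σ : V → Bool | ∀ v ∈ S, σ v = η v} := by
    have : {σ : V → Bool | ∀ v ∈ S, σ v = η v} = ⋂ v ∈ S, {σ | σ v = η v} := by ext; simp
    rw [this]
    exact S.measurableSet_biInter fun v _ => measurable_pi_apply v (measurableSet_singleton _)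
  rw [Measure.map_apply mΨ hE, ← sub_eq_zero.1 t5, ← ofReal_measureReal,
    ← integral_indicator_one (mΨ hE)]
  congr 2
  funext ω
  unfold tst
  by_cases h : ∀ v ∈ S, Ψ ω v = η v
  · rw [indicator_of_mem (show ω ∈ Ψ ⁻¹' {σ | ∀ v ∈ S, σ v = η v} from h)]
    refine (Finset.prod_eq_one fun v hv => ?_).symm
    beta_reduce
    rw [h v hv]
    cases η v <;> simp [sg]
  · rw [indicator_of_notMem (show ω ∉ Ψ ⁻¹' {σ | ∀ v ∈ S, σ v = η v} from h)]
    push Not at h
    obtain ⟨v, hv, hne⟩ := h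
    refine (Finset.prod_eq_zero hv ?_).symm
    beta_reduce
    revert hne
    cases Ψ ω v <;> cases η v <;> simp [sg]

end Crest.Agent.Ising
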