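import Crest.Agent.Ising.Static

/-!
Nested volumes and the dependence of the mean edge response on the parameter.
-/

set_option maxHeartbeats 400000

open MeasureTheory Set Filter Topology SimpleGraph
open Crest.Agent.FIID

namespace Crest.Agent.Ising

lemma wabs_le {Ω : Type*} [MeasurableSpace Ω] (μ : Measure Ω) [IsFiniteMeasure μ] {Z D : Ω → ℝ}
    (hZ : Bd Z) (hD : Bd D) (Z0 : ∀ x, 0 ≤ Z x) (Z1 : ∫ x, Z x ∂μ = 1) {ζ : ℝ} (hζ : 0 < ζ)
    (h : ∫ x, Z x * D x ^ 2 ∂μ ≤ ζ ^ 2) : |∫ x, Z x * D x ∂μ| ≤ ζ := by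
  refine (abs_integral_le_integral_abs).trans ?_
  have := (hZ.mul hD).abs.mono (((hZ.mul (hD.pow 2)).divc (2 * ζ)).add (hZ.cmul (ζ / 2))) μ
    fun x => by
      rw [abs_mul, abs_of_nonneg (Z0 x), ← sq_abs (D x), div_add' _ _ _ (by positivity),
        le_div_iff₀ (by positivity)]
      nlinarith [mul_nonneg (Z0 x) (sq_nonneg (|D x| - ζ))]
  rw [((hZ.mul (hD.pow 2)).divc (2 * ζ)).iadd (hZ.cmul (ζ / 2)), integral_div, integral_const_mul,
    Z1] at this
  have h2 : (∫ x, Z x * D x ^ 2 ∂μ) / (2 * ζ) ≤ ζ / 2 := by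
    rw [div_le_iff₀ (by positivity)]; nlinarith
  linarith

lemma mg_cmp {f g : Bool → ℝ} {μ : ℝ} (hf : ∀ s, 0 < f s) (hg : ∀ s, 0 < g s) (hμ : 1 ≤ μ)
    (h1 : ∀ s, f s ≤ μ * g s) (h2 : ∀ s, g s ≤ μ * f s) :
    (mg f - mg g) ^ 2 ≤ 4 * (μ ^ 2 - 1) ^ 2 := by
  have key : ∀ {f g : Bool → ℝ}, (∀ s, 0 < f s) → (∀ s, 0 < g s) → (∀ s, f s ≤ μ * g s) →
      (∀ s, g s ≤ μ * f s) → mg f - mg g ≤ 2 * (μ ^ 2 - 1) := by
    intro f g hf hg h1 h2
    have a := hf true; have a' := hf false; have c := hg true; have c' := hg false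
    rw [mg_sub hg hf, div_le_iff₀ (by have := av_pos hf; have := av_pos hg; positivity)]
    unfold dt av
    have t := mul_le_mul (h1 true) (h2 false) c'.le (by positivity)
    have m : 0 ≤ μ ^ 2 - 1 := by nlinarith
    nlinarith [mul_nonneg m (mul_pos a c).le, mul_nonneg m (mul_pos a c').le,
      mul_nonneg m (mul_pos a' c').le]
  have a := key hf hg h1 h2
  have c := key hg hf h2 h1
  nlinarith

lemma av_cmp {f g : Bool → ℝ} {μ : ℝ} (hg : ∀ s, 0 < g s) (hμ : 1 ≤ μ)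
    (h1 : ∀ s, f s ≤ μ * g s) (h2 : ∀ s, g s ≤ μ * f s) : |av f - av g| ≤ (μ - 1) * av g := by
  have key : ∀ s, |f s - g s| ≤ (μ - 1) * g s := by
    intro s
    have a := hg s
    rw [abs_le]
    refine ⟨?_, by linarith [h1 s]⟩
    by_contra hc
    nlinarith [h2 s, mul_nonneg a.le (sq_nonneg (μ - 1))]
  have a := abs_le.1 (key true)
  have c := abs_le.1 (key false)
  unfold av
  rw [abs_le]
  constructor <;> linarith [a.1, a.2, c.1, c.2]

/-- Number of edges entering a truncated partition function. -/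
def NN (b : ℕ) : ℕ → ℕ
  | 0 => 0
  | n + 1 => (NN b n + 1) * (2 * b)

variable {V : Type*} [DecidableEq V] {G : SimpleGraph V} [G.LocallyFinite]

lemma Y_nonneg {θ : ℝ} (h0 : 0 ≤ θ) (h1 : θ ≤ 1) {w : V → Bool → ℝ} (hw : ∀ v s, 0 < w v s)
    (n : ℕ) : ∀ p u s, 0 < Y G θ w n p u s := by
  induction n with
  | zero => intro p u s; exact one_pos
  | succ n ih =>
    intro p u s
    exact mul_pos (hw u s) (Finset.prod_pos fun c _ => Pk_pos h0 h1 (ih u c) s)

lemma Y_cmp {b : ℕ} (hG : Reg G b) {θ θ' l : ℝ} (h0 : 0 ≤ θ) (h1 : θ ≤ 1) (h0' : 0 ≤ θ')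
    (h1' : θ' ≤ 1) (hl : 1 ≤ l) (l1 : 1 + θ ≤ l * (1 + θ')) (l2 : 1 - θ ≤ l * (1 - θ'))
    {w : V → Bool → ℝ} (hw : ∀ v s, 0 < w v s) (n : ℕ) :
    ∀ p u, Ok G p u → ∀ s, Y G θ w n p u s ≤ l ^ NN b n * Y G θ' w n p u s := by
  induction n with
  | zero => intro p u _ s; simp [Y, NN]
  | succ n ih =>
    intro p u hp s
    simp only [Y, NN]
    rw [mul_left_comm]
    refine mul_le_mul_of_nonneg_left ?_ (hw u s).le
    calc _ ≤ ∏ c ∈ ch G p u, l ^ (NN b n + 1) * Pk θ' (Y G θ' w n u c) s := by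
          refine Finset.prod_le_prod (fun c _ => (Pk_pos h0 h1 (Y_nonneg h0 h1 hw n u c) s).le)
            fun c hc => ?_
          have a1 := mul_le_mul l1 (ih u c (ok_of_ch hc) s) (Y_nonneg h0 h1 hw n u c s).le
            (by positivity)
          have a2 := mul_le_mul l2 (ih u c (ok_of_ch hc) (!s)) (Y_nonneg h0 h1 hw n u c _).le
            (mul_nonneg (by linarith) (by linarith))
          unfold Pk
          rw [pow_succ]
          linarith
      _ = (l ^ (NN b n + 1)) ^ (ch G p u).card * ∏ c ∈ ch G p u, Pk θ' (Y G θ' w n u c) s := by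
          rw [Finset.prod_mul_distrib, Finset.prod_const]
      _ ≤ _ := by
          rw [pow_mul]
          exact mul_le_mul_of_nonneg_right (pow_le_pow_right₀ (one_le_pow₀ hl) (hG.card_le hp))
            (Finset.prod_pos fun c _ => Pk_pos h0' h1' (Y_nonneg h0' h1' hw n u c) s).le

lemma B_cmp {b : ℕ} (hG : Reg G b) {θ θ' η : ℝ} (h0 : 0 ≤ θ) (h1 : θ ≤ 3 / 4) (h0' : 0 ≤ θ')
    (h1' : θ' ≤ 3 / 4) (hη : |θ - θ'| ≤ η) {w : V → Bool → ℝ} (hw : ∀ v s, 0 < w v s) {p a : V}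
    {N : ℕ} (hs : Supp w (ball G p N)) (ha : G.dist p a ≤ 1) (s : Bool) :
    B G θ w a a s ≤ (1 + 4 * η) ^ NN b (N + 2) * B G θ' w a a s := by
  have e : ∀ θ, B G θ w a a = Y G θ w (N + 2) a a := fun θ =>
    B_eq_Y hG.tree hs (ok_self a) fun x hx _ => by
      have := (mem_ball hG.tree).1 hx
      have := hG.tree.connected.dist_triangle (u := x) (v := p) (w := a)
      omega
  have η0 := (abs_nonneg _).trans hη
  rw [abs_le] at hη
  rw [e, e]
  exact Y_cmp hG h0 (by linarith) h0' (by linarith) (by linarith) (by nlinarith [hη.2])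
    (by nlinarith [hη.1]) hw _ a a (ok_self a) s

section Nest
variable {b : ℕ} (hG : Reg G b) {θ : ℝ} (h0 : 0 ≤ θ) (h1 : θ ≤ 3 / 4) {M τ : ℝ}
  {w : (ℕ × V → ℝ) → V → Bool → ℝ} (h : GW M τ w) (t0 : 0 ≤ τ)
include h

lemma GW.dep (Λ : Finset V) : DependsOn (fun x => res Λ (w x)) (co (Λ : Set V)) :=
  fun _ _ hxy => res_congr fun v hv => (h.est v).dep fun k hk =>
    hxy k (co_mono (singleton_subset_iff.2 hv) hk)

include hG h0 h1

lemma GW.upd {Λ : Finset V} {v : V} (hv : v ∉ Λ) (x : ℕ × V → ℝ) (a : V) :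
    M⁻¹ ≤ av (w x v) + (w x v true - w x v false) / 2 * mm G θ (res Λ (w x)) v ∧
    av (B G θ (res (insert v Λ) (w x)) a a) = av (B G θ (res Λ (w x)) a a) *
      (av (w x v) + (w x v true - w x v false) / 2 * mm G θ (res Λ (w x)) v) ∧
    mm G θ (res (insert v Λ) (w x)) a - mm G θ (res Λ (w x)) a = SG G θ (res Λ (w x)) a v *
      ((w x v true - w x v false) / 2 /
        (av (w x v) + (w x v true - w x v false) / 2 * mm G θ (res Λ (w x)) v)) := by
  have s1 : Supp (res Λ (w x)) (insert v Λ) := (res_supp _ _).mono (Finset.subset_insert _ _)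
  have s2 := res_supp (insert v Λ) (w x)
  have pos := ((h.adm x).res h.one Λ).pos h.one
  have e1 : ∀ s, res (insert v Λ) (w x) v s = res Λ (w x) v s * w x v s := by
    intro s; simp [res, hv]
  have e2 : ∀ y, y ≠ v → res (insert v Λ) (w x) y = res Λ (w x) y := by
    intro y hy; simp [res, hy]
  obtain ⟨g1, g2, g3⟩ := geo_spec hG.tree a v
  refine ⟨?_, Z_upd hG.tree h0 (by linarith) s1 s2 pos e1 e2 a, ?_⟩
  · have m := abs_le.1 (abs_mg_lt (B_pos hG.tree h0 (by linarith) s1 pos (ok_self v))).le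
    have a1 := (h.adm x v true).1
    have a2 := (h.adm x v false).1
    unfold av mm
    nlinarith [mul_nonneg (sub_nonneg.2 a1) (show 0 ≤ 1 + mg (B G θ (res Λ (w x)) v v) by
      linarith [m.1]), mul_nonneg (sub_nonneg.2 a2) (sub_nonneg.2 m.2)]
  · have := m_upd hG.tree h0 (by linarith) s1 s2 pos ((h.adm x).pos h.one v) e1 e2 g3 g2
    rw [g1] at this
    exact this

include t0

lemma GW.nest_step {Λ : Finset V} {v : V} (hv : v ∉ Λ) (a : V) {g : (ℕ × V → ℝ) → ℝ} (hg : Bd g)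
    (dg : DependsOn g (co (Λ : Set V))) :
    (∫ x, av (B G θ (res (insert v Λ) (w x)) a a) * g x ∂PI (ℕ × V) =
      ∫ x, av (B G θ (res Λ (w x)) a a) * g x ∂PI (ℕ × V)) ∧
    ∫ x, av (B G θ (res (insert v Λ) (w x)) a a) * (mm G θ (res (insert v Λ) (w x)) a * g x)
      ∂PI (ℕ × V) =
      ∫ x, av (B G θ (res Λ (w x)) a a) * (mm G θ (res Λ (w x)) a * g x) ∂PI (ℕ × V) := by
  have R := (h.sw t0 Λ).rw
  have R' := (h.sw t0 (insert v Λ)).rw
  have bZ := R.bd_av hG h0 h1 (ok_self a)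
  have bw := (h.est v).bd
  have bd : Bd fun x => (w x v true - w x v false) / 2 := ((bw true).sub (bw false)).divc 2
  have hd : Disjoint (co (Λ : Set V)) (co {v}) := co_disjoint (disjoint_singleton_right.2 hv)
  have z : ∀ F : (ℕ × V → ℝ) → ℝ, Bd F → DependsOn F (co (Λ : Set V)) →
      ∫ x, F x * ((w x v true - w x v false) / 2) ∂PI (ℕ × V) = 0 := by
    intro F hF dF
    rw [indep hF bd dF (dep_comp (h.est v).dep fun f => (f true - f false) / 2) hd, integral_div,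
      (bw true).isub (bw false), (h.est v).one, (h.est v).one]
    simp
  have k1 : ∀ g : (ℕ × V → ℝ) → ℝ, Bd g → DependsOn g (co (Λ : Set V)) →
      ∫ x, av (B G θ (res (insert v Λ) (w x)) a a) * g x ∂PI (ℕ × V) =
        ∫ x, av (B G θ (res Λ (w x)) a a) * g x ∂PI (ℕ × V) := by
    intro g hg dg
    have e : ∀ x, av (B G θ (res (insert v Λ) (w x)) a a) * g x =
        av (B G θ (res Λ (w x)) a a) * g x * av (w x v) + av (B G θ (res Λ (w x)) a a) *
          mm G θ (res Λ (w x)) v * g x * ((w x v true - w x v false) / 2) := by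
      intro x; rw [(h.upd hG h0 h1 hv x a).2.1]; ring
    simp only [e]
    have b2 := (bZ.mul (bd_mm hG h0 h1 R v)).mul hg
    rw [((bZ.mul hg).mul (Bd.bav bw)).iadd (b2.mul bd),
      z _ b2 (dep₂ (h.dep Λ) dg fun f y => av (B G θ f a a) * mm G θ f v * y),
      indep (bZ.mul hg) (Bd.bav bw) (dep₂ (h.dep Λ) dg fun f y => av (B G θ f a a) * y)
        (dep_comp (h.est v).dep av) hd, (h.est v).int_av]
    ring
  refine ⟨k1 g hg dg, ?_⟩
  have e : ∀ x, av (B G θ (res (insert v Λ) (w x)) a a) * (mm G θ (res (insert v Λ) (w x)) a * g x)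
      = av (B G θ (res (insert v Λ) (w x)) a a) * (mm G θ (res Λ (w x)) a * g x) +
        av (B G θ (res Λ (w x)) a a) * SG G θ (res Λ (w x)) a v * g x *
          ((w x v true - w x v false) / 2) := by
    intro x
    obtain ⟨u1, u2, u3⟩ := h.upd hG h0 h1 hv x a
    have p := (lt_of_lt_of_le (inv_pos.2 (lt_of_lt_of_le one_pos h.one)) u1).ne'
    rw [eq_add_of_sub_eq u3, u2]
    generalize av (w x v) + (w x v true - w x v false) / 2 * mm G θ (res Λ (w x)) v = D at p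
    generalize (w x v true - w x v false) / 2 = d
    field_simp
    ring
  simp only [e]
  have b1 := (bd_mm hG h0 h1 R a).mul hg
  have b2 := (bZ.mul (bd_SG hG h0 h1 R a v)).mul hg
  rw [((R'.bd_av hG h0 h1 (ok_self a)).mul b1).iadd (b2.mul bd),
    z _ b2 (dep₂ (h.dep Λ) dg fun f y => av (B G θ f a a) * SG G θ f a v * y),
    k1 _ b1 (dep₂ (h.dep Λ) dg fun f y => mm G θ f a * y), add_zero]

lemma GW.nest {Λ Λ' : Finset V} (hΛ : Λ ⊆ Λ') (a : V) {g : (ℕ × V → ℝ) → ℝ} (hg : Bd g)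
    (dg : DependsOn g (co (Λ : Set V))) :
    (∫ x, av (B G θ (res Λ' (w x)) a a) * g x ∂PI (ℕ × V) =
      ∫ x, av (B G θ (res Λ (w x)) a a) * g x ∂PI (ℕ × V)) ∧
    ∫ x, av (B G θ (res Λ' (w x)) a a) * (mm G θ (res Λ' (w x)) a * g x) ∂PI (ℕ × V) =
      ∫ x, av (B G θ (res Λ (w x)) a a) * (mm G θ (res Λ (w x)) a * g x) ∂PI (ℕ × V) := by
  rw [← Finset.sdiff_union_of_subset hΛ]
  induction Λ' \ Λ using Finset.induction_on with
  | empty => simp
  | insert v T _ ih =>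
    rw [Finset.insert_union]
    by_cases hv : v ∈ T ∪ Λ
    · rwa [Finset.insert_eq_of_mem hv]
    · have := h.nest_step hG h0 h1 t0 hv a hg
        (dg.mono (co_mono (Finset.coe_subset.2 Finset.subset_union_right)))
      exact ⟨this.1.trans ih.1, this.2.trans ih.2⟩

lemma GW.nest_sq {Λ Λ' : Finset V} (hΛ : Λ ⊆ Λ') (o a : V) :
    ∫ x, av (B G θ (res Λ' (w x)) o o) *
      (mm G θ (res Λ' (w x)) a - mm G θ (res Λ (w x)) a) ^ 2 ∂PI (ℕ × V) =
        Q G θ (fun x => res Λ' (w x)) a a - Q G θ (fun x => res Λ (w x)) a a := by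
  have R := (h.sw t0 Λ).rw
  have R' := (h.sw t0 Λ').rw
  have bZ := R'.bd_av hG h0 h1 (ok_self a)
  have m := bd_mm hG h0 h1 R a
  have m' := bd_mm hG h0 h1 R' a
  have e1 := (h.nest hG h0 h1 t0 hΛ a (m.pow 2) (dep_comp (h.dep Λ) fun f => mm G θ f a ^ 2)).1
  have e2 := (h.nest hG h0 h1 t0 hΛ a m (dep_comp (h.dep Λ) fun f => mm G θ f a)).2
  have e : ∀ x, av (B G θ (res Λ' (w x)) o o) *
      (mm G θ (res Λ' (w x)) a - mm G θ (res Λ (w x)) a) ^ 2 =
      av (B G θ (res Λ' (w x)) a a) * mm G θ (res Λ' (w x)) a ^ 2 -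
        2 * (av (B G θ (res Λ' (w x)) a a) * (mm G θ (res Λ' (w x)) a * mm G θ (res Λ (w x)) a)) +
          av (B G θ (res Λ' (w x)) a a) * mm G θ (res Λ (w x)) a ^ 2 := by
    intro x; rw [Z_eq hG.tree (res_supp _ _) o a]; ring
  simp only [e]
  rw [((bZ.mul (m'.pow 2)).sub ((bZ.mul (m'.mul m)).cmul 2)).iadd (bZ.mul (m.pow 2)),
    (bZ.mul (m'.pow 2)).isub ((bZ.mul (m'.mul m)).cmul 2), integral_const_mul, e1, e2]
  simp only [← sq]
  unfold Q qq mm
  ring

lemma GW.Q_step {Λ : Finset V} {v : V} (hv : v ∉ Λ) (a : V) :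
    Q G θ (fun x => res (insert v Λ) (w x)) a a ≤ Q G θ (fun x => res Λ (w x)) a a +
      M ^ 3 * ∫ x, av (B G θ (res Λ (w x)) a a) * SG G θ (res Λ (w x)) a v ^ 2 ∂PI (ℕ × V) := by
  have R := (h.sw t0 Λ).rw
  have R' := (h.sw t0 (insert v Λ)).rw
  rw [← sub_le_iff_le_add', ← h.nest_sq hG h0 h1 t0 (Finset.subset_insert v Λ) a a,
    ← integral_const_mul]
  refine ((R'.bd_av hG h0 h1 (ok_self a)).mul (((bd_mm hG h0 h1 R' a).sub
    (bd_mm hG h0 h1 R a)).pow 2)).mono (((R.bd_av hG h0 h1 (ok_self a)).mul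
      ((bd_SG hG h0 h1 R a v).pow 2)).cmul _) _ fun x => ?_
  obtain ⟨u1, u2, u3⟩ := h.upd hG h0 h1 hv x a
  have M0 : 0 < M := lt_of_lt_of_le one_pos h.one
  have p := lt_of_lt_of_le (inv_pos.2 M0) u1
  rw [u3, u2]
  have d1 : ((w x v true - w x v false) / 2) ^ 2 ≤ M ^ 2 := by
    have a1 := (h.adm x v true).2
    have a2 := (h.adm x v false).2
    have a3 := (h.adm x).pos h.one v true
    have a4 := (h.adm x).pos h.one v false
    exact sq_le_sq' (by linarith) (by linarith)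
  have Z0 := mul_nonneg (av_pos (R.B_pos hG h0 h1 (ok_self a) x)).le
    (sq_nonneg (SG G θ (res Λ (w x)) a v))
  set D := av (w x v) + (w x v true - w x v false) / 2 * mm G θ (res Λ (w x)) v
  set d := (w x v true - w x v false) / 2
  have d2 : d ^ 2 / D ≤ M ^ 3 := by
    rw [div_le_iff₀ p]
    have := mul_le_mul_of_nonneg_left u1 (pow_pos M0 3).le
    have e : M ^ 3 * M⁻¹ = M ^ 2 := by field_simp
    linarith
  calc _ = d ^ 2 / D * (av (B G θ (res Λ (w x)) a a) * SG G θ (res Λ (w x)) a v ^ 2) := by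
        field_simp
    _ ≤ _ := mul_le_mul_of_nonneg_right d2 Z0

omit t0 in
lemma GW.Q_level {a' : ℝ} {n₀ : ℕ} (hc : Crit b θ τ a' n₀) {p a : V} (ha : G.dist a p ≤ 1) (n : ℕ) :
    Q G θ (fun x => res (ball G p (n₀ + 1 + n + 1)) (w x)) a a ≤
      Q G θ (fun x => res (ball G p (n₀ + 1 + n)) (w x)) a a + 6 * b * M ^ 3 * rho b a' ^ n := by
  have t0 : 0 ≤ τ := (sq_nonneg _).trans hc.a2
  have r := rho_bound hG.two hc.a0 hc.a1
  have r0 : 0 ≤ rho b a' ^ n := pow_nonneg (by linarith [r.1]) _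
  have M0 : 0 < M := lt_of_lt_of_le one_pos h.one
  set j := n₀ + 1 + n with hj
  have key : ∀ T : Finset V, (∀ v ∈ T, G.dist v p = j + 1) →
      Q G θ (fun x => res (T ∪ ball G p j) (w x)) a a ≤ Q G θ (fun x => res (ball G p j) (w x)) a a
        + T.card * (M ^ 3 * ((θ ^ 2) ^ j * (3 * rho b a' ^ n))) := by
    intro T
    induction T using Finset.induction_on with
    | empty => simp
    | insert v T hv ih =>
      intro hT
      have hv1 := hT v (by simp)
      have hv2 : v ∉ T ∪ ball G p j := by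
        rw [Finset.mem_union, mem_ball hG.tree]
        rintro (h | h)
        · exact hv h
        · omega
      rw [Finset.insert_union, Finset.card_insert_of_notMem hv]
      refine (h.Q_step hG h0 h1 t0 hv2 a).trans ?_
      have i := ih fun v hv => hT v (by simp [hv])
      push_cast
      suffices ∫ x, av (B G θ (res (T ∪ ball G p j) (w x)) a a) *
          SG G θ (res (T ∪ ball G p j) (w x)) a v ^ 2 ∂PI (ℕ × V) ≤
            (θ ^ 2) ^ j * (3 * rho b a' ^ n) by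
        nlinarith [mul_le_mul_of_nonneg_left this (pow_pos M0 3).le]
      obtain ⟨g1, g2, g3⟩ := geo_spec hG.tree a v
      have tr := hG.tree.connected.dist_triangle (u := v) (v := a) (w := p)
      have S := h.sw t0 (T ∪ ball G p j)
      have d1 := g3.dist hG.tree (j := 1) (by omega)
      rw [g1] at d1
      have tr2 := hG.tree.connected.dist_triangle (u := geo G a v 1) (v := a) (w := p)
      have z := S.Z_PW hG h0 h1 hc a g3 (n := n) (by omega)
        (intD_ball hG.tree Finset.subset_union_right (by omega))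
      refine le_trans ?_ (mul_le_mul_of_nonneg_left z (by positivity))
      rw [← integral_const_mul]
      have g4 : NB G (geo G a v) n := by simpa using g3.shift 0 n (by omega)
      refine ((S.rw.bd_av hG h0 h1 (ok_self a)).mul ((bd_SG hG h0 h1 S.rw a v).pow 2)).mono
        (((S.rw.bd_av hG h0 h1 (ok_self a)).mul (S.rw.bd_PW hG h0 h1 g4)).cmul _) _ fun x => ?_
      rw [mul_left_comm]
      refine mul_le_mul_of_nonneg_left ?_ (av_pos (S.rw.B_pos hG h0 h1 (ok_self a) x)).le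
      have s0 := Sig_nonneg hG.tree h0 (by linarith) (S.rw.supp x) (S.rw.pos x) g3
      have s1 := Sig_le_fwd hG.tree h0 (by linarith) (S.rw.supp x) (S.rw.pos x) g3 (j := 0)
        (n := n) (by omega)
      simp only [zero_add] at s1
      have s2 := S.rw.PW_le hG h0 h1 g4 x
      have s3 := PW_nonneg (G := G) θ (res (T ∪ ball G p j) (w x)) (geo G a v) n
      have s4 : θ ^ G.dist v a ≤ θ ^ j := pow_le_pow_of_le_one h0 (by linarith) (by omega)
      have s5 := pow_le_pow_left₀ s0 (s1.trans (mul_le_mul_of_nonneg_right s4 s3)) 2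
      rw [← pow_mul, mul_comm 2, pow_mul]
      unfold SG
      nlinarith [mul_nonneg (sq_nonneg (θ ^ j)) (mul_nonneg s3 (sub_nonneg.2 s2))]
  have k := key ((ball G p (j + 1)).filter fun x => G.dist x p = j + 1) fun v hv =>
    (Finset.mem_filter.1 hv).2
  have e : ((ball G p (j + 1)).filter fun x => G.dist x p = j + 1) ∪ ball G p j =
      ball G p (j + 1) := by
    ext x
    simp only [Finset.mem_union, Finset.mem_filter, mem_ball hG.tree]
    omega
  rw [e] at k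
  refine k.trans (add_le_add le_rfl ?_)
  have c : (((ball G p (j + 1)).filter fun x => G.dist x p = j + 1).card : ℝ) ≤ 2 * b ^ (j + 1) := by
    exact_mod_cast card_level hG.tree hG.card hG.root _ p (j + 1)
  have c2 : (b * θ ^ 2) ^ j ≤ 1 := pow_le_one₀ (by positivity) hc.up
  calc _ ≤ 2 * b ^ (j + 1) * (M ^ 3 * ((θ ^ 2) ^ j * (3 * rho b a' ^ n))) :=
        mul_le_mul_of_nonneg_right c (by positivity)
    _ = 6 * b * M ^ 3 * rho b a' ^ n * (b * θ ^ 2) ^ j := by rw [mul_pow]; ring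
    _ ≤ _ := mul_le_of_le_one_right (by positivity) c2

omit t0 in
lemma GW.Q_tail {a' : ℝ} {n₀ : ℕ} (hc : Crit b θ τ a' n₀) {p a : V} (ha : G.dist a p ≤ 1)
    (n : ℕ) {R : ℕ} (hR : n₀ + 1 + n ≤ R) :
    Q G θ (fun x => res (ball G p R) (w x)) a a -
      Q G θ (fun x => res (ball G p (n₀ + 1 + n)) (w x)) a a ≤
        6 * b * M ^ 3 / (1 - rho b a') * rho b a' ^ n := by
  have r := rho_bound hG.two hc.a0 hc.a1
  have M0 : 0 < M := lt_of_lt_of_le one_pos h.one
  obtain ⟨m, rfl⟩ := Nat.exists_eq_add_of_le hR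
  have r1 : 0 < 1 - rho b a' := by linarith [r.2]
  have key : ∀ m, Q G θ (fun x => res (ball G p (n₀ + 1 + n + m)) (w x)) a a -
      Q G θ (fun x => res (ball G p (n₀ + 1 + n)) (w x)) a a ≤
        6 * b * M ^ 3 / (1 - rho b a') * (rho b a' ^ n - rho b a' ^ (n + m)) := by
    intro m
    induction m with
    | zero => simp
    | succ m ih =>
      have := h.Q_level hG h0 h1 hc ha (n + m)
      have e : 6 * b * M ^ 3 / (1 - rho b a') * (rho b a' ^ n - rho b a' ^ (n + (m + 1))) =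
          6 * b * M ^ 3 / (1 - rho b a') * (rho b a' ^ n - rho b a' ^ (n + m)) +
            6 * b * M ^ 3 * rho b a' ^ (n + m) := by
        field_simp; ring
      simp only [← add_assoc] at this e ⊢
      linarith
  refine (key m).trans (mul_le_mul_of_nonneg_left ?_ (by positivity))
  linarith [pow_nonneg (show 0 ≤ rho b a' by linarith [r.1]) (n + m)]

omit t0 in
lemma GW.E5a {a' : ℝ} {n₀ : ℕ} (hc : Crit b θ τ a' n₀) {p u : V} (hp : G.Adj p u)
    (n : ℕ) {R : ℕ} (hR : n₀ + 1 + n ≤ R) {ζ : ℝ} (hζ : 0 < ζ)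
    (hn : 8 * CD b M * (6 * b * M ^ 3 / (1 - rho b a') * rho b a' ^ n) ≤ ζ ^ 2) :
    |∫ x, av (B G θ (res (ball G p R) (w x)) p p) * lph G θ (res (ball G p R) (w x)) p u
      ∂PI (ℕ × V) - ∫ x, av (B G θ (res (ball G p (n₀ + 1 + n)) (w x)) p p) *
        lph G θ (res (ball G p (n₀ + 1 + n)) (w x)) p u ∂PI (ℕ × V)| ≤ ζ := by
  have t0 : 0 ≤ τ := (sq_nonneg _).trans hc.a2
  have S := h.sw t0 (ball G p (n₀ + 1 + n))
  have S' := h.sw t0 (ball G p R)
  have hs : ball G p (n₀ + 1 + n) ⊆ ball G p R := fun x hx =>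
    (mem_ball hG.tree).2 (((mem_ball hG.tree).1 hx).trans hR)
  have bZ := S'.rw.bd_av hG h0 h1 (ok_self p)
  have l : Bd fun x => lph G θ (res (ball G p (n₀ + 1 + n)) (w x)) p u :=
    S.rw.bd_lph hG h0 h1 (Or.inr hp)
  have l' : Bd fun x => lph G θ (res (ball G p R) (w x)) p u := S'.rw.bd_lph hG h0 h1 (Or.inr hp)
  rw [← (h.nest hG h0 h1 t0 hs p l (dep_comp (h.dep _) fun f => lph G θ f p u)).1,
    ← (bZ.mul l').isub (bZ.mul l)]
  simp only [← mul_sub]
  refine wabs_le _ bZ (l'.sub l) (fun x => (av_pos (S'.rw.B_pos hG h0 h1 (ok_self p) x)).le)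
    (S'.est0 hG h0 h1 (ok_self p)).int_av hζ (le_trans ?_ hn)
  have d := fun a => bZ.mul (((bd_mm hG h0 h1 S'.rw a).sub (bd_mm hG h0 h1 S.rw a)).pow 2)
  have := (bZ.mul ((l'.sub l).pow 2)).mono (((d u).add (d p)).cmul (4 * CD b M)) (PI (ℕ × V))
    fun x => by
      have := mul_le_mul_of_nonneg_left (S'.rw.lph_lip' hG h0 h1 h0 h1 S.rw x hp)
        (av_pos (S'.rw.B_pos hG h0 h1 (ok_self p) x)).le
      linarith
  rw [integral_const_mul, (d u).iadd (d p), h.nest_sq hG h0 h1 t0 hs, h.nest_sq hG h0 h1 t0 hs]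
    at this
  have q1 := h.Q_tail hG h0 h1 hc (a := u) (p := p) (by rw [dist_eq_one_iff_adj.2 hp.symm]) n hR
  have q2 := h.Q_tail hG h0 h1 hc (a := p) (p := p) (by simp) n hR
  have c := one_le_CD b h.one
  nlinarith [mul_le_mul_of_nonneg_left (add_le_add q1 q2) (show 0 ≤ 4 * CD b M by linarith)]

lemma GW.E5b {θ' η : ℝ} (h0' : 0 ≤ θ') (h1' : θ' ≤ 3 / 4) (hη : |θ - θ'| ≤ η) {p u : V}
    (hp : G.Adj p u) (N : ℕ) {ζ : ℝ} (hζ : 0 < ζ)
    (z1 : ((1 + 4 * η) ^ NN b (N + 2) - 1) / mar b M ≤ ζ)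
    (z2 : 4 * CD b M * (8 * (((1 + 4 * η) ^ NN b (N + 2)) ^ 2 - 1) ^ 2 + η ^ 2) ≤ ζ ^ 2) :
    |∫ x, av (B G θ (res (ball G p N) (w x)) p p) * lph G θ (res (ball G p N) (w x)) p u
      ∂PI (ℕ × V) - ∫ x, av (B G θ' (res (ball G p N) (w x)) p p) *
        lph G θ' (res (ball G p N) (w x)) p u ∂PI (ℕ × V)| ≤ 2 * ζ := by
  have S := h.sw t0 (ball G p N)
  set μ := (1 + 4 * η) ^ NN b (N + 2)
  have η0 := (abs_nonneg _).trans hη
  have μ1 : 1 ≤ μ := one_le_pow₀ (by linarith)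
  have c1 := fun x a ha => B_cmp hG h0 h1 h0' h1' hη (S.rw.pos x) (S.rw.supp x) (a := a) ha
  have c2 := fun x a ha => B_cmp (η := η) hG h0' h1' h0 h1 (by rwa [abs_sub_comm]) (S.rw.pos x)
    (S.rw.supp x) (a := a) ha
  have bZ := S.rw.bd_av hG h0 h1 (ok_self p)
  have bZ' := S.rw.bd_av hG h0' h1' (ok_self p)
  have l : Bd fun x => lph G θ (res (ball G p N) (w x)) p u := S.rw.bd_lph hG h0 h1 (Or.inr hp)
  have l' : Bd fun x => lph G θ' (res (ball G p N) (w x)) p u := S.rw.bd_lph hG h0' h1' (Or.inr hp)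
  have Z0 := fun x => (av_pos (S.rw.B_pos hG h0' h1' (ok_self p) x)).le
  have Z1 := (S.est0 hG h0' h1' (ok_self p)).int_av
  have e : ∫ x, av (B G θ (res (ball G p N) (w x)) p p) * lph G θ (res (ball G p N) (w x)) p u
      ∂PI (ℕ × V) - ∫ x, av (B G θ' (res (ball G p N) (w x)) p p) *
        lph G θ' (res (ball G p N) (w x)) p u ∂PI (ℕ × V) =
      ∫ x, (av (B G θ (res (ball G p N) (w x)) p p) - av (B G θ' (res (ball G p N) (w x)) p p)) *
        lph G θ (res (ball G p N) (w x)) p u ∂PI (ℕ × V) +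
      ∫ x, av (B G θ' (res (ball G p N) (w x)) p p) * (lph G θ (res (ball G p N) (w x)) p u -
        lph G θ' (res (ball G p N) (w x)) p u) ∂PI (ℕ × V) := by
    rw [← (bZ.mul l).isub (bZ'.mul l'), ← ((bZ.sub bZ').mul l).iadd (bZ'.mul (l.sub l'))]
    congr 1; ext x; ring
  have a1 : |∫ x, (av (B G θ (res (ball G p N) (w x)) p p) -
      av (B G θ' (res (ball G p N) (w x)) p p)) * lph G θ (res (ball G p N) (w x)) p u
        ∂PI (ℕ × V)| ≤ ζ := by
    refine abs_integral_le_integral_abs.trans (le_trans ?_ z1)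
    have := ((bZ.sub bZ').mul l).abs.mono (bZ'.cmul ((μ - 1) / mar b M)) (PI (ℕ × V)) fun x => by
      have t1 := av_cmp (S.rw.B_pos hG h0' h1' (ok_self p) x) μ1 (c1 x p (by simp))
        (c2 x p (by simp))
      have pb := S.rw.ph_bound hG h0 h1 (Or.inr hp) x
      have t2 := abs_log_sub (mar_pos b M) pb.1 (pb.1.trans pb.2)
      rw [Real.log_one, sub_zero] at t2
      have t3 : |ph θ (mg (B G θ (res (ball G p N) (w x)) p u)) - 1| ≤ 1 := by
        rw [abs_le]; constructor <;> linarith [pb.1, pb.2, mar_pos b M]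
      refine (abs_mul_le t1 (t2.trans (div_le_div_of_nonneg_right t3 (mar_pos b M).le))).trans
        (le_of_eq (by ring))
    rwa [integral_const_mul, Z1, mul_one] at this
  have a2 := wabs_le (PI (ℕ × V)) bZ' (l.sub l') Z0 Z1 hζ (by
    have := (bZ'.mul ((l.sub l').pow 2)).mono (bZ'.cmul (ζ ^ 2)) (PI (ℕ × V)) fun x => by
      rw [mul_comm]
      refine mul_le_mul_of_nonneg_right ((S.rw.lph_lip' hG h0 h1 h0' h1' S.rw x hp).trans
        (le_trans ?_ z2)) (Z0 x)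
      have m := fun a ha => mg_cmp (S.rw.B_pos hG h0 h1 (ok_self a) x)
        (S.rw.B_pos hG h0' h1' (ok_self a) x) μ1 (c1 x a ha) (c2 x a ha)
      have m1 := m u (by rw [dist_eq_one_iff_adj.2 hp])
      have m2 := m p (by simp)
      have m3 : (θ - θ') ^ 2 ≤ η ^ 2 := sq_le_sq' (abs_le.1 hη).1 (abs_le.1 hη).2
      refine mul_le_mul_of_nonneg_left ?_ (by linarith [one_le_CD b h.one])
      unfold mm
      linarith
    rwa [integral_const_mul, Z1, mul_one] at this)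
  rw [e]
  exact (abs_add_le _ _).trans (by linarith)

end Nest

/-- The mean edge response depends continuously on the parameter, uniformly in the volume. -/
theorem E5 {b : ℕ} (hG : Reg G b) (M : ℝ) {a : ℝ} (a0 : 0 < a) (a1 : a ≤ 1 / 4) (n₀ : ℕ) {ε : ℝ}
    (hε : 0 < ε) : ∃ η, 0 < η ∧ ∃ N : ℕ, ∀ θ θ' τ (w : (ℕ × V → ℝ) → V → Bool → ℝ), 0 ≤ θ →
      θ ≤ 3 / 4 → 0 ≤ θ' → θ' ≤ 3 / 4 → Crit b θ τ a n₀ → Crit b θ' τ a n₀ → |θ - θ'| ≤ η →
      GW M τ w → ∀ R, N ≤ R → ∀ p u, G.Adj p u →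
      |∫ x, av (B G θ (res (ball G p R) (w x)) p p) * lph G θ (res (ball G p R) (w x)) p u
        ∂PI (ℕ × V) - ∫ x, av (B G θ' (res (ball G p R) (w x)) p p) *
          lph G θ' (res (ball G p R) (w x)) p u ∂PI (ℕ × V)| ≤ ε := by
  have r := rho_bound hG.two a0 a1
  have t1 : Tendsto (fun n : ℕ => 8 * CD b M * (6 * b * M ^ 3 / (1 - rho b a) * rho b a ^ n))
      atTop (𝓝 0) := by
    simpa using ((tendsto_pow_atTop_nhds_zero_of_lt_one (by linarith [r.1]) r.2).const_mul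
      (6 * b * M ^ 3 / (1 - rho b a))).const_mul (8 * CD b M)
  obtain ⟨n, hn⟩ := (t1.eventually (ge_mem_nhds (show 0 < (ε / 4) ^ 2 by positivity))).exists
  set N := n₀ + 1 + n
  have t2 : Tendsto (fun η : ℝ => ((1 + 4 * η) ^ NN b (N + 2) - 1) / mar b M) (𝓝 0) (𝓝 0) :=
    Continuous.tendsto' (by fun_prop) _ _ (by simp)
  have t3 : Tendsto (fun η : ℝ =>
      4 * CD b M * (8 * (((1 + 4 * η) ^ NN b (N + 2)) ^ 2 - 1) ^ 2 + η ^ 2)) (𝓝 0) (𝓝 0) :=
    Continuous.tendsto' (by fun_prop) _ _ (by simp)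
  have t4 := (t2.eventually (ge_mem_nhds (show 0 < ε / 4 by positivity))).and
    (t3.eventually (ge_mem_nhds (show 0 < (ε / 4) ^ 2 by positivity)))
  obtain ⟨η, ⟨z1, z2⟩, η0⟩ := ((t4.filter_mono nhdsWithin_le_nhds).and
    (self_mem_nhdsWithin (s := Ioi (0 : ℝ)))).exists
  refine ⟨η, η0, N, fun θ θ' τ w h0 h1 h0' h1' c c' hη h R hR p u hp => ?_⟩
  have e1 := abs_le.1 (h.E5a hG h0 h1 c hp n hR (by positivity) hn)
  have e2 := abs_le.1 (h.E5a hG h0' h1' c' hp n hR (by positivity) hn)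
  have e3 := abs_le.1 (h.E5b hG h0 h1 ((sq_nonneg _).trans c.a2) h0' h1' hη hp N (by positivity)
    z1 z2)
  rw [abs_le]
  constructor <;> linarith [e1.1, e1.2, e2.1, e2.2, e3.1, e3.2]

end Crest.Agent.Ising
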