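import Crest.Agent.Ising.Static

/-!
Exponential moments of the posterior field when the site weights are close to one.
-/

set_option maxHeartbeats 400000

open MeasureTheory Set Filter Topology SimpleGraph
open Crest.Agent.FIID

namespace Crest.Agent.Ising

/-- The field of a pair of weights. -/
noncomputable def hh (f : Bool → ℝ) : ℝ := (Real.log (f true) - Real.log (f false)) / 2

/-- Twice the inverse hyperbolic tangent. -/
noncomputable def Lg (x : ℝ) : ℝ := Real.log (1 + x) - Real.log (1 - x)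

lemma Lg_neg (x : ℝ) : Lg (-x) = -Lg x := by simp [Lg, sub_eq_add_neg]

lemma hh_eq {f : Bool → ℝ} {A x : ℝ} (hA : 0 < A) (hx : |x| < 1)
    (h : ∀ s, f s = A * (1 + sg s * x)) : hh f = Lg x / 2 := by
  rw [abs_lt] at hx
  unfold hh Lg
  rw [h, h, Real.log_mul hA.ne' (by simp [sg]; linarith), Real.log_mul hA.ne' (by
    simp [sg]; linarith)]
  simp only [sg, if_true, Bool.false_eq_true, if_false, one_mul, neg_mul, ← sub_eq_add_neg]
  ring

lemma Lg_near {x : ℝ} (hx : |x| ≤ 3 / 4) : |Lg x / 2 - x| ≤ 4 * x ^ 2 := by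
  have key : ∀ y : ℝ, |y| ≤ 3 / 4 → |y + Real.log (1 - y)| ≤ 4 * y ^ 2 := by
    intro y hy
    have := Real.abs_log_sub_add_sum_range_le (x := y) (by linarith) 1
    simp only [Finset.range_one, Finset.sum_singleton, zero_add, pow_one, Nat.cast_zero,
      div_one] at this
    refine this.trans ?_
    rw [div_le_iff₀ (by linarith), ← sq_abs y, show 1 + 1 = 2 from rfl]
    nlinarith [mul_nonneg (sq_nonneg |y|) (show 0 ≤ 3 - 4 * |y| by linarith)]
  have a := abs_le.1 (key x hx)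
  have c := abs_le.1 (key (-x) (by rwa [abs_neg]))
  rw [sub_neg_eq_add, neg_sq] at c
  unfold Lg
  rw [abs_le]
  constructor <;> linarith [a.1, a.2, c.1, c.2]

lemma le_Lg {x : ℝ} (h0 : 0 ≤ x) (h1 : x < 1) : x ≤ Lg x := by
  have a := Real.log_nonneg (show 1 ≤ 1 + x by linarith)
  have c := Real.log_le_sub_one_of_pos (show 0 < 1 - x by linarith)
  unfold Lg
  linarith

lemma Lg_mul {x θ : ℝ} (h0 : 0 ≤ x) (h1 : x < 1) (t0 : 0 ≤ θ) (t1 : θ ≤ 3 / 4) :
    Lg (θ * x) ≤ 3 / 4 * Lg x := by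
  have y0 : 0 ≤ θ * x := mul_nonneg t0 h0
  have y1 : θ * x ≤ 3 / 4 * x := mul_le_mul_of_nonneg_right t1 h0
  have p : (1 + 3 / 4 * x) ^ 4 * (1 - x) ^ 3 ≤ (1 - 3 / 4 * x) ^ 4 * (1 + x) ^ 3 := by
    have e : (1 - 3 / 4 * x) ^ 4 * (1 + x) ^ 3 - (1 + 3 / 4 * x) ^ 4 * (1 - x) ^ 3 =
        2 * x ^ 3 * (81 / 256 * (x ^ 2 - 7 / 6) ^ 2 + 7 / 1024) := by ring
    have : 0 ≤ 2 * x ^ 3 * (81 / 256 * (x ^ 2 - 7 / 6) ^ 2 + 7 / 1024) := by positivity
    linarith
  have q : (1 + θ * x) ^ 4 * (1 - x) ^ 3 ≤ (1 - θ * x) ^ 4 * (1 + x) ^ 3 := by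
    calc _ ≤ (1 + 3 / 4 * x) ^ 4 * (1 - x) ^ 3 :=
          mul_le_mul_of_nonneg_right (pow_le_pow_left₀ (by linarith) (by linarith) 4)
            (pow_nonneg (by linarith) _)
      _ ≤ _ := p
      _ ≤ _ := mul_le_mul_of_nonneg_right (pow_le_pow_left₀ (by linarith) (by linarith) 4)
            (pow_nonneg (by linarith) _)
  have := Real.log_le_log (mul_pos (pow_pos (by linarith) _) (pow_pos (by linarith) _)) q
  rw [Real.log_mul (pow_pos (by linarith) _).ne' (pow_pos (by linarith) _).ne',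
    Real.log_mul (pow_pos (by linarith) _).ne' (pow_pos (by linarith) _).ne'] at this
  simp only [Real.log_pow] at this
  unfold Lg
  push_cast at this
  linarith

lemma abs_Lg {x : ℝ} (h : |x| < 1) : |Lg x| = Lg |x| := by
  rcases le_total 0 x with h0 | h0
  · rw [abs_of_nonneg h0] at h ⊢
    exact abs_of_nonneg (h0.trans (le_Lg h0 h))
  · rw [abs_of_nonpos h0] at h ⊢
    have := le_Lg (neg_nonneg.2 h0) h
    rw [Lg_neg] at this ⊢
    exact abs_of_nonpos (by linarith)

section Pt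
variable {f : Bool → ℝ} {θ : ℝ}

lemma hh_mg (hf : ∀ s, 0 < f s) : hh f = Lg (mg f) / 2 :=
  hh_eq (av_pos hf) (abs_mg_lt hf) (eq_av_mg hf)

lemma abs_mg_le_hh (hf : ∀ s, 0 < f s) : |mg f| ≤ 2 * |hh f| := by
  rw [hh_mg hf, abs_div, abs_Lg (abs_mg_lt hf), abs_two]
  linarith [le_Lg (abs_nonneg (mg f)) (abs_mg_lt hf)]

lemma abs_θmg (h0 : 0 ≤ θ) (h1 : θ ≤ 3 / 4) (hf : ∀ s, 0 < f s) : |θ * mg f| ≤ 3 / 4 * |mg f| :=
  abs_mul_le (by rwa [abs_of_nonneg h0]) le_rfl

lemma hh_Pk (h0 : 0 ≤ θ) (h1 : θ ≤ 3 / 4) (hf : ∀ s, 0 < f s) :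
    hh (Pk θ f) = Lg (θ * mg f) / 2 :=
  hh_eq (av_pos hf) (by linarith [abs_θmg h0 h1 hf, abs_mg_lt hf]) (Pk_eq hf)

lemma hh_Pk_le (h0 : 0 ≤ θ) (h1 : θ ≤ 3 / 4) (hf : ∀ s, 0 < f s) :
    |hh (Pk θ f)| ≤ 3 / 4 * |hh f| := by
  rw [hh_Pk h0 h1 hf, hh_mg hf, abs_div, abs_div, abs_Lg (abs_mg_lt hf),
    abs_Lg (by linarith [abs_θmg h0 h1 hf, abs_mg_lt hf]), abs_two, abs_mul, abs_of_nonneg h0]
  linarith [Lg_mul (abs_nonneg (mg f)) (abs_mg_lt hf) h0 h1]

lemma av_exp (hf : ∀ s, 0 < f s) {l : ℝ} (hl : 0 ≤ l) : av f * Real.exp (l * |hh f|) ≤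
    f true * Real.exp (l * sg true * hh f) + f false * Real.exp (l * sg false * hh f) := by
  have a := mul_pos (hf true) (Real.exp_pos (l * sg true * hh f))
  have c := mul_pos (hf false) (Real.exp_pos (l * sg false * hh f))
  simp only [sg, if_true, Bool.false_eq_true, if_false, mul_one, mul_neg, neg_mul] at a c ⊢
  rcases le_total (f false) (f true) with h | h
  · have : 0 ≤ hh f := by unfold hh; linarith [Real.log_le_log (hf _) h]
    rw [abs_of_nonneg this]
    have := mul_le_mul_of_nonneg_right (show av f ≤ f true by unfold av; linarith)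
      (Real.exp_pos (l * hh f)).le
    linarith
  · have : hh f ≤ 0 := by unfold hh; linarith [Real.log_le_log (hf _) h]
    rw [abs_of_nonpos this, mul_neg]
    have := mul_le_mul_of_nonneg_right (show av f ≤ f false by unfold av; linarith)
      (Real.exp_pos (-(l * hh f))).le
    linarith

lemma exp_le_quad (y : ℝ) : Real.exp y ≤ 1 + y + y ^ 2 * Real.exp |y| := by
  have e1 : 1 ≤ Real.exp |y| := Real.one_le_exp (abs_nonneg y)
  by_cases h : |y| ≤ 1
  · have := (abs_le.1 (Real.abs_exp_sub_one_sub_id_le h)).2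
    nlinarith [sq_nonneg y]
  · rw [not_le, lt_abs] at h
    rcases h with h | h
    · rw [abs_of_pos (by linarith)]
      nlinarith [Real.exp_pos y, mul_le_mul_of_nonneg_right (show 1 ≤ y ^ 2 by nlinarith)
        (Real.exp_pos y).le]
    · have := Real.exp_le_one_iff.2 (show y ≤ 0 by linarith)
      nlinarith [sq_nonneg y]

lemma quad_exp {y z K : ℝ} (hK : 0 < K) (h : |y| ≤ 3 / 4 * z) :
    y ^ 2 * Real.exp |y| ≤ Real.exp K * y ^ 2 + 729 / K * Real.exp z := by
  have p1 : 0 ≤ 729 / K * Real.exp z := by positivity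
  have p2 : 0 ≤ Real.exp K * y ^ 2 := by positivity
  rcases le_total |y| K with hy | hy
  · nlinarith [mul_le_mul_of_nonneg_left (Real.exp_le_exp.2 hy) (sq_nonneg y)]
  · rw [← sq_abs y]
    set t := |y|
    have t0 : 0 < t := lt_of_lt_of_le hK hy
    have e1 : t / 9 ≤ Real.exp (t / 9) := by linarith [Real.add_one_le_exp (t / 9)]
    have e2 := pow_le_pow_left₀ (by positivity) e1 3
    rw [← Real.exp_nat_mul] at e2
    have e3 : Real.exp t * Real.exp (((3 : ℕ) : ℝ) * (t / 9)) ≤ Real.exp z := by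
      rw [← Real.exp_add]; exact Real.exp_le_exp.2 (by push_cast; linarith)
    have e4 : t ^ 2 * Real.exp t ≤ 729 / K * Real.exp z := by
      rw [div_mul_eq_mul_div, le_div_iff₀ hK]
      have := mul_le_mul_of_nonneg_left e2 (Real.exp_pos t).le
      have := mul_le_mul_of_nonneg_left hy (mul_pos (pow_pos t0 2) (Real.exp_pos t)).le
      nlinarith
    rw [sq_abs y] at *
    nlinarith

lemma tail_pt (h0 : 0 ≤ θ) (h1 : θ ≤ 3 / 4) (hf : ∀ s, 0 < f s) {l K : ℝ} (hl : 1 ≤ l)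
    (hK : 0 < K) (s : Bool) : Pk θ f s * Real.exp (l * sg s * hh (Pk θ f)) ≤
      Pk θ f s + l * sg s * θ * (av f * mg f) + (6 + 18 * Real.exp K) * l ^ 2 * (av f * mg f ^ 2) +
        1458 / K * (f true * Real.exp (l * sg true * hh f) +
          f false * Real.exp (l * sg false * hh f)) := by
  have A0 := av_pos hf
  have g1 := (abs_mg_lt hf).le
  have x1 := abs_θmg h0 h1 hf
  have F1 := Lg_near (x := θ * mg f) (by linarith)
  have F2 := hh_Pk_le h0 h1 hf
  have E := av_exp hf (show 0 ≤ l by linarith)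
  rw [← hh_Pk h0 h1 hf] at F1
  have P := Pk_eq (θ := θ) hf s
  have s1 := abs_sg s
  have s2 : sg s * sg s = 1 := by cases s <;> simp [sg]
  set F := hh (Pk θ f)
  set γ := mg f
  set A := av f
  set x := θ * γ with hx
  have x2 : x ^ 2 ≤ 9 / 16 * γ ^ 2 := by
    rw [← sq_abs x, ← sq_abs γ]; nlinarith [abs_nonneg x]
  have F3 : |F| ≤ 3 * |γ| := by
    have := abs_add_le (F - x) x
    rw [sub_add_cancel, ← sq_abs x] at *
    nlinarith [abs_nonneg x]
  have y1 : |l * sg s * F| = l * |F| := by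
    rw [abs_mul, abs_mul, s1, mul_one, abs_of_nonneg (by linarith)]
  have q := quad_exp (y := l * sg s * F) (z := l * |hh f|) hK (by
    rw [y1]; nlinarith)
  have e := exp_le_quad (l * sg s * F)
  have P0 : 0 ≤ 1 + sg s * x := by
    have := abs_le.1 (abs_mul_le s1.le (show |x| ≤ 1 by linarith))
    linarith [this.1]
  have P2 : 1 + sg s * x ≤ 2 := by
    have := abs_le.1 (abs_mul_le s1.le (show |x| ≤ 1 by linarith))
    linarith [this.2]
  have t1 : (1 + sg s * x) * (sg s * F) ≤ sg s * x + 6 * γ ^ 2 := by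
    have a1 := (abs_le.1 (abs_mul_le s1.le F1)).2
    have a2 := (abs_le.1 (abs_mul_le (show |x| ≤ |γ| by linarith [abs_nonneg γ]) F3)).2
    rw [← sq_abs γ] at *
    nlinarith
  have t2 : (l * sg s * F) ^ 2 ≤ 9 * l ^ 2 * γ ^ 2 := by
    rw [← sq_abs (l * sg s * F), y1, ← sq_abs γ, mul_pow]
    nlinarith [mul_le_mul_of_nonneg_left (pow_le_pow_left₀ (abs_nonneg F) F3 2) (sq_nonneg l)]
  have t3 : (l * sg s * F) ^ 2 * Real.exp |l * sg s * F| ≤
      Real.exp K * (9 * l ^ 2 * γ ^ 2) + 729 / K * Real.exp (l * |hh f|) :=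
    q.trans (add_le_add (mul_le_mul_of_nonneg_left t2 (Real.exp_pos _).le) le_rfl)
  have t4 : (1 + sg s * x) * Real.exp (l * sg s * F) ≤ (1 + sg s * x) + l * (sg s * x + 6 * γ ^ 2) +
      2 * (Real.exp K * (9 * l ^ 2 * γ ^ 2) + 729 / K * Real.exp (l * |hh f|)) := by
    have a1 := mul_le_mul_of_nonneg_left e P0
    have a2 := mul_le_mul P2 t3 (by positivity) (by norm_num)
    have a3 := mul_le_mul_of_nonneg_left t1 (show 0 ≤ l by linarith)
    nlinarith
  have t5 := mul_le_mul_of_nonneg_left t4 A0.le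
  have t6 := mul_le_mul_of_nonneg_left E (show 0 ≤ 1458 / K by positivity)
  have t7 : l * (A * γ ^ 2) ≤ l ^ 2 * (A * γ ^ 2) :=
    mul_le_mul_of_nonneg_right (by nlinarith) (by positivity)
  rw [P]
  have e1 : 1458 / K = 2 * (729 / K) := by ring
  rw [e1] at t6 ⊢
  nlinarith

end Pt

variable {V : Type*} [DecidableEq V] {G : SimpleGraph V} [G.LocallyFinite]

lemma bd_hh {Θ : Type*} [MeasurableSpace Θ] {f : Θ → Bool → ℝ} (h : ∀ s, Bd fun x => f x s)
    {c : ℝ} (hc : 0 < c) (hl : ∀ x s, c ≤ f x s) : Bd fun x => hh (f x) :=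
  (((h true).log hc fun x => hl x _).sub ((h false).log hc fun x => hl x _)).divc 2

section RW
variable {b : ℕ} (hG : Reg G b) {θ : ℝ} (h0 : 0 ≤ θ) (h1 : θ ≤ 3 / 4) {Λ : Finset V} {M : ℝ}
  {Θ : Type*} [MeasurableSpace Θ] {w : Θ → V → Bool → ℝ} (h : RW Λ M w)
include hG h0 h1 h

lemma RW.bd_hh {p u : V} (hp : Ok G p u) : Bd fun x => hh (B G θ (w x) p u) := by
  obtain ⟨c, hc, hl⟩ := h.B_low hG h0 h1 hp
  exact Ising.bd_hh (h.bd_B hG h0 h1 hp) hc hl

lemma RW.bd_hhP {p u : V} (hp : Ok G p u) : Bd fun x => hh (Pk θ (B G θ (w x) p u)) := by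
  obtain ⟨c, hc, hl⟩ := h.B_low hG h0 h1 hp
  refine Ising.bd_hh (h.bd_Pk hG h0 h1 hp) hc fun x s => ?_
  unfold Pk
  nlinarith [hl x s, hl x (!s)]

lemma RW.hh_rec {p u : V} (hp : Ok G p u) (x : Θ) : hh (B G θ (w x) p u) =
    hh (w x u) + ∑ c ∈ ch G p u, hh (Pk θ (B G θ (w x) u c)) := by
  have pos := fun c (hc : c ∈ ch G p u) =>
    Pk_pos h0 (by linarith) (h.B_pos hG h0 h1 (ok_of_ch hc) x)
  unfold hh
  rw [B_rec hG.tree (h.supp x) hp, B_rec hG.tree (h.supp x) hp,
    Real.log_mul (h.pos x u _).ne' (Finset.prod_pos fun c hc => pos c hc _).ne',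
    Real.log_mul (h.pos x u _).ne' (Finset.prod_pos fun c hc => pos c hc _).ne',
    Real.log_prod fun c hc => (pos c hc _).ne', Real.log_prod fun c hc => (pos c hc _).ne',
    ← Finset.sum_div, Finset.sum_sub_distrib]
  ring

end RW

/-- The admissible size of `λ² ε`. -/
noncomputable def ctl (b : ℕ) : ℝ := 1 / (224 * b * (6 + 18 * Real.exp (93312 * b)))

lemma ctl_pos {b : ℕ} (hb : 2 ≤ b) : 0 < ctl b := by unfold ctl; positivity

lemma ctl_le {b : ℕ} (hb : 2 ≤ b) : ctl b ≤ 1 / 16 := by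
  have hb2 : (2 : ℝ) ≤ b := by exact_mod_cast hb
  unfold ctl
  refine one_div_le_one_div_of_le (by norm_num) ?_
  nlinarith [Real.exp_pos (93312 * (b : ℝ)), mul_pos (show (0 : ℝ) < b by linarith)
    (Real.exp_pos (93312 * (b : ℝ)))]

theorem SW.tail {b : ℕ} (hG : Reg G b) {θ : ℝ} (h0 : 0 ≤ θ) (h1 : θ ≤ 3 / 4) {Λ : Finset V}
    {M τ : ℝ} {w : (ℕ × V → ℝ) → V → Bool → ℝ} (h : SW Λ M τ w) (hb : b * θ ^ 2 ≤ 1) {ε l : ℝ}
    (hl : 1 ≤ l) (hε : l ^ 2 * ε ≤ ctl b)
    (hn : ∀ x v, ∃ y, |y| ≤ ε ∧ ∀ s, w x v s = 1 + sg s * y) (a : V) :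
    ∫ x, av (B G θ (w x) a a) * Real.exp (l * |hh (B G θ (w x) a a)|) ∂PI (ℕ × V) ≤ 4 := by
  have hb2 : (2 : ℝ) ≤ b := by exact_mod_cast hG.two
  have e0 : 0 ≤ ε := by
    obtain ⟨y, hy, -⟩ := hn (fun _ => 0) a
    exact (abs_nonneg _).trans hy
  have c1 := ctl_le hG.two
  have e1 : l * ε ≤ 1 / 16 := by
    nlinarith [mul_nonneg (mul_nonneg (sub_nonneg.2 hl) e0) (show 0 ≤ l by linarith)]
  have e2 : ε ≤ 1 / 16 := by nlinarith
  have bB := fun p u (hp : Ok G p u) s =>
    (h.rw.bd_B hG h0 h1 hp s).mul ((h.rw.bd_hh hG h0 h1 hp).cmul (l * sg s)).exp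
  have bP := fun p u (hp : Ok G p u) s =>
    (h.rw.bd_Pk hG h0 h1 hp s).mul ((h.rw.bd_hhP hG h0 h1 hp).cmul (l * sg s)).exp
  have bw := fun v s => (h.rw.bd_w v s).mul ((bd_hh (h.rw.bd_w v)
    (inv_pos.2 (lt_of_lt_of_le one_pos h.rw.one)) fun x s => (h.rw.adm x v s).1).cmul (l * sg s)).exp
  have site : ∀ v s, ∫ x, w x v s * Real.exp (l * sg s * hh (w x v)) ∂PI (ℕ × V) ≤
      Real.exp (1 / 8) := by
    intro v s
    have := (bw v s).mono ((h.rw.bd_w v s).cmul (Real.exp (1 / 8))) (PI (ℕ × V)) fun x => by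
      rw [mul_comm]
      refine mul_le_mul_of_nonneg_right (Real.exp_le_exp.2 ?_) (h.rw.pos x v s).le
      obtain ⟨y, hy, e⟩ := hn x v
      have a1 := Lg_near (x := y) (by linarith)
      rw [← hh_eq (f := w x v) one_pos (by linarith) (fun s => by rw [one_mul]; exact e s),
        ← sq_abs y] at a1
      have a2 := abs_add_le (hh (w x v) - y) y
      rw [sub_add_cancel] at a2
      have a3 : |hh (w x v)| ≤ 2 * ε := by nlinarith [abs_nonneg y]
      have a4 := (abs_le.1 (abs_mul_le (abs_sg s).le a3)).2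
      rw [mul_assoc]
      nlinarith
    rwa [integral_const_mul, (h.est v).one, mul_one] at this
  have key : ∀ p u, Ok G p u → ∀ s, ∫ x, B G θ (w x) p u s *
      Real.exp (l * sg s * hh (B G θ (w x) p u)) ∂PI (ℕ × V) ≤ 2 := by
    intro p u hp
    refine half_induction hG.tree Λ (P := fun p u => ∀ s, ∫ x, B G θ (w x) p u s *
      Real.exp (l * sg s * hh (B G θ (w x) p u)) ∂PI (ℕ × V) ≤ 2) (fun p u hp hx s => ?_)
      (fun p u hp ih s => ?_) hp
    · simp only [fun x => B_one (θ := θ) hG.tree (h.rw.supp x) hp hx]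
      simp [hh]
    · have e : ∀ x, B G θ (w x) p u s * Real.exp (l * sg s * hh (B G θ (w x) p u)) =
          w x u s * Real.exp (l * sg s * hh (w x u)) * ∏ c ∈ ch G p u, Pk θ (B G θ (w x) u c) s *
            Real.exp (l * sg s * hh (Pk θ (B G θ (w x) u c))) := by
        intro x
        rw [h.rw.hh_rec hG h0 h1 hp, mul_add, Real.exp_add, Finset.mul_sum, Real.exp_sum,
          Finset.prod_mul_distrib, B_rec hG.tree (h.rw.supp x) hp]
        ring
      simp only [e]
      rw [tree_prod hG.tree (fun c hc => adj_of_ch hc) (bw u s)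
        (dep_comp (h.est u).dep fun f => f s * Real.exp (l * sg s * hh f))
        (fun c hc => bP u c (ok_of_ch hc) s) fun c hc => dep_comp (h.dep_B hG (ok_of_ch hc))
          fun f => Pk θ f s * Real.exp (l * sg s * hh (Pk θ f))]
      have ch1 : ∀ c ∈ ch G p u, ∫ x, Pk θ (B G θ (w x) u c) s *
          Real.exp (l * sg s * hh (Pk θ (B G θ (w x) u c))) ∂PI (ℕ × V) ≤
            Real.exp (1 / (8 * b)) := by
        intro c hc
        have hc' := ok_of_ch hc
        have a1 := h.rw.bd_Pk hG h0 h1 hc' s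
        have a2 := ((h.rw.bd_av hG h0 h1 hc').mul (h.rw.bd_mg hG h0 h1 hc')).cmul (l * sg s * θ)
        have a3 := ((h.rw.bd_av hG h0 h1 hc').mul ((h.rw.bd_mg hG h0 h1 hc').pow 2)).cmul
          ((6 + 18 * Real.exp (93312 * b)) * l ^ 2)
        have a4 := ((bB u c hc' true).add (bB u c hc' false)).cmul (1458 / (93312 * b))
        have := (bP u c hc' s).mono (((a1.add a2).add a3).add a4) (PI (ℕ × V)) fun x =>
          tail_pt h0 h1 (h.rw.B_pos hG h0 h1 hc' x) hl (by positivity) s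
        have z := int_avmg (h.rw.bd_B hG h0 h1 hc') (h.rw.B_pos hG h0 h1 hc') (Bd.const 1)
          (PI (ℕ × V))
        simp only [mul_one, (h.est0 hG h0 h1 hc').one, sub_self, zero_div] at z
        rw [((a1.add a2).add a3).iadd a4, (a1.add a2).iadd a3, a1.iadd a2, integral_const_mul,
          integral_const_mul, integral_const_mul, (bB u c hc' true).iadd (bB u c hc' false), z,
          (h.estP hG h0 h1 hc').one] at this
        have q := h.Q_up hG h0 h1 hb (by linarith) hn hc'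
        unfold Q qq at q
        have t1 := mul_le_mul_of_nonneg_left q
          (show 0 ≤ (6 + 18 * Real.exp (93312 * b)) * l ^ 2 by positivity)
        have t2 := mul_le_mul_of_nonneg_left (add_le_add (ih c hc true) (ih c hc false))
          (show 0 ≤ 1458 / (93312 * (b : ℝ)) by positivity)
        have t3 := mul_le_mul_of_nonneg_left hε
          (show 0 ≤ (6 + 18 * Real.exp (93312 * b)) * 14 by positivity)
        have t4 : (6 + 18 * Real.exp (93312 * b)) * 14 * ctl b = 1 / (16 * b) := by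
          unfold ctl; field_simp; norm_num
        have t5 : 1458 / (93312 * (b : ℝ)) * (2 + 2) = 1 / (16 * b) := by field_simp; norm_num
        have t6 : 1 / (8 * (b : ℝ)) = 1 / (16 * b) + 1 / (16 * b) := by field_simp; norm_num
        linarith [Real.add_one_le_exp (1 / (8 * (b : ℝ)))]
      have P : ∏ c ∈ ch G p u, ∫ x, Pk θ (B G θ (w x) u c) s *
          Real.exp (l * sg s * hh (Pk θ (B G θ (w x) u c))) ∂PI (ℕ × V) ≤ Real.exp (1 / 4) := by
        calc _ ≤ ∏ _c ∈ ch G p u, Real.exp (1 / (8 * b)) :=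
              Finset.prod_le_prod (fun c hc' => integral_nonneg fun x => mul_nonneg (Pk_pos h0
                (by linarith) (h.rw.B_pos hG h0 h1 (ok_of_ch hc') x) s).le (Real.exp_pos _).le) ch1
          _ ≤ Real.exp (1 / (8 * b)) ^ (2 * b) := by
              rw [Finset.prod_const]
              exact pow_le_pow_right₀ (Real.one_le_exp (by positivity)) (hG.card_le hp)
          _ = _ := by
              rw [← Real.exp_nat_mul]
              congr 1; push_cast; field_simp; norm_num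
      refine (mul_le_mul (site u s) P (Finset.prod_nonneg fun c hc' => integral_nonneg fun x =>
        mul_nonneg (Pk_pos h0 (by linarith) (h.rw.B_pos hG h0 h1 (ok_of_ch hc') x) s).le
          (Real.exp_pos _).le) (Real.exp_pos _).le).trans ?_
      rw [← Real.exp_add]
      have t1 := Real.add_one_le_exp (-(1 / 8 + 1 / 4))
      have t2 : Real.exp (1 / 8 + 1 / 4) * Real.exp (-(1 / 8 + 1 / 4)) = 1 := by
        rw [← Real.exp_add]; simp
      nlinarith [Real.exp_pos (1 / 8 + 1 / 4)]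
  have := ((h.rw.bd_av hG h0 h1 (ok_self a)).mul
    ((h.rw.bd_hh hG h0 h1 (ok_self a)).abs.cmul l).exp).mono
      ((bB a a (ok_self a) true).add (bB a a (ok_self a) false)) (PI (ℕ × V)) fun x =>
        av_exp (h.rw.B_pos hG h0 h1 (ok_self a) x) (by linarith)
  rw [(bB a a (ok_self a) true).iadd (bB a a (ok_self a) false)] at this
  linarith [key a a (ok_self a) true, key a a (ok_self a) false]

end Crest.Agent.Ising
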