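import Crest.Agent.Ising.Loc
import Crest.Agent.Ising.Tail
import Crest.Agent.Ising.Nest

/-!
Estimates of the quadratic variation of the difference of two near critical dynamics.
-/

set_option maxHeartbeats 400000

open MeasureTheory Set Filter Topology SimpleGraph
open Crest.Agent.FIID

namespace Crest.Agent.Ising

lemma abs_prod_sub_le {a a' : ℕ → ℝ} (n : ℕ) (h : ∀ j < n, 0 ≤ a j ∧ a j ≤ 1)
    (h' : ∀ j < n, 0 ≤ a' j ∧ a' j ≤ 1) :
    |∏ j ∈ Finset.range n, a j - ∏ j ∈ Finset.range n, a' j| ≤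
      ∑ j ∈ Finset.range n, |a j - a' j| := by
  induction n with
  | zero => simp
  | succ n ih =>
    rw [Finset.prod_range_succ, Finset.prod_range_succ, Finset.sum_range_succ]
    have i := ih (fun j hj => h j (by omega)) fun j hj => h' j (by omega)
    have p : |∏ j ∈ Finset.range n, a' j| ≤ 1 := by
      rw [abs_of_nonneg (Finset.prod_nonneg fun j hj => (h' j (by simp at hj; omega)).1)]
      exact Finset.prod_le_one (fun j hj => (h' j (by simp at hj; omega)).1)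
        fun j hj => (h' j (by simp at hj; omega)).2
    have q : |a n| ≤ 1 := by rw [abs_of_nonneg (h n (by omega)).1]; exact (h n (by omega)).2
    have e : (∏ j ∈ Finset.range n, a j) * a n - (∏ j ∈ Finset.range n, a' j) * a' n =
        (∏ j ∈ Finset.range n, a j - ∏ j ∈ Finset.range n, a' j) * a n +
          (∏ j ∈ Finset.range n, a' j) * (a n - a' n) := by ring
    rw [e]
    linarith [abs_add_le ((∏ j ∈ Finset.range n, a j - ∏ j ∈ Finset.range n, a' j) * a n)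
      ((∏ j ∈ Finset.range n, a' j) * (a n - a' n)), abs_mul_le i q,
      abs_mul_le p (le_refl |a n - a' n|)]

lemma abs_sqrt_sub {X X' : ℝ} (h : 0 < X) (h' : 0 < X') (h1 : X ≤ 1) (h1' : X' ≤ 1) :
    |√X - √X'| ≤ |Real.log X - Real.log X'| := by
  have := (sub_le_log (Real.sqrt_pos.2 h) (Real.sqrt_pos.2 h') (Real.sqrt_le_one.2 h1)
    (Real.sqrt_le_one.2 h1')).2
  rw [Real.log_sqrt h.le, Real.log_sqrt h'.le] at this
  exact sq_le_sq.1 (by nlinarith [sq_nonneg (Real.log X - Real.log X')])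

variable {V : Type*} [DecidableEq V] {G : SimpleGraph V} [G.LocallyFinite]

variable (G) in
/-- The available a priori bounds at a fixed time. -/
structure Ctx (θ θ' : ℝ) (r : ℕ) (t : ℝ) (ρ : ℕ) (x η : ℝ) : Prop where
  h0 : 0 ≤ θ
  h1 : θ ≤ 3 / 4
  h0' : 0 ≤ θ'
  h1' : θ' ≤ 3 / 4
  bx : Bnd G θ θ' r t ρ x
  l1 : Bnd G θ θ r t ρ (η ^ 2)
  l2 : Bnd G θ' θ' r t ρ (η ^ 2)
  η0 : 0 < η

variable (G) in
/-- The difference of edge responses in a ball centred at the edge. -/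
noncomputable def Dn (θ θ' : ℝ) (r : ℕ) (t : ℝ) (R : ℕ) (p u : V) (ω : ℕ × V → ℝ) : ℝ :=
  lph G θ (St G θ (ball G p R) r t ω) p u - lph G θ' (St G θ' (ball G p R) r t ω) p u

variable (G) in
/-- Gain from a squared posterior mean. -/
def TM (θ : ℝ) (r : ℕ) (t x y : ℝ) : Prop :=
  ∀ (Λ : Finset V) (a : V) (f : (ℕ × V → ℝ) → ℝ), Bd f → (∀ ω, 0 ≤ f ω) → (∀ ω, f ω ≤ 4) →
    ∫ ω, f ω ∂PI (ℕ × V) ≤ x → ∫ ω, mm G θ (St G θ Λ r t ω) a ^ 2 * f ω ∂PI (ℕ × V) ≤ y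

lemma one_le_M (r : ℕ) : (1 : ℝ) ≤ 2 ^ (r + 1) := one_le_pow₀ (by norm_num)

variable {b : ℕ} (hG : Reg G b) {θ θ' t x η : ℝ} {r ρ : ℕ}

lemma Ctx.symm (h : Ctx G θ θ' r t ρ x η) : Ctx G θ' θ r t ρ x η :=
  ⟨h.h0', h.h1', h.h0, h.h1, h.bx.symm, h.l2, h.l1, h.η0⟩

include hG

lemma tm_triv (h0 : 0 ≤ θ) (h1 : θ ≤ 3 / 4) : TM G θ r t x x := fun Λ a f hf f0 _ hx =>
  ((((bd_mm hG h0 h1 (rw_St hG.tree θ Λ r t) a).pow 2).mul hf).mono hf _ fun ω =>
    mul_le_of_le_one_left (f0 ω) ((rw_St hG.tree θ Λ r t).mm_sq hG h0 h1 ω a)).trans hx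

lemma XX_le_fwd {τ a : ℝ} {n₀ : ℕ} (hc : Crit b θ τ a n₀) (h0 : 0 ≤ θ) (h1 : θ ≤ 3 / 4)
    {Λ : Finset V} {w : V → Bool → ℝ} (hw : Supp w Λ) (hpos : ∀ v s, 0 < w v s) {z : ℕ → V}
    {k : ℕ} (hz : NB G z k) : (∀ j n, j + n ≤ k → XX G θ w z k ≤ PW G θ w (fun i => z (j + i)) n) ∧
      ∀ j n, j ≤ k → n ≤ j → XX G θ w z k ≤ PW G θ w (fun i => z (j - i)) n := by
  have t0 : 0 < θ := lt_of_le_of_ne h0 fun h => by
    have := hc.lo
    rw [← h] at this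
    linarith [hc.a1]
  constructor
  · intro j n hj
    have := Sig_le_fwd hG.tree h0 (by linarith) hw hpos hz hj
    rw [Sig_eq] at this
    exact le_of_mul_le_mul_left this (pow_pos t0 k)
  · intro j n hj hn
    have := Sig_le_bwd hG.tree h0 (by linarith) hw hpos hz hj hn
    rw [Sig_eq] at this
    exact le_of_mul_le_mul_left this (pow_pos t0 k)

lemma x_mean {τ a : ℝ} {n₀ : ℕ} (hc : Crit b θ τ a n₀) (h0 : 0 ≤ θ) (h1 : θ ≤ 3 / 4)
    (hw : GW (V := V) (2 ^ (r + 1)) τ (W0 r t)) {Λ : Finset V} {z : ℕ → V} {k : ℕ} (hz : NB G z k)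
    (hΛ : ball G (z 0) (n₀ + k) ⊆ Λ) :
    ∫ ω, XX G θ (St G θ Λ r t ω) z k ∂PI (ℕ × V) ≤ 4 * rho b a ^ k := by
  have R := rw_St hG.tree θ Λ r t
  have rb := rho_bound hG.two hc.a0 hc.a1
  cases k with
  | zero =>
    have := (R.bd_XX hG h0 h1 hz).mono (Bd.const 1) (PI (ℕ × V))
      fun ω => (R.XX_bound hG h0 h1 hz ω).2
    rw [iconst] at this
    linarith
  | succ n =>
    have hz' : NB G z n := by simpa using hz.shift 0 n (by omega)
    have := (R.bd_XX hG h0 h1 hz).mono (R.bd_PW hG h0 h1 hz') (PI (ℕ × V)) fun ω => by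
      simpa using (XX_le_fwd hG hc h0 h1 (R.supp ω) (R.pos ω) hz).1 0 n (by omega)
    rw [exact_law hG h0 h1 (z 0) r t (F := fun w => PW G θ w z n)
      ((rw_cw _ (one_le_M r)).bd_PW hG h0 h1 hz')] at this
    have z1 := (hw.sw ((sq_nonneg _).trans hc.a2) Λ).Z_PW hG h0 h1 hc (z 0) hz le_rfl
      (intD_ball hG.tree hΛ (by rw [hz.dist hG.tree (by omega)]; omega))
    refine this.trans (z1.trans ?_)
    rw [pow_succ]
    nlinarith [pow_nonneg (show 0 ≤ rho b a by linarith [rb.1]) n, rb.1]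

variable (h : Ctx G θ θ' r t ρ x η)
include h

lemma Ctx.loc_l {p u : V} (hp : G.Adj p u) {Λ₁ Λ₂ : Finset V} (a1 : ball G p (ρ + 1) ⊆ Λ₁)
    (a2 : ball G p (ρ + 1) ⊆ Λ₂) :
    ∫ ω, (lph G θ (St G θ Λ₁ r t ω) p u - lph G θ (St G θ Λ₂ r t ω) p u) ^ 2 ∂PI (ℕ × V) ≤
      8 * CD b (2 ^ (r + 1)) * η ^ 2 := by
  have R1 := rw_St hG.tree θ Λ₁ r t
  have R2 := rw_St hG.tree θ Λ₂ r t
  have d := R1.bd_dm hG h.h0 h.h1 h.h0 h.h1 R2
  have := (((R1.bd_l hG h.h0 h.h1 hp).sub (R2.bd_l hG h.h0 h.h1 hp)).pow 2).mono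
    (((d u).add (d p)).cmul (4 * CD b (2 ^ (r + 1)))) (PI (ℕ × V)) fun ω => by
      simpa [dm] using R1.lph_lip' hG h.h0 h.h1 h.h0 h.h1 R2 ω hp
  rw [integral_const_mul, (d u).iadd (d p)] at this
  have s1 : ball G u ρ ⊆ ball G p (ρ + 1) :=
    ball_sub hG.tree (by rw [dist_eq_one_iff_adj.2 hp.symm]; omega)
  have s2 : ball G p ρ ⊆ ball G p (ρ + 1) := ball_sub hG.tree (by simp)
  have b1 := h.l1 u _ _ (s1.trans a1) (s1.trans a2)
  have b2 := h.l1 p _ _ (s2.trans a1) (s2.trans a2)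
  rw [ff_eq] at b1 b2
  have c := one_le_CD b (one_le_M r)
  nlinarith [mul_le_mul_of_nonneg_left (add_le_add b1 b2)
    (show 0 ≤ 4 * CD b (2 ^ (r + 1)) by linarith)]

lemma Ctx.pw {τ a : ℝ} {n₀ : ℕ} (hc : Crit b θ τ a n₀) (hw : GW (V := V) (2 ^ (r + 1)) τ (W0 r t))
    {y : ℕ → V} {n : ℕ} (hy : NB G y (n + n + 1)) {Λ Λ' : Finset V}
    (a1 : ball G (y 0) (ρ + 1 + (n + n + 1)) ⊆ Λ) (a2 : ball G (y 0) (ρ + 1 + (n + n + 1)) ⊆ Λ') :
    ∫ ω, dm G θ (St G θ Λ r t ω) θ' (St G θ' Λ' r t ω) (y 0) * PW G θ (St G θ Λ r t ω) y (n + n)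
      ∂PI (ℕ × V) ≤ 7 * rho b a ^ n * x + 4 * Real.exp (-(b * rho b a) ^ n) +
        32 * (n + 1) * CD b (2 ^ (r + 1)) * η := by
  obtain ⟨h0, h1, h0', h1', bx, l1, l2, η0⟩ := id h
  have c := one_le_CD b (one_le_M r)
  set Λo := ball G (y 0) (ρ + 1 + (n + n + 1) + n₀) with hΛo
  have a3 : ball G (y 0) (ρ + 1 + (n + n + 1)) ⊆ Λo := ball_sub hG.tree (by simp)
  have a4 : ball G (y 0) ρ ⊆ ball G (y 0) (ρ + 1 + (n + n + 1)) := ball_sub hG.tree (by simp; omega)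
  have R := rw_St hG.tree θ Λ r t
  have R' := rw_St hG.tree θ' Λ' r t
  have S := rw_St hG.tree θ Λo r t
  have S' := rw_St hG.tree θ' Λo r t
  have hy' : NB G y (n + n) := by simpa using hy.shift 0 (n + n) (by omega)
  have bf := S.bd_dm hG h0 h1 h0' h1' S' (y 0)
  have w := wb hG h0 h1 hw hc hy le_rfl (R := ρ + 1 + (n + n + 1) + n₀) (by omega) bf
    (fun ω => dm_nonneg _ _ _ _ _) (fun ω => S.dm_le hG h0 h1 h0' h1' S' ω _) (fun g hg ω => by
      exact congrArg₂ (fun u v => (u - v) ^ 2)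
        ((eqv_St hG.tree θ (y 0) _ r t).mm θ (mem_singleton _) g hg ω)
        ((eqv_St hG.tree θ' (y 0) _ r t).mm θ' (mem_singleton _) g hg ω))
  rw [← hΛo] at w
  have w2 := bx (y 0) _ _ (a4.trans a3) (a4.trans a3)
  rw [ff_eq] at w2
  have m1 := (bd_mm hG h0 h1 R (y 0)).sub (bd_mm hG h0 h1 S (y 0))
  have m2 := (bd_mm hG h0' h1' R' (y 0)).sub (bd_mm hG h0' h1' S' (y 0))
  have bl : ∀ j ∈ Finset.range (n + n), Bd fun ω => lph G θ (St G θ Λ r t ω) (y j) (y (j + 1)) -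
      lph G θ (St G θ Λo r t ω) (y j) (y (j + 1)) := fun j hj =>
    (R.bd_l hG h0 h1 (hy'.1 j (Finset.mem_range.1 hj))).sub
      (S.bd_l hG h0 h1 (hy'.1 j (Finset.mem_range.1 hj)))
  have bs := Bd.sum fun j hj => (bl j hj).abs
  have bP := bf.mul (S.bd_PW hG h0 h1 hy')
  have := ((R.bd_dm hG h0 h1 h0' h1' R' (y 0)).mul (R.bd_PW hG h0 h1 hy')).mono
    (bP.add (((m1.abs.add m2.abs).add bs).cmul 4)) (PI (ℕ × V)) fun ω => by
      have p1 := R.PW_le hG h0 h1 hy' ω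
      have p0 := PW_nonneg (G := G) θ (St G θ Λ r t ω) y (n + n)
      have f4 := S.dm_le hG h0 h1 h0' h1' S' ω (y 0)
      have g4 := R.dm_le hG h0 h1 h0' h1' R' ω (y 0)
      have q : |PW G θ (St G θ Λ r t ω) y (n + n) - PW G θ (St G θ Λo r t ω) y (n + n)| ≤
          ∑ j ∈ Finset.range (n + n), |lph G θ (St G θ Λ r t ω) (y j) (y (j + 1)) -
            lph G θ (St G θ Λo r t ω) (y j) (y (j + 1))| := by
        refine (abs_prod_sub_le _ (fun j hj => ⟨Real.sqrt_nonneg _,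
          R.sqrt_ph_le hG h0 h1 (Or.inr (hy'.1 j hj)) ω⟩) fun j hj => ⟨Real.sqrt_nonneg _,
          S.sqrt_ph_le hG h0 h1 (Or.inr (hy'.1 j hj)) ω⟩).trans (Finset.sum_le_sum fun j hj => ?_)
        have b1 := R.ph_bound hG h0 h1 (Or.inr (hy'.1 j (Finset.mem_range.1 hj))) ω
        have b2 := S.ph_bound hG h0 h1 (Or.inr (hy'.1 j (Finset.mem_range.1 hj))) ω
        exact abs_sqrt_sub (lt_of_lt_of_le (mar_pos _ _) b1.1) (lt_of_lt_of_le (mar_pos _ _) b2.1)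
          b1.2 b2.2
      unfold dm
      generalize PW G θ (St G θ Λ r t ω) y (n + n) = P at *
      generalize PW G θ (St G θ Λo r t ω) y (n + n) = Po at *
      generalize mm G θ (St G θ Λ r t ω) (y 0) = m at *
      generalize mm G θ (St G θ Λo r t ω) (y 0) = mo at *
      generalize mm G θ' (St G θ' Λ' r t ω) (y 0) = m' at *
      generalize mm G θ' (St G θ' Λo r t ω) (y 0) = mo' at *
      have e1 : |m - m' + (mo - mo')| ≤ 4 := by
        refine abs_le_of_sq_le_sq' (by nlinarith [sq_nonneg (m - m' - (mo - mo'))]) (by norm_num)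
          |> abs_le.2
      have e2 : |m - m' - (mo - mo')| ≤ |m - mo| + |m' - mo'| := by
        rw [show m - m' - (mo - mo') = m - mo - (m' - mo') by ring]; exact abs_sub _ _
      have e3 := (abs_le.1 (abs_mul_le (abs_mul_le e1 e2)
        (show |P| ≤ 1 by rwa [abs_of_nonneg p0]))).2
      have e4 := (abs_le.1 (abs_mul_le (show |(mo - mo') ^ 2| ≤ 4 by
        rwa [abs_of_nonneg (sq_nonneg _)]) q)).2
      nlinarith
  rw [bP.iadd (((m1.abs.add m2.abs).add bs).cmul 4), integral_const_mul,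
    (m1.abs.add m2.abs).iadd bs, m1.abs.iadd m2.abs,
    integral_finsetSum _ fun j hj => (bl j hj).abs.int _] at this
  have i1 := m1.abs_int_le _ η0 (l1 (y 0) _ _ (a4.trans a1) (a4.trans a3))
  have i2 := m2.abs_int_le _ η0 (l2 (y 0) _ _ (a4.trans a2) (a4.trans a3))
  have i3 := Finset.sum_le_card_nsmul _ _ (3 * CD b (2 ^ (r + 1)) * η) fun j hj =>
    (bl j hj).abs_int_le (PI (ℕ × V)) (ζ := 3 * CD b (2 ^ (r + 1)) * η) (by positivity) (by
      have hj' := Finset.mem_range.1 hj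
      have s : ball G (y j) (ρ + 1) ⊆ ball G (y 0) (ρ + 1 + (n + n + 1)) :=
        ball_sub hG.tree (by rw [hy.dist hG.tree (by omega)]; omega)
      refine (h.loc_l hG (hy'.1 j hj') (s.trans a1) (s.trans a3)).trans ?_
      nlinarith [mul_nonneg (mul_nonneg (sub_nonneg.2 c) (show 0 ≤ CD b (2 ^ (r + 1)) by linarith))
        (sq_nonneg η), mul_nonneg (show 0 ≤ CD b (2 ^ (r + 1)) by linarith) (sq_nonneg η)])
  rw [Finset.card_range, nsmul_eq_mul] at i3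
  push_cast at i3
  have r0 : 0 ≤ 7 * rho b a ^ n :=
    mul_nonneg (by norm_num) (pow_nonneg (by linarith [(rho_bound hG.two hc.a0 hc.a1).1]) _)
  have n0 : (0 : ℝ) ≤ n := Nat.cast_nonneg n
  nlinarith [mul_le_mul_of_nonneg_left w2 r0, mul_le_mul_of_nonneg_right c η0.le,
    mul_nonneg n0 (mul_nonneg (show 0 ≤ CD b (2 ^ (r + 1)) by linarith) η0.le)]

lemma Ctx.kl {τ a : ℝ} {n₀ : ℕ} (hc : Crit b θ τ a n₀) (hw : GW (V := V) (2 ^ (r + 1)) τ (W0 r t))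
    {z : ℕ → V} {k n i : ℕ} (hz : NB G z k) (hi : i ≤ k) (hn : 4 * n + 2 ≤ k) {Λ Λ' : Finset V}
    (a1 : ball G (z 0) (ρ + 1 + 2 * k) ⊆ Λ) (a2 : ball G (z 0) (ρ + 1 + 2 * k) ⊆ Λ') :
    ∫ ω, XX G θ (St G θ Λ r t ω) z k * dm G θ (St G θ Λ r t ω) θ' (St G θ' Λ' r t ω) (z i)
      ∂PI (ℕ × V) ≤ 7 * rho b a ^ n * x + 4 * Real.exp (-(b * rho b a) ^ n) +
        32 * (n + 1) * CD b (2 ^ (r + 1)) * η := by
  have R := rw_St hG.tree θ Λ r t
  have R' := rw_St hG.tree θ' Λ' r t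
  have s : ball G (z i) (ρ + 1 + (n + n + 1)) ⊆ ball G (z 0) (ρ + 1 + 2 * k) :=
    ball_sub hG.tree (by rw [hz.dist hG.tree hi]; omega)
  have d := R.bd_dm hG h.h0 h.h1 h.h0' h.h1' R' (z i)
  have key : ∀ y : ℕ → V, NB G y (n + n + 1) → y 0 = z i →
      (∀ ω, XX G θ (St G θ Λ r t ω) z k ≤ PW G θ (St G θ Λ r t ω) y (n + n)) →
      ∫ ω, XX G θ (St G θ Λ r t ω) z k * dm G θ (St G θ Λ r t ω) θ' (St G θ' Λ' r t ω) (z i)
        ∂PI (ℕ × V) ≤ 7 * rho b a ^ n * x + 4 * Real.exp (-(b * rho b a) ^ n) +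
          32 * (n + 1) * CD b (2 ^ (r + 1)) * η := by
    intro y hy e hX
    have hy' : NB G y (n + n) := by simpa using hy.shift 0 (n + n) (by omega)
    have := h.pw hG hc hw hy (e ▸ s.trans a1) (e ▸ s.trans a2)
    rw [e] at this
    refine le_trans (((R.bd_XX hG h.h0 h.h1 hz).mul d).mono (d.mul (R.bd_PW hG h.h0 h.h1 hy')) _
      fun ω => ?_) this
    rw [mul_comm]
    exact mul_le_mul_of_nonneg_left (hX ω) (dm_nonneg _ _ _ _ _)
  by_cases hc' : i + (n + n + 1) ≤ k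
  · exact key _ (hz.shift i _ hc') rfl fun ω =>
      (XX_le_fwd hG hc h.h0 h.h1 (R.supp ω) (R.pos ω) hz).1 i _ (by omega)
  · exact key _ (hz.rev i _ hi (by omega)) rfl fun ω =>
      (XX_le_fwd hG hc h.h0 h.h1 (R.supp ω) (R.pos ω) hz).2 i _ hi (by omega)

lemma Ctx.bd_Dn (R : ℕ) {p u : V} (hp : G.Adj p u) : Bd (Dn G θ θ' r t R p u) :=
  ((rw_St hG.tree θ _ r t).bd_l hG h.h0 h.h1 hp).sub
    ((rw_St hG.tree θ' _ r t).bd_l hG h.h0' h.h1' hp)

lemma Ctx.Dn_sq {y : ℝ} (t1 : TM G θ r t x y) (t2 : TM G θ' r t x y) {R : ℕ} (hR : ρ + 1 ≤ R)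
    {p u : V} (hp : G.Adj p u) : ∫ ω, Dn G θ θ' r t R p u ω ^ 2 ∂PI (ℕ × V) ≤
      CD b (2 ^ (r + 1)) * (8 * y + (θ - θ') ^ 2) := by
  obtain ⟨h0, h1, h0', h1', bx, -, -, -⟩ := id h
  have S := rw_St hG.tree θ (ball G p R) r t
  have S' := rw_St hG.tree θ' (ball G p R) r t
  have d := S.bd_dm hG h0 h1 h0' h1' S'
  have m := fun a => (bd_mm hG h0 h1 S a).pow 2
  have m' := fun a => (bd_mm hG h0' h1' S' a).pow 2
  have key : ∀ v, ball G v ρ ⊆ ball G p R → ∫ ω, (mm G θ (St G θ (ball G p R) r t ω) u ^ 2 +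
      mm G θ (St G θ (ball G p R) r t ω) p ^ 2 + mm G θ' (St G θ' (ball G p R) r t ω) u ^ 2 +
        mm G θ' (St G θ' (ball G p R) r t ω) p ^ 2) *
        dm G θ (St G θ (ball G p R) r t ω) θ' (St G θ' (ball G p R) r t ω) v ∂PI (ℕ × V) ≤ 4 * y := by
    intro v hv
    have b1 := bx v _ _ hv hv
    rw [ff_eq] at b1
    have k1 := fun a => t1 (ball G p R) a _ (d v) (fun _ => dm_nonneg _ _ _ _ _)
      (fun ω => S.dm_le hG h0 h1 h0' h1' S' ω v) b1
    have k2 := fun a => t2 (ball G p R) a _ (d v) (fun _ => dm_nonneg _ _ _ _ _)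
      (fun ω => S.dm_le hG h0 h1 h0' h1' S' ω v) b1
    simp only [add_mul]
    rw [((((m u).mul (d v)).add ((m p).mul (d v))).add ((m' u).mul (d v))).iadd ((m' p).mul (d v)),
      (((m u).mul (d v)).add ((m p).mul (d v))).iadd ((m' u).mul (d v)),
      ((m u).mul (d v)).iadd ((m p).mul (d v))]
    linarith [k1 u, k1 p, k2 u, k2 p]
  have bS := (((m u).add (m p)).add (m' u)).add (m' p)
  have := ((h.bd_Dn hG R hp).pow 2).mono ((((bS.mul (d u)).add (bS.mul (d p))).add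
    (Bd.const ((θ - θ') ^ 2))).cmul (CD b (2 ^ (r + 1)))) (PI (ℕ × V)) fun ω => by
      have := S.lph_lip hG h0 h1 h0' h1' S' ω hp
      rw [← mul_add]
      exact this
  rw [integral_const_mul, ((bS.mul (d u)).add (bS.mul (d p))).iadd (Bd.const _),
    (bS.mul (d u)).iadd (bS.mul (d p)), iconst] at this
  refine this.trans (mul_le_mul_of_nonneg_left ?_ (by linarith [one_le_CD b (one_le_M r)]))
  linarith [key u (ball_sub hG.tree (by rw [dist_eq_one_iff_adj.2 hp.symm]; omega)),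
    key p (ball_sub hG.tree (by simp; omega))]

lemma Ctx.small {R : ℕ} (hR : ρ + 1 ≤ R) {ε W : ℝ} (W0 : 0 ≤ W)
    (hE : ∀ p u, G.Adj p u → |∫ ω, Dn G θ θ' r t R p u ω ∂PI (ℕ × V)| ≤ ε)
    (hW : ∀ p u, G.Adj p u → ∫ ω, Dn G θ θ' r t R p u ω ^ 2 ∂PI (ℕ × V) ≤ W)
    {z : ℕ → V} {k : ℕ} (hz : NB G z k) {Λ Λ' : Finset V}
    (a1 : ball G (z 0) (ρ + 1 + k) ⊆ Λ) (a2 : ball G (z 0) (ρ + 1 + k) ⊆ Λ') :
    ∫ ω, LL G θ (St G θ Λ r t ω) θ' (St G θ' Λ' r t ω) z k ^ 2 ∂PI (ℕ × V) ≤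
      2 * CD b (2 ^ (r + 1)) * x + 4 * k ^ 2 * ε ^ 2 + 256 * k * W +
        128 * k ^ 2 * CD b (2 ^ (r + 1)) * η ^ 2 := by
  obtain ⟨h0, h1, h0', h1', bx, -, -, -⟩ := id h
  have c := one_le_CD b (one_le_M r)
  have S := rw_St hG.tree θ Λ r t
  have S' := rw_St hG.tree θ' Λ' r t
  have inv : ∀ p u, Inv G {p, u} (Dn G θ θ' r t R p u) := fun p u g hg ω =>
    congrArg₂ (· - ·) (((eqv_St hG.tree θ p R r t).mono (by simp)).lph θ (by simp) (by simp) g hg ω)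
      (((eqv_St hG.tree θ' p R r t).mono (by simp)).lph θ' (by simp) (by simp) g hg ω)
  have dep : ∀ p u, DependsOn (Dn G θ θ' r t R p u) (co (ball G p R : Set V)) := fun p u =>
    dep₂ (St_dep r t) (St_dep r t) fun w w' => lph G θ w p u - lph G θ' w' p u
  have bD := fun j (hj : j < k) => h.bd_Dn hG R (hz.1 j hj)
  have s1 := sum_sq_le (PI (ℕ × V)) (ε := ε) W0 k bD (fun j hj => hW _ _ (hz.1 j hj))
    fun j hj i hi => (decor hG hz hi hj (bD i (by omega)) (bD j hj) (inv _ _) (inv _ _) (dep _ _)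
      (dep _ _) (hW _ _ (hz.1 i (by omega))) (hW _ _ (hz.1 j hj))).trans (add_le_add (by
        have := abs_mul_le (hE _ _ (hz.1 i (by omega))) (hE _ _ (hz.1 j hj))
        rw [sq]
        exact (le_abs_self _).trans this) le_rfl)
  have b1 : ∀ j ∈ Finset.range k, Bd fun ω => (lph G θ (St G θ Λ r t ω) (z j) (z (j + 1)) -
      lph G θ (St G θ (ball G (z j) R) r t ω) (z j) (z (j + 1))) ^ 2 := fun j hj =>
    ((S.bd_l hG h0 h1 (hz.1 j (Finset.mem_range.1 hj))).sub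
      ((rw_St hG.tree θ _ r t).bd_l hG h0 h1 (hz.1 j (Finset.mem_range.1 hj)))).pow 2
  have b2 : ∀ j ∈ Finset.range k, Bd fun ω => (lph G θ' (St G θ' Λ' r t ω) (z j) (z (j + 1)) -
      lph G θ' (St G θ' (ball G (z j) R) r t ω) (z j) (z (j + 1))) ^ 2 := fun j hj =>
    ((S'.bd_l hG h0' h1' (hz.1 j (Finset.mem_range.1 hj))).sub
      ((rw_St hG.tree θ' _ r t).bd_l hG h0' h1' (hz.1 j (Finset.mem_range.1 hj)))).pow 2
  have b3 := Bd.sum fun j hj => (b1 j hj).add (b2 j hj)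
  have b4 := (Bd.sum (s := Finset.range k) fun j hj => bD j (Finset.mem_range.1 hj)).pow 2
  have d := S.bd_dm hG h0 h1 h0' h1' S' (z 0)
  have := ((S.bd_LL hG h0 h1 h0' h1' S' hz).pow 2).mono
    (((d.cmul (2 * CD b (2 ^ (r + 1)))).add (b4.cmul 4)).add (b3.cmul (8 * k))) (PI (ℕ × V))
    fun ω => by
      have t1 := S.lm_lip hG h0 h1 h0' h1' S' ω (z 0)
      have t2 := sq_sum_le_card_mul_sum_sq (s := Finset.range k) (f := fun j =>
        (lph G θ (St G θ Λ r t ω) (z j) (z (j + 1)) - lph G θ' (St G θ' Λ' r t ω) (z j) (z (j + 1)))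
          - Dn G θ θ' r t R (z j) (z (j + 1)) ω)
      have t3 := Finset.sum_le_sum fun j (_ : j ∈ Finset.range k) =>
        (show ((lph G θ (St G θ Λ r t ω) (z j) (z (j + 1)) - lph G θ' (St G θ' Λ' r t ω) (z j)
          (z (j + 1))) - Dn G θ θ' r t R (z j) (z (j + 1)) ω) ^ 2 ≤ 2 *
          ((lph G θ (St G θ Λ r t ω) (z j) (z (j + 1)) -
            lph G θ (St G θ (ball G (z j) R) r t ω) (z j) (z (j + 1))) ^ 2 +
          (lph G θ' (St G θ' Λ' r t ω) (z j) (z (j + 1)) -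
            lph G θ' (St G θ' (ball G (z j) R) r t ω) (z j) (z (j + 1))) ^ 2) by
          unfold Dn
          nlinarith [sq_nonneg ((lph G θ (St G θ Λ r t ω) (z j) (z (j + 1)) -
            lph G θ (St G θ (ball G (z j) R) r t ω) (z j) (z (j + 1))) +
            (lph G θ' (St G θ' Λ' r t ω) (z j) (z (j + 1)) -
            lph G θ' (St G θ' (ball G (z j) R) r t ω) (z j) (z (j + 1))))])
      rw [← Finset.mul_sum] at t3
      rw [Finset.card_range, Finset.sum_sub_distrib] at t2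
      have t4 := t2.trans (mul_le_mul_of_nonneg_left t3 (Nat.cast_nonneg k))
      unfold LL dm
      generalize Real.log (1 - mm G θ (St G θ Λ r t ω) (z 0) ^ 2) -
        Real.log (1 - mm G θ' (St G θ' Λ' r t ω) (z 0) ^ 2) = A at *
      generalize ∑ j ∈ Finset.range k, (lph G θ (St G θ Λ r t ω) (z j) (z (j + 1)) -
        lph G θ' (St G θ' Λ' r t ω) (z j) (z (j + 1))) = T at *
      generalize ∑ j ∈ Finset.range k, Dn G θ θ' r t R (z j) (z (j + 1)) ω = To at *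
      nlinarith [sq_nonneg (A - T), sq_nonneg (T - 2 * To)]
  rw [((d.cmul _).add (b4.cmul 4)).iadd (b3.cmul _), (d.cmul _).iadd (b4.cmul 4),
    integral_const_mul, integral_const_mul, integral_const_mul,
    integral_finsetSum _ fun j hj => ((b1 j hj).add (b2 j hj)).int _] at this
  have s2 := Finset.sum_le_card_nsmul _ _ (16 * CD b (2 ^ (r + 1)) * η ^ 2) fun j hj =>
    (((b1 j hj).iadd (b2 j hj) (PI (ℕ × V))).trans_le (by
      have hj' := Finset.mem_range.1 hj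
      have s : ball G (z j) (ρ + 1) ⊆ ball G (z 0) (ρ + 1 + k) :=
        ball_sub hG.tree (by rw [hz.dist hG.tree (by omega)]; omega)
      have s' : ball G (z j) (ρ + 1) ⊆ ball G (z j) R := ball_sub hG.tree (by simpa)
      linarith [h.loc_l hG (hz.1 j hj') (s.trans a1) s', h.symm.loc_l hG (hz.1 j hj') (s.trans a2) s']))
  rw [Finset.card_range, nsmul_eq_mul] at s2
  have s3 : ball G (z 0) ρ ⊆ ball G (z 0) (ρ + 1 + k) := ball_sub hG.tree (by simp; omega)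
  have s4 := bx (z 0) _ _ (s3.trans a1) (s3.trans a2)
  rw [ff_eq] at s4
  nlinarith [mul_le_mul_of_nonneg_left s4 (show 0 ≤ 2 * CD b (2 ^ (r + 1)) by linarith),
    mul_le_mul_of_nonneg_left s2 (show (0 : ℝ) ≤ 8 * k by positivity)]

end Crest.Agent.Ising
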