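import Mathlib

/-!
An Osgood type lemma and some elementary sums.
-/

set_option maxHeartbeats 400000

open Filter Topology

namespace Crest.Agent.Ising

lemma osgood_block {c : ℝ → ℝ} {C L σ h : ℝ} (hC : 0 < C) (hL : 3 ≤ L) (h0 : 0 ≤ h)
    (h1 : C * h ≤ 1 / 8) (c0 : ∀ t, 0 ≤ c t)
    (hc : ∀ σ₁ σ₂, σ ≤ σ₁ → σ₁ ≤ σ₂ → σ₂ ≤ σ + h →
      c σ₂ ≤ c σ₁ + C * (σ₂ - σ₁) * (L * c σ₂ + Real.exp (-L)))
    (hs : c σ ≤ Real.exp (-L)) : c (σ + h) ≤ Real.exp (-(L / 2)) := by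
  obtain ⟨N, hN⟩ := exists_nat_ge L
  have N0 : (0 : ℝ) < N := by linarith
  set d := h / N with hd
  have d0 : 0 ≤ d := by positivity
  have dN : N * d = h := by rw [hd]; field_simp
  set y := C * d * L with hy
  have y0 : 0 ≤ y := by positivity
  have yN : N * y ≤ L / 8 := by
    calc N * y = C * (N * d) * L := by rw [hy]; ring
      _ ≤ 1 / 8 * L := by rw [dN]; exact mul_le_mul_of_nonneg_right h1 (by linarith)
      _ = _ := by ring
  have y1 : y ≤ 1 / 8 := by nlinarith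
  set e := Real.exp (-L) / L with he
  have e0 : 0 < e := by positivity
  have eL : L * e = Real.exp (-L) := by rw [he]; field_simp
  have key : ∀ i : ℕ, i ≤ N → c (σ + i * d) + e ≤ Real.exp (i * (2 * y)) * (c σ + e) := by
    intro i
    induction i with
    | zero => simp
    | succ i ih =>
      intro hi
      have hi' : ((i + 1 : ℕ) : ℝ) ≤ N := by exact_mod_cast hi
      have a := hc (σ + i * d) (σ + (i + 1 : ℕ) * d) (by
        have : 0 ≤ (i : ℝ) * d := by positivity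
        linarith) (by push_cast; linarith) (by nlinarith)
      have a2 : σ + ((i + 1 : ℕ) : ℝ) * d - (σ + i * d) = d := by push_cast; ring
      rw [a2, ← eL] at a
      have v0 := c0 (σ + (i + 1 : ℕ) * d)
      set v := c (σ + (i + 1 : ℕ) * d)
      have a3 : (v + e) * (1 - y) ≤ c (σ + i * d) + e := by rw [hy]; linarith
      have a4 : v + e ≤ (1 + 2 * y) * (c (σ + i * d) + e) := by
        nlinarith [mul_le_mul_of_nonneg_left a3 (show 0 ≤ 1 + 2 * y by linarith),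
          mul_nonneg (mul_nonneg y0 (show 0 ≤ 1 - 2 * y by linarith)) (add_nonneg v0 e0.le)]
      refine a4.trans ?_
      push_cast
      rw [add_mul (i : ℝ), one_mul, add_comm (i * (2 * y)), Real.exp_add, mul_assoc]
      exact mul_le_mul (by linarith [Real.add_one_le_exp (2 * y)]) (ih (by omega))
        (add_nonneg (c0 _) e0.le) (Real.exp_pos _).le
  have k := key N le_rfl
  rw [dN] at k
  have k1 : Real.exp (N * (2 * y)) ≤ Real.exp (L / 4) := Real.exp_le_exp.2 (by linarith)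
  have k2 : c σ + e ≤ 4 / 3 * Real.exp (-L) := by nlinarith
  have k3 := mul_le_mul k1 k2 (add_nonneg (c0 _) e0.le) (Real.exp_pos _).le
  have k4 : Real.exp (L / 4) * (Real.exp (L / 4) * Real.exp (-L)) = Real.exp (-(L / 2)) := by
    rw [← Real.exp_add, ← Real.exp_add]; congr 1; ring
  have k5 : 4 / 3 ≤ Real.exp (L / 4) := by linarith [Real.add_one_le_exp (L / 4)]
  nlinarith [mul_le_mul_of_nonneg_right k5
    (mul_pos (Real.exp_pos (L / 4)) (Real.exp_pos (-L))).le]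

lemma osgood {C : ℝ} (hC : 0 < C) {ε : ℝ} (hε : 0 < ε) : ∃ L₀ : ℝ, ∀ (c : ℝ → ℝ) (σ : ℝ), 0 ≤ σ →
    σ ≤ 1 / 2 → (∀ t, 0 ≤ c t) → (∀ σ₁ σ₂, σ ≤ σ₁ → σ₁ ≤ σ₂ → σ₂ ≤ 1 / 2 → ∀ L, 3 ≤ L → L ≤ L₀ →
      c σ₂ ≤ c σ₁ + C * (σ₂ - σ₁) * (L * c σ₂ + Real.exp (-L))) →
    c σ ≤ Real.exp (-L₀) → c (1 / 2) ≤ ε := by
  obtain ⟨J, hJ⟩ := exists_nat_ge (4 * C)
  have J0 : (0 : ℝ) < J := by linarith
  set l := max 3 (-Real.log ε) with hl
  have l3 : 3 ≤ l := le_max_left _ _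
  refine ⟨l * 2 ^ J, fun c σ s0 s1 c0 hc hs => ?_⟩
  set h := (1 / 2 - σ) / J with hh
  have h0 : 0 ≤ h := div_nonneg (by linarith) J0.le
  have hJ' : J * h = 1 / 2 - σ := by rw [hh]; field_simp
  have h1 : C * h ≤ 1 / 8 := by nlinarith
  have key : ∀ j i : ℕ, j + i = J → c (σ + j * h) ≤ Real.exp (-(l * 2 ^ i)) := by
    intro j
    induction j with
    | zero => intro i hi; simpa [← hi] using hs
    | succ j ih =>
      intro i hi
      have hj : ((j + 1 : ℕ) : ℝ) ≤ J := by exact_mod_cast (show j + 1 ≤ J by omega)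
      have p1 : (1 : ℝ) ≤ 2 ^ (i + 1) := one_le_pow₀ (by norm_num)
      have p2 : (2 : ℝ) ^ (i + 1) ≤ 2 ^ J := pow_le_pow_right₀ (by norm_num) (by omega)
      have j0 : 0 ≤ (j : ℝ) * h := by positivity
      push_cast at hj ⊢
      have := osgood_block (σ := σ + j * h) (L := l * 2 ^ (i + 1)) hC (by nlinarith) h0 h1 c0
        (fun σ₁ σ₂ a1 a2 a3 => hc σ₁ σ₂ (by linarith) a2 (by nlinarith) _ (by nlinarith)
          (by nlinarith)) (ih (i + 1) (by omega))
      rw [show σ + j * h + h = σ + (j + 1) * h by ring,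
        show l * 2 ^ (i + 1) / 2 = l * 2 ^ i by ring] at this
      exact this
  have k := key J 0 rfl
  rw [hJ', add_sub_cancel, pow_zero, mul_one] at k
  refine k.trans ?_
  rw [← Real.exp_log hε]
  exact Real.exp_le_exp.2 (by linarith [le_max_right 3 (-Real.log ε)])

lemma sum_inv_sq (N : ℕ) : ∑ k ∈ Finset.range N, 1 / ((k : ℝ) + 1) ^ 2 ≤ 2 := by
  have key : ∀ N : ℕ, ∑ k ∈ Finset.range N, 1 / ((k : ℝ) + 1) ^ 2 ≤ 2 - 2 / ((N : ℝ) + 1) := by
    intro N
    induction N with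
    | zero => simp
    | succ N ih =>
      rw [Finset.sum_range_succ]
      have : 1 / ((N : ℝ) + 1) ^ 2 ≤ 2 / (N + 1) - 2 / (N + 1 + 1) := by
        rw [div_sub_div _ _ (by positivity) (by positivity), div_le_div_iff₀ (by positivity)
          (by positivity)]
        have : (0 : ℝ) ≤ N := by positivity
        nlinarith
      push_cast
      linarith
  have : (0 : ℝ) ≤ 2 / (N + 1) := by positivity
  linarith [key N]

lemma exists_S {q : ℝ} (h0 : 0 ≤ q) (h1 : q < 1) :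
    ∃ S, 0 < S ∧ ∀ N, ∑ k ∈ Finset.range N, ((k : ℝ) + 1) ^ 2 * q ^ k ≤ S := by
  have hq : ‖q‖ < 1 := by rwa [Real.norm_eq_abs, abs_of_nonneg h0]
  have s : Summable fun k : ℕ => ((k : ℝ) + 1) ^ 2 * q ^ k := by
    have := ((summable_pow_mul_geometric_of_norm_lt_one 2 hq).add
      ((summable_pow_mul_geometric_of_norm_lt_one 1 hq).mul_left 2)).add
        (summable_geometric_of_lt_one h0 h1)
    refine this.congr fun k => ?_
    ring
  refine ⟨(∑' k : ℕ, ((k : ℝ) + 1) ^ 2 * q ^ k) + 1, ?_, fun N => ?_⟩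
  · have : 0 ≤ ∑' k : ℕ, ((k : ℝ) + 1) ^ 2 * q ^ k := tsum_nonneg fun k => by positivity
    linarith
  · linarith [s.sum_le_tsum (Finset.range N) fun k _ => by positivity]

lemma geom_tail {q : ℝ} (h0 : 0 ≤ q) (h1 : q < 1) (K m : ℕ) :
    ∑ i ∈ Finset.range m, q ^ (K + i) ≤ q ^ K / (1 - q) := by
  simp only [pow_add]
  rw [← Finset.mul_sum, div_eq_mul_inv, ← tsum_geometric_of_lt_one h0 h1]
  exact mul_le_mul_of_nonneg_left ((summable_geometric_of_lt_one h0 h1).sum_le_tsum _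
    fun k _ => by positivity) (by positivity)

lemma exp_neg_le {y : ℝ} (hy : 0 < y) (n : ℕ) : Real.exp (-y) ≤ n.factorial / y ^ n := by
  have := Real.pow_div_factorial_le_exp y hy.le n
  rw [Real.exp_neg, inv_le_comm₀ (Real.exp_pos _) (by positivity), inv_div]
  exact this

lemma sq_le_pow (n : ℕ) : (n : ℝ) ^ 2 / 8 + 3 * n / 8 + 1 ≤ (3 / 2) ^ n := by
  induction n with
  | zero => simp
  | succ n ih =>
    have : (n : ℝ) ≤ n ^ 2 := by exact_mod_cast Nat.le_self_pow two_ne_zero n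
    push_cast
    rw [pow_succ (3 / 2 : ℝ)]
    nlinarith

/-- Decay of the geometric factor beyond the first cutoff. -/
lemma cut_one {s B : ℝ} (hs : 0 < s) (hB : 0 < B) (hsB : s ^ 11 / B ≤ 1) {y : ℝ} {n : ℕ}
    (hy : 1 ≤ s ^ 12 * y) (hn : y ≤ 8 * n) :
    s ^ 20 * (y ^ 2 * (1 - s ^ 11 / B) ^ n) ≤ (28 : ℕ).factorial * (8 * B) ^ 28 * (1 / y ^ 2) := by
  have y0 : 0 < y := by
    by_contra h
    nlinarith [mul_nonneg (pow_pos hs 12).le (neg_nonneg.2 (not_lt.1 h))]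
  have a1 : (1 - s ^ 11 / B) ^ n ≤ Real.exp (-(s ^ 11 / B * (y / 8))) := by
    calc _ ≤ Real.exp (-(s ^ 11 / B)) ^ n := pow_le_pow_left₀ (by linarith)
          (by linarith [Real.add_one_le_exp (-(s ^ 11 / B))]) n
      _ = Real.exp (n * -(s ^ 11 / B)) := (Real.exp_nat_mul _ _).symm
      _ ≤ _ := Real.exp_le_exp.2 (by
          nlinarith [mul_le_mul_of_nonneg_left hn (show 0 ≤ s ^ 11 / B by positivity)])
  have a2 := a1.trans (exp_neg_le (by positivity) 28)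
  have a3 : (1 : ℝ) ≤ (s ^ 12 * y) ^ 24 := one_le_pow₀ hy
  calc _ ≤ s ^ 20 * (y ^ 2 * ((28 : ℕ).factorial / (s ^ 11 / B * (y / 8)) ^ 28)) := by gcongr
    _ = (28 : ℕ).factorial * (8 * B) ^ 28 * (1 / y ^ 2) / (s ^ 12 * y) ^ 24 := by
        field_simp
    _ ≤ _ := div_le_self (by positivity) a3

/-- Decay of the doubly exponential factor beyond the second cutoff. -/
lemma cut_two {x L y : ℝ} {n : ℕ} (hx : 3 / 2 ≤ x) (y0 : 0 < y) (hL : 1024 * L ≤ y ^ 2)
    (hn : y ≤ 8 * n) :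
    y ^ 2 * Real.exp (-x ^ n) ≤ 2 * 1024 ^ 2 * Real.exp (-L) * (1 / y ^ 2) := by
  have a1 := (sq_le_pow n).trans (pow_le_pow_left₀ (by norm_num) hx n)
  have n0 : (0 : ℝ) ≤ n := by positivity
  have a2 : y ^ 2 ≤ (8 * n) ^ 2 := pow_le_pow_left₀ y0.le hn 2
  have a3 : Real.exp (-x ^ n) ≤ Real.exp (-L) * Real.exp (-(y ^ 2 / 1024)) := by
    rw [← Real.exp_add]; exact Real.exp_le_exp.2 (by nlinarith)
  have a4 := exp_neg_le (show 0 < y ^ 2 / 1024 by positivity) 2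
  calc _ ≤ y ^ 2 * (Real.exp (-L) * ((2 : ℕ).factorial / (y ^ 2 / 1024) ^ 2)) := by
        refine mul_le_mul_of_nonneg_left (a3.trans ?_) (by positivity)
        gcongr
    _ = _ := by simp only [Nat.factorial_two]; field_simp; norm_num

end Crest.Agent.Ising
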