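import Crest.Agent.Ising.Sym
import Crest.Agent.Ising.Osg

/-!
The asymptotic mean square distance of two dynamics and locality in the subcritical regime.
-/

set_option maxHeartbeats 400000

open MeasureTheory Set Filter Topology SimpleGraph
open Crest.Agent.FIID

namespace Crest.Agent.Ising

lemma sub_le_log {X X' : ℝ} (h : 0 < X) (h' : 0 < X') (h1 : X ≤ 1) (h1' : X' ≤ 1) :
    (X - X') ^ 2 ≤ (X + X') * (Real.log X - Real.log X') ^ 2 ∧
      (X - X') ^ 2 ≤ (Real.log X - Real.log X') ^ 2 := by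
  have key : ∀ {X X' : ℝ}, 0 < X → 0 < X' → X' ≤ X →
      (X - X') ^ 2 ≤ X ^ 2 * (Real.log X - Real.log X') ^ 2 := by
    intro X X' h h' hle
    have a := Real.log_le_sub_one_of_pos (div_pos h' h)
    rw [Real.log_div h'.ne' h.ne', div_sub_one h.ne', le_div_iff₀ h] at a
    rw [← mul_pow]
    exact pow_le_pow_left₀ (by linarith) (by linarith) 2
  have l0 := sq_nonneg (Real.log X - Real.log X')
  rcases le_total X' X with hle | hle
  · have := key h h' hle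
    constructor
    · exact this.trans (mul_le_mul_of_nonneg_right (by nlinarith) l0)
    · exact this.trans (mul_le_of_le_one_left l0 (by nlinarith))
  · have := key h' h hle
    rw [← neg_sub X, ← neg_sub (Real.log X), neg_sq, neg_sq] at this
    constructor
    · exact this.trans (mul_le_mul_of_nonneg_right (by nlinarith) l0)
    · exact this.trans (mul_le_of_le_one_left l0 (by nlinarith))

lemma pow_diff_le {b θ θ' : ℝ} (hb : 0 ≤ b) (h0 : 0 ≤ θ) (h0' : 0 ≤ θ') (h : b * θ ^ 2 ≤ 1)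
    (h' : b * θ' ^ 2 ≤ 1) (k : ℕ) : b ^ k * (θ ^ k - θ' ^ k) ^ 2 ≤ b * k ^ 2 * (θ - θ') ^ 2 := by
  cases k with
  | zero => simp
  | succ j =>
    have a := pow_le_pow_left₀ (abs_nonneg _) (abs_pow_sub_pow_le θ θ' (j + 1)) 2
    rw [sq_abs, abs_of_nonneg h0, abs_of_nonneg h0', Nat.add_sub_cancel, mul_pow, mul_pow,
      sq_abs] at a
    have m : b * max θ θ' ^ 2 ≤ 1 := by
      rcases le_total θ θ' with h2 | h2
      · rwa [max_eq_right h2]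
      · rwa [max_eq_left h2]
    have m2 : (b * max θ θ' ^ 2) ^ j ≤ 1 := pow_le_one₀ (by positivity) m
    calc _ ≤ b ^ (j + 1) * ((θ - θ') ^ 2 * ((j + 1 : ℕ) : ℝ) ^ 2 * (max θ θ' ^ j) ^ 2) :=
          mul_le_mul_of_nonneg_left a (by positivity)
      _ = b * ((j + 1 : ℕ) : ℝ) ^ 2 * (θ - θ') ^ 2 * (b * max θ θ' ^ 2) ^ j := by
          rw [mul_pow, ← pow_mul, ← pow_mul, mul_comm 2 j]; ring
      _ ≤ _ := mul_le_of_le_one_right (by positivity) m2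

variable {V : Type*} [DecidableEq V] {G : SimpleGraph V} [G.LocallyFinite]

lemma ball_sub (hT : G.IsTree) {u a : V} {ρ R : ℕ} (h : G.dist u a + ρ ≤ R) :
    ball G u ρ ⊆ ball G a R := fun x hx => by
  rw [mem_ball hT] at hx ⊢
  have := hT.connected.dist_triangle (u := x) (v := u) (w := a)
  omega

variable (G) in
/-- Normalised covariance along a path. -/
noncomputable def XX (θ : ℝ) (w : V → Bool → ℝ) (z : ℕ → V) (k : ℕ) : ℝ :=
  (1 - mm G θ w (z 0) ^ 2) * ∏ j ∈ Finset.range k, ph θ (mg (B G θ w (z j) (z (j + 1))))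

variable (G) in
/-- Logarithmic ratio of two normalised covariances. -/
noncomputable def LL (θ : ℝ) (w : V → Bool → ℝ) (θ' : ℝ) (w' : V → Bool → ℝ) (z : ℕ → V) (k : ℕ) :
    ℝ := (Real.log (1 - mm G θ w (z 0) ^ 2) - Real.log (1 - mm G θ' w' (z 0) ^ 2)) +
      ∑ j ∈ Finset.range k, (lph G θ w (z j) (z (j + 1)) - lph G θ' w' (z j) (z (j + 1)))

variable (G) in
/-- Squared difference of posterior means. -/
noncomputable def dm (θ : ℝ) (w : V → Bool → ℝ) (θ' : ℝ) (w' : V → Bool → ℝ) (v : V) : ℝ :=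
  (mm G θ w v - mm G θ' w' v) ^ 2

lemma dm_comm (θ : ℝ) (w : V → Bool → ℝ) (θ' : ℝ) (w' : V → Bool → ℝ) (v : V) :
    dm G θ w θ' w' v = dm G θ' w' θ w v := by unfold dm; ring

lemma dm_nonneg (θ : ℝ) (w : V → Bool → ℝ) (θ' : ℝ) (w' : V → Bool → ℝ) (v : V) :
    0 ≤ dm G θ w θ' w' v := sq_nonneg _

lemma Sig_eq (θ : ℝ) (w : V → Bool → ℝ) (z : ℕ → V) (k : ℕ) :
    Sig G θ w z k = θ ^ k * XX G θ w z k := by
  unfold Sig XX mm
  rw [Finset.prod_mul_distrib, Finset.prod_const, Finset.card_range]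
  ring

section RW
variable {b : ℕ} (hG : Reg G b) {θ θ' : ℝ} (h0 : 0 ≤ θ) (h1 : θ ≤ 3 / 4) {Λ Λ' : Finset V} {M : ℝ}
  {Θ : Type*} [MeasurableSpace Θ] {w w' : Θ → V → Bool → ℝ} (h : RW Λ M w) {z : ℕ → V} {k : ℕ}
include hG h0 h1 h

lemma RW.XX_bound (hz : NB G z k) (x : Θ) : 0 < XX G θ (w x) z k ∧ XX G θ (w x) z k ≤ 1 := by
  have a := mg_sq_lt (h.B_pos hG h0 h1 (ok_self (z 0)) x)
  have p := fun j (hj : j ∈ Finset.range k) =>
    h.ph_bound hG h0 h1 (Or.inr (hz.1 j (Finset.mem_range.1 hj))) x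
  have p0 := fun j hj => lt_of_lt_of_le (mar_pos b M) (p j hj).1
  unfold XX mm
  exact ⟨mul_pos (by linarith) (Finset.prod_pos p0), mul_le_one₀ (by nlinarith)
    (Finset.prod_pos p0).le (Finset.prod_le_one (fun j hj => (p0 j hj).le) fun j hj => (p j hj).2)⟩

lemma RW.bd_XX (hz : NB G z k) : Bd fun x => XX G θ (w x) z k :=
  ((Bd.const 1).sub ((h.bd_mg hG h0 h1 (ok_self _)).pow 2)).mul (Bd.prod fun j hj =>
    h.bd_ph hG h0 h1 (Or.inr (hz.1 j (Finset.mem_range.1 hj))))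

lemma RW.log_XX (hz : NB G z k) (x : Θ) : Real.log (XX G θ (w x) z k) =
    Real.log (1 - mm G θ (w x) (z 0) ^ 2) +
      ∑ j ∈ Finset.range k, lph G θ (w x) (z j) (z (j + 1)) := by
  have a := mg_sq_lt (h.B_pos hG h0 h1 (ok_self (z 0)) x)
  have p0 := fun j (hj : j ∈ Finset.range k) => lt_of_lt_of_le (mar_pos b M)
    (h.ph_bound hG h0 h1 (Or.inr (hz.1 j (Finset.mem_range.1 hj))) x).1
  unfold XX lph
  rw [Real.log_mul (by unfold mm; linarith) (Finset.prod_pos p0).ne',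
    Real.log_prod fun j hj => (p0 j hj).ne']

lemma RW.bd_lm (v : V) : Bd fun x => Real.log (1 - mm G θ (w x) v ^ 2) :=
  ((Bd.const 1).sub ((h.bd_mg hG h0 h1 (ok_self _)).pow 2)).log (mar_pos b M) fun x =>
    one_sub_sq_ge (h.abs_mg hG h0 h1 (ok_self v) x) (mar_pos b M)

lemma RW.bd_l {p u : V} (hp : G.Adj p u) : Bd fun x => lph G θ (w x) p u :=
  h.bd_lph hG h0 h1 (Or.inr hp)

lemma RW.SG_sq {q : ℝ} (hq : b * θ ^ 2 ≤ q) (x : Θ) (a v : V) :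
    b ^ G.dist v a * SG G θ (w x) a v ^ 2 ≤ q ^ G.dist v a := by
  have X := h.XX_bound hG h0 h1 (geo_spec hG.tree a v).2.2 x
  unfold SG
  rw [Sig_eq, mul_pow, ← mul_assoc, ← pow_mul, mul_comm _ 2, pow_mul, ← mul_pow]
  exact (mul_le_of_le_one_right (by positivity) (by nlinarith [X.1, X.2])).trans
    (pow_le_pow_left₀ (by positivity) hq _)

variable (h0' : 0 ≤ θ') (h1' : θ' ≤ 3 / 4) (h' : RW Λ' M w')
include h0' h1' h'

lemma RW.bd_dm (v : V) : Bd fun x => dm G θ (w x) θ' (w' x) v :=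
  ((bd_mm hG h0 h1 h v).sub (bd_mm hG h0' h1' h' v)).pow 2

lemma RW.bd_LL (hz : NB G z k) : Bd fun x => LL G θ (w x) θ' (w' x) z k :=
  ((h.bd_lm hG h0 h1 _).sub (h'.bd_lm hG h0' h1' _)).add (Bd.sum fun j hj =>
    (h.bd_l hG h0 h1 (hz.1 j (Finset.mem_range.1 hj))).sub
      (h'.bd_l hG h0' h1' (hz.1 j (Finset.mem_range.1 hj))))

lemma RW.XX_sub (hz : NB G z k) (x : Θ) :
    (XX G θ (w x) z k - XX G θ' (w' x) z k) ^ 2 ≤
      (XX G θ (w x) z k + XX G θ' (w' x) z k) * LL G θ (w x) θ' (w' x) z k ^ 2 ∧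
    (XX G θ (w x) z k - XX G θ' (w' x) z k) ^ 2 ≤ LL G θ (w x) θ' (w' x) z k ^ 2 := by
  have X := h.XX_bound hG h0 h1 hz x
  have X' := h'.XX_bound hG h0' h1' hz x
  have := sub_le_log X.1 X'.1 X.2 X'.2
  rw [h.log_XX hG h0 h1 hz, h'.log_XX hG h0' h1' hz] at this
  unfold LL
  rw [Finset.sum_sub_distrib]
  convert this using 3 <;> ring

lemma RW.Xi_crude {q : ℝ} (hq : b * θ ^ 2 ≤ q) (hq' : b * θ' ^ 2 ≤ q) (x : Θ) (a v : V) :
    b ^ G.dist v a * Xi G θ Λ θ' Λ' a v (w x) (w' x) ≤ 40 * q ^ G.dist v a := by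
  have s := h.SG_sq hG h0 h1 hq x a v
  have s' := h'.SG_sq hG h0' h1' hq' x a v
  have d := h.dm_le hG h0 h1 h0' h1' h' x v
  have p : (0 : ℝ) ≤ b ^ G.dist v a := by positivity
  have q0 := (mul_nonneg p (sq_nonneg _)).trans s
  unfold Xi
  split_ifs
  · nlinarith [mul_le_mul_of_nonneg_left d (mul_nonneg p (sq_nonneg (SG G θ' (w' x) a v))),
      mul_nonneg p (sq_nonneg (SG G θ (w x) a v + SG G θ' (w' x) a v))]
  · nlinarith

lemma RW.Xi_le {q : ℝ} (hq : b * θ ^ 2 ≤ q) (hq' : b * θ' ^ 2 ≤ q) (q1 : q ≤ 1) (x : Θ) {a v : V}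
    (hv : v ∈ Λ) (hv' : v ∈ Λ') :
    b ^ G.dist v a * Xi G θ Λ θ' Λ' a v (w x) (w' x) ≤ q ^ G.dist v a *
      (16 * (XX G θ (w x) (geo G a v) (G.dist v a) - XX G θ' (w' x) (geo G a v) (G.dist v a)) ^ 2 +
        2 * (XX G θ' (w' x) (geo G a v) (G.dist v a) * dm G θ (w x) θ' (w' x) v)) +
      16 * b * G.dist v a ^ 2 * (θ - θ') ^ 2 * XX G θ' (w' x) (geo G a v) (G.dist v a) := by
  have X' := h'.XX_bound hG h0' h1' (geo_spec hG.tree a v).2.2 x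
  have d0 := dm_nonneg (G := G) θ (w x) θ' (w' x) v
  have e1 := pow_diff_le (Nat.cast_nonneg b) h0 h0' (hq.trans q1) (hq'.trans q1) (G.dist v a)
  have e2 : ∀ θ : ℝ, b * θ ^ 2 ≤ q → b ^ G.dist v a * (θ ^ G.dist v a) ^ 2 ≤ q ^ G.dist v a := by
    intro θ hq
    rw [← pow_mul, mul_comm _ 2, pow_mul, ← mul_pow]
    exact pow_le_pow_left₀ (by positivity) hq _
  have e3 := e2 θ hq
  have e4 := e2 θ' hq'
  unfold Xi SG
  rw [if_pos ⟨hv, hv'⟩, Sig_eq, Sig_eq]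
  change _ * (_ + 2 * (_ * dm G θ (w x) θ' (w' x) v)) ≤ _
  generalize XX G θ (w x) (geo G a v) (G.dist v a) = X at *
  generalize XX G θ' (w' x) (geo G a v) (G.dist v a) = Y at *
  generalize dm G θ (w x) θ' (w' x) v = D at *
  have p : (0 : ℝ) ≤ b ^ G.dist v a := by positivity
  have r0 : (0 : ℝ) ≤ b * G.dist v a ^ 2 * (θ - θ') ^ 2 := by positivity
  have q0 := (mul_nonneg p (sq_nonneg _)).trans e3
  generalize (b : ℝ) ^ G.dist v a = P at *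
  generalize θ ^ G.dist v a = t at *
  generalize θ' ^ G.dist v a = t' at *
  have Y2 : Y ^ 2 ≤ Y := by nlinarith [X'.1, X'.2]
  have a1 := mul_le_mul_of_nonneg_right e3 (sq_nonneg (X - Y))
  have a2 := mul_le_mul e1 Y2 (sq_nonneg _) r0
  have a3 := mul_le_mul_of_nonneg_right (mul_le_mul e4 Y2 (sq_nonneg _) q0) d0
  nlinarith [mul_nonneg p (sq_nonneg (t * (X - Y) - (t - t') * Y))]

end RW

lemma LL_weight {b : ℕ} (hG : Reg G b) {θ θ' : ℝ} (h0 : 0 ≤ θ) (h1 : θ ≤ 3 / 4) (h0' : 0 ≤ θ')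
    (h1' : θ' ≤ 3 / 4) {Λ Λ' : Finset V} {M : ℝ} {w w' : (ℕ × V → ℝ) → V → Bool → ℝ}
    (h : RW Λ M w) (h' : RW Λ' M w') {z : ℕ → V} {k : ℕ} (hz : NB G z k)
    {g : (ℕ × V → ℝ) → ℝ} (hg : Bd g) (g0 : ∀ x, 0 ≤ g x) {Γ Γ' : ℝ}
    (a1 : ∀ i ≤ k, ∫ x, g x * dm G θ (w x) θ' (w' x) (z i) ∂PI (ℕ × V) ≤ Γ)
    (a2 : ∫ x, g x ∂PI (ℕ × V) ≤ Γ') :
    ∫ x, g x * LL G θ (w x) θ' (w' x) z k ^ 2 ∂PI (ℕ × V) ≤
      (k + 1) ^ 2 * CD b M * (16 * Γ + 8 * (θ - θ') ^ 2 * Γ') := by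
  have c := one_le_CD b h.one
  have bd := fun i => hg.mul (h.bd_dm hG h0 h1 h0' h1' h' (z i))
  have bs : ∀ j ∈ Finset.range k, Bd fun x => g x * dm G θ (w x) θ' (w' x) (z (j + 1)) +
      g x * dm G θ (w x) θ' (w' x) (z j) + (θ - θ') ^ 2 * g x := fun j _ =>
    ((bd _).add (bd _)).add (hg.cmul _)
  have := (hg.mul ((h.bd_LL hG h0 h1 h0' h1' h' hz).pow 2)).mono
    (((bd 0).cmul (2 * CD b M)).add ((Bd.sum bs).cmul (8 * k * CD b M))) (PI (ℕ × V)) fun x => by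
      have t1 := h.lm_lip hG h0 h1 h0' h1' h' x (z 0)
      have t2 := sq_sum_le_card_mul_sum_sq (s := Finset.range k) (f := fun j =>
        lph G θ (w x) (z j) (z (j + 1)) - lph G θ' (w' x) (z j) (z (j + 1)))
      have t3 := Finset.sum_le_sum fun j (hj : j ∈ Finset.range k) =>
        h.lph_lip' hG h0 h1 h0' h1' h' x (hz.1 j (Finset.mem_range.1 hj))
      rw [← Finset.mul_sum] at t3
      rw [Finset.card_range] at t2
      have t4 := t2.trans (mul_le_mul_of_nonneg_left t3 (Nat.cast_nonneg k))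
      have e : ∑ j ∈ Finset.range k, (g x * dm G θ (w x) θ' (w' x) (z (j + 1)) +
          g x * dm G θ (w x) θ' (w' x) (z j) + (θ - θ') ^ 2 * g x) = g x * ∑ j ∈ Finset.range k,
            (dm G θ (w x) θ' (w' x) (z (j + 1)) + dm G θ (w x) θ' (w' x) (z j) + (θ - θ') ^ 2) := by
        rw [Finset.mul_sum]; exact Finset.sum_congr rfl fun j _ => by ring
      rw [e]
      unfold LL dm
      generalize Real.log (1 - mm G θ (w x) (z 0) ^ 2) -
        Real.log (1 - mm G θ' (w' x) (z 0) ^ 2) = A at *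
      generalize ∑ j ∈ Finset.range k,
        (lph G θ (w x) (z j) (z (j + 1)) - lph G θ' (w' x) (z j) (z (j + 1))) = S at *
      have t5 : (A + S) ^ 2 ≤ 2 * A ^ 2 + 2 * S ^ 2 := by nlinarith [sq_nonneg (A - S)]
      have t6 := mul_le_mul_of_nonneg_left (t5.trans (add_le_add
        (mul_le_mul_of_nonneg_left t1 zero_le_two) (mul_le_mul_of_nonneg_left t4 zero_le_two)))
        (g0 x)
      linarith
  rw [((bd 0).cmul _).iadd ((Bd.sum bs).cmul _), integral_const_mul, integral_const_mul,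
    integral_finsetSum _ fun j hj => (bs j hj).int _] at this
  have s := Finset.sum_le_card_nsmul (Finset.range k) (fun j => ∫ x,
    (g x * dm G θ (w x) θ' (w' x) (z (j + 1)) + g x * dm G θ (w x) θ' (w' x) (z j) +
      (θ - θ') ^ 2 * g x) ∂PI (ℕ × V)) (2 * Γ + (θ - θ') ^ 2 * Γ') fun j hj => by
      have hj' := Finset.mem_range.1 hj
      rw [((bd _).add (bd _)).iadd (hg.cmul _), (bd _).iadd (bd _), integral_const_mul]
      linarith [a1 j (by omega), a1 (j + 1) (by omega),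
        mul_le_mul_of_nonneg_left a2 (sq_nonneg (θ - θ'))]
  rw [Finset.card_range, nsmul_eq_mul] at s
  have Γ0 : 0 ≤ Γ := (integral_nonneg fun x => mul_nonneg (g0 x) (dm_nonneg _ _ _ _ _)).trans
    (a1 0 (by omega))
  have Γ1 : 0 ≤ (θ - θ') ^ 2 * Γ' := mul_nonneg (sq_nonneg _) ((integral_nonneg g0).trans a2)
  have k0 : (0 : ℝ) ≤ k := Nat.cast_nonneg k
  have t1 := mul_le_mul_of_nonneg_left s (show 0 ≤ 8 * k * CD b M by positivity)
  have t2 := mul_le_mul_of_nonneg_left (a1 0 (by omega)) (show 0 ≤ 2 * CD b M by positivity)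
  have c0 : 0 ≤ CD b M := by linarith
  nlinarith [mul_nonneg c0 Γ0, mul_nonneg c0 Γ1, mul_nonneg k0 (mul_nonneg c0 Γ0),
    mul_nonneg k0 (mul_nonneg c0 Γ1)]

lemma level_sum {b : ℕ} (hG : Reg G b) (T : Finset V) (a : V) {g : V → ℝ} {Y : ℕ → ℝ}
    (Y0 : ∀ k, 0 ≤ Y k) {q c : ℝ} (q0 : 0 ≤ q) (q1 : q < 1) (c0 : 0 ≤ c) (K : ℕ)
    (h1 : ∀ v, G.dist v a < K → b ^ G.dist v a * g v ≤ Y (G.dist v a))
    (h2 : ∀ v, b ^ G.dist v a * g v ≤ c * q ^ G.dist v a) :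
    ∑ v ∈ T, g v ≤ 2 * ∑ k ∈ Finset.range K, Y k + 2 * c * (q ^ K / (1 - q)) := by
  have key : ∀ k (y : ℝ), 0 ≤ y → (∀ v, G.dist v a = k → b ^ k * g v ≤ y) →
      ∑ v ∈ T with G.dist v a = k, g v ≤ 2 * y := by
    intro k y y0 h
    have p : (0 : ℝ) < b ^ k := by have := hG.two; positivity
    have := Finset.sum_le_card_nsmul (T.filter fun v => G.dist v a = k) g (y / b ^ k) fun v hv => by
      rw [le_div_iff₀' p]; exact h v (Finset.mem_filter.1 hv).2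
    rw [nsmul_eq_mul] at this
    have c : ((T.filter fun v => G.dist v a = k).card : ℝ) ≤ 2 * b ^ k := by
      exact_mod_cast card_level hG.tree hG.card hG.root T a k
    refine this.trans ((mul_le_mul_of_nonneg_right c (by positivity)).trans (le_of_eq ?_))
    field_simp
  rw [← Finset.sum_fiberwise_of_maps_to (g := fun v => G.dist v a)
    (t := Finset.range (K + (T.sup (fun x => G.dist x a) + 1))) (fun v hv => by
      have := lt_sup (G := G) T a v hv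
      simp only [Finset.mem_range]; omega), Finset.sum_range_add, Finset.mul_sum]
  refine add_le_add (Finset.sum_le_sum fun k hk => key k _ (Y0 k) fun v hv => ?_) ?_
  · rw [← hv]; exact h1 v (hv ▸ Finset.mem_range.1 hk)
  · refine (Finset.sum_le_sum fun k _ => key (K + k) (c * q ^ (K + k)) (by positivity)
      fun v hv => hv ▸ h2 v).trans ?_
    rw [← Finset.mul_sum, ← Finset.mul_sum, mul_assoc]
    exact mul_le_mul_of_nonneg_left (mul_le_mul_of_nonneg_left (geom_tail q0 q1 K _) c0)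
      zero_le_two

variable (G) in
/-- A bound valid for all volumes containing a ball of radius `ρ`. -/
def Bnd (θ θ' : ℝ) (r : ℕ) (σ : ℝ) (ρ : ℕ) (x : ℝ) : Prop :=
  ∀ a Λ Λ', ball G a ρ ⊆ Λ → ball G a ρ ⊆ Λ' → ff G θ Λ θ' Λ' a r σ ≤ x

variable (G) in
/-- The asymptotic mean square distance. -/
noncomputable def cc (θ θ' : ℝ) (r : ℕ) (σ : ℝ) : ℝ := sInf {x | ∃ ρ, Bnd G θ θ' r σ ρ x}

lemma ff_eq (θ : ℝ) (Λ : Finset V) (θ' : ℝ) (Λ' : Finset V) (a : V) (r : ℕ) (σ : ℝ) :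
    ff G θ Λ θ' Λ' a r σ =
      ∫ ω, dm G θ (St G θ Λ r σ ω) θ' (St G θ' Λ' r σ ω) a ∂PI (ℕ × V) := rfl

section CC
variable {θ θ' σ x : ℝ} {r ρ : ℕ}

lemma Bnd.symm (h : Bnd G θ θ' r σ ρ x) : Bnd G θ' θ r σ ρ x := fun a Λ Λ' h1 h2 => by
  have := h a Λ' Λ h2 h1
  rw [ff_eq] at this ⊢
  simpa only [dm_comm θ'] using this

lemma Bnd.mono (hT : G.IsTree) (h : Bnd G θ θ' r σ ρ x) {ρ' : ℕ} (hρ : ρ ≤ ρ') {y : ℝ}
    (hy : x ≤ y) : Bnd G θ θ' r σ ρ' y := fun a Λ Λ' h1 h2 =>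
  (h a Λ Λ' ((ball_sub hT (by simpa)).trans h1) ((ball_sub hT (by simpa)).trans h2)).trans hy

lemma Bnd.nonneg (hT : G.IsTree) (h : Bnd G θ θ' r σ ρ x) : 0 ≤ x := by
  obtain ⟨a⟩ := hT.connected.nonempty
  exact (integral_nonneg fun _ => sq_nonneg _).trans (h a _ _ subset_rfl subset_rfl)

lemma cc_nonneg (hT : G.IsTree) (θ θ' : ℝ) (r : ℕ) (σ : ℝ) : 0 ≤ cc G θ θ' r σ :=
  Real.sInf_nonneg fun _ ⟨_, h⟩ => h.nonneg hT

lemma Bnd.cc_le (hT : G.IsTree) (h : Bnd G θ θ' r σ ρ x) : cc G θ θ' r σ ≤ x :=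
  csInf_le ⟨0, fun _ ⟨_, h⟩ => h.nonneg hT⟩ ⟨ρ, h⟩

lemma cc_round (θ θ' : ℝ) (r : ℕ) : cc G θ θ' (r + 1) 0 = cc G θ θ' r (1 / 2) := by
  simp only [cc, Bnd, ff, St_round]

variable {b : ℕ} (hG : Reg G b) (h0 : 0 ≤ θ) (h1 : θ ≤ 3 / 4) (h0' : 0 ≤ θ') (h1' : θ' ≤ 3 / 4)
include hG h0 h1 h0' h1'

lemma Bnd.time (h : Bnd G θ θ' r σ ρ x) {t : ℝ} (ht : t ≤ σ) : Bnd G θ θ' r t ρ x :=
  fun a Λ Λ' a1 a2 => (ff_mono hG h0 h1 h0' h1' a r ht).trans (h a Λ Λ' a1 a2)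

lemma exists_bnd {y : ℝ} (h : cc G θ θ' r σ < y) : ∃ ρ, Bnd G θ θ' r σ ρ y := by
  obtain ⟨x, ⟨ρ, hx⟩, hy⟩ := exists_lt_of_csInf_lt (s := {x | ∃ ρ, Bnd G θ θ' r σ ρ x})
    ⟨4, 0, fun a Λ Λ' _ _ => by
    have R := rw_St hG.tree θ Λ r σ
    have R' := rw_St hG.tree θ' Λ' r σ
    rw [ff_eq]
    simpa using (R.bd_dm hG h0 h1 h0' h1' R' a).mono (Bd.const 4) (PI (ℕ × V))
      fun ω => R.dm_le hG h0 h1 h0' h1' R' ω a⟩ h
  exact ⟨ρ, hx.mono hG.tree le_rfl hy.le⟩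

lemma cc_step {σ₁ σ₂ A β : ℝ} (h12 : σ₁ ≤ σ₂) (s1 : 0 ≤ σ₁) (h2 : σ₂ ≤ 1 / 2) (A0 : 0 ≤ A)
    (β0 : 0 ≤ β) (H : ∀ x ρ, Bnd G θ θ' r σ₂ ρ x → ∀ η, 0 < η → ∃ ρ', ∀ a Λ Λ', ball G a ρ' ⊆ Λ →
      ball G a ρ' ⊆ Λ' → ∀ t, σ₁ ≤ t → t < σ₂ → kap t ^ 2 * ∑ v ∈ Λ ∪ Λ',
        ∫ ω, Xi G θ Λ θ' Λ' a v (St G θ Λ r t ω) (St G θ' Λ' r t ω) ∂PI (ℕ × V) ≤ A * x + β + η) :
    cc G θ θ' r σ₂ ≤ cc G θ θ' r σ₁ + 2 * (σ₂ - σ₁) * (A * cc G θ θ' r σ₂ + β) := by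
  refine le_of_forall_pos_le_add fun ε hε => ?_
  set e := ε / (A + 2) with he
  have e0 : 0 < e := by positivity
  have e1 : e * (A + 2) = ε := by rw [he]; field_simp
  obtain ⟨ρ₁, b1⟩ := exists_bnd hG h0 h1 h0' h1' (lt_add_of_pos_right (cc G θ θ' r σ₁) e0)
  obtain ⟨ρ₂, b2⟩ := exists_bnd hG h0 h1 h0' h1' (lt_add_of_pos_right (cc G θ θ' r σ₂) e0)
  obtain ⟨ρ', b3⟩ := H _ _ b2 e e0
  have c0 := cc_nonneg hG.tree θ θ' r σ₂
  refine (Bnd.cc_le hG.tree (ρ := ρ₁ + ρ') (x := cc G θ θ' r σ₁ + e + 2 * (σ₂ - σ₁) *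
    (A * (cc G θ θ' r σ₂ + e) + β + e)) fun a Λ Λ' a1 a2 => ?_).trans ?_
  · have s1 : ball G a ρ₁ ⊆ ball G a (ρ₁ + ρ') := ball_sub hG.tree (by simp)
    have s2 : ball G a ρ' ⊆ ball G a (ρ₁ + ρ') := ball_sub hG.tree (by simp)
    exact (jump_le hG h0 h1 h0' h1' a r h12 h2 (by positivity)
      (b3 a Λ Λ' (s2.trans a1) (s2.trans a2))).trans
        (add_le_add (b1 a Λ Λ' (s1.trans a1) (s1.trans a2)) le_rfl)
  · nlinarith [mul_nonneg (show 0 ≤ 1 - 2 * (σ₂ - σ₁) by linarith)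
      (show 0 ≤ e * (A + 1) by positivity)]

lemma xi_sum {q : ℝ} (hq : b * θ ^ 2 ≤ q) (hq' : b * θ' ^ 2 ≤ q) (q1 : q < 1) (t : ℝ) (a : V)
    (Λ Λ' : Finset V) {Y : ℕ → ℝ} (Y0 : ∀ k, 0 ≤ Y k) (K : ℕ)
    (h : ∀ v, G.dist v a < K → kap t ^ 2 * ∫ ω, b ^ G.dist v a *
      Xi G θ Λ θ' Λ' a v (St G θ Λ r t ω) (St G θ' Λ' r t ω) ∂PI (ℕ × V) ≤ Y (G.dist v a)) :
    kap t ^ 2 * ∑ v ∈ Λ ∪ Λ',
      ∫ ω, Xi G θ Λ θ' Λ' a v (St G θ Λ r t ω) (St G θ' Λ' r t ω) ∂PI (ℕ × V) ≤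
        2 * ∑ k ∈ Finset.range K, Y k + 80 * (q ^ K / (1 - q)) := by
  have q0 : 0 ≤ q := le_trans (by positivity) hq
  rw [Finset.mul_sum, show (80 : ℝ) = 2 * 40 by norm_num]
  refine level_sum hG _ a Y0 q0 q1 (by norm_num) K (fun v hv => ?_) fun v => ?_
  · rw [mul_left_comm, ← integral_const_mul]; exact h v hv
  · rw [mul_left_comm, ← integral_const_mul]
    have R := rw_St hG.tree θ Λ r t
    have R' := rw_St hG.tree θ' Λ' r t
    have := ((bd_Xi hG h0 h1 h0' h1' R R' a v).cmul (b ^ G.dist v a)).mono (Bd.const _)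
      (PI (ℕ × V)) fun ω => R.Xi_crude hG h0 h1 h0' h1' R' hq hq' ω a v
    rw [iconst] at this
    have k1 : kap t ^ 2 ≤ 1 := pow_le_one₀ (kap_nonneg t) (by linarith [kap_le t])
    exact (mul_le_mul k1 this (integral_nonneg fun ω => mul_nonneg (by positivity)
      (Xi_nonneg _ _ _ _)) zero_le_one).trans (le_of_eq (one_mul _))

lemma int_Xi_le {q : ℝ} (hq : b * θ ^ 2 ≤ q) (hq' : b * θ' ^ 2 ≤ q) (q1 : q ≤ 1) (t : ℝ) {a v : V}
    {Λ Λ' : Finset V} (hv : v ∈ Λ) (hv' : v ∈ Λ') {A₁ A₂ A₃ : ℝ}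
    (a1 : ∫ ω, (XX G θ (St G θ Λ r t ω) (geo G a v) (G.dist v a) -
      XX G θ' (St G θ' Λ' r t ω) (geo G a v) (G.dist v a)) ^ 2 ∂PI (ℕ × V) ≤ A₁)
    (a2 : ∫ ω, XX G θ' (St G θ' Λ' r t ω) (geo G a v) (G.dist v a) *
      dm G θ (St G θ Λ r t ω) θ' (St G θ' Λ' r t ω) v ∂PI (ℕ × V) ≤ A₂)
    (a3 : ∫ ω, XX G θ' (St G θ' Λ' r t ω) (geo G a v) (G.dist v a) ∂PI (ℕ × V) ≤ A₃) :
    ∫ ω, b ^ G.dist v a * Xi G θ Λ θ' Λ' a v (St G θ Λ r t ω) (St G θ' Λ' r t ω) ∂PI (ℕ × V) ≤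
      q ^ G.dist v a * (16 * A₁ + 2 * A₂) + 16 * b * G.dist v a ^ 2 * (θ - θ') ^ 2 * A₃ := by
  have R := rw_St hG.tree θ Λ r t
  have R' := rw_St hG.tree θ' Λ' r t
  have hz := (geo_spec hG.tree a v).2.2
  have X := R.bd_XX hG h0 h1 hz
  have X' := R'.bd_XX hG h0' h1' hz
  have b1 := ((X.sub X').pow 2).cmul 16
  have b2 := (X'.mul (R.bd_dm hG h0 h1 h0' h1' R' v)).cmul 2
  have := ((bd_Xi hG h0 h1 h0' h1' R R' a v).cmul (b ^ G.dist v a)).mono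
    (((b1.add b2).cmul _).add (X'.cmul _)) (PI (ℕ × V))
    fun ω => R.Xi_le hG h0 h1 h0' h1' R' hq hq' q1 ω hv hv'
  rw [((b1.add b2).cmul _).iadd (X'.cmul _), integral_const_mul (q ^ G.dist v a), b1.iadd b2,
    integral_const_mul 16, integral_const_mul 2, integral_const_mul (16 * _ * _ * _)] at this
  have q0 : 0 ≤ q := le_trans (by positivity) hq
  refine this.trans (add_le_add (mul_le_mul_of_nonneg_left (by linarith) (by positivity))
    (mul_le_mul_of_nonneg_left a3 (by positivity)))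

end CC

lemma exists_tail {q : ℝ} (q0 : 0 ≤ q) (q1 : q < 1) {η : ℝ} (hη : 0 < η) :
    ∃ K : ℕ, 80 * (q ^ K / (1 - q)) ≤ η := by
  have : Tendsto (fun K : ℕ => 80 * (q ^ K / (1 - q))) atTop (𝓝 0) := by
    simpa using ((tendsto_pow_atTop_nhds_zero_of_lt_one q0 q1).div_const (1 - q)).const_mul 80
  exact (this.eventually (ge_mem_nhds hη)).exists

lemma cc_start (hT : G.IsTree) (θ θ' : ℝ) : cc G θ θ' 0 0 ≤ 0 :=
  Bnd.cc_le hT (ρ := 0) fun a Λ Λ' _ _ => by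
    simp only [ff, St_start, mm_empty hT (w := fun _ _ => 1) fun _ _ => rfl]
    simp

/-- Locality in the subcritical regime. -/
theorem locality {b : ℕ} (hG : Reg G b) {θ : ℝ} (h0 : 0 ≤ θ) (h1 : θ ≤ 3 / 4) (hb : b * θ ^ 2 < 1)
    (r : ℕ) {η : ℝ} (hη : 0 < η) : ∃ ρ, Bnd G θ θ r (1 / 2) ρ η := by
  have q0 : 0 ≤ b * θ ^ 2 := by positivity
  obtain ⟨S, S0, hS⟩ := exists_S q0 hb
  have step : ∀ r, cc G θ θ r 0 ≤ 0 → cc G θ θ r (1 / 2) ≤ 0 := by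
    intro r hr
    have c := one_le_CD b (M := 2 ^ (r + 1)) (one_le_pow₀ (by norm_num))
    refine le_of_forall_pos_le_add fun ε hε => ?_
    obtain ⟨L₀, hL⟩ := osgood (C := 2 * (516 * CD b (2 ^ (r + 1)) * S)) (by positivity) hε
    rw [zero_add]
    refine hL (cc G θ θ r) 0 le_rfl (by norm_num) (cc_nonneg hG.tree θ θ r)
      (fun σ₁ σ₂ s1 s2 s3 L L1 _ => ?_) (hr.trans (Real.exp_pos _).le)
    have := cc_step (r := r) hG h0 h1 h0 h1 s2 s1 s3 (A := 516 * CD b (2 ^ (r + 1)) * S) (β := 0)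
      (by positivity) le_rfl fun x ρ hx η hη => by
        obtain ⟨K, hK⟩ := exists_tail q0 hb hη
        have x0 := hx.nonneg hG.tree
        refine ⟨K + ρ, fun a Λ Λ' a1 a2 t _ t2 => ?_⟩
        refine (xi_sum hG h0 h1 h0 h1 le_rfl le_rfl hb t a Λ Λ' (Y := fun k =>
          258 * CD b (2 ^ (r + 1)) * x * (((k : ℝ) + 1) ^ 2 * (b * θ ^ 2) ^ k))
          (fun k => by positivity) K fun v hv => ?_).trans ?_
        · have R := rw_St hG.tree θ Λ r t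
          have R' := rw_St hG.tree θ Λ' r t
          obtain ⟨g1, g2, hz⟩ := geo_spec hG.tree a v
          have d : ∀ i ≤ G.dist v a, ∫ ω, dm G θ (St G θ Λ r t ω) θ (St G θ Λ' r t ω) (geo G a v i)
              ∂PI (ℕ × V) ≤ x := by
            intro i hi
            have s : ball G (geo G a v i) ρ ⊆ ball G a (K + ρ) := ball_sub hG.tree (by
              have := hz.dist hG.tree hi
              rw [g1] at this; omega)
            exact hx.time hG h0 h1 h0 h1 t2.le _ _ _ (s.trans a1) (s.trans a2)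
          have l := LL_weight hG h0 h1 h0 h1 R R' hz (Bd.const 1) (fun _ => zero_le_one) (Γ := x)
            (Γ' := 1) (by simpa using d) (by simp)
          have X := R.bd_XX hG h0 h1 hz
          have X' := R'.bd_XX hG h0 h1 hz
          have hv1 : v ∈ ball G a (K + ρ) := (mem_ball hG.tree).2 (by omega)
          have i := int_Xi_le hG h0 h1 h0 h1 le_rfl le_rfl hb.le t (a1 hv1) (a2 hv1) (A₂ := x)
            ((((X.sub X').pow 2).mono ((Bd.const 1).mul ((R.bd_LL hG h0 h1 h0 h1 R' hz).pow 2)) _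
              fun ω => by rw [one_mul]; exact (R.XX_sub hG h0 h1 h0 h1 R' hz ω).2).trans l)
            (((X'.mul (R.bd_dm hG h0 h1 h0 h1 R' v)).mono (R.bd_dm hG h0 h1 h0 h1 R' v) _
              fun ω => mul_le_of_le_one_left (dm_nonneg _ _ _ _ _)
                (R'.XX_bound hG h0 h1 hz ω).2).trans (by have := d _ le_rfl; rwa [g2] at this))
            le_rfl
          simp only [sub_self, ne_eq, OfNat.ofNat_ne_zero, not_false_eq_true, zero_pow, mul_zero,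
            zero_mul, add_zero] at i
          have k1 : kap t ^ 2 ≤ 1 := pow_le_one₀ (kap_nonneg t) (by linarith [kap_le t])
          refine (mul_le_mul k1 i (integral_nonneg fun ω => mul_nonneg (by positivity)
            (Xi_nonneg _ _ _ _)) zero_le_one).trans ?_
          have p : 0 ≤ (b * θ ^ 2) ^ G.dist v a * x := by positivity
          have k2 : (1 : ℝ) ≤ ((G.dist v a : ℝ) + 1) ^ 2 * CD b (2 ^ (r + 1)) :=
            one_le_mul_of_one_le_of_one_le (one_le_pow₀ (by simp)) c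
          nlinarith [mul_le_mul_of_nonneg_right k2 p]
        · rw [← Finset.mul_sum]
          nlinarith [mul_le_mul_of_nonneg_left (hS K)
            (show 0 ≤ 258 * CD b (2 ^ (r + 1)) * x by positivity)]
    refine this.trans (add_le_add le_rfl ?_)
    have c0 := cc_nonneg hG.tree θ θ r σ₂
    have p : 0 ≤ 2 * (516 * CD b (2 ^ (r + 1)) * S) * (σ₂ - σ₁) :=
      mul_nonneg (by positivity) (by linarith)
    nlinarith [mul_le_mul_of_nonneg_left (show cc G θ θ r σ₂ ≤ L * cc G θ θ r σ₂ + Real.exp (-L) by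
      nlinarith [Real.exp_pos (-L)]) p]
  have key : ∀ r, cc G θ θ r (1 / 2) ≤ 0 := by
    intro r
    induction r with
    | zero => exact step 0 (cc_start hG.tree θ θ)
    | succ r ih => exact step _ (by rwa [cc_round])
  exact exists_bnd hG h0 h1 h0 h1 ((key r).trans_lt hη)

end Crest.Agent.Ising
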