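import Crest.Agent.Ising.Grow

/-!
The near critical dynamics form a Cauchy family.
-/

set_option maxHeartbeats 400000

open MeasureTheory Set Filter Topology SimpleGraph
open Crest.Agent.FIID

namespace Crest.Agent.Ising

/-- The scale attached to a time. -/
noncomputable def sv (r : ℕ) (t : ℝ) : ℝ := if r = 0 then t else 1 / 2

lemma gw_sv {V : Type*} (r : ℕ) {t : ℝ} (h0 : 0 ≤ t) (h1 : t ≤ 1 / 2) :
    GW (V := V) (2 ^ (r + 1)) ((sv r t ^ 11 / 2 ^ 13) ^ 2) (W0 r t) := by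
  refine (gw_W0 r h0 h1).mono (sq_nonneg _) ?_
  unfold sv
  split_ifs with h
  · subst h; simp only [Nat.cast_zero, zero_mul, zero_add]; exact le_of_eq (by ring)
  · have : (1 : ℝ) ≤ r := by exact_mod_cast Nat.one_le_iff_ne_zero.2 h
    have : 0 ≤ t ^ 22 / 2 ^ 26 := by positivity
    nlinarith

variable {V : Type*} [DecidableEq V] {G : SimpleGraph V} [G.LocallyFinite]

lemma near_res (Λ : Finset V) (σ : ℝ) (ω : ℕ × V → ℝ) (v : V) :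
    ∃ x, |x| ≤ σ ^ 10 ∧ ∀ s, res Λ (W0 0 σ ω) v s = 1 + sg s * x := by
  unfold res
  split_ifs
  · exact near_W0 σ ω v
  · exact ⟨0, by simpa using by positivity, fun s => by simp⟩

variable {b : ℕ} (hG : Reg G b)
include hG

lemma tm_tail : ∃ C : ℝ, 1 ≤ C ∧ ∀ (θ : ℝ) (r : ℕ) (t L x : ℝ), 0 ≤ θ → θ ≤ 3 / 4 → b * θ ^ 2 ≤ 1 → 0 ≤ t →
    t ≤ 1 / 2 → 0 < sv r t → 3 ≤ L → 0 ≤ x →
      TM G θ r t x (C * sv r t ^ 4 * (L * x + Real.exp (-L))) := by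
  have c0 := ctl_pos hG.two
  have c1 := ctl_le hG.two
  set s₁ := ctl b / 8 with hs₁
  have s0 : 0 < s₁ := by positivity
  have s4 : s₁ ^ 4 ≤ 1 := pow_le_one₀ s0.le (by linarith)
  have C16 : 16 ≤ 16 / s₁ ^ 4 := by rw [le_div_iff₀ (by positivity)]; linarith
  refine ⟨16 / s₁ ^ 4, by linarith, fun θ r t L x h0 h1 hb t0 t1 sp L3 x0 Λ a f hf f0 f4 hx => ?_⟩
  have triv := tm_triv (r := r) (t := t) hG h0 h1 Λ a f hf f0 f4 hx
  have eL := Real.exp_pos (-L)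
  by_cases hs : s₁ ≤ sv r t
  · have : 1 ≤ 16 / s₁ ^ 4 * sv r t ^ 4 := by
      rw [div_mul_eq_mul_div, le_div_iff₀ (by positivity)]
      nlinarith [pow_le_pow_left₀ s0.le hs 4, pow_pos s0 4]
    nlinarith [mul_le_mul this (show x ≤ L * x + Real.exp (-L) by nlinarith) x0 (by linarith)]
  obtain rfl : r = 0 := by
    by_contra hr
    exact hs (by rw [sv, if_neg hr]; linarith)
  rw [sv, if_pos rfl] at hs sp ⊢
  rw [not_le] at hs
  have p4 := pow_pos sp 4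
  suffices ∫ ω, mm G θ (St G θ Λ 0 t ω) a ^ 2 * f ω ∂PI (ℕ × V) ≤
      t ^ 4 * (L * x) + 16 * (t ^ 4 * Real.exp (-L)) by
    nlinarith [mul_le_mul_of_nonneg_right C16 (mul_pos p4 eL).le,
      mul_le_mul_of_nonneg_right C16 (show 0 ≤ t ^ 4 * (L * x) by positivity),
      (show 0 ≤ t ^ 4 * (L * x) by positivity)]
  by_cases hL : 1 ≤ t ^ 4 * L
  · nlinarith [mul_le_mul_of_nonneg_right hL x0, mul_pos p4 eL]
  rw [not_le] at hL
  have R := rw_St hG.tree θ Λ 0 t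
  have t4 : t ^ 4 ≤ 1 := pow_le_one₀ t0 (by linarith)
  have T := ((gw_W0 0 t0 t1).sw (by positivity) Λ).tail hG h0 h1 hb (ε := t ^ 10) (l := 8 / t ^ 4)
    (by rw [le_div_iff₀ p4]; linarith) (by
      have : (8 / t ^ 4) ^ 2 * t ^ 10 = 64 * t ^ 2 := by field_simp; norm_num
      rw [this]; nlinarith) (near_res Λ t) a
  have E := exact_law (Λ := Λ) hG h0 h1 a 0 t
    (F := fun w => Real.exp (8 / t ^ 4 * |hh (B G θ w a a)|))
    (((rw_cw _ (one_le_M 0)).bd_hh hG h0 h1 (ok_self a)).abs.cmul _).exp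
  have bE := ((R.bd_hh hG h0 h1 (ok_self a)).abs.cmul (8 / t ^ 4)).exp
  set u := √L with hu
  have u2 : u ^ 2 = L := Real.sq_sqrt (by linarith)
  have u1 : 1 ≤ u := Real.le_sqrt_of_sq_le (by linarith)
  have := (((bd_mm hG h0 h1 R a).pow 2).mul hf).mono ((hf.cmul (t ^ 4 * L)).add
    (bE.cmul (4 * Real.exp (-(4 * u / t ^ 2))))) (PI (ℕ × V)) fun ω => by
      have m1 := R.mm_sq hG h0 h1 ω a
      have m2 := abs_mg_le_hh (R.B_pos hG h0 h1 (ok_self a) ω)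
      rw [mul_assoc 4, ← Real.exp_add]
      have := f0 ω
      by_cases hm : mm G θ (St G θ Λ 0 t ω) a ^ 2 ≤ t ^ 4 * L
      · nlinarith [Real.exp_pos (-(4 * u / t ^ 2) + 8 / t ^ 4 * |hh (B G θ (St G θ Λ 0 t ω) a a)|)]
      · have m3 : t ^ 2 * u ≤ |mm G θ (St G θ Λ 0 t ω) a| :=
          le_trans (le_abs_self _) (sq_le_sq.1 (by rw [mul_pow, u2]; nlinarith))
        have := Real.one_le_exp (x := -(4 * u / t ^ 2) +
            8 / t ^ 4 * |hh (B G θ (St G θ Λ 0 t ω) a a)|) (by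
          have e : 4 * u / t ^ 2 = 8 / t ^ 4 * (t ^ 2 * u / 2) := by field_simp; norm_num
          unfold mm at m3
          rw [e]
          nlinarith [mul_le_mul_of_nonneg_left (m3.trans m2) (show 0 ≤ 8 / t ^ 4 by positivity)])
        nlinarith [f4 ω, mul_nonneg (show 0 ≤ t ^ 4 * L by positivity) (f0 ω)]
  rw [(hf.cmul _).iadd (bE.cmul _), integral_const_mul, integral_const_mul, E] at this
  have e1 : Real.exp (-(4 * u / t ^ 2)) ≤ t ^ 4 * Real.exp (-L) := by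
    have v1 : u * t ^ 2 ≤ 1 := by nlinarith [sq_nonneg (u * t ^ 2 - 1)]
    have p2 := pow_pos sp 2
    have a1 : Real.exp (-(4 * u / t ^ 2)) ≤ Real.exp (-(2 / t ^ 2)) * Real.exp (-L) := by
      rw [← Real.exp_add]
      refine Real.exp_le_exp.2 ?_
      have : 2 / t ^ 2 + L ≤ 4 * u / t ^ 2 := by
        rw [div_add' _ _ _ p2.ne', div_le_div_iff_of_pos_right p2]
        nlinarith
      linarith
    refine a1.trans (mul_le_mul_of_nonneg_right ((exp_neg_le (by positivity) 2).trans ?_) eL.le)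
    rw [div_le_iff₀ (by positivity)]
    have : t ^ 4 * (2 / t ^ 2) ^ 2 = 4 := by field_simp; norm_num
    rw [this]; norm_num
  have T' := E.trans_le T
  rw [E] at T'
  linarith [mul_le_mul_of_nonneg_left hx (show 0 ≤ t ^ 4 * L by positivity),
    mul_le_mul_of_nonneg_left T' (Real.exp_pos (-(4 * u / t ^ 2))).le]

omit hG in
lemma large_num {s κ L x C η : ℝ} {b k K K₂ : ℕ} (hb : 2 ≤ b) (s0 : 0 < s) (s1 : s ≤ 1 / 2)
    (k1 : κ ≤ s ^ 20) (x0 : 0 ≤ x) (C0 : 0 ≤ C) (η0 : 0 ≤ η) (K1 : 1 ≤ s ^ 12 * K)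
    (K2 : 1024 * L ≤ (K : ℝ) ^ 2) (hK : K ≤ k) (hk : k < K₂) : 4 * ((k - 2) / 4) + 2 ≤ k ∧
    κ * ((k + 1) ^ 2 * (7 * rho b (s ^ 11 / 2 ^ 13) ^ ((k - 2) / 4) * x +
      4 * Real.exp (-(b * rho b (s ^ 11 / 2 ^ 13)) ^ ((k - 2) / 4)) +
        32 * (((k - 2) / 4 : ℕ) + 1) * C * η)) ≤
      (7 * ((28 : ℕ).factorial * (8 * (2 ^ 17 * b)) ^ 28) * x +
        4 * (2 * 1024 ^ 2 * Real.exp (-L))) * (1 / ((k : ℝ) + 1) ^ 2) +
          K₂ ^ 2 * (32 * K₂ * C * η) := by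
  have hb2 : (2 : ℝ) ≤ b := by exact_mod_cast hb
  have kK : (K : ℝ) ≤ k := by exact_mod_cast hK
  have p12 := pow_pos s0 12
  have k11 : 11 ≤ k := by
    have : s ^ 12 ≤ (1 / 2) ^ 12 := pow_le_pow_left₀ s0.le s1 12
    have : (11 : ℝ) ≤ k := by nlinarith
    exact_mod_cast this
  refine ⟨by omega, ?_⟩
  set n := (k - 2) / 4 with hn
  have n1 : (k : ℝ) + 1 ≤ 8 * n := by exact_mod_cast (show k + 1 ≤ 8 * n by omega)
  have n2 : (n : ℝ) + 1 ≤ K₂ := by exact_mod_cast (show n + 1 ≤ K₂ by omega)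
  have n3 : (k : ℝ) + 1 ≤ K₂ := by exact_mod_cast (show k + 1 ≤ K₂ by omega)
  have s11 : s ^ 11 ≤ 1 := pow_le_one₀ s0.le (by linarith)
  have k2 : s ^ 20 ≤ 1 := pow_le_one₀ s0.le (by linarith)
  have rb := rho_bound hb (a := s ^ 11 / 2 ^ 13) (by positivity) (by linarith)
  have u1 := cut_one s0 (B := 2 ^ 17 * b) (by positivity) (by
    rw [div_le_one (by positivity)]; linarith) (y := k + 1) (n := n) (by nlinarith) n1
  have er : rho b (s ^ 11 / 2 ^ 13) = 1 - s ^ 11 / (2 ^ 17 * b) := by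
    unfold rho; field_simp; norm_num
  rw [← er] at u1
  have u2 := cut_two (x := b * rho b (s ^ 11 / 2 ^ 13)) (L := L) (y := k + 1) (n := n)
    (by nlinarith [rb.1]) (by positivity)
    (K2.trans (pow_le_pow_left₀ (Nat.cast_nonneg _) (by linarith) 2)) n1
  have u3 : ((k : ℝ) + 1) ^ 2 * (32 * (n + 1) * C * η) ≤ K₂ ^ 2 * (32 * K₂ * C * η) := by
    gcongr
  have r0 : 0 ≤ rho b (s ^ 11 / 2 ^ 13) := by linarith [rb.1]
  refine (mul_le_mul_of_nonneg_right k1 (by positivity)).trans ?_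
  have w1 := mul_le_mul_of_nonneg_right u1 x0
  have w2 := mul_le_mul k2 u2 (by positivity) zero_le_one
  have w3 := mul_le_mul k2 u3 (by positivity) zero_le_one
  generalize ((28 : ℕ).factorial * (8 * (2 ^ 17 * b)) ^ 28 : ℝ) = F at *
  linarith

lemma xi_small {θ θ' t x η y ε : ℝ} {r ρ R K : ℕ} (h : Ctx G θ θ' r t ρ x η)
    (c1 : b * θ ^ 2 ≤ 1) (c2 : b * θ' ^ 2 ≤ 1) (y0 : 0 ≤ y)
    (t1 : TM G θ r t x y) (t2 : TM G θ' r t x y) (hR : ρ + 1 ≤ R)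
    (hE : ∀ p u, G.Adj p u → |∫ ω, Dn G θ θ' r t R p u ω ∂PI (ℕ × V)| ≤ ε)
    {a v : V} {Λ Λ' : Finset V} (a1 : ball G a (ρ + 1 + G.dist v a) ⊆ Λ)
    (a2 : ball G a (ρ + 1 + G.dist v a) ⊆ Λ') (hK : G.dist v a ≤ K) :
    ∫ ω, b ^ G.dist v a * Xi G θ Λ θ' Λ' a v (St G θ Λ r t ω) (St G θ' Λ' r t ω) ∂PI (ℕ × V) ≤
      34 * CD b (2 ^ (r + 1)) * x + 4096 * K * (CD b (2 ^ (r + 1)) * (8 * y + (θ - θ') ^ 2)) +
        K ^ 2 * (64 * ε ^ 2 + 2048 * CD b (2 ^ (r + 1)) * η ^ 2 + 16 * b * (θ - θ') ^ 2) := by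
  obtain ⟨h0, h1, h0', h1', bx, -, -, η0⟩ := id h
  have c := one_le_CD b (one_le_M r)
  have x0 := bx.nonneg hG.tree
  obtain ⟨g1, g2, hz⟩ := geo_spec hG.tree a v
  have R1 := rw_St hG.tree θ Λ r t
  have R2 := rw_St hG.tree θ' Λ' r t
  have hv1 : v ∈ ball G a (ρ + 1 + G.dist v a) := (mem_ball hG.tree).2 (by omega)
  have X := R1.bd_XX hG h0 h1 hz
  have X' := R2.bd_XX hG h0' h1' hz
  have bL := (R1.bd_LL hG h0 h1 h0' h1' R2 hz).pow 2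
  have d := R1.bd_dm hG h0 h1 h0' h1' R2
  have l := h.small hG hR (by positivity) hE (fun p u hp => h.Dn_sq hG t1 t2 hR hp) hz
    (Λ := Λ) (Λ' := Λ') (by rw [g1]; exact a1) (by rw [g1]; exact a2)
  have s3 : ball G v ρ ⊆ ball G a (ρ + 1 + G.dist v a) := ball_sub hG.tree (by omega)
  have i := int_Xi_le hG h0 h1 h0' h1' c1 c2 le_rfl t (a1 hv1) (a2 hv1) (A₂ := x) (A₃ := 1)
    ((((X.sub X').pow 2).mono bL _ fun ω => (R1.XX_sub hG h0 h1 h0' h1' R2 hz ω).2).trans l)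
    (((X'.mul (d v)).mono (d v) _ fun ω => mul_le_of_le_one_left (dm_nonneg _ _ _ _ _)
      (R2.XX_bound hG h0' h1' hz ω).2).trans (bx v _ _ (s3.trans a1) (s3.trans a2)))
    (by simpa using X'.mono (Bd.const 1) (PI (ℕ × V)) fun ω => (R2.XX_bound hG h0' h1' hz ω).2)
  have kK : (G.dist v a : ℝ) ≤ K := by exact_mod_cast hK
  have kK2 : (G.dist v a : ℝ) ^ 2 ≤ K ^ 2 := pow_le_pow_left₀ (Nat.cast_nonneg _) kK 2
  rw [one_pow] at i
  refine i.trans ?_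
  generalize CD b (2 ^ (r + 1)) = C at c ⊢
  linarith [mul_le_mul_of_nonneg_right kK (show 0 ≤ C * (8 * y + (θ - θ') ^ 2) by positivity),
    mul_le_mul_of_nonneg_right kK2
      (show 0 ≤ 64 * ε ^ 2 + 2048 * C * η ^ 2 + 16 * b * (θ - θ') ^ 2 by positivity),
    mul_le_mul_of_nonneg_right c x0]

lemma xi_large {θ θ' t x η τ a' a₀ : ℝ} {r ρ n₀ n : ℕ} (h : Ctx G θ θ' r t ρ x η)
    (hw : GW (V := V) (2 ^ (r + 1)) τ (W0 r t)) (c1 : Crit b θ τ a' n₀) (c2 : Crit b θ' τ a' n₀)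
    (c3 : Crit b θ τ a₀ n₀) (c4 : Crit b θ' τ a₀ n₀) {a v : V} {Λ Λ' : Finset V}
    (a1 : ball G a (ρ + 1 + 2 * G.dist v a + n₀) ⊆ Λ)
    (a2 : ball G a (ρ + 1 + 2 * G.dist v a + n₀) ⊆ Λ') (hn : 4 * n + 2 ≤ G.dist v a) :
    ∫ ω, b ^ G.dist v a * Xi G θ Λ θ' Λ' a v (St G θ Λ r t ω) (St G θ' Λ' r t ω) ∂PI (ℕ × V) ≤
      514 * CD b (2 ^ (r + 1)) * ((G.dist v a + 1) ^ 2 * (7 * rho b a' ^ n * x +
        4 * Real.exp (-(b * rho b a') ^ n) + 32 * (n + 1) * CD b (2 ^ (r + 1)) * η)) +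
      (1024 * CD b (2 ^ (r + 1)) + 64 * b) * (θ - θ') ^ 2 *
        (((G.dist v a : ℝ) + 1) ^ 2 * rho b a₀ ^ G.dist v a) := by
  obtain ⟨h0, h1, h0', h1', bx, -, -, η0⟩ := id h
  have c := one_le_CD b (one_le_M r)
  have x0 := bx.nonneg hG.tree
  have r0 : 0 ≤ rho b a₀ := by linarith [(rho_bound hG.two c3.a0 c3.a1).1]
  have r1 : 0 ≤ rho b a' := by linarith [(rho_bound hG.two c1.a0 c1.a1).1]
  obtain ⟨g1, g2, hz⟩ := geo_spec hG.tree a v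
  have R1 := rw_St hG.tree θ Λ r t
  have R2 := rw_St hG.tree θ' Λ' r t
  have hv1 : v ∈ ball G a (ρ + 1 + 2 * G.dist v a + n₀) := (mem_ball hG.tree).2 (by omega)
  have X := R1.bd_XX hG h0 h1 hz
  have X' := R2.bd_XX hG h0' h1' hz
  have bL := (R1.bd_LL hG h0 h1 h0' h1' R2 hz).pow 2
  have d := R1.bd_dm hG h0 h1 h0' h1' R2
  have sub : ∀ n, n ≤ ρ + 1 + 2 * G.dist v a + n₀ → ball G (geo G a v 0) n ⊆
      ball G a (ρ + 1 + 2 * G.dist v a + n₀) := fun n hn => by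
    rw [g1]; exact ball_sub hG.tree (by simpa)
  have e1 := fun i (hi : i ≤ G.dist v a) => h.kl hG c1 hw hz hi hn
    ((sub _ (by omega)).trans a1) ((sub _ (by omega)).trans a2)
  have e2 := fun i (hi : i ≤ G.dist v a) => h.symm.kl hG c2 hw hz hi hn
    ((sub _ (by omega)).trans a2) ((sub _ (by omega)).trans a1)
  simp only [dm_comm θ'] at e2
  have e3 := x_mean hG c3 h0 h1 hw hz ((sub _ (by omega)).trans a1)
  have e4 := x_mean hG c4 h0' h1' hw hz ((sub _ (by omega)).trans a2)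
  have Γ0 : 0 ≤ 7 * rho b a' ^ n * x + 4 * Real.exp (-(b * rho b a') ^ n) +
      32 * (n + 1) * CD b (2 ^ (r + 1)) * η := by positivity
  generalize 7 * rho b a' ^ n * x + 4 * Real.exp (-(b * rho b a') ^ n) +
      32 * (n + 1) * CD b (2 ^ (r + 1)) * η = Γ at *
  have l := LL_weight hG h0 h1 h0' h1' R1 R2 hz (X.add X') (fun ω => add_nonneg
    (R1.XX_bound hG h0 h1 hz ω).1.le (R2.XX_bound hG h0' h1' hz ω).1.le) (Γ := 2 * Γ)
    (Γ' := 8 * rho b a₀ ^ G.dist v a) (fun i hi => by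
      simp only [add_mul]
      rw [(X.mul (d _)).iadd (X'.mul (d _))]
      linarith [e1 i hi, e2 i hi]) (by rw [X.iadd X']; linarith)
  have i := int_Xi_le hG h0 h1 h0' h1' c1.up c2.up le_rfl t (a1 hv1) (a2 hv1) (A₂ := Γ)
    ((((X.sub X').pow 2).mono ((X.add X').mul bL) _
      fun ω => (R1.XX_sub hG h0 h1 h0' h1' R2 hz ω).1).trans l)
    (by have := e2 _ le_rfl; rwa [g2] at this) e4
  rw [one_pow] at i
  refine i.trans ?_
  have kk : (0 : ℝ) ≤ G.dist v a := Nat.cast_nonneg _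
  have p0 : 0 ≤ b * ((θ - θ') ^ 2 * rho b a₀ ^ G.dist v a) := by positivity
  generalize CD b (2 ^ (r + 1)) = C at c ⊢
  generalize rho b a₀ ^ G.dist v a = P at p0 ⊢
  generalize (G.dist v a : ℝ) = k at kk ⊢
  have y2 : k ^ 2 ≤ (k + 1) ^ 2 := pow_le_pow_left₀ kk (by linarith) 2
  have y1 : (1 : ℝ) ≤ (k + 1) ^ 2 * C :=
    one_le_mul_of_one_le_of_one_le (one_le_pow₀ (by linarith)) c
  linarith [mul_le_mul_of_nonneg_right y1 Γ0, mul_le_mul_of_nonneg_right y2 p0]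

lemma xi_bound {θ θ' t x η s a₀ y ε L S q : ℝ} {r ρ n₀ R K K₂ : ℕ} (h : Ctx G θ θ' r t ρ x η)
    (s0 : 0 < s) (s1 : s ≤ 1 / 2) (ts : t ≤ s)
    (hw : GW (V := V) (2 ^ (r + 1)) ((s ^ 11 / 2 ^ 13) ^ 2) (W0 r t))
    (c1 : Crit b θ ((s ^ 11 / 2 ^ 13) ^ 2) (s ^ 11 / 2 ^ 13) n₀)
    (c2 : Crit b θ' ((s ^ 11 / 2 ^ 13) ^ 2) (s ^ 11 / 2 ^ 13) n₀)
    (c3 : Crit b θ ((s ^ 11 / 2 ^ 13) ^ 2) a₀ n₀) (c4 : Crit b θ' ((s ^ 11 / 2 ^ 13) ^ 2) a₀ n₀)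
    (hS : ∀ N, ∑ k ∈ Finset.range N, ((k : ℝ) + 1) ^ 2 * rho b a₀ ^ k ≤ S) (y0 : 0 ≤ y)
    (t1 : TM G θ r t x y) (t2 : TM G θ' r t x y) (hR : ρ + 1 ≤ R)
    (hE : ∀ p u, G.Adj p u → |∫ ω, Dn G θ θ' r t R p u ω ∂PI (ℕ × V)| ≤ ε)
    (K1 : 1 ≤ s ^ 12 * K) (K2 : 1024 * L ≤ (K : ℝ) ^ 2) (hq : b * θ ^ 2 ≤ q) (hq' : b * θ' ^ 2 ≤ q)
    (q1 : q < 1) {a : V} {Λ Λ' : Finset V} (a1 : ball G a (ρ + 1 + 2 * K₂ + n₀) ⊆ Λ)
    (a2 : ball G a (ρ + 1 + 2 * K₂ + n₀) ⊆ Λ') :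
    kap t ^ 2 * ∑ v ∈ Λ ∪ Λ',
      ∫ ω, Xi G θ Λ θ' Λ' a v (St G θ Λ r t ω) (St G θ' Λ' r t ω) ∂PI (ℕ × V) ≤
      2 * (K * (kap t ^ 2 * (34 * CD b (2 ^ (r + 1)) * x +
          4096 * K * (CD b (2 ^ (r + 1)) * (8 * y + (θ - θ') ^ 2)) +
          K ^ 2 * (64 * ε ^ 2 + 2048 * CD b (2 ^ (r + 1)) * η ^ 2 + 16 * b * (θ - θ') ^ 2))) +
        514 * CD b (2 ^ (r + 1)) * (7 * ((28 : ℕ).factorial * (8 * (2 ^ 17 * b)) ^ 28) * x +
          4 * (2 * 1024 ^ 2 * Real.exp (-L))) * 2 +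
        (1024 * CD b (2 ^ (r + 1)) + 64 * b) * (θ - θ') ^ 2 * S +
        K₂ * (514 * CD b (2 ^ (r + 1)) * (K₂ ^ 2 * (32 * K₂ * CD b (2 ^ (r + 1)) * η)))) +
      80 * (q ^ K₂ / (1 - q)) := by
  obtain ⟨h0, h1, h0', h1', bx, -, -, η0⟩ := id h
  have c := one_le_CD b (one_le_M r)
  have x0 := bx.nonneg hG.tree
  have r0 : 0 ≤ rho b a₀ := by linarith [(rho_bound hG.two c3.a0 c3.a1).1]
  have k0 : 0 ≤ kap t ^ 2 := sq_nonneg _
  have k1 : kap t ^ 2 ≤ s ^ 20 := by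
    rw [show 20 = 10 * 2 from rfl, pow_mul]
    exact pow_le_pow_left₀ (kap_nonneg t) (kap_le_pow ts) 2
  have k2 : s ^ 20 ≤ 1 := pow_le_one₀ s0.le (by linarith)
  have sm := fun v (hv : G.dist v a < K₂) (hK : G.dist v a ≤ K) => mul_le_mul_of_nonneg_left
    (xi_small hG h c1.up c2.up y0 t1 t2 hR hE ((ball_sub hG.tree (by simp; omega)).trans a1)
      ((ball_sub hG.tree (by simp; omega)).trans a2) hK) k0
  have lg := fun v (hv : G.dist v a < K₂) (hK : K ≤ G.dist v a) => mul_le_mul_of_nonneg_left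
    (xi_large hG h hw c1 c2 c3 c4 ((ball_sub hG.tree (by simp; omega)).trans a1)
      ((ball_sub hG.tree (by simp; omega)).trans a2)
      (large_num hG.two s0 s1 k1 x0 le_rfl le_rfl K1 K2 hK hv).1) k0
  have nm := fun k (hv : k < K₂) (hK : K ≤ k) => (large_num hG.two s0 s1 k1 x0
    (zero_le_one.trans c) η0.le K1 K2 hK hv).2
  have F0 : (0 : ℝ) ≤ (28 : ℕ).factorial * (8 * (2 ^ 17 * b)) ^ 28 := by positivity
  generalize ((28 : ℕ).factorial * (8 * (2 ^ 17 * b)) ^ 28 : ℝ) = F at *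
  generalize CD b (2 ^ (r + 1)) = C at *
  have X0 : 0 ≤ kap t ^ 2 * (34 * C * x + 4096 * K * (C * (8 * y + (θ - θ') ^ 2)) +
    K ^ 2 * (64 * ε ^ 2 + 2048 * C * η ^ 2 + 16 * b * (θ - θ') ^ 2)) := by positivity
  generalize kap t ^ 2 * (34 * C * x + 4096 * K * (C * (8 * y + (θ - θ') ^ 2)) +
    K ^ 2 * (64 * ε ^ 2 + 2048 * C * η ^ 2 + 16 * b * (θ - θ') ^ 2)) = Xs at *
  have A20 : 0 ≤ 7 * F * x + 4 * (2 * 1024 ^ 2 * Real.exp (-L)) := by positivity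
  generalize 7 * F * x + 4 * (2 * 1024 ^ 2 * Real.exp (-L)) = A₂ at *
  have A30 : 0 ≤ (1024 * C + 64 * b) * (θ - θ') ^ 2 := by positivity
  generalize (1024 * C + 64 * b) * (θ - θ') ^ 2 = A₃ at *
  have A40 : 0 ≤ K₂ ^ 2 * (32 * K₂ * C * η) := by positivity
  generalize K₂ ^ 2 * (32 * K₂ * C * η) = A₄ at *
  refine (xi_sum hG h0 h1 h0' h1' hq hq' q1 t a Λ Λ' (Y := fun k => (if k < K then Xs else 0) +
    514 * C * A₂ * (1 / ((k : ℝ) + 1) ^ 2) + A₃ * (((k : ℝ) + 1) ^ 2 * rho b a₀ ^ k) + 514 * C * A₄)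
    (fun k => by split_ifs <;> positivity) K₂ fun v hv => ?_).trans ?_
  · by_cases hK : G.dist v a < K
    · rw [if_pos hK]
      refine (sm v hv hK.le).trans ?_
      have : 0 ≤ 514 * C * A₂ * (1 / ((G.dist v a : ℝ) + 1) ^ 2) := by positivity
      have : 0 ≤ A₃ * (((G.dist v a : ℝ) + 1) ^ 2 * rho b a₀ ^ G.dist v a) := by positivity
      have : 0 ≤ 514 * C * A₄ := by positivity
      linarith
    · rw [if_neg hK]
      refine (lg v hv (not_lt.1 hK)).trans ?_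
      have w5 := mul_le_mul_of_nonneg_left (nm _ hv (not_lt.1 hK)) (show 0 ≤ 514 * C by positivity)
      have w6 := mul_le_mul_of_nonneg_right (k1.trans k2)
        (show 0 ≤ A₃ * (((G.dist v a : ℝ) + 1) ^ 2 * rho b a₀ ^ G.dist v a) by positivity)
      linarith
  · refine add_le_add (mul_le_mul_of_nonneg_left ?_ zero_le_two) le_rfl
    rw [Finset.sum_add_distrib, Finset.sum_add_distrib, Finset.sum_add_distrib, ← Finset.mul_sum,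
      ← Finset.mul_sum, Finset.sum_const, Finset.card_range, nsmul_eq_mul, ← Finset.sum_filter,
      Finset.sum_const, nsmul_eq_mul]
    have : (((Finset.range K₂).filter (· < K)).card : ℝ) ≤ K := by
      have : ((Finset.range K₂).filter (· < K)).card ≤ (Finset.range K).card :=
        Finset.card_le_card fun i hi => Finset.mem_range.2 (Finset.mem_filter.1 hi).2
      rw [Finset.card_range] at this
      exact_mod_cast this
    linarith [mul_le_mul_of_nonneg_right this X0, mul_le_mul_of_nonneg_left (sum_inv_sq K₂)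
      (show 0 ≤ 514 * C * A₂ by positivity), mul_le_mul_of_nonneg_left (hS K₂) A30]

omit hG in
lemma cut_facts {s κ L : ℝ} (s0 : 0 < s) (s1 : s ≤ 1 / 2) (k0 : 0 ≤ κ) (k1 : κ ≤ s ^ 20)
    (hL : 3 ≤ L) {K : ℕ} (hK : K = max ⌈1 / s ^ 12⌉₊ ⌈32 * √L⌉₊) :
    1 ≤ s ^ 12 * K ∧ 1024 * L ≤ (K : ℝ) ^ 2 ∧ K * κ ≤ 1090 * L ∧
      ∀ x z y, 0 ≤ y → y ≤ x → y ≤ s ^ 4 * z → K ^ 2 * κ * y ≤ 4 * z + 1089 * L * x := by
  have p12 := pow_pos s0 12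
  have u2 : √L ^ 2 = L := Real.sq_sqrt (by linarith)
  have u1 : 1 ≤ √L := Real.le_sqrt_of_sq_le (by linarith)
  have a1 := Nat.le_ceil (1 / s ^ 12)
  have a2 := (Nat.ceil_lt_add_one (show 0 ≤ 1 / s ^ 12 by positivity)).le
  have b1 := Nat.le_ceil (32 * √L)
  have b2 := (Nat.ceil_lt_add_one (show 0 ≤ 32 * √L by positivity)).le
  have e : s ^ 12 * (1 / s ^ 12) = 1 := by field_simp
  have hK' : (K : ℝ) = max (⌈1 / s ^ 12⌉₊ : ℝ) ⌈32 * √L⌉₊ := by rw [hK]; push_cast; rfl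
  have A0 : (0 : ℝ) ≤ ⌈1 / s ^ 12⌉₊ := Nat.cast_nonneg _
  generalize (⌈1 / s ^ 12⌉₊ : ℝ) = A at *
  generalize (⌈32 * √L⌉₊ : ℝ) = D at *
  have s12 : s ^ 12 ≤ 1 := pow_le_one₀ s0.le (by linarith)
  have s20 : s ^ 20 ≤ 1 := pow_le_one₀ s0.le (by linarith)
  have s8 : s ^ 8 ≤ 1 / 2 := (pow_le_of_le_one s0.le (by linarith) (by norm_num)).trans s1
  have A1 : s ^ 12 * A ≤ 2 := by nlinarith
  have D2 : D ^ 2 ≤ 1089 * L := by nlinarith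
  have A2 : A * κ ≤ 1 := by
    calc A * κ ≤ A * s ^ 20 := mul_le_mul_of_nonneg_left k1 A0
      _ = s ^ 8 * (s ^ 12 * A) := by ring
      _ ≤ 1 / 2 * 2 := mul_le_mul s8 A1 (by positivity) (by norm_num)
      _ = 1 := by norm_num
  have KA : A ≤ K := hK' ▸ le_max_left _ _
  have KD : D ≤ K := hK' ▸ le_max_right _ _
  refine ⟨by nlinarith, by nlinarith, ?_, fun x z y y0 y1 y2 => ?_⟩
  · rcases max_choice A D with h | h <;> rw [hK', h]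
    · linarith
    · nlinarith
  · have x0 := y0.trans y1
    have z0 : 0 ≤ z := by
      by_contra h
      nlinarith [mul_pos (pow_pos s0 4) (neg_pos.2 (not_le.1 h))]
    rcases max_choice A D with h | h <;> rw [hK', h]
    · calc A ^ 2 * κ * y ≤ A ^ 2 * s ^ 20 * (s ^ 4 * z) := by gcongr
        _ = (s ^ 12 * A) ^ 2 * z := by ring
        _ ≤ 2 ^ 2 * z := by gcongr
        _ ≤ _ := by nlinarith
    · calc D ^ 2 * κ * y ≤ 1089 * L * 1 * x := by gcongr; exact k1.trans s20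
        _ ≤ _ := by linarith

omit hG in
lemma exists_small {A e : ℝ} (hA : 0 ≤ A) (he : 0 < e) : ∃ ε, 0 < ε ∧ ε ≤ 1 ∧ A * ε ≤ e := by
  refine ⟨min 1 (e / (A + 1)), lt_min one_pos (by positivity), min_le_left _ _, ?_⟩
  have := (le_div_iff₀ (by positivity : 0 < A + 1)).1 (min_le_right 1 (e / (A + 1)))
  nlinarith [lt_min one_pos (show 0 < e / (A + 1) by positivity)]

omit hG in
lemma fin_num {κ L x e e₀ C Ct F S y δ ε η η' K Kb K₂ b d : ℝ} (C1 : 1 ≤ C) (x0 : 0 ≤ x)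
    (L3 : 3 ≤ L) (e1 : e₀ ≤ e) (e0 : 0 < e₀) (F0 : 0 ≤ F) (S0 : 0 ≤ S) (b0 : 0 ≤ b) (k0 : 0 ≤ κ)
    (k1 : κ ≤ 1) (K0 : 0 ≤ K) (K1 : K ≤ Kb) (δ0 : 0 ≤ δ) (δ1 : δ ≤ d) (ε0 : 0 ≤ ε) (ε1 : ε ≤ 1)
    (η0 : 0 ≤ η) (η1 : η ≤ 1) (f1 : K * κ ≤ 1090 * L)
    (f2 : K ^ 2 * κ * y ≤ 4 * (Ct * (L * x + e)) + 1089 * L * x)
    (g1 : 128 * Kb ^ 3 * ε ≤ e₀ / 2)
    (g2 : 2 * (4096 * Kb ^ 2 * C + 16 * b * Kb ^ 3 + (1024 * C + 64 * b) * S) * d ≤ e₀ / 2)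
    (g3 : 2 * (2048 * Kb ^ 3 * C + 514 * 32 * C ^ 2 * K₂ ^ 4) * η ≤ η') :
    2 * (K * (κ * (34 * C * x + 4096 * K * (C * (8 * y + δ)) +
        K ^ 2 * (64 * ε ^ 2 + 2048 * C * η ^ 2 + 16 * b * δ))) +
      514 * C * (7 * F * x + 4 * (2 * 1024 ^ 2 * e)) * 2 + (1024 * C + 64 * b) * δ * S +
        K₂ * (514 * C * (K₂ ^ 2 * (32 * K₂ * C * η)))) ≤
      (2 * C * (37060 + 32768 * (4 * Ct + 1089) + 1028 * (7 * F + 8 * 1024 ^ 2)) + 1) *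
        (L * x + e) + η' := by
  have C0 : 0 ≤ C := by linarith
  have e2 : 0 ≤ e := by linarith
  have Lx : x ≤ L * x := by nlinarith
  have Kb0 : 0 ≤ Kb := K0.trans K1
  have K2 : K ^ 2 * κ ≤ Kb ^ 2 * 1 := by gcongr
  have K3 : K ^ 3 * κ ≤ Kb ^ 3 * 1 := by gcongr
  have a1 := mul_le_mul_of_nonneg_right f1 (mul_nonneg C0 x0)
  have a2 := mul_le_mul_of_nonneg_left f2 C0
  have a3 := mul_le_mul K2 (mul_le_mul_of_nonneg_left δ1 C0) (by positivity) (by positivity)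
  have a4 := mul_le_mul K3 (show ε ^ 2 ≤ ε by nlinarith) (by positivity) (by positivity)
  have a5 := mul_le_mul K3 (mul_le_mul_of_nonneg_left (show η ^ 2 ≤ η by nlinarith) C0)
    (by positivity) (by positivity)
  have a6 := mul_le_mul K3 (mul_le_mul_of_nonneg_left δ1 b0) (by positivity) (by positivity)
  have a7 := mul_le_mul_of_nonneg_left δ1 (show 0 ≤ (1024 * C + 64 * b) * S by positivity)
  have a8 := mul_le_mul_of_nonneg_left Lx (mul_nonneg C0 F0)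
  have a9 := mul_nonneg C0 e2
  have a10 := mul_nonneg (mul_nonneg C0 F0) e2
  have a11 := mul_nonneg C0 (x0.trans Lx)
  linarith

/-- Parameters slightly below the critical value. -/
structure NearC (b : ℕ) (η θ : ℝ) : Prop where
  h0 : 0 ≤ θ
  h1 : θ ≤ 3 / 4
  lt : b * θ ^ 2 < 1
  ge : 1 - η ≤ b * θ ^ 2

theorem growth (r : ℕ) : ∃ C, 0 < C ∧ ∀ s₀, 0 < s₀ → s₀ ≤ 1 / 2 → ∀ L₀, ∃ η₀, 0 < η₀ ∧
    ∀ θ θ', NearC b η₀ θ → NearC b η₀ θ' → |θ - θ'| ≤ η₀ → ∀ σ₁ σ₂, s₀ ≤ sv r σ₁ → 0 ≤ σ₁ →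
      σ₁ ≤ σ₂ → σ₂ ≤ 1 / 2 → ∀ L, 3 ≤ L → L ≤ L₀ → cc G θ θ' r σ₂ ≤ cc G θ θ' r σ₁ +
        C * (σ₂ - σ₁) * (L * cc G θ θ' r σ₂ + Real.exp (-L)) := by
  obtain ⟨Ct, Ct1, hCt⟩ := tm_tail hG
  have c := one_le_CD b (one_le_M r)
  set C' := 2 * CD b (2 ^ (r + 1)) * (37060 + 32768 * (4 * Ct + 1089) +
    1028 * (7 * ((28 : ℕ).factorial * (8 * (2 ^ 17 * b)) ^ 28) + 8 * 1024 ^ 2)) + 1 with hC'
  have C0 : 0 < C' := by positivity
  refine ⟨2 * C', by positivity, fun s₀ s0 s1 L₀ => ?_⟩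
  have small : ∀ s : ℝ, 0 < s → s ≤ 1 / 2 → 0 < s ^ 11 / 2 ^ 13 ∧ s ^ 11 / 2 ^ 13 ≤ 1 / 4 := by
    intro s s0 s1
    exact ⟨by positivity, by linarith [pow_le_one₀ (n := 11) s0.le (show s ≤ 1 by linarith)]⟩
  obtain ⟨a0, a1⟩ := small s₀ s0 s1
  obtain ⟨n₀, hn₀⟩ := exists_nat_ge (1 / (2 * (s₀ ^ 11 / 2 ^ 13)))
  rw [div_le_iff₀' (by positivity)] at hn₀
  have rb := rho_bound hG.two a0 a1
  obtain ⟨S, S0, hS⟩ := exists_S (by linarith [rb.1]) rb.2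
  set Kb : ℝ := ⌈1 / s₀ ^ 12⌉₊ + ⌈32 * √L₀⌉₊ with hKb
  have e0 : 0 < Real.exp (-L₀) / 2 := by positivity
  obtain ⟨ε, ε0, ε1, ε2⟩ := exists_small (A := 128 * Kb ^ 3) (by positivity) e0
  obtain ⟨d, d0, d1, d2⟩ := exists_small (A := 2 * (4096 * Kb ^ 2 * CD b (2 ^ (r + 1)) +
    16 * b * Kb ^ 3 + (1024 * CD b (2 ^ (r + 1)) + 64 * b) * S)) (by positivity) e0
  obtain ⟨η₅, η₅0, N, hE⟩ := E5 hG (2 ^ (r + 1)) a0 a1 n₀ ε0
  refine ⟨min (s₀ ^ 11 / 2 ^ 13) (min η₅ d), lt_min a0 (lt_min η₅0 d0),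
    fun θ θ' n1 n2 hδ σ₁ σ₂ hs z1 z2 z3 L L3 L4 => ?_⟩
  obtain ⟨h0, h1, l1, g1⟩ := n1
  obtain ⟨h0', h1', l2, g2⟩ := n2
  rw [le_min_iff, le_min_iff] at hδ
  have := cc_step (r := r) hG h0 h1 h0' h1' z2 z1 z3 (A := C' * L) (β := C' * Real.exp (-L))
    (by positivity) (by positivity) fun x ρ hx η' hη' => by
      have q1 : max (b * θ ^ 2) (b * θ' ^ 2) < 1 := max_lt l1 l2
      obtain ⟨K₂, hK₂⟩ := exists_tail (le_max_of_le_left (by positivity)) q1 (half_pos hη')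
      obtain ⟨η, η0, η1, η2⟩ := exists_small (A := 2 * (2048 * Kb ^ 3 * CD b (2 ^ (r + 1)) +
        514 * 32 * CD b (2 ^ (r + 1)) ^ 2 * K₂ ^ 4)) (by positivity) (half_pos hη')
      obtain ⟨ρa, ha⟩ := locality hG h0 h1 l1 r (pow_pos η0 2)
      obtain ⟨ρb, hb⟩ := locality hG h0' h1' l2 r (pow_pos η0 2)
      have x0 := hx.nonneg hG.tree
      refine ⟨ρ + ρa + ρb + 1 + 2 * K₂ + n₀, fun a Λ Λ' b1 b2 t t1 t2 => ?_⟩
      have t0 : 0 ≤ t := z1.trans t1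
      have t3 : t ≤ 1 / 2 := by linarith
      have cx : Ctx G θ θ' r t (ρ + ρa + ρb) x η := ⟨h0, h1, h0', h1',
        (hx.time hG h0 h1 h0' h1' t2.le).mono hG.tree (by omega) le_rfl,
        (ha.time hG h0 h1 h0 h1 t3).mono hG.tree (by omega) le_rfl,
        (hb.time hG h0' h1' h0' h1' t3).mono hG.tree (by omega) le_rfl, η0⟩
      have v1 : s₀ ≤ sv r t := hs.trans (by unfold sv; split_ifs <;> linarith)
      have v2 : sv r t ≤ 1 / 2 := by unfold sv; split_ifs <;> linarith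
      have v3 : t ≤ sv r t := by unfold sv; split_ifs <;> linarith
      have v0 : 0 < sv r t := lt_of_lt_of_le s0 v1
      have hw := gw_sv (V := V) r t0 t3
      have tm := fun θ h0 h1 hb => hCt θ r t L x h0 h1 hb t0 t3 v0 L3 x0
      set s := sv r t
      obtain ⟨u0, u1⟩ := small s v0 v2
      have u2 : s₀ ^ 11 / 2 ^ 13 ≤ s ^ 11 / 2 ^ 13 := by gcongr
      have cr : ∀ θ : ℝ, b * θ ^ 2 < 1 → 1 - min (s₀ ^ 11 / 2 ^ 13) (min η₅ d) ≤ b * θ ^ 2 →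
          Crit b θ ((s ^ 11 / 2 ^ 13) ^ 2) (s ^ 11 / 2 ^ 13) n₀ ∧
            Crit b θ ((s ^ 11 / 2 ^ 13) ^ 2) (s₀ ^ 11 / 2 ^ 13) n₀ := fun θ l g =>
        ⟨⟨u0, u1, le_rfl, by linarith [min_le_left (s₀ ^ 11 / 2 ^ 13) (min η₅ d)], l.le,
          hn₀.trans (by gcongr)⟩, ⟨a0, a1, pow_le_pow_left₀ a0.le u2 2,
            by linarith [min_le_left (s₀ ^ 11 / 2 ^ 13) (min η₅ d)], l.le, hn₀⟩⟩
      have k1 : kap t ^ 2 ≤ s ^ 20 := by
        rw [show 20 = 10 * 2 from rfl, pow_mul]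
        exact pow_le_pow_left₀ (kap_nonneg t) (kap_le_pow v3) 2
      obtain ⟨f1, f2, f3, f4⟩ := cut_facts v0 v2 (sq_nonneg _) k1 L3 rfl
      have y0 : 0 ≤ min x (Ct * s ^ 4 * (L * x + Real.exp (-L))) := le_min x0 (by positivity)
      have tm2 : ∀ θ : ℝ, 0 ≤ θ → θ ≤ 3 / 4 → b * θ ^ 2 ≤ 1 →
          TM G θ r t x (min x (Ct * s ^ 4 * (L * x + Real.exp (-L)))) :=
        fun θ h0 h1 hb Λ a f a1 a2 a3 a4 =>
          le_min (tm_triv hG h0 h1 Λ a f a1 a2 a3 a4) (tm θ h0 h1 hb Λ a f a1 a2 a3 a4)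
      refine (xi_bound hG cx v0 v2 v3 hw (cr θ l1 g1).1 (cr θ' l2 g2).1 (cr θ l1 g1).2
        (cr θ' l2 g2).2 hS y0 (tm2 θ h0 h1 l1.le) (tm2 θ' h0' h1' l2.le)
        (R := N + (ρ + ρa + ρb + 1)) (by omega) (ε := ε) (fun p u hp => ?_) f1 f2 (le_max_left _ _)
        (le_max_right _ _) q1 b1 b2).trans ?_
      · unfold Dn
        rw [((rw_St hG.tree θ _ r t).bd_l hG h0 h1 hp).isub
          ((rw_St hG.tree θ' _ r t).bd_l hG h0' h1' hp),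
          exact_law hG h0 h1 p r t (F := fun w => lph G θ w p u)
            ((rw_cw _ (one_le_M r)).bd_l hG h0 h1 hp),
          exact_law hG h0' h1' p r t (F := fun w => lph G θ' w p u)
            ((rw_cw _ (one_le_M r)).bd_l hG h0' h1' hp)]
        exact hE θ θ' _ _ h0 h1 h0' h1' (cr θ l1 g1).2 (cr θ' l2 g2).2 hδ.2.1 hw _ (by omega) p u hp
      · have := fin_num (K₂ := K₂) c x0 L3 (Real.exp_le_exp.2 (neg_le_neg L4)) (Real.exp_pos _)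
          (F := (28 : ℕ).factorial * (8 * (2 ^ 17 * b)) ^ 28) (by positivity) S0.le
          (Nat.cast_nonneg b) (sq_nonneg (kap t))
          (k1.trans (pow_le_one₀ v0.le (by linarith))) (Nat.cast_nonneg _) (Kb := Kb) (by
            rw [hKb]
            have i1 : ⌈1 / s ^ 12⌉₊ ≤ ⌈1 / s₀ ^ 12⌉₊ := Nat.ceil_mono (by gcongr)
            have i2 : ⌈32 * √L⌉₊ ≤ ⌈32 * √L₀⌉₊ := Nat.ceil_mono (by gcongr)
            exact_mod_cast (show max ⌈1 / s ^ 12⌉₊ ⌈32 * √L⌉₊ ≤ ⌈1 / s₀ ^ 12⌉₊ + ⌈32 * √L₀⌉₊ by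
              omega)) (sq_nonneg (θ - θ')) (d := d) (by
            rw [← sq_abs]; nlinarith [abs_nonneg (θ - θ'), hδ.2.2]) ε0.le ε1 η0.le η1 f3
          (f4 x (Ct * (L * x + Real.exp (-L))) _ y0 (min_le_left _ _)
            ((min_le_right _ _).trans (le_of_eq (by ring)))) ε2 d2 η2
        rw [← hC'] at this
        linarith
  refine this.trans (le_of_eq ?_)
  ring

lemma cc_init {θ θ' s : ℝ} (h0 : 0 ≤ θ) (h1 : θ ≤ 3 / 4) (h0' : 0 ≤ θ') (h1' : θ' ≤ 3 / 4)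
    (l1 : b * θ ^ 2 ≤ 1) (l2 : b * θ' ^ 2 ≤ 1) (s0 : 0 ≤ s) (s1 : s ≤ 1 / 2) :
    cc G θ θ' 0 s ≤ 56 * s := by
  have s2 : s ^ 10 ≤ s := pow_le_of_le_one s0 (by linarith) (by norm_num)
  have s3 : s ^ 10 ≤ 1 / 6 := (pow_le_pow_left₀ s0 s1 10).trans (by norm_num)
  have key : ∀ (θ : ℝ) (Λ : Finset V) a, 0 ≤ θ → θ ≤ 3 / 4 → b * θ ^ 2 ≤ 1 →
      ∫ ω, mm G θ (St G θ Λ 0 s ω) a ^ 2 ∂PI (ℕ × V) ≤ 14 * s ^ 10 := by
    intro θ Λ a h0 h1 l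
    rw [exact_law hG h0 h1 a 0 s (F := fun w => mm G θ w a ^ 2)
      ((bd_mm hG h0 h1 (rw_cw _ (one_le_M 0)) a).pow 2)]
    exact ((gw_W0 0 s0 s1).sw (by positivity) Λ).Q_up hG h0 h1 l s3 (near_res Λ s) (ok_self a)
  refine Bnd.cc_le hG.tree (ρ := 0) fun a Λ Λ' _ _ => ?_
  have m := bd_mm hG h0 h1 (rw_St hG.tree θ Λ 0 s) a
  have m' := bd_mm hG h0' h1' (rw_St hG.tree θ' Λ' 0 s) a
  have := ((m.sub m').pow 2).mono (((m.pow 2).add (m'.pow 2)).cmul 2) (PI (ℕ × V)) fun ω => by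
    nlinarith [sq_nonneg (mm G θ (St G θ Λ 0 s ω) a + mm G θ' (St G θ' Λ' 0 s ω) a)]
  rw [integral_const_mul, (m.pow 2).iadd (m'.pow 2)] at this
  unfold ff
  linarith [key θ Λ a h0 h1 l1, key θ' Λ' a h0' h1' l2]

/-- The near critical dynamics are close to each other. -/
theorem cauchy (r : ℕ) : ∀ ε, 0 < ε → ∃ η, 0 < η ∧ ∀ θ θ', NearC b η θ → NearC b η θ' →
    |θ - θ'| ≤ η → cc G θ θ' r (1 / 2) ≤ ε := by
  induction r with
  | zero =>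
    intro ε hε
    obtain ⟨C, C0, hC⟩ := growth hG 0
    obtain ⟨L₀, hL⟩ := osgood C0 hε
    obtain ⟨s, s0, s1, s2⟩ := exists_small (A := 28) (by norm_num) (Real.exp_pos (-L₀))
    obtain ⟨η, η0, hη⟩ := hC (s / 2) (by linarith) (by linarith) L₀
    refine ⟨η, η0, fun θ θ' n1 n2 hδ => hL _ (s / 2) (by linarith) (by linarith)
      (cc_nonneg hG.tree θ θ' 0) (fun σ₁ σ₂ a1 a2 a3 L l1 l2 =>
        hη θ θ' n1 n2 hδ σ₁ σ₂ (by simpa [sv] using a1) (by linarith) a2 a3 L l1 l2) ?_⟩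
    linarith [cc_init hG n1.h0 n1.h1 n2.h0 n2.h1 n1.lt.le n2.lt.le (s := s / 2) (by linarith)
      (by linarith)]
  | succ r ih =>
    intro ε hε
    obtain ⟨C, C0, hC⟩ := growth hG (r + 1)
    obtain ⟨L₀, hL⟩ := osgood C0 hε
    obtain ⟨η, η0, hη⟩ := hC (1 / 2) (by norm_num) le_rfl L₀
    obtain ⟨η', η0', hη'⟩ := ih _ (Real.exp_pos (-L₀))
    have mono : ∀ θ η₁, min η η' ≤ η₁ → NearC b (min η η') θ → NearC b η₁ θ := fun θ η₁ h n =>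
      ⟨n.h0, n.h1, n.lt, by linarith [n.ge]⟩
    refine ⟨min η η', lt_min η0 η0', fun θ θ' n1 n2 hδ => hL _ 0 le_rfl (by norm_num)
      (cc_nonneg hG.tree θ θ' _) (fun σ₁ σ₂ a1 a2 a3 L l1 l2 =>
        hη θ θ' (mono _ _ (min_le_left _ _) n1) (mono _ _ (min_le_left _ _) n2)
          (hδ.trans (min_le_left _ _)) σ₁ σ₂ (by simp [sv]) a1 a2 a3 L l1 l2) ?_⟩
    rw [cc_round]
    exact hη' θ θ' (mono _ _ (min_le_right _ _) n1) (mono _ _ (min_le_right _ _) n2)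
      (hδ.trans (min_le_right _ _))

end Crest.Agent.Ising
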