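import Crest.Agent.Ising.Prob

/-!
One soft observation: strength, inverse probability integral transform and jump factor.
-/

set_option maxHeartbeats 400000

open MeasureTheory Set Filter Topology
open Crest.Agent.FIID

namespace Crest.Agent.Ising

/-- Strength of an observation made at time `T`. -/
noncomputable def kap (T : ℝ) : ℝ := if 0 ≤ T ∧ T < 1 / 2 then T ^ 10 else 0

/-- Inverse probability integral transform. -/
noncomputable def Gf (α u : ℝ) : ℝ := (α + 2 * u) / (1 + √(1 + 2 * α * u + α ^ 2))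

/-- Likelihood of one observation. -/
noncomputable def fac (T y : ℝ) (s : Bool) : ℝ := 1 + kap T * cl y * sg s

/-- Jump factor. -/
noncomputable def psi (κ m u : ℝ) : ℝ :=
  κ * Gf (κ * m) (cl u) / (1 + κ * Gf (κ * m) (cl u) * m)

lemma kap_nonneg (T : ℝ) : 0 ≤ kap T := by
  unfold kap; split_ifs with h
  · exact pow_nonneg h.1 _
  · rfl

lemma kap_le (T : ℝ) : kap T ≤ 1 / 1024 := by
  unfold kap; split_ifs with h
  · calc T ^ 10 ≤ (1 / 2) ^ 10 := pow_le_pow_left₀ h.1 h.2.le _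
      _ = _ := by norm_num
  · norm_num

lemma kap_le_pow {T s : ℝ} (h : T ≤ s) : kap T ≤ s ^ 10 := by
  unfold kap; split_ifs with h'
  · exact pow_le_pow_left₀ h'.1 h _
  · positivity

@[fun_prop]
lemma measurable_kap : Measurable kap := by
  unfold kap
  refine Measurable.ite ?_ (by fun_prop) measurable_const
  exact (measurableSet_le measurable_const measurable_id).inter
    (measurableSet_lt measurable_id measurable_const)

lemma bd_kap : Bd kap := ⟨measurable_kap, 1, fun x => by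
  rw [abs_of_nonneg (kap_nonneg x)]; linarith [kap_le x]⟩

lemma bd_cl : Bd cl := ⟨measurable_cl, 1, abs_cl_le⟩

lemma abs_kap_mul (T : ℝ) {m : ℝ} (hm : |m| ≤ 1) : |kap T * m| ≤ 1 / 1024 := by
  rw [abs_mul, abs_of_nonneg (kap_nonneg T)]
  nlinarith [kap_le T, kap_nonneg T, abs_nonneg m]

lemma fac_bound (T y : ℝ) (s : Bool) : (2 : ℝ)⁻¹ ≤ fac T y s ∧ fac T y s ≤ 2 := by
  have : |kap T * (cl y * sg s)| ≤ 1 / 1024 :=
    abs_kap_mul T (by rw [abs_mul, abs_sg, mul_one]; exact abs_cl_le y)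
  rw [abs_le] at this
  unfold fac
  constructor <;> nlinarith [this.1, this.2]

lemma cl_cl (y : ℝ) : cl (cl y) = cl y := cl_of_abs_le (abs_cl_le y)

lemma Gf_spec {α u : ℝ} (hα : |α| ≤ 1 / 2) (hu : |u| ≤ 1) :
    |Gf α u| ≤ 1 ∧ u = Gf α u - α * (1 - Gf α u ^ 2) / 2 := by
  rw [abs_le] at hα hu
  have hp : 0 ≤ 1 + 2 * α * u + α ^ 2 := by nlinarith
  set s := √(1 + 2 * α * u + α ^ 2) with hs
  have hs0 : 0 ≤ s := Real.sqrt_nonneg _
  have hs2 : s ^ 2 = 1 + 2 * α * u + α ^ 2 := Real.sq_sqrt hp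
  have e : Gf α u * (1 + s) = α + 2 * u := by
    unfold Gf; rw [← hs]; field_simp
  have e2 : α * Gf α u = s - 1 := by
    apply mul_right_cancel₀ (show (1 + s) ≠ 0 by linarith)
    rw [mul_assoc, e]; nlinarith
  refine ⟨?_, by nlinarith⟩
  unfold Gf
  rw [abs_le, le_div_iff₀ (by linarith), div_le_iff₀ (by linarith)]
  constructor
  · by_contra h
    rw [not_le] at h
    nlinarith
  · by_contra h
    rw [not_le] at h
    nlinarith

lemma Gf_inv {α x : ℝ} (hα : |α| ≤ 1 / 2) (hx : |x| ≤ 1) :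
    Gf α (x - α * (1 - x ^ 2) / 2) = x := by
  rw [abs_le] at hα hx
  have h1 : 0 < 1 + α * x := by nlinarith
  unfold Gf
  rw [show 1 + 2 * α * (x - α * (1 - x ^ 2) / 2) + α ^ 2 = (1 + α * x) ^ 2 by ring,
    Real.sqrt_sq h1.le, div_eq_iff (by linarith)]
  ring

@[fun_prop]
lemma measurable_Gf {Θ : Type*} [MeasurableSpace Θ] {a u : Θ → ℝ} (ha : Measurable a)
    (hu : Measurable u) : Measurable fun x => Gf (a x) (u x) := by
  unfold Gf; fun_prop

lemma pit {α : ℝ} (hα : |α| ≤ 1 / 1024) (φ : ℝ → ℝ) :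
    ∫ u, φ (Gf α (cl u)) ∂unif = ∫ x, (1 + α * cl x) * φ (cl x) ∂unif := by
  rw [← integral_pit (m := 20 * α) (by rw [abs_mul]; norm_num; linarith)
    (fun u => φ (Gf α (cl u)))]
  refine integral_congr_ae ?_
  filter_upwards [ae_unif] with x hx
  have hα' : |α| ≤ 1 / 2 := by linarith
  rw [cl_of_abs_le hx]
  have e : x - 20 * α * (1 - x ^ 2) / 40 = x - α * (1 - x ^ 2) / 2 := by ring
  rw [e, cl_of_abs_le, Gf_inv hα' hx]
  · ring
  · rw [abs_le] at hα hx ⊢
    have h1 : 0 ≤ (1 - x) * (1 + α * (1 + x) / 2) :=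
      mul_nonneg (by linarith) (by nlinarith)
    have h2 : 0 ≤ (1 + x) * (1 - α * (1 - x) / 2) :=
      mul_nonneg (by linarith) (by nlinarith)
    constructor <;> nlinarith

lemma integral_cl : ∫ x, cl x ∂unif = 0 := by
  have := bd_cl.map measurable_neg unif_map_neg
  simp only [cl_neg, integral_neg] at this
  linarith

lemma psi_den {κ m : ℝ} (h0 : 0 ≤ κ) (h1 : κ ≤ 1 / 1024) (hm : |m| ≤ 1) {x : ℝ} (hx : |x| ≤ 1) :
    1 / 2 ≤ 1 + κ * x * m := by
  have : |x * m| ≤ 1 := by rw [abs_mul]; exact mul_le_one₀ hx (abs_nonneg _) hm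
  rw [abs_le] at this
  nlinarith [this.1]

lemma abs_km {κ m : ℝ} (h0 : 0 ≤ κ) (h1 : κ ≤ 1 / 1024) (hm : |m| ≤ 1) : |κ * m| ≤ 1 / 1024 := by
  rw [abs_mul, abs_of_nonneg h0]
  nlinarith [abs_nonneg m]

lemma integral_psi {κ m : ℝ} (h0 : 0 ≤ κ) (h1 : κ ≤ 1 / 1024) (hm : |m| ≤ 1) :
    ∫ u, psi κ m u ∂unif = 0 := by
  unfold psi
  rw [pit (abs_km h0 h1 hm) (fun x => κ * x / (1 + κ * x * m))]
  have : ∀ x, (1 + κ * m * cl x) * (κ * cl x / (1 + κ * cl x * m)) = κ * cl x := by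
    intro x
    have := psi_den h0 h1 hm (abs_cl_le x)
    rw [show 1 + κ * m * cl x = 1 + κ * cl x * m by ring]
    field_simp
  simp_rw [this]
  rw [integral_const_mul, integral_cl, mul_zero]

lemma abs_psi {κ m : ℝ} (h0 : 0 ≤ κ) (h1 : κ ≤ 1 / 1024) (hm : |m| ≤ 1) (u : ℝ) :
    |psi κ m u| ≤ 2 * κ := by
  have hG := (Gf_spec (α := κ * m) (by linarith [abs_km h0 h1 hm]) (abs_cl_le u)).1
  have hd := psi_den h0 h1 hm hG
  unfold psi
  rw [abs_div, abs_of_pos (by linarith : 0 < 1 + κ * Gf (κ * m) (cl u) * m),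
    div_le_iff₀ (by linarith), abs_mul, abs_of_nonneg h0]
  nlinarith

lemma psi_lip {κ m m' : ℝ} (h0 : 0 ≤ κ) (h1 : κ ≤ 1 / 1024) (hm : |m| ≤ 1) (hm' : |m'| ≤ 1)
    (u : ℝ) : |psi κ m u - psi κ m' u| ≤ κ * |m - m'| := by
  have a1 := abs_km h0 h1 hm
  have a2 := abs_km h0 h1 hm'
  obtain ⟨hG, e⟩ := Gf_spec (α := κ * m) (by linarith) (abs_cl_le u)
  obtain ⟨hG', e'⟩ := Gf_spec (α := κ * m') (by linarith) (abs_cl_le u)
  have hd := psi_den h0 h1 hm hG
  have hd' := psi_den h0 h1 hm' hG'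
  unfold psi
  set x := Gf (κ * m) (cl u)
  set x' := Gf (κ * m') (cl u)
  have l1 : |x - x'| ≤ κ * |m - m'| := by
    have e2 : x - x' = κ * (m - m') * ((1 - x ^ 2) / 2) - κ * m' * ((x + x') / 2) * (x - x') := by
      linear_combination e' - e
    have b1 : |κ * (m - m') * ((1 - x ^ 2) / 2)| ≤ κ * |m - m'| / 2 := by
      rw [abs_mul, abs_mul, abs_of_nonneg h0]
      have : |(1 - x ^ 2) / 2| ≤ 1 / 2 := by
        rw [abs_le] at hG ⊢; constructor <;> nlinarith
      nlinarith [mul_nonneg h0 (abs_nonneg (m - m'))]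
    have b2 : |κ * m' * ((x + x') / 2) * (x - x')| ≤ |x - x'| / 2 := by
      rw [abs_mul, abs_mul]
      have : |(x + x') / 2| ≤ 1 := by
        rw [abs_le] at hG hG' ⊢; constructor <;> linarith
      have : |κ * m'| * |(x + x') / 2| ≤ 1 / 2 := by nlinarith [abs_nonneg (κ * m')]
      nlinarith [abs_nonneg (x - x')]
    have := abs_sub (κ * (m - m') * ((1 - x ^ 2) / 2)) (κ * m' * ((x + x') / 2) * (x - x'))
    rw [← e2] at this
    linarith
  have e3 : κ * x / (1 + κ * x * m) - κ * x' / (1 + κ * x' * m') =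
      κ * ((x - x') - κ * (m - m') * (x * x')) / ((1 + κ * x * m) * (1 + κ * x' * m')) := by
    field_simp; ring
  have b3 : |(x - x') - κ * (m - m') * (x * x')| ≤ 2 * (κ * |m - m'|) := by
    refine (abs_sub _ _).trans ?_
    rw [abs_mul, abs_mul, abs_of_nonneg h0]
    have : |x * x'| ≤ 1 := by rw [abs_mul]; exact mul_le_one₀ hG (abs_nonneg _) hG'
    nlinarith [mul_nonneg h0 (abs_nonneg (m - m'))]
  have hD : 1 / 4 ≤ (1 + κ * x * m) * (1 + κ * x' * m') := by nlinarith
  rw [e3, abs_div, abs_of_pos (by linarith : 0 < (1 + κ * x * m) * (1 + κ * x' * m')),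
    div_le_iff₀ (by linarith), abs_mul, abs_of_nonneg h0]
  have t := mul_nonneg h0 (abs_nonneg (m - m'))
  calc κ * |x - x' - κ * (m - m') * (x * x')| ≤ κ * (2 * (κ * |m - m'|)) :=
        mul_le_mul_of_nonneg_left b3 h0
    _ ≤ κ * |m - m'| * (1 / 4) := by nlinarith
    _ ≤ _ := mul_le_mul_of_nonneg_left hD t

/-- Resampling a time label: the state at the time of a mark is dominated by the state at a
deterministic time. -/
lemma cond_time {K : Type*} [DecidableEq K] (b : K) {Φ : ℝ × (K → ℝ) → ℝ} (hΦ : Bd Φ)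
    (h0 : ∀ p, 0 ≤ Φ p) {σ₁ σ₂ : ℝ} (h2 : σ₂ ≤ 1 / 2)
    (hc : ∀ t T t', t ≤ t' → Φ (t, Function.update T b t') = Φ (t, Function.update T b t)) :
    ∫ T, (if σ₁ ≤ T b ∧ T b < σ₂ then Φ (T b, T) else 0) ∂PI K ≤
      ∫ t, (if σ₁ ≤ t ∧ t < σ₂ then 4 * ∫ T, Φ (t, T) ∂PI K else 0) ∂unif := by
  have hI : MeasurableSet {t : ℝ | σ₁ ≤ t ∧ t < σ₂} := measurableSet_Ico
  have b1 : Bd fun T : K → ℝ => if σ₁ ≤ T b ∧ T b < σ₂ then Φ (T b, T) else 0 :=
    Bd.ite ((measurable_pi_apply (X := fun _ : K => ℝ) b) hI) (hΦ.comp (by fun_prop)) (Bd.const 0)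
  have hu : Measurable fun p : (K → ℝ) × ℝ => (p.2, Function.update p.1 b p.2) :=
    measurable_snd.prodMk measurable_update'
  have b2 : Bd fun p : (K → ℝ) × ℝ =>
      if σ₁ ≤ p.2 ∧ p.2 < σ₂ then Φ (p.2, Function.update p.1 b p.2) else 0 :=
    Bd.ite (measurable_snd hI) (hΦ.comp hu) (Bd.const 0)
  rw [integral_update b b1]
  simp only [Function.update_self]
  rw [integral_integral_swap (b2.int _)]
  refine integral_mono ((b2.comp measurable_swap).integral (PI K) |>.int _)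
    ((Bd.ite hI ((hΦ.integral _).cmul 4) (Bd.const 0)).int _) fun t => ?_
  by_cases ht : σ₁ ≤ t ∧ t < σ₂
  · simp only [ht, and_self, if_true]
    have b3 : Bd fun T : K → ℝ => Φ (t, T) := hΦ.comp measurable_prodMk_left
    have b4 : Bd fun T : K → ℝ => Φ (t, Function.update T b t) :=
      b3.comp (measurable_update'.comp (measurable_id.prodMk measurable_const))
    rw [integral_update b b3, ← integral_const_mul]
    refine b4.mono (((b3.comp measurable_update').integral _).cmul 4) _ fun T => ?_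
    have b5 : Bd fun t' : ℝ => Φ (t, Function.update T b t') :=
      b3.comp (measurable_update'.comp (measurable_const.prodMk measurable_id))
    have hI2 : MeasurableSet {t' : ℝ | 1 / 2 ≤ t' ∧ t' ≤ 1} := measurableSet_Icc
    have := (Bd.ite hI2 (Bd.const (Φ (t, Function.update T b t))) (Bd.const 0)).mono b5 unif
      fun t' => by
        split_ifs with h
        · exact (hc t T t' (by linarith [h.1, ht.2])).ge
        · exact h0 _
    have e : ∫ t', (if 1 / 2 ≤ t' ∧ t' ≤ 1 then Φ (t, Function.update T b t) else 0) ∂unif =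
        Φ (t, Function.update T b t) / 4 := by
      have : (fun t' : ℝ => if 1 / 2 ≤ t' ∧ t' ≤ 1 then Φ (t, Function.update T b t) else 0) =
          (Icc (1 / 2 : ℝ) 1).indicator fun _ => Φ (t, Function.update T b t) := by
        ext t'; simp [indicator, mem_Icc]
      rw [this, integral_indicator_const _ measurableSet_Icc]
      have : unif.real (Icc (1 / 2 : ℝ) 1) = 1 / 4 := by
        simp only [unif, Measure.real, Measure.smul_apply, Measure.restrict_apply measurableSet_Icc,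
          Icc_inter_Icc, Real.volume_Icc, smul_eq_mul, ENNReal.toReal_mul]
        rw [ENNReal.toReal_ofReal (by norm_num)]
        norm_num
      rw [this]; simp only [smul_eq_mul]; ring
    linarith
  · simp [ht]

lemma integral_window {σ₁ σ₂ : ℝ} (h12 : σ₁ ≤ σ₂) {c : ℝ} (hc : 0 ≤ c) :
    ∫ t, (if σ₁ ≤ t ∧ t < σ₂ then c else 0) ∂unif ≤ (σ₂ - σ₁) / 2 * c := by
  have : (fun t : ℝ => if σ₁ ≤ t ∧ t < σ₂ then c else 0) = (Ico σ₁ σ₂).indicator fun _ => c := by
    ext t'; simp [indicator, mem_Ico]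
  rw [this, integral_indicator_const _ measurableSet_Ico, smul_eq_mul]
  refine mul_le_mul_of_nonneg_right ?_ hc
  have : unif (Ico σ₁ σ₂) ≤ ENNReal.ofReal ((σ₂ - σ₁) / 2) := by
    simp only [unif, Measure.smul_apply, smul_eq_mul]
    calc _ ≤ 2⁻¹ * volume (Ico σ₁ σ₂) := by
          gcongr
          exact Measure.restrict_le_self
      _ = _ := by
          rw [Real.volume_Ico, div_eq_inv_mul, ENNReal.ofReal_mul (by norm_num),
            ENNReal.ofReal_inv_of_pos (by norm_num)]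
          simp
  exact ENNReal.toReal_le_of_le_ofReal (by linarith) this

end Crest.Agent.Ising
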