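import Crest.Agent.FIID.Labels

/-!
Bounded measurable functions on product spaces, independence, and the decomposition of a
covariance along a random order.
-/

set_option maxHeartbeats 400000

open MeasureTheory Set Filter Topology
open Crest.Agent.FIID

namespace Crest.Agent.Ising

/-- Bounded measurable functions. -/
structure Bd {Ω : Type*} [MeasurableSpace Ω] (f : Ω → ℝ) : Prop where
  meas : Measurable f
  bdd : ∃ C, ∀ x, |f x| ≤ C

section Bd
variable {Ω : Type*} [MeasurableSpace Ω] {f g : Ω → ℝ}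

lemma Bd.int (h : Bd f) (μ : Measure Ω) [IsFiniteMeasure μ] : Integrable f μ := by
  obtain ⟨C, hC⟩ := h.bdd
  exact integrable_of_bdd h.meas C hC

lemma Bd.const (c : ℝ) : Bd fun _ : Ω => c := ⟨measurable_const, |c|, fun _ => le_rfl⟩

lemma Bd.add (hf : Bd f) (hg : Bd g) : Bd fun x => f x + g x := by
  obtain ⟨C, hC⟩ := hf.bdd
  obtain ⟨D, hD⟩ := hg.bdd
  exact ⟨hf.meas.add hg.meas, C + D, fun x => (abs_add_le _ _).trans (add_le_add (hC x) (hD x))⟩

lemma Bd.mul (hf : Bd f) (hg : Bd g) : Bd fun x => f x * g x := by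
  obtain ⟨C, hC⟩ := hf.bdd
  obtain ⟨D, hD⟩ := hg.bdd
  refine ⟨hf.meas.mul hg.meas, C * D, fun x => ?_⟩
  rw [abs_mul]
  exact mul_le_mul (hC x) (hD x) (abs_nonneg _) ((abs_nonneg _).trans (hC x))

lemma Bd.cont (hf : Bd f) {φ : ℝ → ℝ} (hφ : Continuous φ) : Bd fun x => φ (f x) := by
  obtain ⟨C, hC⟩ := hf.bdd
  obtain ⟨D, hD⟩ := (isCompact_Icc (a := -C) (b := C)).exists_bound_of_continuousOn
    hφ.continuousOn
  exact ⟨hφ.measurable.comp hf.meas, D, fun x => hD _ (abs_le.1 (hC x))⟩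

lemma Bd.neg (hf : Bd f) : Bd fun x => -f x := hf.cont continuous_neg

lemma Bd.sub (hf : Bd f) (hg : Bd g) : Bd fun x => f x - g x := by
  simpa only [sub_eq_add_neg] using hf.add hg.neg

lemma Bd.pow (hf : Bd f) (n : ℕ) : Bd fun x => f x ^ n := hf.cont (continuous_pow n)

lemma Bd.cmul (hf : Bd f) (c : ℝ) : Bd fun x => c * f x := (Bd.const c).mul hf

lemma Bd.divc (hf : Bd f) (c : ℝ) : Bd fun x => f x / c := hf.mul (Bd.const c⁻¹)

lemma Bd.abs (hf : Bd f) : Bd fun x => |f x| := hf.cont continuous_abs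

lemma Bd.sqrt (hf : Bd f) : Bd fun x => √(f x) := hf.cont Real.continuous_sqrt

lemma Bd.exp (hf : Bd f) : Bd fun x => Real.exp (f x) := hf.cont Real.continuous_exp

lemma Bd.sum {ι : Type*} {s : Finset ι} {f : ι → Ω → ℝ} (h : ∀ i ∈ s, Bd (f i)) :
    Bd fun x => ∑ i ∈ s, f i x := by
  classical
  induction s using Finset.induction_on with
  | empty => simpa using Bd.const 0
  | insert a s ha ih =>
    simp only [Finset.sum_insert ha]
    exact (h a (by simp)).add (ih fun i hi => h i (by simp [hi]))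

lemma Bd.prod {ι : Type*} {s : Finset ι} {f : ι → Ω → ℝ} (h : ∀ i ∈ s, Bd (f i)) :
    Bd fun x => ∏ i ∈ s, f i x := by
  classical
  induction s using Finset.induction_on with
  | empty => simpa using Bd.const 1
  | insert a s ha ih =>
    simp only [Finset.prod_insert ha]
    exact (h a (by simp)).mul (ih fun i hi => h i (by simp [hi]))

lemma Bd.contOn (hf : Bd f) {c : ℝ} (hc : 0 < c) (h : ∀ x, c ≤ f x) {φ : ℝ → ℝ}
    (hm : Measurable φ) (hφ : ContinuousOn φ (Ioi 0)) : Bd fun x => φ (f x) := by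
  obtain ⟨C, hC⟩ := hf.bdd
  obtain ⟨D, hD⟩ := (isCompact_Icc (a := c) (b := C)).exists_bound_of_continuousOn
    (hφ.mono fun y hy => lt_of_lt_of_le hc hy.1)
  exact ⟨hm.comp hf.meas, D, fun x => hD _ ⟨h x, (abs_le.1 (hC x)).2⟩⟩

lemma Bd.log (hf : Bd f) {c : ℝ} (hc : 0 < c) (h : ∀ x, c ≤ f x) : Bd fun x => Real.log (f x) :=
  hf.contOn hc h Real.measurable_log
    (Real.continuousOn_log.mono fun _ hy => (ne_of_gt hy : _))

lemma Bd.div (hg : Bd g) (hf : Bd f) {c : ℝ} (hc : 0 < c) (h : ∀ x, c ≤ f x) :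
    Bd fun x => g x / f x :=
  hg.mul (hf.contOn hc h measurable_inv (continuousOn_inv₀.mono fun _ hy => (ne_of_gt hy : _)))

lemma Bd.ite {p : Ω → Prop} [DecidablePred p] (hp : MeasurableSet {x | p x}) (hf : Bd f)
    (hg : Bd g) : Bd fun x => if p x then f x else g x := by
  obtain ⟨C, hC⟩ := hf.bdd
  obtain ⟨D, hD⟩ := hg.bdd
  refine ⟨Measurable.ite hp hf.meas hg.meas, max C D, fun x => ?_⟩
  split_ifs
  · exact (hC x).trans (le_max_left _ _)
  · exact (hD x).trans (le_max_right _ _)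

lemma Bd.comp {Ω' : Type*} [MeasurableSpace Ω'] (hf : Bd f) {φ : Ω' → Ω} (hφ : Measurable φ) :
    Bd fun x => f (φ x) := by
  obtain ⟨C, hC⟩ := hf.bdd
  exact ⟨hf.meas.comp hφ, C, fun x => hC _⟩

lemma Bd.integral {Ω' : Type*} [MeasurableSpace Ω'] {f : Ω × Ω' → ℝ} (hf : Bd f)
    (μ : Measure Ω') [IsProbabilityMeasure μ] : Bd fun x => ∫ y, f (x, y) ∂μ := by
  obtain ⟨C, hC⟩ := hf.bdd
  refine ⟨hf.meas.stronglyMeasurable.integral_prod_right'.measurable, C, fun x => ?_⟩
  simpa using norm_integral_le_of_norm_le_const (μ := μ) (f := fun y => f (x, y)) (C := C)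
    (Eventually.of_forall fun y => hC _)

lemma Bd.mono (hf : Bd f) (hg : Bd g) (μ : Measure Ω) [IsFiniteMeasure μ] (h : ∀ x, f x ≤ g x) :
    ∫ x, f x ∂μ ≤ ∫ x, g x ∂μ := integral_mono (hf.int μ) (hg.int μ) h

lemma Bd.map {Ω' : Type*} [MeasurableSpace Ω'] (hf : Bd f) {φ : Ω' → Ω} (hφ : Measurable φ)
    {μ : Measure Ω'} {ν : Measure Ω} (h : μ.map φ = ν) : ∫ x, f (φ x) ∂μ = ∫ x, f x ∂ν := by
  rw [← h, integral_map hφ.aemeasurable hf.meas.aestronglyMeasurable]

lemma Bd.abs_int_le (hf : Bd f) (μ : Measure Ω) [IsProbabilityMeasure μ] {ζ : ℝ} (hζ : 0 < ζ)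
    (h : ∫ x, f x ^ 2 ∂μ ≤ ζ ^ 2) : ∫ x, |f x| ∂μ ≤ ζ := by
  have : ∫ x, |f x| ∂μ ≤ ∫ x, (f x ^ 2 / (2 * ζ) + ζ / 2) ∂μ := by
    refine hf.abs.mono (((hf.pow 2).divc _).add (Bd.const _)) μ fun x => ?_
    rw [← sq_abs, div_add' _ _ _ (by positivity), le_div_iff₀ (by positivity)]
    nlinarith [sq_nonneg (|f x| - ζ)]
  rw [integral_add (((hf.pow 2).divc _).int μ) ((Bd.const _).int μ), integral_div] at this
  simp only [integral_const, probReal_univ, smul_eq_mul, one_mul] at this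
  have h2 : (∫ x, f x ^ 2 ∂μ) / (2 * ζ) ≤ ζ / 2 := by
    rw [div_le_iff₀ (by positivity)]; nlinarith
  linarith

end Bd

/-- Independent uniform labels. -/
noncomputable abbrev PI (K : Type*) : Measure (K → ℝ) := Measure.infinitePi fun _ : K => unif

open Classical in
/-- Mixing two label fields. -/
noncomputable def pw {K : Type*} (S : Set K) (x y : K → ℝ) : K → ℝ :=
  fun k => if k ∈ S then x k else y k

section PW
variable {K : Type*} {S : Set K} {f g : (K → ℝ) → ℝ}

lemma pw_of_mem {x y : K → ℝ} {k : K} (h : k ∈ S) : pw S x y k = x k := by simp [pw, h]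

lemma pw_of_not_mem {x y : K → ℝ} {k : K} (h : k ∉ S) : pw S x y k = y k := by simp [pw, h]

lemma measurable_pw {Θ : Type*} [MeasurableSpace Θ] {S : Θ → Set K} {x y : Θ → K → ℝ}
    (hS : ∀ k, MeasurableSet {θ | k ∈ S θ}) (hx : Measurable x) (hy : Measurable y) :
    Measurable fun θ => pw (S θ) (x θ) (y θ) := by
  refine measurable_pi_iff.2 fun k => ?_
  unfold pw
  exact Measurable.ite (hS k) ((measurable_pi_apply k).comp hx) ((measurable_pi_apply k).comp hy)

lemma measurable_pw' (S : Set K) :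
    Measurable fun p : (K → ℝ) × (K → ℝ) => pw S p.1 p.2 :=
  measurable_pw (S := fun _ => S) (fun _ => MeasurableSet.const _) measurable_fst measurable_snd

lemma map_pw (S : Set K) :
    ((PI K).prod (PI K)).map (fun p => pw S p.1 p.2) = PI K := by
  classical
  refine Measure.eq_infinitePi _ fun s t ht => ?_
  have hm : MeasurableSet (Set.pi (s : Set K) t) := .pi s.countable_toSet fun _ _ => ht _
  rw [Measure.map_apply (measurable_pw' S) hm]
  have : (fun p : (K → ℝ) × (K → ℝ) => pw S p.1 p.2) ⁻¹' Set.pi (s : Set K) t =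
      (Set.pi ((s.filter (· ∈ S) : Finset K) : Set K) t) ×ˢ
        (Set.pi ((s.filter (· ∉ S) : Finset K) : Set K) t) := by
    ext ⟨x, y⟩
    simp only [mem_preimage, Set.mem_pi, Finset.mem_coe, mem_prod, Finset.mem_filter]
    constructor
    · intro h
      exact ⟨fun i hi => by simpa [pw, hi.2] using h i hi.1,
        fun i hi => by simpa [pw, hi.2] using h i hi.1⟩
    · rintro ⟨h1, h2⟩ i hi
      by_cases hS : i ∈ S
      · simpa [pw, hS] using h1 i ⟨hi, hS⟩
      · simpa [pw, hS] using h2 i ⟨hi, hS⟩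
  rw [this, Measure.prod_prod, Measure.infinitePi_pi _ (fun i _ => ht i),
    Measure.infinitePi_pi _ (fun i _ => ht i), Finset.prod_filter_mul_prod_filter_not]

lemma integral_pw (S : Set K) (hf : Bd f) :
    ∫ x, f x ∂PI K = ∫ x, ∫ y, f (pw S x y) ∂PI K ∂PI K := by
  rw [← hf.map (measurable_pw' S) (map_pw S), integral_prod _ ((hf.comp (measurable_pw' S)).int _)]

lemma indep {A A' : Set K} (hf : Bd f) (hg : Bd g) (df : DependsOn f A) (dg : DependsOn g A')
    (h : Disjoint A A') : ∫ x, f x * g x ∂PI K = (∫ x, f x ∂PI K) * ∫ x, g x ∂PI K := by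
  rw [integral_pw A (hf.mul hg), ← integral_mul_const]
  congr 1; ext x
  rw [← integral_const_mul]
  congr 1; ext y
  rw [df (x := pw A x y) (y := x) fun i hi => pw_of_mem hi,
    dg (x := pw A x y) (y := y) fun i hi => pw_of_not_mem (Set.disjoint_right.1 h hi)]

lemma indep_prod {ι : Type*} (C : Finset ι) {A0 : Set K} {A : ι → Set K} {F : ι → (K → ℝ) → ℝ}
    (hf : Bd f) (df : DependsOn f A0) (hF : ∀ c ∈ C, Bd (F c)) (dF : ∀ c ∈ C, DependsOn (F c) (A c))
    (h0 : ∀ c ∈ C, Disjoint A0 (A c))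
    (h1 : ∀ c ∈ C, ∀ c' ∈ C, c ≠ c' → Disjoint (A c) (A c')) :
    ∫ x, f x * ∏ c ∈ C, F c x ∂PI K = (∫ x, f x ∂PI K) * ∏ c ∈ C, ∫ x, F c x ∂PI K := by
  classical
  induction C using Finset.induction_on with
  | empty => simp
  | insert a C ha ih =>
    simp only [Finset.prod_insert ha]
    have e : ∀ x, f x * (F a x * ∏ c ∈ C, F c x) = (f x * ∏ c ∈ C, F c x) * F a x := by
      intro x; ring
    simp_rw [e]
    rw [indep (A := (A a)ᶜ) (A' := A a) (hf.mul (Bd.prod fun c hc => hF c (by simp [hc])))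
      (hF a (by simp)) ?_ (dF a (by simp)) disjoint_compl_left,
      ih (fun c hc => hF c (by simp [hc])) (fun c hc => dF c (by simp [hc]))
        (fun c hc => h0 c (by simp [hc]))
        (fun c hc c' hc' => h1 c (by simp [hc]) c' (by simp [hc']))]
    · ring
    · intro x y hxy
      show f x * ∏ c ∈ C, F c x = f y * ∏ c ∈ C, F c y
      rw [df fun i hi => hxy i (Set.disjoint_left.1 (h0 a (by simp)) hi)]
      congr 1
      refine Finset.prod_congr rfl fun c hc => dF c (by simp [hc]) fun i hi => hxy i ?_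
      exact Set.disjoint_left.1 (h1 c (by simp [hc]) a (by simp) (by rintro rfl; exact ha hc)) hi

lemma integral_update [DecidableEq K] (a : K) (hf : Bd f) :
    ∫ x, f x ∂PI K = ∫ x, ∫ t, f (Function.update x a t) ∂unif ∂PI K := by
  rw [← hf.map measurable_update' (map_update_infinitePi (fun _ : K => unif) a),
    integral_prod _ ((hf.comp measurable_update').int _)]

lemma integral_relabel {K' : Type*} {e : K → K'} (he : Function.Injective e) (hf : Bd f) :
    ∫ x, f (fun k => x (e k)) ∂PI K' = ∫ x, f x ∂PI K :=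
  hf.map (by fun_prop) (Measure.map_infinitePi_infinitePi_of_inj (P := fun _ : K' => unif) he)

lemma integral_coord (k : K) {φ : ℝ → ℝ} (hφ : Bd φ) :
    ∫ x, φ (x k) ∂PI K = ∫ t, φ t ∂unif :=
  hφ.map (measurable_pi_apply k) (Measure.infinitePi_map_eval _ k)

lemma integral_flip (p : K → Prop) [DecidablePred p] (hf : Bd f) :
    ∫ x, f (fun k => if p k then x k else -x k) ∂PI K = ∫ x, f x ∂PI K := by
  have hm : ∀ k, Measurable fun t : ℝ => if p k then t else -t := by
    intro k; split_ifs <;> fun_prop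
  refine hf.map (measurable_pi_iff.2 fun k => (hm k).comp (measurable_pi_apply k)) ?_
  have := Measure.infinitePi_map_pi (fun _ : K => unif)
    (f := fun k (t : ℝ) => if p k then t else -t) hm
  refine this.trans ?_
  congr 1; ext1 k
  split_ifs
  · exact Measure.map_id
  · exact unif_map_neg

end PW

/-! ### Covariances along a random order -/

section Shapley
variable {V : Type*}

/-- Coordinates of a vertex set. -/
def co (A : Set V) : Set (ℕ × V) := {k | k.2 ∈ A}

lemma co_disjoint {A A' : Set V} (h : Disjoint A A') : Disjoint (co A) (co A') :=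
  Set.disjoint_left.2 fun _ h1 h2 => Set.disjoint_left.1 h h1 h2

lemma co_mono {A A' : Set V} (h : A ⊆ A') : co A ⊆ co A' := fun _ hk => h hk

/-- Conditional expectation given the labels in `A`. -/
noncomputable def PA (A : Set V) (f : (ℕ × V → ℝ) → ℝ) (x : ℕ × V → ℝ) : ℝ :=
  ∫ y, f (pw (co A) x y) ∂PI (ℕ × V)

variable {f g : (ℕ × V → ℝ) → ℝ} {A A' : Set V}

lemma Bd.PA (hf : Bd f) (A : Set V) : Bd (PA A f) :=
  (hf.comp (measurable_pw' (co A))).integral _

lemma PA_dep (A : Set V) (f : (ℕ × V → ℝ) → ℝ) : DependsOn (PA A f) (co A) := by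
  intro x y h
  unfold PA
  congr 1; ext z; congr 1; ext k
  by_cases hk : k ∈ co A
  · rw [pw_of_mem hk, pw_of_mem hk, h k hk]
  · rw [pw_of_not_mem hk, pw_of_not_mem hk]

lemma integral_PA (hf : Bd f) (hg : Bd g) (dg : DependsOn g (co A)) :
    ∫ x, f x * g x ∂PI (ℕ × V) = ∫ x, PA A f x * g x ∂PI (ℕ × V) := by
  rw [integral_pw (co A) (hf.mul hg)]
  congr 1; ext x
  unfold PA
  rw [← integral_mul_const]
  congr 1; ext y
  rw [dg (x := pw (co A) x y) (y := x) fun i hi => pw_of_mem hi]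

lemma PA_PA (hf : Bd f) (h : A ⊆ A') : PA A (PA A' f) = PA A f := by
  ext x
  unfold PA
  have hb : Bd fun y => f (pw (co A) x y) :=
    hf.comp ((measurable_pw' (co A)).comp measurable_prodMk_left)
  rw [integral_pw (co A') hb]
  congr 1; ext y; congr 1; ext y'; congr 1; ext k
  by_cases hk : k ∈ co A
  · rw [pw_of_mem hk, pw_of_mem (co_mono h hk), pw_of_mem hk]
  · rw [pw_of_not_mem hk]
    by_cases hk' : k ∈ co A'
    · rw [pw_of_mem hk', pw_of_mem hk', pw_of_not_mem hk]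
    · rw [pw_of_not_mem hk', pw_of_not_mem hk']

lemma PA_inter {Λ : Set V} (df : DependsOn f (co Λ)) (h : A ∩ Λ = A' ∩ Λ) : PA A f = PA A' f := by
  ext x
  unfold PA
  congr 1; ext y
  refine df fun k hk => ?_
  have : k ∈ co A ↔ k ∈ co A' := by
    have := Set.ext_iff.1 h k.2
    simp only [mem_inter_iff] at this
    exact ⟨fun h' => (this.1 ⟨h', hk⟩).1, fun h' => (this.2 ⟨h', hk⟩).1⟩
  by_cases hk' : k ∈ co A
  · rw [pw_of_mem hk', pw_of_mem (this.1 hk')]
  · rw [pw_of_not_mem hk', pw_of_not_mem fun h' => hk' (this.2 h')]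

lemma PA_self (df : DependsOn f (co A)) : PA A f = f := by
  ext x
  unfold PA
  have : ∀ y, f (pw (co A) x y) = f x := fun y => df fun i hi => pw_of_mem hi
  simp [this]

lemma PA_empty (f : (ℕ × V → ℝ) → ℝ) : PA ∅ f = fun _ => ∫ y, f y ∂PI (ℕ × V) := by
  ext x
  unfold PA
  congr 1; ext y; congr 1; ext k
  exact pw_of_not_mem (by simp [co])

lemma nested (hf : Bd f) (hg : Bd g) (h : A ⊆ A') :
    ∫ x, (PA A' f x - PA A f x) * (PA A' g x - PA A g x) ∂PI (ℕ × V) =
      ∫ x, PA A' f x * PA A' g x ∂PI (ℕ × V) - ∫ x, PA A f x * PA A g x ∂PI (ℕ × V) := by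
  have e1 := integral_PA (hf.PA A') (hg.PA A) (PA_dep A g)
  have e2 := integral_PA (hg.PA A') (hf.PA A) (PA_dep A f)
  rw [PA_PA hf h] at e1
  rw [PA_PA hg h] at e2
  have : ∀ x, (PA A' f x - PA A f x) * (PA A' g x - PA A g x) = PA A' f x * PA A' g x -
      PA A' f x * PA A g x - PA A' g x * PA A f x + PA A g x * PA A f x := by intro x; ring
  simp_rw [this]
  rw [integral_add, integral_sub, integral_sub, e1, e2]
  · ring
  · exact ((hf.PA _).mul (hg.PA _)).int _
  · exact ((hf.PA _).mul (hg.PA _)).int _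
  · exact (((hf.PA _).mul (hg.PA _)).sub ((hf.PA _).mul (hg.PA _))).int _
  · exact ((hg.PA _).mul (hf.PA _)).int _
  · exact ((((hf.PA _).mul (hg.PA _)).sub ((hf.PA _).mul (hg.PA _))).sub
      ((hg.PA _).mul (hf.PA _))).int _
  · exact ((hg.PA _).mul (hf.PA _)).int _

/-- Martingale increment at `x` in the order given by `s`. -/
noncomputable def dl (f : (ℕ × V → ℝ) → ℝ) (x : V) (p : (V → ℝ) × (ℕ × V → ℝ)) : ℝ :=
  PA (insert x {y | p.1 y < p.1 x}) f p.2 - PA {y | p.1 y < p.1 x} f p.2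

lemma Bd.dl (hf : Bd f) (x : V) : Bd (dl f x) := by
  have key : ∀ A : (V → ℝ) → Set V, (∀ y, MeasurableSet {s | y ∈ A s}) →
      Bd fun p : (V → ℝ) × (ℕ × V → ℝ) => Ising.PA (A p.1) f p.2 := by
    intro A hA
    refine Bd.integral (f := fun q : ((V → ℝ) × (ℕ × V → ℝ)) × (ℕ × V → ℝ) =>
      f (pw (co (A q.1.1)) q.1.2 q.2)) (hf.comp ?_) _
    exact measurable_pw (fun k => (measurable_fst.comp measurable_fst) (hA k.2))
      (by fun_prop) (by fun_prop)
  have h1 : ∀ y, MeasurableSet {s : V → ℝ | s y < s x} := fun y =>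
    measurableSet_lt (measurable_pi_apply y) (measurable_pi_apply x)
  refine (key (fun s => insert x {y | s y < s x}) fun y => ?_).sub
    (key (fun s => {y | s y < s x}) h1)
  exact (MeasurableSet.const (y = x)).union (h1 y)

/-- The share of `x` in the covariance. -/
noncomputable def bb (f g : (ℕ × V → ℝ) → ℝ) (x : V) : ℝ :=
  ∫ p, dl f x p * dl g x p ∂(PI V).prod (PI (ℕ × V))

lemma bb_nonneg (f : (ℕ × V → ℝ) → ℝ) (x : V) : 0 ≤ bb f f x :=
  integral_nonneg fun _ => mul_self_nonneg _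

lemma bb_le (hf : Bd f) (hg : Bd g) (x : V) {l : ℝ} (hl : 0 < l) :
    bb f g x ≤ (l * bb f f x + bb g g x / l) / 2 := by
  unfold bb
  have a := hf.dl x
  have a' := hg.dl x
  rw [← integral_const_mul, ← integral_div, ← integral_add (((a.mul a).cmul l).int _)
    (((a'.mul a').divc l).int _), ← integral_div]
  refine (a.mul a').mono ((((a.mul a).cmul l).add ((a'.mul a').divc l)).divc 2) _ fun p => ?_
  have : l * (dl f x p * dl f x p) + dl g x p * dl g x p / l - 2 * (dl f x p * dl g x p) =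
      (l * dl f x p - dl g x p) ^ 2 / l := by field_simp; ring
  have : 0 ≤ (l * dl f x p - dl g x p) ^ 2 / l := by positivity
  linarith

lemma bb_zero {Λ : Set V} (df : DependsOn f (co Λ)) {x : V} (hx : x ∉ Λ) : bb f f x = 0 := by
  have : ∀ p, dl f x p = 0 := by
    intro p
    unfold dl
    rw [PA_inter df (A' := {y | p.1 y < p.1 x}), sub_self]
    ext y
    simp only [mem_inter_iff, mem_insert_iff]
    constructor
    · rintro ⟨rfl | h, h'⟩
      · exact absurd h' hx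
      · exact ⟨h, h'⟩
    · exact fun h => ⟨Or.inr h.1, h.2⟩
  simp [bb, this]

lemma bb_relabel (hf : Bd f) (e : V ≃ V) (he : ∀ x, f (fun k => x (k.1, e k.2)) = f x) (x : V) :
    bb f f (e x) = bb f f x := by
  have hinj : Function.Injective fun k : ℕ × V => (k.1, e k.2) := by
    rintro ⟨a, b⟩ ⟨c, d⟩ h; simp_all
  have key : ∀ (A : Set V) ω, PA A f ω = PA (e ⁻¹' A) f (fun k => ω (k.1, e k.2)) := by
    intro A ω
    unfold PA
    have hb : Bd fun y => f (pw (co (e ⁻¹' A)) (fun k => ω (k.1, e k.2)) y) :=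
      hf.comp ((measurable_pw' _).comp measurable_prodMk_left)
    rw [← integral_relabel hinj hb]
    congr 1; ext y
    rw [← he]
    rfl
  have k2 : ∀ p : (V → ℝ) × (ℕ × V → ℝ), dl f (e x) p =
      dl f x (fun v => p.1 (e v), fun k => p.2 (k.1, e k.2)) := by
    intro p
    unfold dl
    rw [key, key {y | p.1 y < p.1 (e x)}]
    congr 2
    ext y; simp
  unfold bb
  simp_rw [k2]
  refine ((hf.dl x).mul (hf.dl x)).map
    (φ := Prod.map (fun (s : V → ℝ) v => s (e v)) fun (ω : ℕ × V → ℝ) k => ω (k.1, e k.2))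
    (by fun_prop) ?_
  rw [← Measure.map_prod_map _ _ (by fun_prop) (by fun_prop),
    Measure.map_infinitePi_infinitePi_of_inj (P := fun _ : V => unif) e.injective,
    Measure.map_infinitePi_infinitePi_of_inj (P := fun _ : ℕ × V => unif) hinj]

lemma telescope [DecidableEq V] {s : V → ℝ} (hs : Function.Injective s) (Ψ : Set V → ℝ)
    (Λ : Finset V) : ∑ x ∈ Λ, (Ψ (insert x ({y | s y < s x} ∩ Λ)) - Ψ ({y | s y < s x} ∩ Λ)) =
      Ψ Λ - Ψ ∅ := by
  induction Λ using Finset.induction_on_max_value s with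
  | empty => simp
  | insert a Λ ha hmax ih =>
    rw [Finset.sum_insert ha]
    have e1 : {y | s y < s a} ∩ ((insert a Λ : Finset V) : Set V) = Λ := by
      ext y
      simp only [Finset.coe_insert, mem_inter_iff, mem_ofPred_eq, mem_insert_iff, Finset.mem_coe]
      constructor
      · rintro ⟨h, rfl | h'⟩
        · exact absurd h (lt_irrefl _)
        · exact h'
      · intro h
        exact ⟨lt_of_le_of_ne (hmax y h) fun h' => ha (hs h' ▸ h), Or.inr h⟩
    have e2 : ∀ x ∈ Λ, {y | s y < s x} ∩ ((insert a Λ : Finset V) : Set V) =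
        {y | s y < s x} ∩ Λ := by
      intro x hx
      ext y
      simp only [Finset.coe_insert, mem_inter_iff, mem_ofPred_eq, mem_insert_iff, Finset.mem_coe]
      constructor
      · rintro ⟨h, rfl | h'⟩
        · exact absurd h (not_lt.2 (hmax x hx))
        · exact ⟨h, h'⟩
      · exact fun h => ⟨h.1, Or.inr h.2⟩
    rw [e1, Finset.sum_congr rfl fun x hx => by rw [e2 x hx], ih, Finset.coe_insert]
    ring

lemma sum_bb [Countable V] (hf : Bd f) (hg : Bd g) (Λ : Finset V) (df : DependsOn f (co Λ))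
    (dg : DependsOn g (co Λ)) : ∑ x ∈ Λ, bb f g x =
      ∫ x, f x * g x ∂PI (ℕ × V) - (∫ x, f x ∂PI (ℕ × V)) * ∫ x, g x ∂PI (ℕ × V) := by
  classical
  unfold bb
  have hb := fun x => (hf.dl x).mul (hg.dl x)
  rw [← integral_finset_sum _ fun x _ => (hb x).int _,
    integral_prod _ ((Bd.sum fun x _ => hb x).int _)]
  have : ∀ᵐ s ∂PI V, ∫ ω, ∑ x ∈ Λ, dl f x (s, ω) * dl g x (s, ω) ∂PI (ℕ × V) =
      ∫ x, f x * g x ∂PI (ℕ × V) - (∫ x, f x ∂PI (ℕ × V)) * ∫ x, g x ∂PI (ℕ × V) := by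
    filter_upwards [ae_injective V] with s hs
    rw [integral_finset_sum _ fun x _ => ((hb x).comp measurable_prodMk_left).int _]
    have t := telescope hs (fun A => ∫ x, PA A f x * PA A g x ∂PI (ℕ × V)) Λ
    rw [PA_self df, PA_self dg, PA_empty, PA_empty] at t
    simp only [integral_const, probReal_univ, smul_eq_mul, one_mul] at t
    rw [← t]
    refine Finset.sum_congr rfl fun x _ => ?_
    have i1 : insert x {y | s y < s x} ∩ (Λ : Set V) = insert x ({y | s y < s x} ∩ Λ) ∩ Λ := by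
      ext y; simp only [mem_inter_iff, mem_insert_iff]; tauto
    have i2 : {y | s y < s x} ∩ (Λ : Set V) = ({y | s y < s x} ∩ Λ) ∩ Λ := by
      ext y; simp only [mem_inter_iff]; tauto
    simp only [dl]
    rw [nested hf hg (subset_insert _ _), PA_inter df i1, PA_inter dg i1, PA_inter df i2,
      PA_inter dg i2]
  rw [integral_congr_ae this]
  simp

lemma sum_bb_le [Countable V] (hf : Bd f) (Λ : Finset V) (df : DependsOn f (co Λ)) :
    ∑ x ∈ Λ, bb f f x ≤ ∫ x, f x ^ 2 ∂PI (ℕ × V) := by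
  rw [sum_bb hf hf Λ df df]
  simp_rw [sq]
  linarith [mul_self_nonneg (∫ x, f x ∂PI (ℕ × V))]

open Classical in
/-- Covariance bound from a cut. -/
lemma cov_cut [Countable V] (hf : Bd f) (hg : Bd g) (Λ : Finset V) (df : DependsOn f (co Λ))
    (dg : DependsOn g (co Λ)) (A : Set V) {δ W : ℝ} (hδ : 0 < δ)
    (h1 : ∫ x, f x ^ 2 ∂PI (ℕ × V) ≤ W) (h2 : ∫ x, g x ^ 2 ∂PI (ℕ × V) ≤ W)
    (m1 : ∑ x ∈ Λ with x ∈ A, bb f f x ≤ δ ^ 2 * W)
    (m2 : ∑ x ∈ Λ with x ∉ A, bb g g x ≤ δ ^ 2 * W) :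
    ∫ x, f x * g x ∂PI (ℕ × V) ≤ (∫ x, f x ∂PI (ℕ × V)) * (∫ x, g x ∂PI (ℕ × V)) + 2 * δ * W := by
  have e := sum_bb hf hg Λ df dg
  have f1 := (sum_bb_le hf Λ df).trans h1
  have g1 := (sum_bb_le hg Λ dg).trans h2
  rw [← Finset.sum_filter_add_sum_filter_not Λ (· ∈ A)] at e f1 g1
  have s1 : ∑ x ∈ Λ with x ∈ A, bb f g x ≤
      (δ⁻¹ * ∑ x ∈ Λ with x ∈ A, bb f f x + δ * ∑ x ∈ Λ with x ∈ A, bb g g x) / 2 := by
    rw [Finset.mul_sum, Finset.mul_sum, ← Finset.sum_add_distrib, Finset.sum_div]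
    refine Finset.sum_le_sum fun x _ => (bb_le hf hg x (inv_pos.2 hδ)).trans (le_of_eq ?_)
    field_simp
  have s2 : ∑ x ∈ Λ with x ∉ A, bb f g x ≤
      (δ * ∑ x ∈ Λ with x ∉ A, bb f f x + δ⁻¹ * ∑ x ∈ Λ with x ∉ A, bb g g x) / 2 := by
    rw [Finset.mul_sum, Finset.mul_sum, ← Finset.sum_add_distrib, Finset.sum_div]
    refine Finset.sum_le_sum fun x _ => (bb_le hf hg x hδ).trans (le_of_eq ?_)
    field_simp
  have n1 : 0 ≤ ∑ x ∈ Λ with x ∈ A, bb f f x := Finset.sum_nonneg fun x _ => bb_nonneg _ _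
  have n2 : 0 ≤ ∑ x ∈ Λ with x ∉ A, bb g g x := Finset.sum_nonneg fun x _ => bb_nonneg _ _
  have t1 : δ⁻¹ * ∑ x ∈ Λ with x ∈ A, bb f f x ≤ δ * W := by
    rw [inv_mul_le_iff₀ hδ]; linarith
  have t2 : δ⁻¹ * ∑ x ∈ Λ with x ∉ A, bb g g x ≤ δ * W := by
    rw [inv_mul_le_iff₀ hδ]; linarith
  have t3 : δ * ∑ x ∈ Λ with x ∈ A, bb g g x ≤ δ * W :=
    mul_le_mul_of_nonneg_left (by linarith) hδ.le
  have t4 : δ * ∑ x ∈ Λ with x ∉ A, bb f f x ≤ δ * W :=
    mul_le_mul_of_nonneg_left (by linarith) hδ.le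
  linarith

end Shapley

end Crest.Agent.Ising
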