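import Crest.Agent.Ising.BP
import Crest.Agent.Ising.One

/-!
Random admissible weights: measurability and boundedness of the tree functionals.
-/

set_option maxHeartbeats 400000

open MeasureTheory Set Filter Topology SimpleGraph
open Crest.Agent.FIID

namespace Crest.Agent.Ising

variable {V : Type*} [DecidableEq V] {G : SimpleGraph V} [G.LocallyFinite]

/-- Restriction of weights to a finite set. -/
def res (Λ : Finset V) (w : V → Bool → ℝ) (v : V) : Bool → ℝ :=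
  if v ∈ Λ then w v else fun _ => 1

lemma res_supp (Λ : Finset V) (w : V → Bool → ℝ) : Supp (res Λ w) Λ := fun v hv => by
  simp [res, hv]

lemma res_of_mem {Λ : Finset V} {w : V → Bool → ℝ} {v : V} (h : v ∈ Λ) : res Λ w v = w v := by
  simp [res, h]

lemma res_congr {Λ : Finset V} {w w' : V → Bool → ℝ} (h : ∀ v ∈ Λ, w v = w' v) :
    res Λ w = res Λ w' := by
  funext v
  unfold res
  split_ifs with hv
  · exact h v hv
  · rfl

lemma Adm.res {M : ℝ} (hM : 1 ≤ M) {w : V → Bool → ℝ} (h : Adm M w) (Λ : Finset V) :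
    Adm M (res Λ w) := by
  intro v s
  unfold Ising.res
  split_ifs
  · exact h v s
  · exact ⟨inv_le_one_of_one_le₀ hM, hM⟩

variable {Θ : Type*} [MeasurableSpace Θ]

/-- Random admissible weights. -/
structure RW (Λ : Finset V) (M : ℝ) (w : Θ → V → Bool → ℝ) : Prop where
  one : 1 ≤ M
  meas : ∀ v s, Measurable fun x => w x v s
  supp : ∀ x, Supp (w x) Λ
  adm : ∀ x, Adm M (w x)

lemma measurable_res {w : Θ → V → Bool → ℝ} (hw : ∀ v s, Measurable fun x => w x v s)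
    (Λ : Finset V) (v : V) (s : Bool) : Measurable fun x => res Λ (w x) v s := by
  unfold res
  split_ifs
  · exact hw v s
  · exact measurable_const

lemma measurable_B (hT : G.IsTree) (θ : ℝ) {Λ : Finset V} {w : Θ → V → Bool → ℝ}
    (hw : ∀ v s, Measurable fun x => w x v s) (hs : ∀ x, Supp (w x) Λ) {p u : V} (h : Ok G p u)
    (s : Bool) : Measurable fun x => B G θ (w x) p u s := by
  have key : ∀ n p u s, Measurable fun x => Y G θ (w x) n p u s := by
    intro n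
    induction n with
    | zero => intro p u s; exact measurable_const
    | succ n ih =>
      intro p u s
      simp only [Y, Pk]
      exact (hw u s).mul (Finset.measurable_prod _ fun c _ =>
        (((ih u c s).const_mul _).add ((ih u c (!s)).const_mul _)).div_const _)
  have : (fun x => B G θ (w x) p u s) =
      fun x => Y G θ (w x) (Λ.sup (fun x => G.dist x u) + 1) p u s := by
    funext x
    rw [B_eq_Y hT (hs x) h fun x hx _ => lt_sup Λ u x hx]
  rw [this]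
  exact key _ _ _ _

omit [DecidableEq V] in
lemma RW.comp {Θ' : Type*} [MeasurableSpace Θ'] {Λ : Finset V} {M : ℝ} {w : Θ → V → Bool → ℝ}
    (h : RW Λ M w) {φ : Θ' → Θ} (hφ : Measurable φ) : RW Λ M fun x => w (φ x) :=
  ⟨h.one, fun v s => (h.meas v s).comp hφ, fun _ => h.supp _, fun _ => h.adm _⟩

omit [DecidableEq V] in
lemma RW.pos {Λ : Finset V} {M : ℝ} {w : Θ → V → Bool → ℝ} (h : RW Λ M w) (x : Θ) (v : V)
    (s : Bool) : 0 < w x v s := (h.adm x).pos h.one v s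

omit [DecidableEq V] in
lemma RW.bd_w {Λ : Finset V} {M : ℝ} {w : Θ → V → Bool → ℝ} (h : RW Λ M w) (v : V) (s : Bool) :
    Bd fun x => w x v s :=
  ⟨h.meas v s, M, fun x => by rw [abs_of_pos (h.pos x v s)]; exact (h.adm x v s).2⟩

/-- Clamping of weights. -/
noncomputable def cw (Λ : Finset V) (M : ℝ) (w : V → Bool → ℝ) : V → Bool → ℝ :=
  res Λ fun v s => max M⁻¹ (min M (w v s))

lemma rw_cw (Λ : Finset V) {M : ℝ} (hM : 1 ≤ M) : RW Λ M (cw Λ M) := by
  refine ⟨hM, fun v s => measurable_res (w := fun (w : V → Bool → ℝ) v s =>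
    max M⁻¹ (min M (w v s))) (fun v s => by fun_prop) Λ v s, fun _ => res_supp _ _,
    fun w => Adm.res hM (fun v s => ⟨le_max_left _ _, max_le ?_ (min_le_left _ _)⟩) Λ⟩
  exact (inv_le_one_of_one_le₀ hM).trans hM

lemma cw_eq {Λ : Finset V} {M : ℝ} {w : V → Bool → ℝ} (hs : Supp w Λ) (ha : Adm M w) :
    cw Λ M w = w := by
  funext v
  unfold cw res
  split_ifs with hv
  · funext s
    beta_reduce
    rw [min_eq_right (ha v s).2, max_eq_right (ha v s).1]
  · exact (hs v hv).symm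

lemma RW.bd {Λ : Finset V} {M : ℝ} {w : Θ → V → Bool → ℝ} (h : RW Λ M w)
    {F : (V → Bool → ℝ) → ℝ} (hF : Bd fun w => F (cw Λ M w)) : Bd fun x => F (w x) := by
  have := hF.comp (φ := w) (measurable_pi_iff.2 fun v => measurable_pi_iff.2 fun s => h.meas v s)
  simpa only [cw_eq (h.supp _) (h.adm _)] using this

/-- The margin away from `±1`. -/
noncomputable def mar (b : ℕ) (M : ℝ) : ℝ := 2 / (1 + M ^ 2 * 7 ^ (2 * b))

lemma mar_pos (b : ℕ) (M : ℝ) : 0 < mar b M := by unfold mar; positivity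

lemma one_sub_sq_ge {c γ : ℝ} (h : |γ| ≤ 1 - c) (hc : 0 < c) : c ≤ 1 - γ ^ 2 := by
  rw [← sq_abs]; nlinarith [abs_nonneg γ]

section
variable {b : ℕ} (hG : Reg G b) {θ : ℝ} (h0 : 0 ≤ θ) (h1 : θ ≤ 3 / 4) {Λ : Finset V} {M : ℝ}
  {w : Θ → V → Bool → ℝ} (h : RW Λ M w) {p u : V}
include hG h0 h1 h

lemma RW.B_pos (hp : Ok G p u) (x : Θ) : ∀ s, 0 < B G θ (w x) p u s :=
  Ising.B_pos hG.tree h0 (by linarith) (h.supp x) (h.pos x) hp

lemma RW.bd_B (hp : Ok G p u) (s : Bool) : Bd fun x => B G θ (w x) p u s := by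
  obtain ⟨C, _, hC⟩ := B_bound hG.tree hG h.one Λ hp
  refine ⟨measurable_B hG.tree θ h.meas h.supp hp s, C, fun x => ?_⟩
  rw [abs_of_pos (h.B_pos hG h0 h1 hp x s)]
  exact (hC θ h0 (by linarith) _ (h.adm x) (h.supp x) s).2

lemma RW.B_low (hp : Ok G p u) : ∃ c, 0 < c ∧ ∀ x s, c ≤ B G θ (w x) p u s := by
  obtain ⟨C, hC1, hC⟩ := B_bound hG.tree hG h.one Λ hp
  exact ⟨C⁻¹, by positivity, fun x s => (hC θ h0 (by linarith) _ (h.adm x) (h.supp x) s).1⟩

lemma RW.bd_av (hp : Ok G p u) : Bd fun x => av (B G θ (w x) p u) :=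
  ((h.bd_B hG h0 h1 hp true).add (h.bd_B hG h0 h1 hp false)).divc 2

lemma RW.bd_Pk (hp : Ok G p u) (s : Bool) : Bd fun x => Pk θ (B G θ (w x) p u) s :=
  (((h.bd_B hG h0 h1 hp s).cmul _).add ((h.bd_B hG h0 h1 hp (!s)).cmul _)).divc 2

lemma RW.abs_mg (hp : Ok G p u) (x : Θ) : |mg (B G θ (w x) p u)| ≤ 1 - mar b M :=
  abs_mg_B hG h.one h0 h1 (h.supp x) (h.adm x) hp

lemma RW.abs_mg_one (hp : Ok G p u) (x : Θ) : |mg (B G θ (w x) p u)| ≤ 1 :=
  (abs_mg_lt (h.B_pos hG h0 h1 hp x)).le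

lemma RW.bd_mg (hp : Ok G p u) : Bd fun x => mg (B G θ (w x) p u) := by
  refine ⟨?_, 1, h.abs_mg_one hG h0 h1 hp⟩
  have a := (h.bd_B hG h0 h1 hp true).meas
  have a' := (h.bd_B hG h0 h1 hp false).meas
  exact (a.sub a').div (a.add a')

lemma RW.ph_bound (hp : Ok G p u) (x : Θ) :
    mar b M ≤ ph θ (mg (B G θ (w x) p u)) ∧ ph θ (mg (B G θ (w x) p u)) ≤ 1 := by
  have a := mg_sq_lt (h.B_pos hG h0 h1 hp x)
  refine ⟨?_, ph_le h0 (by linarith) a⟩
  have a2 := one_sub_sq_ge (h.abs_mg hG h0 h1 hp x) (mar_pos b M)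
  unfold ph
  rw [le_div_iff₀ (den_pos h0 (by linarith) a)]
  nlinarith [mar_pos b M, mul_nonneg (sq_nonneg θ) (sq_nonneg (mg (B G θ (w x) p u)))]

lemma RW.bd_ph (hp : Ok G p u) : Bd fun x => ph θ (mg (B G θ (w x) p u)) := by
  refine ⟨?_, 1, fun x => ?_⟩
  · have a := (h.bd_mg hG h0 h1 hp).meas
    unfold ph
    fun_prop
  · have := h.ph_bound hG h0 h1 hp x
    rw [abs_of_pos (lt_of_lt_of_le (mar_pos b M) this.1)]
    exact this.2

lemma RW.bd_lph (hp : Ok G p u) : Bd fun x => Real.log (ph θ (mg (B G θ (w x) p u))) :=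
  (h.bd_ph hG h0 h1 hp).log (mar_pos b M) fun x => (h.ph_bound hG h0 h1 hp x).1

lemma RW.bd_Sig {z : ℕ → V} {k : ℕ} (hz : NB G z k) : Bd fun x => Sig G θ (w x) z k :=
  ((Bd.const 1).sub ((h.bd_mg hG h0 h1 (ok_self _)).pow 2)).mul (Bd.prod fun j hj =>
    (h.bd_ph hG h0 h1 (Or.inr (hz.1 j (Finset.mem_range.1 hj)))).cmul θ)

lemma RW.bd_PW {z : ℕ → V} {k : ℕ} (hz : NB G z k) : Bd fun x => PW G θ (w x) z k :=
  Bd.prod fun j hj => (h.bd_ph hG h0 h1 (Or.inr (hz.1 j (Finset.mem_range.1 hj)))).sqrt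

end

/-- A geodesic from `a` to `v`. -/
noncomputable def geo (G : SimpleGraph V) (a v : V) : ℕ → V :=
  @Classical.epsilon _ ⟨fun _ => a⟩ fun z => z 0 = a ∧ z (G.dist v a) = v ∧ NB G z (G.dist v a)

omit [DecidableEq V] [G.LocallyFinite] in
lemma geo_spec (hT : G.IsTree) (a v : V) :
    geo G a v 0 = a ∧ geo G a v (G.dist v a) = v ∧ NB G (geo G a v) (G.dist v a) :=
  Classical.epsilon_spec (exists_geo hT a v)

/-- The posterior mean at `v`. -/
noncomputable def mm (G : SimpleGraph V) [G.LocallyFinite] (θ : ℝ) (w : V → Bool → ℝ) (v : V) : ℝ :=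
  mg (B G θ w v v)

/-- The posterior covariance. -/
noncomputable def SG (G : SimpleGraph V) [G.LocallyFinite] (θ : ℝ) (w : V → Bool → ℝ) (a v : V) :
    ℝ := Sig G θ w (geo G a v) (G.dist v a)

end Crest.Agent.Ising
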