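import Crest.Agent.Ising.Est
import Crest.Agent.Ising.Alg

/-!
Static estimates for independent site weights: second moments of the messages and decay of the
path weights.
-/

set_option maxHeartbeats 400000

open MeasureTheory Set Filter Topology SimpleGraph
open Crest.Agent.FIID

namespace Crest.Agent.Ising

/-- Geometric mean of a pair of weights. -/
noncomputable def sB (f : Bool → ℝ) : ℝ := √(f true * f false)

section Pt
variable {f : Bool → ℝ} {θ : ℝ}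

lemma sB_nonneg (f : Bool → ℝ) : 0 ≤ sB f := Real.sqrt_nonneg _

lemma sB_le (hf : ∀ s, 0 < f s) : sB f ≤ av f - av f * mg f ^ 2 / 2 := by
  have a := av_pos hf
  have m := mg_sq_lt hf
  unfold sB
  rw [mul_eq hf]
  exact Real.sqrt_le_iff.2 ⟨by nlinarith, by nlinarith [sq_nonneg (av f * mg f ^ 2)]⟩

lemma sB_Pk_le (h0 : 0 ≤ θ) (h1 : θ ≤ 1) (hf : ∀ s, 0 < f s) :
    sB (Pk θ f) ≤ av f - θ ^ 2 / 2 * (av f * mg f ^ 2) := by
  have a := av_pos hf
  have m := den_pos h0 h1 (mg_sq_lt hf)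
  unfold sB
  rw [Pk_mul hf]
  exact Real.sqrt_le_iff.2 ⟨by nlinarith, by nlinarith [sq_nonneg (av f * (θ ^ 2 * mg f ^ 2))]⟩

lemma sB_Pk_ge (h0 : 0 ≤ θ) (h1 : θ ≤ 1) (hf : ∀ s, 0 < f s) :
    (1 - θ ^ 2) * av f + θ ^ 2 * sB f ≤ sB (Pk θ f) := by
  have e : sB f ^ 2 = av f ^ 2 * (1 - mg f ^ 2) := by
    unfold sB
    rw [Real.sq_sqrt (mul_pos (hf _) (hf _)).le, mul_eq hf]
  have t : 0 ≤ θ ^ 2 * (1 - θ ^ 2) := mul_nonneg (sq_nonneg _) (by nlinarith)
  refine Real.le_sqrt_of_sq_le ?_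
  rw [Pk_mul hf]
  nlinarith [mul_nonneg t (sq_nonneg (av f - sB f))]

lemma sB_ph (h0 : 0 ≤ θ) (h1 : θ ≤ 1) (hf : ∀ s, 0 < f s) :
    sB (Pk θ f) * √(ph θ (mg f)) = sB f := by
  unfold sB
  rw [← Real.sqrt_mul (mul_pos (Pk_pos h0 h1 hf _) (Pk_pos h0 h1 hf _)).le, ph_eq h0 h1 hf]

lemma Pk_le_sB (h0 : 0 ≤ θ) (h1 : θ ≤ 3 / 4) (hf : ∀ s, 0 < f s) (s : Bool) :
    Pk θ f s ≤ 3 * sB (Pk θ f) := by
  have p := Pk_pos h0 (by linarith) hf
  have r := Pk_ratio h0 h1 hf s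
  have : Pk θ f s / 3 ≤ sB (Pk θ f) := by
    refine Real.le_sqrt_of_sq_le ?_
    have p1 := p true
    have p2 := p false
    cases s <;> simp only [Bool.not_true, Bool.not_false] at r <;> nlinarith
  linarith

end Pt

lemma Bd.bsB {Ω : Type*} [MeasurableSpace Ω] {w : Ω → Bool → ℝ} (h : ∀ s, Bd fun x => w x s) :
    Bd fun x => sB (w x) := ((h true).mul (h false)).sqrt

lemma Est.int_sB {K : Type*} {A : Set K} {w : (K → ℝ) → Bool → ℝ} {τ : ℝ} (h : Est A w τ)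
    (hp : ∀ x s, 0 < w x s) : ∫ x, sB (w x) ∂PI K ≤ 1 := by
  rw [← h.int_av]
  refine (Bd.bsB h.bd).mono (Bd.bav h.bd) _ fun x => (sB_le (hp x)).trans ?_
  nlinarith [mul_nonneg (av_pos (hp x)).le (sq_nonneg (mg (w x)))]

variable {V : Type*} [DecidableEq V] {G : SimpleGraph V} [G.LocallyFinite]

/-- Independent site weights supported in a finite set. -/
structure SW (Λ : Finset V) (M τ : ℝ) (w : (ℕ × V → ℝ) → V → Bool → ℝ) : Prop where
  rw : RW Λ M w
  nn : 0 ≤ τ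
  est : ∀ v, Est (co {v}) (fun x => w x v) (if v ∈ Λ then τ else 0)

lemma GW.sw {M τ : ℝ} {w : (ℕ × V → ℝ) → V → Bool → ℝ} (h : GW M τ w) (h0 : 0 ≤ τ)
    (Λ : Finset V) : SW Λ M τ fun x => res Λ (w x) := by
  refine ⟨⟨h.one, measurable_res (fun v s => ((h.est v).bd s).meas) Λ, fun _ => res_supp _ _,
    fun x => (h.adm x).res h.one Λ⟩, h0, fun v => ?_⟩
  unfold res
  split_ifs
  · exact h.est v
  · exact est_one _

lemma tree_prod (hT : G.IsTree) {u : V} {C : Finset V} (hC : ∀ c ∈ C, G.Adj u c)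
    {f : (ℕ × V → ℝ) → ℝ} {F : V → (ℕ × V → ℝ) → ℝ} (hf : Bd f) (df : DependsOn f (co {u}))
    (hF : ∀ c ∈ C, Bd (F c)) (dF : ∀ c ∈ C, DependsOn (F c) (co (H G u c))) :
    ∫ x, f x * ∏ c ∈ C, F c x ∂PI (ℕ × V) =
      (∫ x, f x ∂PI (ℕ × V)) * ∏ c ∈ C, ∫ x, F c x ∂PI (ℕ × V) :=
  indep_prod C hf df hF dF
    (fun c hc => co_disjoint (disjoint_singleton_left.2 (not_mem_H_tail hT (hC c hc))))
    fun c hc c' hc' h => co_disjoint (Set.disjoint_left.2 fun _ h1 h2 =>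
      h (step_unique hT (hC c hc) (hC c' hc') h1 h2))

variable (G) in
/-- Second moment of a message. -/
noncomputable def Q (θ : ℝ) (w : (ℕ × V → ℝ) → V → Bool → ℝ) (p u : V) : ℝ :=
  qq fun x => B G θ (w x) p u

variable (G) in
/-- The half tree is covered up to depth `n`. -/
def IntD (Λ : Finset V) (n : ℕ) (p u : V) : Prop := ∀ x ∈ H G p u, G.dist x u < n → x ∈ Λ

lemma IntD.ch (hT : G.IsTree) {Λ : Finset V} {n : ℕ} {p u c : V} (h : IntD G Λ (n + 1) p u)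
    (hp : Ok G p u) (hc : c ∈ ch G p u) : IntD G Λ n u c := fun x hx hd =>
  h x (H_sub hT hp hc hx) (by rw [dist_ch hT hc hx]; omega)

omit [DecidableEq V] [G.LocallyFinite] in
lemma IntD.mono {Λ : Finset V} {n m : ℕ} {p u : V} (h : IntD G Λ n p u) (hm : m ≤ n) :
    IntD G Λ m p u := fun x hx hd => h x hx (by omega)

lemma intD_ball (hT : G.IsTree) {Λ : Finset V} {a p u : V} {R n : ℕ} (h : ball G a R ⊆ Λ)
    (hn : G.dist u a + n ≤ R + 1) : IntD G Λ n p u := fun x _ hd => h ((mem_ball hT).2 (by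
  have := hT.connected.dist_triangle (u := x) (v := u) (w := a)
  omega))

variable (G) in
/-- Averaged path weights. -/
noncomputable def WA (b : ℕ) (θ : ℝ) (w : V → Bool → ℝ) : ℕ → V → V → ℝ
  | 0, _, _ => 1
  | n + 1, p, u => √(ph θ (mg (B G θ w p u))) * ((∑ c ∈ ch G p u, WA b θ w n u c) / b)

lemma WA_congr (hT : G.IsTree) (b : ℕ) (θ : ℝ) {w w' : V → Bool → ℝ} (n : ℕ) :
    ∀ p u, Ok G p u → (∀ x ∈ H G p u, w x = w' x) → WA G b θ w n p u = WA G b θ w' n p u := by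
  induction n with
  | zero => intro p u _ _; rfl
  | succ n ih =>
    intro p u hp h
    simp only [WA]
    rw [B_congr hT hp h, Finset.sum_congr rfl fun c hc =>
      ih u c (ok_of_ch hc) fun x hx => h x (H_sub hT hp hc hx)]

lemma WA_map (g : G ≃g G) (b : ℕ) (θ : ℝ) (w : V → Bool → ℝ) (n : ℕ) :
    ∀ p u, WA G b θ (fun v => w (g v)) n p u = WA G b θ w n (g p) (g u) := by
  induction n with
  | zero => intro p u; rfl
  | succ n ih =>
    intro p u
    simp only [WA, B_map, ch_map, Finset.sum_map, ih]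
    rfl

lemma WA_nonneg (b : ℕ) (θ : ℝ) (w : V → Bool → ℝ) (n : ℕ) : ∀ p u, 0 ≤ WA G b θ w n p u := by
  induction n with
  | zero => intro p u; exact zero_le_one
  | succ n ih =>
    intro p u
    exact mul_nonneg (Real.sqrt_nonneg _)
      (div_nonneg (Finset.sum_nonneg fun c _ => ih u c) (Nat.cast_nonneg _))

lemma PW_succ (θ : ℝ) (w : V → Bool → ℝ) (z : ℕ → V) (n : ℕ) : PW G θ w z (n + 1) =
    √(ph θ (mg (B G θ w (z 0) (z 1)))) * PW G θ w (fun i => z (1 + i)) n := by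
  unfold PW
  rw [Finset.prod_range_succ', mul_comm]
  simp only [add_comm 1, add_assoc, zero_add]

lemma PW_nonneg (θ : ℝ) (w : V → Bool → ℝ) (z : ℕ → V) (n : ℕ) : 0 ≤ PW G θ w z n :=
  Finset.prod_nonneg fun _ _ => Real.sqrt_nonneg _

lemma PW_congr (hT : G.IsTree) (θ : ℝ) {w w' : V → Bool → ℝ} {z : ℕ → V} {k n : ℕ}
    (hz : NB G z k) (hn : n ≤ k) (h : ∀ x ∈ H G (z 0) (z 1), w x = w' x) :
    PW G θ w z n = PW G θ w' z n := by
  refine Finset.prod_congr rfl fun j hj => ?_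
  have hj' := Finset.mem_range.1 hj
  rw [B_congr hT (Or.inr (hz.1 j (by omega))) fun x hx =>
    h x (hz.H_sub hT (Nat.zero_le j) (by omega) hx).1]

section RW
variable {b : ℕ} (hG : Reg G b) {θ : ℝ} (h0 : 0 ≤ θ) (h1 : θ ≤ 3 / 4) {Λ : Finset V} {M : ℝ}
  {Θ : Type*} [MeasurableSpace Θ] {w : Θ → V → Bool → ℝ} (h : RW Λ M w)
include hG h0 h1 h

lemma RW.sqrt_ph_le {p u : V} (hp : Ok G p u) (x : Θ) : √(ph θ (mg (B G θ (w x) p u))) ≤ 1 :=
  Real.sqrt_le_one.2 (h.ph_bound hG h0 h1 hp x).2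

lemma RW.PW_le {z : ℕ → V} {k : ℕ} (hz : NB G z k) (x : Θ) : PW G θ (w x) z k ≤ 1 :=
  Finset.prod_le_one (fun _ _ => Real.sqrt_nonneg _) fun j hj =>
    h.sqrt_ph_le hG h0 h1 (Or.inr (hz.1 j (Finset.mem_range.1 hj))) x

lemma RW.bd_WA (n : ℕ) : ∀ p u, Ok G p u → Bd fun x => WA G b θ (w x) n p u := by
  induction n with
  | zero => intro p u _; exact Bd.const 1
  | succ n ih =>
    intro p u hp
    exact (h.bd_ph hG h0 h1 hp).sqrt.mul ((Bd.sum fun c hc => ih u c (ok_of_ch hc)).divc _)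

lemma RW.WA_succ_le (n : ℕ) {p u : V} (hp : Ok G p u) (x : Θ) :
    WA G b θ (w x) (n + 1) p u ≤ (∑ c ∈ ch G p u, WA G b θ (w x) n u c) / b :=
  mul_le_of_le_one_left (div_nonneg (Finset.sum_nonneg fun _ _ => WA_nonneg _ _ _ _ _ _)
    (Nat.cast_nonneg _)) (h.sqrt_ph_le hG h0 h1 hp x)

lemma RW.WA_le (x : Θ) (n : ℕ) : ∀ p u, G.Adj p u → WA G b θ (w x) n p u ≤ 1 := by
  induction n with
  | zero => intro p u _; exact le_rfl
  | succ n ih =>
    intro p u hp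
    refine (h.WA_succ_le hG h0 h1 n (Or.inr hp) x).trans ?_
    have hb : (0 : ℝ) < b := by have := hG.two; positivity
    have := Finset.sum_le_card_nsmul (ch G p u) _ 1 fun c hc => ih u c (adj_of_ch hc)
    rw [hG.card p u hp] at this
    rw [div_le_one hb]
    simpa using this

end RW

section SW
variable {b : ℕ} (hG : Reg G b) {θ : ℝ} (h0 : 0 ≤ θ) (h1 : θ ≤ 3 / 4) {Λ : Finset V} {M τ : ℝ}
  {w : (ℕ × V → ℝ) → V → Bool → ℝ} (h : SW Λ M τ w)
include hG h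

omit hG in
lemma SW.dep {A : Set V} {x y : ℕ × V → ℝ} (hxy : ∀ k ∈ co A, x k = y k) {v : V} (hv : v ∈ A) :
    w x v = w y v := (h.est v).dep fun k hk => hxy k (co_mono (singleton_subset_iff.2 hv) hk)

lemma SW.dep_B {p u : V} (hp : Ok G p u) :
    DependsOn (fun x => B G θ (w x) p u) (co (H G p u)) := fun _ _ hxy =>
  B_congr hG.tree hp fun _ hv => h.dep hxy hv

lemma SW.dep_WA (n : ℕ) {p u : V} (hp : Ok G p u) :
    DependsOn (fun x => WA G b θ (w x) n p u) (co (H G p u)) := fun _ _ hxy =>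
  WA_congr hG.tree b θ n p u hp fun _ hv => h.dep hxy hv

include h0 h1

lemma SW.est_step {p u : V} (hp : Ok G p u)
    (ih : ∀ c ∈ ch G p u, Est (co (H G u c)) (fun x => B G θ (w x) u c) 0) :
    Est (co (H G p u)) (fun x => B G θ (w x) p u)
      ((if u ∈ Λ then τ else 0) + ∑ c ∈ ch G p u, θ ^ 2 * Q G θ w u c) := by
  have E := (h.est u).mul (Est.prod (ch G p u) (fun c hc => (ih c hc).Pk
    (h.rw.B_pos hG h0 h1 (ok_of_ch hc)) θ) fun c hc c' hc' hne =>
      co_disjoint (Set.disjoint_left.2 fun _ h1 h2 =>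
        hne (step_unique hG.tree (adj_of_ch hc) (adj_of_ch hc') h1 h2))) (by
    simp only [disjoint_iUnion_right]
    exact fun c hc =>
      co_disjoint (disjoint_singleton_left.2 (not_mem_H_tail hG.tree (adj_of_ch hc))))
  have E2 := E.sub (A' := co (H G p u)) (by
    refine union_subset (co_mono (singleton_subset_iff.2 (mem_H_self _ _))) ?_
    simp only [iUnion_subset_iff]
    exact fun c hc => co_mono fun x hx => H_sub hG.tree hp hc hx)
  convert E2 using 3 with x s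
  · exact B_rec hG.tree (h.rw.supp x) hp s
  · rfl

lemma SW.est0 {p u : V} (hp : Ok G p u) : Est (co (H G p u)) (fun x => B G θ (w x) p u) 0 := by
  refine half_induction hG.tree Λ
    (P := fun p u => Est (co (H G p u)) (fun x => B G θ (w x) p u) 0)
    (fun p u hp hx => ?_) (fun p u hp ih => ?_) hp
  · simp only [fun x => B_one (θ := θ) hG.tree (h.rw.supp x) hp hx]
    exact est_one _
  · refine (h.est_step hG h0 h1 hp ih).mono le_rfl (add_nonneg ?_ (Finset.sum_nonneg fun c hc =>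
      mul_nonneg (sq_nonneg _) (qq_nonneg (h.rw.B_pos hG h0 h1 (ok_of_ch hc)))))
    split_ifs
    · exact h.nn
    · rfl

lemma SW.Q_nonneg {p u : V} (hp : Ok G p u) : 0 ≤ Q G θ w p u :=
  qq_nonneg (h.rw.B_pos hG h0 h1 hp)

lemma SW.Q_ge {p u : V} (hp : Ok G p u) (hu : u ∈ Λ) {S : ℝ} (hS : 0 ≤ S)
    (h2 : S ≤ τ + ∑ c ∈ ch G p u, θ ^ 2 * Q G θ w u c) : S / (1 + S) ≤ Q G θ w p u := by
  have E := h.est_step hG h0 h1 hp fun c hc => h.est0 hG h0 h1 (ok_of_ch hc)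
  rw [if_pos hu] at E
  exact (E.mono hS h2).qq_ge (h.rw.B_pos hG h0 h1 hp) hS

lemma SW.estP {p u : V} (hp : Ok G p u) :
    Est (co (H G p u)) (fun x => Pk θ (B G θ (w x) p u)) (θ ^ 2 * Q G θ w p u) :=
  (h.est0 hG h0 h1 hp).Pk (h.rw.B_pos hG h0 h1 hp) θ

lemma SW.planted {p u : V} (hp : G.Adj p u) (o : V) {g : (ℕ × V → ℝ) → ℝ} (hg : Bd g)
    (dg : DependsOn g (co (H G p u))) : ∫ x, av (B G θ (w x) o o) * g x ∂PI (ℕ × V) =
      (∫ x, Pk θ (B G θ (w x) p u) true * g x ∂PI (ℕ × V) +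
        ∫ x, Pk θ (B G θ (w x) p u) false * g x ∂PI (ℕ × V)) / 2 := by
  simp only [fun x => Z_eq (θ := θ) hG.tree (h.rw.supp x) o p]
  rw [int_av (h.rw.bd_B hG h0 h1 (ok_self p)) hg]
  have key : ∀ s, ∫ x, B G θ (w x) p p s * g x ∂PI (ℕ × V) =
      ∫ x, Pk θ (B G θ (w x) p u) s * g x ∂PI (ℕ × V) := by
    intro s
    simp only [fun x => B_split (θ := θ) hG.tree (h.rw.supp x) hp.symm s, mul_assoc]
    rw [indep (h.rw.bd_B hG h0 h1 (Or.inr hp.symm) s) ((h.rw.bd_Pk hG h0 h1 (Or.inr hp) s).mul hg)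
      (dep_comp (h.dep_B hG (Or.inr hp.symm)) fun f => f s)
      (dep₂ (h.dep_B hG (Or.inr hp)) dg fun f y => Pk θ f s * y)
      (co_disjoint (Set.disjoint_left.2 fun x hx => (not_mem_H_iff hG.tree hp).2 hx)),
      (h.est0 hG h0 h1 (Or.inr hp.symm)).one, one_mul]
  rw [key, key]

lemma SW.sB_rec {p u : V} (hp : Ok G p u) (x : ℕ × V → ℝ) : sB (B G θ (w x) p u) =
    sB (w x u) * ∏ c ∈ ch G p u, sB (Pk θ (B G θ (w x) u c)) := by
  have pos := fun c (hc : c ∈ ch G p u) =>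
    Pk_pos h0 (by linarith) (h.rw.B_pos hG h0 h1 (ok_of_ch hc) x)
  unfold sB
  rw [← Real.sqrt_prod _ fun c hc => (mul_pos (pos c hc _) (pos c hc _)).le,
    ← Real.sqrt_mul (mul_pos (h.rw.pos x u _) (h.rw.pos x u _)).le, Finset.prod_mul_distrib,
    B_rec hG.tree (h.rw.supp x) hp, B_rec hG.tree (h.rw.supp x) hp]
  congr 1; ring

lemma SW.bd_N {p u : V} (hp : Ok G p u) : Bd fun x => sB (Pk θ (B G θ (w x) p u)) :=
  Bd.bsB (h.rw.bd_Pk hG h0 h1 hp)

lemma SW.int_sB {p u : V} (hp : Ok G p u) : ∫ x, sB (B G θ (w x) p u) ∂PI (ℕ × V) =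
    (∫ x, sB (w x u) ∂PI (ℕ × V)) *
      ∏ c ∈ ch G p u, ∫ x, sB (Pk θ (B G θ (w x) u c)) ∂PI (ℕ × V) := by
  simp only [h.sB_rec hG h0 h1 hp]
  exact tree_prod hG.tree (fun c hc => adj_of_ch hc) (Bd.bsB (h.est u).bd)
    (dep_comp (h.est u).dep sB) (fun c hc => h.bd_N hG h0 h1 (ok_of_ch hc))
    fun c hc => dep_comp (h.dep_B hG (ok_of_ch hc)) fun f => sB (Pk θ f)

lemma SW.Q_le_sB {p u : V} (hp : Ok G p u) :
    Q G θ w p u ≤ 2 * (1 - ∫ x, sB (B G θ (w x) p u) ∂PI (ℕ × V)) := by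
  have a := h.rw.bd_av hG h0 h1 hp
  have m := a.mul ((h.rw.bd_mg hG h0 h1 hp).pow 2)
  have := (Bd.bsB (h.rw.bd_B hG h0 h1 hp)).mono (a.sub (m.divc 2)) (PI (ℕ × V))
    fun x => sB_le (h.rw.B_pos hG h0 h1 hp x)
  rw [a.isub (m.divc 2), integral_div, (h.est0 hG h0 h1 hp).int_av] at this
  unfold Q qq
  linarith

lemma SW.N_le {p u : V} (hp : Ok G p u) :
    ∫ x, sB (Pk θ (B G θ (w x) p u)) ∂PI (ℕ × V) ≤ 1 - θ ^ 2 / 2 * Q G θ w p u := by
  have a := h.rw.bd_av hG h0 h1 hp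
  have m := a.mul ((h.rw.bd_mg hG h0 h1 hp).pow 2)
  have := (h.bd_N hG h0 h1 hp).mono (a.sub (m.cmul (θ ^ 2 / 2))) (PI (ℕ × V))
    fun x => sB_Pk_le h0 (by linarith) (h.rw.B_pos hG h0 h1 hp x)
  rwa [a.isub (m.cmul _), integral_const_mul, (h.est0 hG h0 h1 hp).int_av] at this

lemma SW.N_ge {p u : V} (hp : Ok G p u) :
    1 - θ ^ 2 * (1 - ∫ x, sB (B G θ (w x) p u) ∂PI (ℕ × V)) ≤
      ∫ x, sB (Pk θ (B G θ (w x) p u)) ∂PI (ℕ × V) := by
  have a := h.rw.bd_av hG h0 h1 hp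
  have m := Bd.bsB (h.rw.bd_B hG h0 h1 hp)
  have := ((a.cmul _).add (m.cmul _)).mono (h.bd_N hG h0 h1 hp) (PI (ℕ × V))
    fun x => sB_Pk_ge h0 (by linarith) (h.rw.B_pos hG h0 h1 hp x)
  rw [(a.cmul _).iadd (m.cmul _), integral_const_mul, integral_const_mul,
    (h.est0 hG h0 h1 hp).int_av] at this
  linarith

/-- Upper bound for the second moments when the site weights are close to one. -/
theorem SW.Q_up (hb : b * θ ^ 2 ≤ 1) {ε : ℝ} (hε : ε ≤ 1 / 6)
    (hn : ∀ x v, ∃ y, |y| ≤ ε ∧ ∀ s, w x v s = 1 + sg s * y) {p u : V} (hp : Ok G p u) :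
    Q G θ w p u ≤ 14 * ε := by
  have hb2 : (2 : ℝ) ≤ b := by exact_mod_cast hG.two
  have e0 : 0 ≤ ε := by
    obtain ⟨y, hy, -⟩ := hn (fun _ => 0) u
    exact (abs_nonneg _).trans hy
  have site : ∀ v, 1 - ε ^ 2 ≤ ∫ x, sB (w x v) ∂PI (ℕ × V) := by
    intro v
    rw [← iconst (PI (ℕ × V)) (1 - ε ^ 2)]
    refine (Bd.const _).mono (Bd.bsB (h.est v).bd) _ fun x => ?_
    obtain ⟨y, hy, e⟩ := hn x v
    have : y ^ 2 ≤ ε ^ 2 := sq_le_sq' (abs_le.1 hy).1 (abs_le.1 hy).2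
    refine Real.le_sqrt_of_sq_le ?_
    rw [e, e]
    simp only [sg, if_true, Bool.false_eq_true, if_false]
    nlinarith [mul_nonneg (sq_nonneg ε) (show 0 ≤ 1 - ε ^ 2 by nlinarith)]
  set y := 3 * ε / b with hy
  have y0 : 0 ≤ y := by positivity
  have yb : b * y = 3 * ε := by rw [hy]; field_simp
  have y1 : y ≤ 1 := by nlinarith
  have step : ∀ p u, Ok G p u → (∀ c ∈ ch G p u,
      1 - 3 * ε ≤ ∫ x, sB (B G θ (w x) u c) ∂PI (ℕ × V)) →
      (1 - ε ^ 2) * (1 - y) ^ (ch G p u).card ≤ ∫ x, sB (B G θ (w x) p u) ∂PI (ℕ × V) := by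
    intro p u hp ih
    rw [h.int_sB hG h0 h1 hp, ← Finset.prod_const]
    refine mul_le_mul (site u) (Finset.prod_le_prod (fun _ _ => by linarith) fun c hc => ?_)
      (Finset.prod_nonneg fun _ _ => by linarith) ((by nlinarith : 0 ≤ 1 - ε ^ 2).trans (site u))
    refine le_trans ?_ (h.N_ge hG h0 h1 (ok_of_ch hc))
    have := mul_le_mul_of_nonneg_left (ih c hc) (sq_nonneg θ)
    have : θ ^ 2 * (3 * ε) ≤ y := by rw [← yb]; nlinarith
    linarith
  have key : ∀ p u, Ok G p u → G.Adj p u →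
      1 - 3 * ε ≤ ∫ x, sB (B G θ (w x) p u) ∂PI (ℕ × V) := by
    intro p u hp
    refine half_induction hG.tree Λ (P := fun p u => G.Adj p u →
      1 - 3 * ε ≤ ∫ x, sB (B G θ (w x) p u) ∂PI (ℕ × V)) (fun p u hp hx _ => ?_)
      (fun p u hp ih a => ?_) hp
    · simp only [fun x => B_one (θ := θ) hG.tree (h.rw.supp x) hp hx]
      simp [sB, e0]
    · refine le_trans ?_ (step p u hp fun c hc => ih c hc (adj_of_ch hc))
      rw [hG.card p u a]
      obtain ⟨i, j, hij, hi, hj⟩ : ∃ i j : ℕ, b = i + j ∧ b ≤ 3 * i ∧ b ≤ 2 * j :=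
        ⟨b / 2, b - b / 2, by omega, by have := hG.two; omega, by omega⟩
      have hij' : (b : ℝ) = i + j := by exact_mod_cast hij
      have hi' : (b : ℝ) ≤ 3 * i := by exact_mod_cast hi
      have hj' : (b : ℝ) ≤ 2 * j := by exact_mod_cast hj
      have b1 := one_add_mul_le_pow (show -2 ≤ -y by linarith) i
      have b2 := one_add_mul_le_pow (show -2 ≤ -y by linarith) j
      have i0 : 0 ≤ (i : ℝ) * y := by positivity
      have j0 : 0 ≤ (j : ℝ) * y := by positivity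
      have s1 : i * y + j * y = 3 * ε := by rw [← yb, hij']; ring
      have s2 : ε ≤ i * y := by nlinarith
      have s3 : 3 / 2 * ε ≤ j * y := by nlinarith
      have b3 := mul_le_mul b1 b2 (by linarith) (pow_nonneg (by linarith) _)
      rw [← pow_add, ← hij, ← sub_eq_add_neg 1 y] at b3
      have b4 : 1 - 3 * ε + 3 / 2 * ε ^ 2 ≤ (1 - y) ^ b := by
        nlinarith [mul_le_mul s2 s3 (by positivity) i0]
      nlinarith [mul_le_mul_of_nonneg_left b4 (show 0 ≤ 1 - ε ^ 2 by nlinarith),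
        mul_nonneg (sq_nonneg ε) (show 0 ≤ 3 * ε - 3 / 2 * ε ^ 2 by nlinarith)]
  have s := step p u hp fun c hc => key u c (ok_of_ch hc) (adj_of_ch hc)
  have b1 := one_add_mul_le_pow (show -2 ≤ -y by linarith) (2 * b)
  have b2 : (1 - y) ^ (2 * b) ≤ (1 - y) ^ (ch G p u).card :=
    pow_le_pow_of_le_one (by linarith) (by linarith) (hG.card_le hp)
  rw [← sub_eq_add_neg 1 y] at b1
  push_cast at b1
  have b3 : 1 - 6 * ε ≤ (1 - y) ^ (ch G p u).card := by linarith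
  have := h.Q_le_sB hG h0 h1 hp
  nlinarith [mul_le_mul_of_nonneg_left b3 (show 0 ≤ 1 - ε ^ 2 by nlinarith),
    mul_nonneg (sq_nonneg ε) e0]

/-- Lower bound for the second moments near criticality. -/
lemma SW.Q_low {a : ℝ} (a0 : 0 < a) (a1 : a ≤ 1 / 4) (a2 : a ^ 2 ≤ τ) (hb : 1 - a ≤ b * θ ^ 2)
    (n : ℕ) : ∀ p u, G.Adj p u → IntD G Λ n p u → min (a / 4) (n * a ^ 2 / 2) ≤ Q G θ w p u := by
  induction n with
  | zero => intro p u hp _; exact (min_le_right _ _).trans (by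
      simpa using h.Q_nonneg hG h0 h1 (Or.inr hp))
  | succ n ih =>
    intro p u hp hi
    set y := min (a / 4) (n * a ^ 2 / 2) with hy
    have y0 : 0 ≤ y := le_min (by positivity) (by positivity)
    have y1 : y ≤ a / 4 := min_le_left _ _
    have S0 : 0 ≤ a ^ 2 + (1 - a) * y := by nlinarith
    refine le_trans ?_ (h.Q_ge hG h0 h1 (Or.inr hp) (hi u (mem_H_self _ _) (by simp)) S0 ?_)
    · have : min (a / 4) (((n + 1 : ℕ) : ℝ) * a ^ 2 / 2) ≤ y + a ^ 2 / 2 := by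
        rw [hy, min_add, min_le_iff]
        rcases le_total (a / 4) ((n : ℝ) * a ^ 2 / 2 + a ^ 2 / 2) with h | h
        · left; exact le_min (by nlinarith) h
        · right; push_cast; exact le_min (by nlinarith) (by linarith)
      refine this.trans ?_
      rw [le_div_iff₀ (by linarith)]
      have s1 : a ^ 2 + (1 - a) * y ≤ a / 2 := by nlinarith
      have s2 : y + a ^ 2 / 2 ≤ a / 2 := by nlinarith
      nlinarith [mul_le_mul s2 s1 S0 (by positivity)]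
    · have := Finset.card_nsmul_le_sum (ch G p u) (fun c => θ ^ 2 * Q G θ w u c) (θ ^ 2 * y)
        fun c hc => mul_le_mul_of_nonneg_left
          (ih u c (adj_of_ch hc) (hi.ch hG.tree (Or.inr hp) hc)) (sq_nonneg _)
      rw [hG.card p u hp, nsmul_eq_mul] at this
      nlinarith

end SW

/-- Near critical parameters. -/
structure Crit (b : ℕ) (θ τ a : ℝ) (n₀ : ℕ) : Prop where
  a0 : 0 < a
  a1 : a ≤ 1 / 4
  a2 : a ^ 2 ≤ τ
  lo : 1 - a ≤ b * θ ^ 2
  up : b * θ ^ 2 ≤ 1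
  n0 : 1 ≤ 2 * a * n₀

/-- The decay rate. -/
noncomputable def rho (b : ℕ) (a : ℝ) : ℝ := 1 - a / (16 * b)

lemma rho_bound {b : ℕ} (hb : 2 ≤ b) {a : ℝ} (a0 : 0 < a) (a1 : a ≤ 1 / 4) :
    3 / 4 ≤ rho b a ∧ rho b a < 1 := by
  have hb2 : (2 : ℝ) ≤ b := by exact_mod_cast hb
  have : a / (16 * b) ≤ 1 / 4 := by rw [div_le_iff₀ (by positivity)]; linarith
  have : 0 < a / (16 * b) := by positivity
  unfold rho
  constructor <;> linarith

section Decay
variable {b : ℕ} (hG : Reg G b) {θ : ℝ} (h0 : 0 ≤ θ) (h1 : θ ≤ 3 / 4) {Λ : Finset V} {M τ : ℝ}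
  {w : (ℕ × V → ℝ) → V → Bool → ℝ} (h : SW Λ M τ w) {a : ℝ} {n₀ : ℕ} (hc : Crit b θ τ a n₀)
include hG h0 h1 h hc

lemma SW.N_rho {p u : V} (hp : G.Adj p u) (hi : IntD G Λ n₀ p u) :
    ∫ x, sB (Pk θ (B G θ (w x) p u)) ∂PI (ℕ × V) ≤ rho b a := by
  refine (h.N_le hG h0 h1 (Or.inr hp)).trans ?_
  have q := h.Q_low hG h0 h1 hc.a0 hc.a1 hc.a2 hc.lo n₀ p u hp hi
  rw [min_eq_left (by nlinarith [hc.n0, hc.a0])] at q
  have hb2 : (2 : ℝ) ≤ b := by exact_mod_cast hG.two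
  unfold rho
  have : a / (16 * b) ≤ θ ^ 2 / 2 * (a / 4) := by
    rw [div_le_iff₀ (by positivity)]
    nlinarith [hc.lo, hc.a0, hc.a1]
  nlinarith [sq_nonneg θ]

lemma SW.step {p u c : V} (hp : G.Adj p u) (hi : IntD G Λ (n₀ + 1) p u) (hc' : c ∈ ch G p u)
    {g : (ℕ × V → ℝ) → ℝ} (hg : Bd g) (g0 : ∀ x, 0 ≤ g x) (dg : DependsOn g (co (H G u c))) :
    ∫ x, sB (B G θ (w x) p u) * g x ∂PI (ℕ × V) ≤
      rho b a * ∫ x, sB (Pk θ (B G θ (w x) u c)) * g x ∂PI (ℕ × V) := by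
  have r := rho_bound hG.two hc.a0 hc.a1
  have e : ∀ x, sB (B G θ (w x) p u) * g x = sB (w x u) *
      ∏ c' ∈ ch G p u, sB (Pk θ (B G θ (w x) u c')) * if c' = c then g x else 1 := by
    intro x
    rw [h.sB_rec hG h0 h1 (Or.inr hp), Finset.prod_mul_distrib, Finset.prod_ite_eq' _ c, if_pos hc']
    ring
  simp only [e]
  rw [tree_prod hG.tree (fun c hc => adj_of_ch hc) (Bd.bsB (h.est u).bd)
    (dep_comp (h.est u).dep sB) (fun c' hc => (h.bd_N hG h0 h1 (ok_of_ch hc)).mul (by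
      split_ifs
      · exact hg
      · exact Bd.const 1))
    fun c' hc => dep₂ (h.dep_B hG (ok_of_ch hc)) (w' := fun x => if c' = c then g x else 1) (by
      split_ifs with e
      · rw [e]; exact dg
      · exact dep_const _ _) fun f y => sB (Pk θ f) * y, ← Finset.mul_prod_erase _ _ hc']
  simp only [if_true]
  have I0 : 0 ≤ ∫ x, sB (Pk θ (B G θ (w x) u c)) * g x ∂PI (ℕ × V) :=
    integral_nonneg fun x => mul_nonneg (sB_nonneg _) (g0 x)
  have P : ∏ c' ∈ (ch G p u).erase c, ∫ x, (sB (Pk θ (B G θ (w x) u c')) *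
      if c' = c then g x else 1) ∂PI (ℕ × V) ≤ rho b a := by
    calc _ ≤ ∏ _c' ∈ (ch G p u).erase c, rho b a := by
          refine Finset.prod_le_prod (fun c' _ => integral_nonneg fun x =>
            mul_nonneg (sB_nonneg _) (by split_ifs; exacts [g0 x, zero_le_one])) fun c' hc'' => ?_
          simp only [if_neg (Finset.ne_of_mem_erase hc''), mul_one]
          have m := Finset.mem_of_mem_erase hc''
          exact h.N_rho hG h0 h1 hc (adj_of_ch m) (hi.ch hG.tree (Or.inr hp) m)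
      _ = rho b a ^ (b - 1) := by
          rw [Finset.prod_const, Finset.card_erase_of_mem hc', hG.card p u hp]
      _ ≤ rho b a := pow_le_of_le_one (by linarith [r.1]) r.2.le (by have := hG.two; omega)
  have S := (h.est u).int_sB fun x => h.rw.pos x u
  have := mul_le_mul S (mul_le_mul_of_nonneg_left P I0) (mul_nonneg I0 (Finset.prod_nonneg
    fun c' _ => integral_nonneg fun x => mul_nonneg (sB_nonneg _)
      (by split_ifs; exacts [g0 x, zero_le_one]))) zero_le_one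
  linarith

lemma SW.N_PW (n : ℕ) : ∀ (z : ℕ → V) (k : ℕ), NB G z k → n + 1 ≤ k →
    IntD G Λ (n₀ + n) (z 0) (z 1) →
      ∫ x, sB (Pk θ (B G θ (w x) (z 0) (z 1))) * PW G θ (w x) z n ∂PI (ℕ × V) ≤ rho b a ^ n := by
  have r := rho_bound hG.two hc.a0 hc.a1
  induction n with
  | zero =>
    intro z k hz hk hi
    simp only [PW, Finset.range_zero, Finset.prod_empty, mul_one, pow_zero]
    exact (h.N_rho hG h0 h1 hc (hz.1 0 hk) hi).trans r.2.le
  | succ n ih =>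
    intro z k hz hk hi
    have hp := hz.1 0 (by omega)
    have hz' := hz.shift 1 (n + 1) (by omega)
    have hc' : z 2 ∈ ch G (z 0) (z 1) := hz.ch (j := 0) (by omega)
    simp only [PW_succ, ← mul_assoc,
      fun x => sB_ph h0 (by linarith) (h.rw.B_pos hG h0 h1 (Or.inr hp) x)]
    refine (h.step hG h0 h1 hc hp (hi.mono (by omega)) hc'
      (h.rw.bd_PW hG h0 h1 (hz.shift 1 n (by omega))) (fun x => PW_nonneg _ _ _ _)
      fun x y hxy => PW_congr hG.tree θ hz' (by omega) fun v hv => h.dep hxy hv).trans ?_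
    rw [pow_succ']
    exact mul_le_mul_of_nonneg_left (ih _ _ hz' le_rfl (IntD.ch hG.tree hi (Or.inr hp) hc'))
      (by linarith [r.1])

lemma SW.N_WA (n : ℕ) : ∀ p u, G.Adj p u → IntD G Λ (n₀ + n) p u →
    ∫ x, sB (Pk θ (B G θ (w x) p u)) * WA G b θ (w x) n p u ∂PI (ℕ × V) ≤ rho b a ^ n := by
  have r := rho_bound hG.two hc.a0 hc.a1
  induction n with
  | zero =>
    intro p u hp hi
    simp only [WA, mul_one, pow_zero]
    exact (h.N_rho hG h0 h1 hc hp hi).trans r.2.le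
  | succ n ih =>
    intro p u hp hi
    simp only [WA, ← mul_assoc,
      fun x => sB_ph h0 (by linarith) (h.rw.B_pos hG h0 h1 (Or.inr hp) x), mul_div_assoc',
      Finset.mul_sum]
    have hb : (0 : ℝ) < b := by have := hG.two; positivity
    rw [integral_div, integral_finsetSum _ fun c hc => ((Bd.bsB (h.rw.bd_B hG h0 h1
      (Or.inr hp))).mul (h.rw.bd_WA hG h0 h1 n u c (ok_of_ch hc))).int _, div_le_iff₀ hb]
    refine (Finset.sum_le_card_nsmul _ _ (rho b a ^ (n + 1)) fun c hc' => ?_).trans ?_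
    · refine (h.step hG h0 h1 hc hp (hi.mono (by omega)) hc'
        (h.rw.bd_WA hG h0 h1 n u c (ok_of_ch hc')) (fun x => WA_nonneg _ _ _ _ _ _)
        (h.dep_WA hG n (ok_of_ch hc'))).trans ?_
      rw [pow_succ']
      exact mul_le_mul_of_nonneg_left (ih _ _ (adj_of_ch hc') (IntD.ch hG.tree hi (Or.inr hp) hc'))
        (by linarith [r.1])
    · rw [hG.card p u hp, nsmul_eq_mul, mul_comm]

lemma SW.Z_PW (o : V) {n k : ℕ} {z : ℕ → V} (hz : NB G z k) (hk : n + 1 ≤ k)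
    (hi : IntD G Λ (n₀ + n) (z 0) (z 1)) :
    ∫ x, av (B G θ (w x) o o) * PW G θ (w x) z n ∂PI (ℕ × V) ≤ 3 * rho b a ^ n := by
  have hp := hz.1 0 (by omega)
  have hz' : NB G z n := by simpa using hz.shift 0 n (by omega)
  have bP := h.rw.bd_PW hG h0 h1 hz'
  rw [h.planted hG h0 h1 hp o bP
    fun x y hxy => PW_congr hG.tree θ hz (by omega) fun v hv => h.dep hxy hv]
  have key : ∀ s, ∫ x, Pk θ (B G θ (w x) (z 0) (z 1)) s * PW G θ (w x) z n ∂PI (ℕ × V) ≤
      3 * rho b a ^ n := by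
    intro s
    refine le_trans ?_ (mul_le_mul_of_nonneg_left (h.N_PW hG h0 h1 hc n z k hz hk hi) (by norm_num))
    rw [← integral_const_mul]
    refine ((h.rw.bd_Pk hG h0 h1 (Or.inr hp) s).mul bP).mono
      (((h.bd_N hG h0 h1 (Or.inr hp)).mul bP).cmul 3) _ fun x => ?_
    rw [← mul_assoc]
    exact mul_le_mul_of_nonneg_right (Pk_le_sB h0 h1 (h.rw.B_pos hG h0 h1 (Or.inr hp) x) s)
      (PW_nonneg _ _ _ _)
  linarith [key true, key false]

lemma SW.mgf (n i : ℕ) : ∀ p u, G.Adj p u → IntD G Λ (n₀ + n + i) p u → ∀ s,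
    ∫ x, Pk θ (B G θ (w x) p u) s * Real.exp (b ^ i * WA G b θ (w x) (n + i) p u) ∂PI (ℕ × V) ≤
      Real.exp (b ^ i * (6 * rho b a ^ n)) := by
  induction i with
  | zero =>
    intro p u hp hi s
    have bW := h.rw.bd_WA hG h0 h1 n p u (Or.inr hp)
    have bP := h.rw.bd_Pk hG h0 h1 (Or.inr hp) s
    have bN := (h.bd_N hG h0 h1 (Or.inr hp)).mul bW
    simp only [pow_zero, one_mul, add_zero]
    have := (bP.mul bW.exp).mono (bP.add (bN.cmul 6)) (PI (ℕ × V)) fun x => by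
      have w0 := WA_nonneg (G := G) b θ (w x) n p u
      have w1 := h.rw.WA_le hG h0 h1 x n p u hp
      have p0 := Pk_pos h0 (by linarith) (h.rw.B_pos hG h0 h1 (Or.inr hp) x) s
      have p1 := Pk_le_sB h0 h1 (h.rw.B_pos hG h0 h1 (Or.inr hp) x) s
      have e := (abs_le.1 (Real.abs_exp_sub_one_sub_id_le
        (show |WA G b θ (w x) n p u| ≤ 1 by rwa [abs_of_nonneg w0]))).2
      have e2 : Real.exp (WA G b θ (w x) n p u) ≤ 1 + 2 * WA G b θ (w x) n p u := by nlinarith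
      nlinarith [mul_le_mul_of_nonneg_left e2 p0.le, mul_le_mul_of_nonneg_right p1 w0]
    rw [bP.iadd (bN.cmul 6), integral_const_mul, (h.estP hG h0 h1 (Or.inr hp)).one] at this
    have t := h.N_WA hG h0 h1 hc n p u hp hi
    linarith [Real.add_one_le_exp (6 * rho b a ^ n)]
  | succ i ih =>
    intro p u hp hi s
    have hb : (0 : ℝ) < b := by have := hG.two; positivity
    have bE := ((h.rw.bd_WA hG h0 h1 (n + (i + 1)) p u (Or.inr hp)).cmul (b ^ (i + 1))).exp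
    have key : ∀ s, ∫ x, B G θ (w x) p u s *
        Real.exp (b ^ (i + 1) * WA G b θ (w x) (n + (i + 1)) p u) ∂PI (ℕ × V) ≤
          Real.exp (b ^ (i + 1) * (6 * rho b a ^ n)) := by
      intro s
      have bF : ∀ c ∈ ch G p u, Bd fun x => Pk θ (B G θ (w x) u c) s *
          Real.exp (b ^ i * WA G b θ (w x) (n + i) u c) := fun c hc =>
        (h.rw.bd_Pk hG h0 h1 (ok_of_ch hc) s).mul
          ((h.rw.bd_WA hG h0 h1 (n + i) u c (ok_of_ch hc)).cmul _).exp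
      refine (((h.rw.bd_B hG h0 h1 (Or.inr hp) s).mul bE).mono
        ((h.rw.bd_w u s).mul (Bd.prod bF)) _ fun x => ?_).trans ?_
      · rw [Finset.prod_mul_distrib, ← mul_assoc, ← B_rec hG.tree (h.rw.supp x) (Or.inr hp),
          ← Real.exp_sum, ← Finset.mul_sum]
        refine mul_le_mul_of_nonneg_left (Real.exp_le_exp.2 ?_)
          (h.rw.B_pos hG h0 h1 (Or.inr hp) x s).le
        refine (mul_le_mul_of_nonneg_left (h.rw.WA_succ_le hG h0 h1 (n + i) (Or.inr hp) x)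
          (by positivity)).trans (le_of_eq ?_)
        field_simp
        ring
      · rw [tree_prod hG.tree (fun c hc => adj_of_ch hc) (h.rw.bd_w u s)
          (dep_comp (h.est u).dep fun f => f s) bF fun c hc =>
            dep₂ (h.dep_B hG (ok_of_ch hc)) (h.dep_WA hG (n + i) (ok_of_ch hc))
              fun f y => Pk θ f s * Real.exp (b ^ i * y), (h.est u).one, one_mul]
        calc _ ≤ ∏ _c ∈ ch G p u, Real.exp (b ^ i * (6 * rho b a ^ n)) :=
              Finset.prod_le_prod (fun c hc' => integral_nonneg fun x => mul_nonneg (Pk_pos h0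
                (by linarith) (h.rw.B_pos hG h0 h1 (ok_of_ch hc') x) s).le (Real.exp_pos _).le)
                fun c hc' => ih u c (adj_of_ch hc') (IntD.ch hG.tree hi (Or.inr hp) hc') s
          _ = _ := by
              rw [Finset.prod_const, hG.card p u hp, ← Real.exp_nat_mul]
              congr 1; ring
    rw [int_Pk (h.rw.bd_B hG h0 h1 (Or.inr hp)) bE]
    nlinarith [key s, key (!s)]

lemma SW.Z_mgf (o : V) {n : ℕ} {p u : V} (hp : G.Adj p u) (hi : IntD G Λ (n₀ + n + n) p u) :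
    ∫ x, av (B G θ (w x) o o) * Real.exp (b ^ n * WA G b θ (w x) (n + n) p u) ∂PI (ℕ × V) ≤
      Real.exp (b ^ n * (6 * rho b a ^ n)) := by
  rw [h.planted hG h0 h1 hp o ((h.rw.bd_WA hG h0 h1 _ p u (Or.inr hp)).cmul _).exp
    (dep_comp (h.dep_WA hG _ (Or.inr hp)) fun y => Real.exp (b ^ n * y))]
  linarith [h.mgf hG h0 h1 hc n n p u hp hi true, h.mgf hG h0 h1 hc n n p u hp hi false]

end Decay

end Crest.Agent.Ising
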