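import Crest.Agent.Ising.Static

/-!
Consequences of the symmetry of the tree: averaging of path weights and decorrelation.
-/

set_option maxHeartbeats 400000

open MeasureTheory Set Filter Topology SimpleGraph
open Crest.Agent.FIID

namespace Crest.Agent.Ising

lemma geom_le (k : ℕ) : ∑ i ∈ Finset.range k, (7 / 8 : ℝ) ^ (k - i) ≤ 7 := by
  induction k with
  | zero => simp
  | succ k ih =>
    rw [Finset.sum_range_succ, Finset.sum_congr rfl fun i hi => by
      rw [show k + 1 - i = k - i + 1 by have := Finset.mem_range.1 hi; omega, pow_succ],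
      ← Finset.sum_mul]
    simp only [add_tsub_cancel_left, pow_one]
    linarith

lemma sum_sq_le {Ω : Type*} [MeasurableSpace Ω] (μ : Measure Ω) [IsFiniteMeasure μ]
    {f : ℕ → Ω → ℝ} {ε W : ℝ} (hW : 0 ≤ W) (k : ℕ) (hf : ∀ j < k, Bd (f j))
    (h1 : ∀ j < k, ∫ x, f j x ^ 2 ∂μ ≤ W)
    (h2 : ∀ j < k, ∀ i < j, ∫ x, f i x * f j x ∂μ ≤ ε ^ 2 + 4 * (7 / 8) ^ (j - i) * W) :
    ∫ x, (∑ j ∈ Finset.range k, f j x) ^ 2 ∂μ ≤ k ^ 2 * ε ^ 2 + 64 * k * W := by
  induction k with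
  | zero => simp
  | succ k ih =>
    have bS : Bd fun x => ∑ j ∈ Finset.range k, f j x :=
      Bd.sum fun j hj => hf j (by have := Finset.mem_range.1 hj; omega)
    have bk := hf k (by omega)
    have bP : ∀ i ∈ Finset.range k, Bd fun x => f i x * f k x := fun i hi =>
      (hf i (by have := Finset.mem_range.1 hi; omega)).mul bk
    have e : ∀ x, (∑ j ∈ Finset.range (k + 1), f j x) ^ 2 = (∑ j ∈ Finset.range k, f j x) ^ 2 +
        2 * ∑ i ∈ Finset.range k, f i x * f k x + f k x ^ 2 := by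
      intro x; rw [Finset.sum_range_succ, ← Finset.sum_mul]; ring
    simp only [e]
    rw [((bS.pow 2).add ((Bd.sum bP).cmul 2)).iadd (bk.pow 2), (bS.pow 2).iadd ((Bd.sum bP).cmul 2),
      integral_const_mul, integral_finsetSum _ fun i hi => (bP i hi).int _]
    have a1 := ih (fun j hj => hf j (by omega)) (fun j hj => h1 j (by omega))
      fun j hj => h2 j (by omega)
    have a2 := Finset.sum_le_sum fun i (hi : i ∈ Finset.range k) =>
      h2 k (by omega) i (Finset.mem_range.1 hi)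
    rw [Finset.sum_add_distrib, ← Finset.sum_mul, ← Finset.mul_sum, Finset.sum_const,
      Finset.card_range, nsmul_eq_mul] at a2
    have a3 := mul_le_mul_of_nonneg_right (geom_le k) hW
    have a4 := h1 k (by omega)
    push_cast
    nlinarith [sq_nonneg ε]

variable {V : Type*} {G : SimpleGraph V}

/-- Relabelling by an automorphism. -/
def rl (g : G ≃g G) (ω : ℕ × V → ℝ) : ℕ × V → ℝ := fun k => ω (k.1, g k.2)

variable (G) in
/-- Invariance under the automorphisms fixing `F`. -/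
def Inv (F : Set V) (f : (ℕ × V → ℝ) → ℝ) : Prop :=
  ∀ g : G ≃g G, (∀ x ∈ F, g x = x) → ∀ ω, f (rl g ω) = f ω

variable (G) in
/-- Equivariance under the automorphisms fixing `F`. -/
def Eqv (F : Set V) (S : (ℕ × V → ℝ) → V → Bool → ℝ) : Prop :=
  ∀ g : G ≃g G, (∀ x ∈ F, g x = x) → ∀ ω, S (rl g ω) = fun v => S ω (g v)

variable (G) in
/-- The set `F` meets the half tree at most in its root. -/
def Out (F : Set V) (p u : V) : Prop := ∀ x ∈ F, x ∈ H G p u → x = u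

lemma Inv.mono {F F' : Set V} {f : (ℕ × V → ℝ) → ℝ} (h : Inv G F f) (hF : F ⊆ F') : Inv G F' f :=
  fun g hg => h g fun x hx => hg x (hF hx)

lemma Eqv.mono {F F' : Set V} {S : (ℕ × V → ℝ) → V → Bool → ℝ} (h : Eqv G F S) (hF : F ⊆ F') :
    Eqv G F' S := fun g hg => h g fun x hx => hg x (hF hx)

lemma int_rl (g : G ≃g G) {f : (ℕ × V → ℝ) → ℝ} (hf : Bd f) :
    ∫ ω, f (rl g ω) ∂PI (ℕ × V) = ∫ ω, f ω ∂PI (ℕ × V) :=
  integral_relabel (e := fun k : ℕ × V => (k.1, g k.2)) (by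
    rintro ⟨a, b⟩ ⟨c, d⟩ h; simp_all) hf

lemma out_pair (hT : G.IsTree) {p u : V} (h : G.Adj p u) : Out G {p, u} p u := by
  rintro x (rfl | rfl) hx
  · exact absurd hx (not_mem_H_tail hT h)
  · rfl

variable [DecidableEq V] [G.LocallyFinite]

lemma Out.not_mem (hT : G.IsTree) {F : Set V} {p u c : V} (h : Out G F p u) (hp : G.Adj p u)
    (hc : c ∈ ch G p u) {x : V} (hx : x ∈ F) : x ∉ H G u c := fun hx' => by
  have := h x hx (H_sub hT (Or.inr hp) hc hx')
  rw [this] at hx'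
  exact not_mem_H_tail hT (adj_of_ch hc) hx'

lemma Out.child (hT : G.IsTree) {F : Set V} {p u c : V} (h : Out G F p u) (hp : G.Adj p u)
    (hc : c ∈ ch G p u) : Out G F u c := fun _ hx hx' => absurd hx' (h.not_mem hT hp hc hx)

lemma Out.swap {b : ℕ} (hG : Reg G b) {F : Set V} {p u c c' : V} (h : Out G F p u)
    (hp : G.Adj p u) (hc : c ∈ ch G p u) (hc' : c' ∈ ch G p u) :
    ∃ g : G ≃g G, g c = c' ∧ g u = u ∧ ∀ x ∈ F, g x = x := by
  obtain ⟨g, g1, g2⟩ := exists_swap hG.tree hG.card (adj_of_ch hc) (adj_of_ch hc')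
  exact ⟨g, g1, g2 u (not_mem_H_tail hG.tree (adj_of_ch hc)) (not_mem_H_tail hG.tree (adj_of_ch hc')),
    fun x hx => g2 x (h.not_mem hG.tree hp hc hx) (h.not_mem hG.tree hp hc' hx)⟩

lemma eqv_St (hT : G.IsTree) (θ : ℝ) (x : V) (R r : ℕ) (t : ℝ) :
    Eqv G {x} (St G θ (ball G x R) r t) := by
  intro g hg ω
  have := St_map (θ := θ) (Λ := ball G x R) g r t ω
  rw [← ball_map hT, hg x rfl] at this
  exact this

lemma Eqv.mm {F : Set V} {S : (ℕ × V → ℝ) → V → Bool → ℝ} (h : Eqv G F S) (θ : ℝ) {x : V}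
    (hx : x ∈ F) : Inv G F fun ω => mm G θ (S ω) x := by
  intro g hg ω
  simp only [h g hg, Ising.mm, B_map, hg x hx]

lemma Eqv.lph {F : Set V} {S : (ℕ × V → ℝ) → V → Bool → ℝ} (h : Eqv G F S) (θ : ℝ) {p u : V}
    (hp : p ∈ F) (hu : u ∈ F) : Inv G F fun ω => lph G θ (S ω) p u := by
  intro g hg ω
  simp only [h g hg, Ising.lph, B_map, hg p hp, hg u hu]

lemma PW_eq_WA {b : ℕ} (hG : Reg G b) {θ : ℝ} (h0 : 0 ≤ θ) (h1 : θ ≤ 3 / 4) {Λ : Finset V} {M : ℝ}
    {S : (ℕ × V → ℝ) → V → Bool → ℝ} (h : RW Λ M S) (n : ℕ) :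
    ∀ (F : Set V) (z : ℕ → V) (k : ℕ) (f : (ℕ × V → ℝ) → ℝ), Eqv G F S → NB G z k → n + 1 ≤ k →
      Out G F (z 0) (z 1) → Bd f → Inv G F f →
      ∫ ω, f ω * PW G θ (S ω) z n ∂PI (ℕ × V) =
        ∫ ω, f ω * WA G b θ (S ω) n (z 0) (z 1) ∂PI (ℕ × V) := by
  induction n with
  | zero => intro F z k f _ _ _ _ _ _; simp [PW, WA]
  | succ n ih =>
    intro F z k f hS hz hk ho hf hi
    have hp := hz.1 0 (by omega)
    have hc : z 2 ∈ ch G (z 0) (z 1) := hz.ch (j := 0) (by omega)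
    have hS' := hS.mono (subset_union_left (t := {z 0, z 1}))
    have ho' : Out G (F ∪ {z 0, z 1}) (z 0) (z 1) := fun x hx => hx.elim (ho x) (out_pair hG.tree hp x)
    set f' : (ℕ × V → ℝ) → ℝ := fun ω => f ω * √(ph θ (mg (B G θ (S ω) (z 0) (z 1)))) with hf'
    have bf : Bd f' := hf.mul (h.bd_ph hG h0 h1 (Or.inr hp)).sqrt
    have hi' : Inv G (F ∪ {z 0, z 1}) f' := by
      intro g hg ω
      simp only [hf', hi g fun x hx => hg x (Or.inl hx), hS' g hg, B_map,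
        hg (z 0) (by simp), hg (z 1) (by simp)]
    have e := ih _ (fun i => z (1 + i)) (n + 1) f' hS' (hz.shift 1 (n + 1) (by omega)) le_rfl
      (ho'.child hG.tree hp hc) bf hi'
    have e2 : ∀ c ∈ ch G (z 0) (z 1), ∫ ω, f' ω * WA G b θ (S ω) n (z 1) c ∂PI (ℕ × V) =
        ∫ ω, f' ω * WA G b θ (S ω) n (z 1) (z 2) ∂PI (ℕ × V) := by
      intro c hc'
      obtain ⟨g, g1, g2, g3⟩ := ho'.swap hG hp hc hc'
      rw [← int_rl g (bf.mul (h.bd_WA hG h0 h1 n _ _ (ok_of_ch hc)))]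
      simp only [hi' g g3, hS' g g3, WA_map, g1, g2]
    have hb : (b : ℝ) ≠ 0 := by have := hG.two; positivity
    simp only [PW_succ, WA, ← mul_assoc, mul_div_assoc', Finset.mul_sum]
    rw [integral_div, integral_finsetSum _ fun c hc =>
      (bf.mul (h.bd_WA hG h0 h1 n _ c (ok_of_ch hc))).int _, Finset.sum_congr rfl e2,
      Finset.sum_const, hG.card _ _ hp, nsmul_eq_mul, mul_div_cancel_left₀ _ hb]
    exact e

/-- A symmetric weight is almost independent of the path weight. -/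
theorem wb {b : ℕ} (hG : Reg G b) {θ : ℝ} (h0 : 0 ≤ θ) (h1 : θ ≤ 3 / 4) {r : ℕ} {t τ a : ℝ}
    {n₀ : ℕ} (hw : GW (V := V) (2 ^ (r + 1)) τ (W0 r t)) (hc : Crit b θ τ a n₀) {z : ℕ → V}
    {k n R : ℕ} (hz : NB G z k) (hk : n + n + 1 ≤ k) (hR : n₀ + n + n ≤ R)
    {f : (ℕ × V → ℝ) → ℝ} (hf : Bd f) (f0 : ∀ ω, 0 ≤ f ω) (f4 : ∀ ω, f ω ≤ 4)
    (hi : Inv G {z 0} f) :
    ∫ ω, f ω * PW G θ (St G θ (ball G (z 0) R) r t ω) z (n + n) ∂PI (ℕ × V) ≤
      7 * rho b a ^ n * ∫ ω, f ω ∂PI (ℕ × V) + 4 * Real.exp (-(b * rho b a) ^ n) := by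
  have hp := hz.1 0 (by omega)
  have S := rw_St hG.tree θ (ball G (z 0) R) r t
  have r0 : 0 ≤ rho b a ^ n := pow_nonneg (by linarith [(rho_bound hG.two hc.a0 hc.a1).1]) _
  rw [PW_eq_WA hG h0 h1 S _ _ z k f (eqv_St hG.tree θ _ R r t) hz hk
    (fun x hx hx' => absurd (mem_singleton_iff.1 hx ▸ hx') (not_mem_H_tail hG.tree hp)) hf hi]
  have bW := S.bd_WA hG h0 h1 (n + n) _ _ (Or.inr hp)
  have e := exact_law (Λ := ball G (z 0) R) hG h0 h1 (z 0) r t
    (F := fun w => Real.exp (b ^ n * WA G b θ w (n + n) (z 0) (z 1)))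
    (((rw_cw _ (one_le_pow₀ (by norm_num))).bd_WA hG h0 h1 (n + n) _ _ (Or.inr hp)).cmul _).exp
  have m := (hw.sw ((sq_nonneg _).trans hc.a2) (ball G (z 0) R)).Z_mgf hG h0 h1 hc (z 0) hp
    (intD_ball hG.tree subset_rfl (n := n₀ + n + n) (by
      rw [dist_eq_one_iff_adj.2 hp.symm]; omega))
  have := (hf.mul bW).mono ((hf.cmul (7 * rho b a ^ n)).add
    ((bW.cmul (b ^ n)).exp.cmul (4 * Real.exp (-(b ^ n * (7 * rho b a ^ n)))))) (PI (ℕ × V))
    fun ω => by
      have w1 := S.WA_le hG h0 h1 ω (n + n) _ _ hp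
      have w0 := WA_nonneg (G := G) b θ (St G θ (ball G (z 0) R) r t ω) (n + n) (z 0) (z 1)
      set W := WA G b θ (St G θ (ball G (z 0) R) r t ω) (n + n) (z 0) (z 1)
      rw [mul_assoc 4, ← Real.exp_add]
      have := f0 ω
      rcases le_total W (7 * rho b a ^ n) with h | h
      · nlinarith [Real.exp_pos (-(b ^ n * (7 * rho b a ^ n)) + b ^ n * W)]
      · have := Real.one_le_exp (x := -(b ^ n * (7 * rho b a ^ n)) + b ^ n * W) (by
          nlinarith [mul_le_mul_of_nonneg_left h (show (0 : ℝ) ≤ b ^ n by positivity)])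
        nlinarith [f4 ω, mul_nonneg r0 (f0 ω)]
  rw [(hf.cmul _).iadd ((bW.cmul (b ^ n)).exp.cmul _), integral_const_mul, integral_const_mul,
    e] at this
  refine this.trans (add_le_add le_rfl ?_)
  refine (mul_le_mul_of_nonneg_left m (by positivity)).trans (le_of_eq ?_)
  rw [mul_assoc, ← Real.exp_add, mul_pow]
  congr 2; ring

open Classical in
/-- The share of a vertex set in the variance. -/
noncomputable def mass (f : (ℕ × V → ℝ) → ℝ) (Λ : Finset V) (A : Set V) : ℝ :=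
  ∑ x ∈ Λ with x ∈ A, bb f f x

section Mass
variable {b : ℕ} (hG : Reg G b) {F : Set V} {f : (ℕ × V → ℝ) → ℝ} (hf : Bd f) (hi : Inv G F f)
  {x₀ : V} (hx : x₀ ∈ F) {R : ℕ}
include hG hf hi hx

lemma mass_step {p u c : V} (ho : Out G F p u) (hp : G.Adj p u) (hc : c ∈ ch G p u) :
    b * mass f (ball G x₀ R) (H G u c) ≤ mass f (ball G x₀ R) (H G p u) := by
  classical
  have e : ∀ c' ∈ ch G p u, mass f (ball G x₀ R) (H G u c') = mass f (ball G x₀ R) (H G u c) := by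
    intro c' hc'
    obtain ⟨g, g1, g2, g3⟩ := ho.swap hG hp hc hc'
    unfold mass
    symm
    refine Finset.sum_equiv g.toEquiv (fun x => ?_) fun x _ =>
      (bb_relabel hf g.toEquiv (hi g g3) x).symm
    have a1 := iso_dist hG.tree g x x₀
    have a2 := iso_dist hG.tree g x u
    have a3 := iso_dist hG.tree g x c
    rw [g3 x₀ hx] at a1
    rw [g2] at a2
    rw [g1] at a3
    simp only [Finset.mem_filter, mem_ball hG.tree, H, mem_ofPred_eq, RelIso.coe_fn_toEquiv, a1,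
      a2, a3]
  have e2 : b * mass f (ball G x₀ R) (H G u c) =
      ∑ c' ∈ ch G p u, mass f (ball G x₀ R) (H G u c') := by
    rw [Finset.sum_congr rfl e, Finset.sum_const, hG.card p u hp, nsmul_eq_mul]
  rw [e2]
  unfold mass
  rw [← Finset.sum_biUnion]
  · refine Finset.sum_le_sum_of_subset_of_nonneg (fun x hx => ?_) fun x _ _ => bb_nonneg _ _
    simp only [Finset.mem_biUnion, Finset.mem_filter] at hx ⊢
    obtain ⟨c', h1, h2, h3⟩ := hx
    exact ⟨h2, H_sub hG.tree (Or.inr hp) h1 h3⟩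
  · intro c1 h1 c2 h2 hne
    simp only [Function.onFun, Finset.disjoint_left, Finset.mem_filter]
    exact fun x a1 a2 => hne (step_unique hG.tree (adj_of_ch h1) (adj_of_ch h2) a1.2 a2.2)

lemma mass_path (df : DependsOn f (co (ball G x₀ R : Set V))) {y : ℕ → V} {k : ℕ} (hy : NB G y k)
    (ho : Out G F (y 0) (y 1)) {n : ℕ} (hn : n + 1 ≤ k) (Λ : Finset V) :
    2 ^ n * mass f Λ (H G (y n) (y (n + 1))) ≤ ∫ ω, f ω ^ 2 ∂PI (ℕ × V) := by
  classical
  have := countable_V hG.tree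
  have key : ∀ n, n + 1 ≤ k → Out G F (y n) (y (n + 1)) ∧
      2 ^ n * mass f (ball G x₀ R) (H G (y n) (y (n + 1))) ≤ ∫ ω, f ω ^ 2 ∂PI (ℕ × V) := by
    intro n
    induction n with
    | zero =>
      intro _
      refine ⟨ho, le_trans ?_ (sum_bb_le hf _ df)⟩
      rw [pow_zero, one_mul]
      exact Finset.sum_le_sum_of_subset_of_nonneg (Finset.filter_subset _ _)
        fun x _ _ => bb_nonneg _ _
    | succ n ih =>
      intro hn
      obtain ⟨i1, i2⟩ := ih (by omega)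
      have hp := hy.1 n (by omega)
      have hc := hy.ch (j := n) hn
      refine ⟨i1.child hG.tree hp hc, le_trans ?_ i2⟩
      have s := mass_step (R := R) hG hf hi hx i1 hp hc
      have m0 : 0 ≤ mass f (ball G x₀ R) (H G (y (n + 1)) (y (n + 2))) :=
        Finset.sum_nonneg fun x _ => bb_nonneg _ _
      have hb : (2 : ℝ) ≤ b := by exact_mod_cast hG.two
      rw [pow_succ, mul_assoc]
      exact mul_le_mul_of_nonneg_left ((mul_le_mul_of_nonneg_right hb m0).trans s) (by positivity)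
  refine le_trans (mul_le_mul_of_nonneg_left ?_ (by positivity)) (key n hn).2
  unfold mass
  rw [← Finset.sum_filter_add_sum_filter_not _ (· ∈ ball G x₀ R),
    Finset.sum_eq_zero (s := Finset.filter (¬ · ∈ ball G x₀ R) _)
      fun x hx => bb_zero df (Finset.mem_filter.1 hx).2, add_zero]
  refine Finset.sum_le_sum_of_subset_of_nonneg (fun x hx => ?_) fun x _ _ => bb_nonneg _ _
  simp only [Finset.mem_filter] at hx ⊢
  exact ⟨hx.2, hx.1.2⟩

end Mass

/-- Decorrelation of symmetric edge functionals along a path. -/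
theorem decor {b : ℕ} (hG : Reg G b) {z : ℕ → V} {k i j R : ℕ} (hz : NB G z k) (hij : i < j)
    (hj : j < k) {f g : (ℕ × V → ℝ) → ℝ} (hf : Bd f) (hg : Bd g)
    (i1 : Inv G {z i, z (i + 1)} f) (i2 : Inv G {z j, z (j + 1)} g)
    (df : DependsOn f (co (ball G (z i) R : Set V))) (dg : DependsOn g (co (ball G (z j) R : Set V)))
    {W : ℝ} (h1 : ∫ ω, f ω ^ 2 ∂PI (ℕ × V) ≤ W) (h2 : ∫ ω, g ω ^ 2 ∂PI (ℕ × V) ≤ W) :
    ∫ ω, f ω * g ω ∂PI (ℕ × V) ≤
      (∫ ω, f ω ∂PI (ℕ × V)) * (∫ ω, g ω ∂PI (ℕ × V)) + 4 * (7 / 8) ^ (j - i) * W := by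
  classical
  have := countable_V hG.tree
  set n := (j - i) / 2 with hn
  have W0 : 0 ≤ W := (integral_nonneg fun _ => sq_nonneg _).trans h1
  have key : ∀ m μ : ℝ, 2 ^ n ≤ m → 0 ≤ μ → m * μ ≤ W → μ ≤ (2 * (7 / 8) ^ (j - i)) ^ 2 * W := by
    intro m μ a1 a2 a3
    have b1 : (7 / 8 : ℝ) ^ (2 * n + 1) ≤ (7 / 8) ^ (j - i) :=
      pow_le_pow_of_le_one (by norm_num) (by norm_num) (by omega)
    have b2 : (1 : ℝ) ≤ ((7 / 8) ^ 4 * 2) ^ n := one_le_pow₀ (by norm_num)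
    have b3 : (1 : ℝ) ≤ (2 * (7 / 8) ^ (2 * n + 1)) ^ 2 * 2 ^ n := by
      have : ((2 : ℝ) * (7 / 8) ^ (2 * n + 1)) ^ 2 * 2 ^ n = 49 / 16 * ((7 / 8) ^ 4 * 2) ^ n := by
        rw [mul_pow _ 2 n, ← pow_mul]; ring
      linarith
    have b4 : (1 : ℝ) ≤ (2 * (7 / 8) ^ (j - i)) ^ 2 * m :=
      b3.trans (mul_le_mul (pow_le_pow_left₀ (by positivity) (by linarith) 2) a1 (by positivity)
        (by positivity))
    nlinarith [mul_le_mul_of_nonneg_left a3 (sq_nonneg (2 * (7 / 8 : ℝ) ^ (j - i)))]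
  have m1 := mass_path hG hf i1 (by simp) df (hz.shift i (n + 1) (by omega))
    (out_pair hG.tree (hz.1 i (by omega))) (n := n) le_rfl (ball G (z i) R ∪ ball G (z j) R)
  have m2 := mass_path hG hg i2 (by simp) dg (hz.rev (j + 1) (j - (i + n) + 1) (by omega) (by omega))
    (by rw [pair_comm]; exact out_pair hG.tree (hz.1 j hj).symm) (n := j - (i + n)) le_rfl
    (ball G (z i) R ∪ ball G (z j) R)
  rw [show j + 1 - (j - (i + n)) = i + n + 1 by omega,
    show j + 1 - (j - (i + n) + 1) = i + n by omega] at m2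
  have := cov_cut hf hg (ball G (z i) R ∪ ball G (z j) R)
    (df.mono (co_mono (Finset.coe_subset.2 Finset.subset_union_left)))
    (dg.mono (co_mono (Finset.coe_subset.2 Finset.subset_union_right)))
    (H G (z (i + n)) (z (i + n + 1))) (δ := 2 * (7 / 8) ^ (j - i)) (by positivity) h1 h2
    (key _ _ le_rfl (Finset.sum_nonneg fun x _ => bb_nonneg _ _) (m1.trans h1))
    (key _ _ (pow_le_pow_right₀ (by norm_num) (show n ≤ j - (i + n) by omega))
      (Finset.sum_nonneg fun x _ => bb_nonneg _ _) (by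
        refine le_trans (le_of_eq ?_) (m2.trans h2)
        unfold mass
        congr 2
        ext x
        simp only [Finset.mem_filter, not_mem_H_iff hG.tree (hz.1 (i + n) (by omega))]))
  linarith

end Crest.Agent.Ising
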