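import Mathlib

/-!
Geometry of trees: half trees, children, balls, non-backtracking paths and the automorphism
swapping two sibling subtrees.
-/

open SimpleGraph

namespace Crest.Agent.Ising

variable {V : Type*} (G : SimpleGraph V)

/-- The half tree seen from `p` through `u` (everything when `p = u`). -/
def H (p u : V) : Set V := {x | G.dist x u ≤ G.dist x p}

/-- Admissible pairs. -/
def Ok (p u : V) : Prop := p = u ∨ G.Adj p u

/-- Non-backtracking paths of length `k`. -/
def NB (z : ℕ → V) (k : ℕ) : Prop :=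
  (∀ j < k, G.Adj (z j) (z (j + 1))) ∧ ∀ j, j + 2 ≤ k → z (j + 2) ≠ z j

variable [DecidableEq V] [G.LocallyFinite]

/-- Children of `u` seen from `p`. -/
def ch (p u : V) : Finset V := (G.neighborFinset u).erase p

/-- Balls as finite sets. -/
def ball (a : V) : ℕ → Finset V
  | 0 => {a}
  | n + 1 => ball a n ∪ (ball a n).biUnion fun x => G.neighborFinset x

variable {G}

lemma mem_ch {p u c : V} : c ∈ ch G p u ↔ c ≠ p ∧ G.Adj u c := by
  simp [ch]

lemma adj_of_ch {p u c : V} (h : c ∈ ch G p u) : G.Adj u c := (mem_ch.1 h).2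

lemma ok_of_ch {p u c : V} (h : c ∈ ch G p u) : Ok G u c := Or.inr (adj_of_ch h)

omit [DecidableEq V] [G.LocallyFinite] in
lemma ok_self (u : V) : Ok G u u := Or.inl rfl

omit [DecidableEq V] [G.LocallyFinite] in
lemma mem_H_self (p u : V) : u ∈ H G p u := by simp [H]

omit [DecidableEq V] [G.LocallyFinite] in
lemma mem_H_root (u x : V) : x ∈ H G u u := by simp [H]

section T
variable (hT : G.IsTree)
include hT

omit [DecidableEq V] [G.LocallyFinite] in
lemma dist_of_mem_H {p u x : V} (h : G.Adj p u) (hx : x ∈ H G p u) :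
    G.dist x p = G.dist x u + 1 := by
  have := hT.dist_eq_dist_add_one_of_adj x h
  simp only [H, Set.mem_ofPred_eq] at hx
  omega

omit [DecidableEq V] [G.LocallyFinite] in
lemma not_mem_H_iff {p u x : V} (h : G.Adj p u) : x ∉ H G p u ↔ x ∈ H G u p := by
  have := hT.dist_eq_dist_add_one_of_adj x h
  simp only [H, Set.mem_ofPred_eq]
  omega

omit [DecidableEq V] [G.LocallyFinite] in
lemma not_mem_H_tail {p u : V} (h : G.Adj p u) : p ∉ H G p u :=
  (not_mem_H_iff hT h).2 (mem_H_self _ _)

omit [DecidableEq V] [G.LocallyFinite] in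
lemma dist_zero {x y : V} (h : G.dist x y = 0) : x = y :=
  (hT.connected.dist_eq_zero_iff).1 h

omit [DecidableEq V] [G.LocallyFinite] in
lemma exists_step {u x : V} (h : x ≠ u) : ∃ c, G.Adj u c ∧ G.dist x u = G.dist x c + 1 := by
  obtain ⟨p, hp⟩ := hT.connected.exists_walk_length_eq_dist u x
  cases p with
  | nil => exact absurd rfl h
  | cons h' q =>
    rename_i c
    refine ⟨c, h', ?_⟩
    have h1 := G.dist_le q
    have h2 := hT.dist_eq_dist_add_one_of_adj x h'
    simp only [Walk.length_cons] at hp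
    rw [G.dist_comm (u := u)] at hp
    rw [G.dist_comm (u := c)] at h1
    omega

omit [DecidableEq V] [G.LocallyFinite] in
lemma step_unique {u x c c' : V} (h : G.Adj u c) (h' : G.Adj u c') (hc : x ∈ H G u c)
    (hc' : x ∈ H G u c') : c = c' := by
  have e1 := dist_of_mem_H hT h hc
  have e2 := dist_of_mem_H hT h' hc'
  obtain ⟨p, hp⟩ := hT.connected.exists_walk_length_eq_dist c x
  obtain ⟨q, hq⟩ := hT.connected.exists_walk_length_eq_dist c' x
  have l1 : (Walk.cons h p).length = G.dist u x := by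
    rw [Walk.length_cons, hp, G.dist_comm (u := c), G.dist_comm (u := u), e1]
  have l2 : (Walk.cons h' q).length = G.dist u x := by
    rw [Walk.length_cons, hq, G.dist_comm (u := c'), G.dist_comm (u := u), e2]
  have := (hT.isAcyclic.subsingleton_path u x).elim ⟨_, Walk.isPath_of_length_eq_dist _ l1⟩
    ⟨_, Walk.isPath_of_length_eq_dist _ l2⟩
  have h3 := congrArg (fun r : G.Path u x => r.1.getVert 1) this
  simpa using h3

lemma H_sub {p u c x : V} (hp : Ok G p u) (hc : c ∈ ch G p u) (hx : x ∈ H G u c) :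
    x ∈ H G p u := by
  rcases hp with rfl | hp
  · exact mem_H_root _ _
  · by_contra h
    rw [not_mem_H_iff hT hp] at h
    exact (mem_ch.1 hc).1 (step_unique hT (adj_of_ch hc) hp.symm hx h)

lemma exists_ch {p u x : V} (hp : Ok G p u) (hx : x ∈ H G p u) (hne : x ≠ u) :
    ∃ c ∈ ch G p u, x ∈ H G u c := by
  obtain ⟨c, hc, hd⟩ := exists_step hT hne
  have hxc : x ∈ H G u c := by simp only [H, Set.mem_ofPred_eq]; omega
  refine ⟨c, mem_ch.2 ⟨?_, hc⟩, hxc⟩
  rintro rfl
  simp only [H, Set.mem_ofPred_eq] at hx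
  omega

lemma dist_ch {p u c x : V} (hc : c ∈ ch G p u) (hx : x ∈ H G u c) :
    G.dist x u = G.dist x c + 1 := dist_of_mem_H hT (adj_of_ch hc) hx

lemma mem_ball {a x : V} {n : ℕ} : x ∈ ball G a n ↔ G.dist x a ≤ n := by
  induction n generalizing x with
  | zero =>
    simp only [ball, Finset.mem_singleton, nonpos_iff_eq_zero]
    exact ⟨fun h => by simp [h], dist_zero hT⟩
  | succ n ih =>
    simp only [ball, Finset.mem_union, Finset.mem_biUnion, mem_neighborFinset, ih]
    constructor
    · rintro (h | ⟨y, hy, hxy⟩)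
      · omega
      · have := hT.dist_eq_dist_add_one_of_adj a hxy
        rw [G.dist_comm (u := a), G.dist_comm (u := a)] at this
        omega
    · intro h
      by_cases hx : a = x
      · left; simp [hx]
      · obtain ⟨c, hc, hd⟩ := exists_step hT hx
        right
        refine ⟨c, ?_, hc.symm⟩
        rw [G.dist_comm (u := a), G.dist_comm (u := a)] at hd
        omega

lemma countable_V : Countable V := by
  obtain ⟨a⟩ := hT.connected.nonempty
  have : (Set.univ : Set V) = ⋃ n, (ball G a n : Set V) := by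
    ext x
    simp only [Set.mem_univ, Set.mem_iUnion, Finset.mem_coe, true_iff]
    exact ⟨_, (mem_ball hT).2 le_rfl⟩
  rw [← Set.countable_univ_iff, this]
  exact Set.countable_iUnion fun n => (ball G a n).countable_toSet

/-- Induction over half trees, relative to a finite set. -/
lemma half_induction (Λ : Finset V) {P : V → V → Prop}
    (base : ∀ p u, Ok G p u → (∀ x ∈ Λ, x ∉ H G p u) → P p u)
    (step : ∀ p u, Ok G p u → (∀ c ∈ ch G p u, P u c) → P p u) {p u : V} (h : Ok G p u) :
    P p u := by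
  have key : ∀ n p u, Ok G p u → (∀ x ∈ Λ, x ∈ H G p u → G.dist x u < n) → P p u := by
    intro n
    induction n with
    | zero => exact fun p u h hx => base p u h fun x hx1 hx2 => absurd (hx x hx1 hx2) (by omega)
    | succ n ih =>
      intro p u h hx
      refine step p u h fun c hc => ih u c (ok_of_ch hc) fun x hx1 hx2 => ?_
      have := hx x hx1 (H_sub hT h hc hx2)
      have := dist_ch hT hc hx2
      omega
  refine key (Λ.sup (fun x => G.dist x u) + 1) p u h fun x hx _ => ?_
  exact Nat.lt_succ_of_le (Finset.le_sup (f := fun x => G.dist x u) hx)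

open Classical in
lemma card_level_half {b : ℕ} (hb : ∀ p u, G.Adj p u → (ch G p u).card = b) (Λ : Finset V)
    (k : ℕ) : ∀ p u, G.Adj p u →
      (Λ.filter fun x => x ∈ H G p u ∧ G.dist x u = k).card ≤ b ^ k := by
  induction k with
  | zero =>
    intro p u _
    refine (Finset.card_le_card (t := {u}) fun x hx => ?_).trans (by simp)
    simp only [Finset.mem_filter] at hx
    simp [dist_zero hT hx.2.2]
  | succ k ih =>
    intro p u h
    have : (Λ.filter fun x => x ∈ H G p u ∧ G.dist x u = k + 1) ⊆ (ch G p u).biUnion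
        fun c => Λ.filter fun x => x ∈ H G u c ∧ G.dist x c = k := by
      intro x hx
      simp only [Finset.mem_filter, Finset.mem_biUnion] at hx ⊢
      have hne : x ≠ u := by rintro rfl; simp at hx
      obtain ⟨c, hc, hxc⟩ := exists_ch hT (Or.inr h) hx.2.1 hne
      have := dist_ch hT hc hxc
      exact ⟨c, hc, hx.1, hxc, by omega⟩
    refine (Finset.card_le_card this).trans (Finset.card_biUnion_le.trans ?_)
    refine (Finset.sum_le_card_nsmul _ _ _ fun c hc => ih u c (adj_of_ch hc)).trans ?_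
    rw [hb p u h, smul_eq_mul, pow_succ']

lemma card_level {b : ℕ} (hb : ∀ p u, G.Adj p u → (ch G p u).card = b)
    (hd : ∀ u, (ch G u u).card ≤ 2 * b) (Λ : Finset V) (a : V) (k : ℕ) :
    (Λ.filter fun x => G.dist x a = k).card ≤ 2 * b ^ k := by
  classical
  cases k with
  | zero =>
    refine (Finset.card_le_card (t := {a}) fun x hx => ?_).trans (by simp)
    simp only [Finset.mem_filter] at hx
    simp [dist_zero hT hx.2]
  | succ k =>
    have : (Λ.filter fun x => G.dist x a = k + 1) ⊆ (ch G a a).biUnion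
        fun c => Λ.filter fun x => x ∈ H G a c ∧ G.dist x c = k := by
      intro x hx
      simp only [Finset.mem_filter, Finset.mem_biUnion] at hx ⊢
      have hne : x ≠ a := by rintro rfl; simp at hx
      obtain ⟨c, hc, hxc⟩ := exists_ch hT (ok_self a) (mem_H_root _ _) hne
      have := dist_ch hT hc hxc
      exact ⟨c, hc, hx.1, hxc, by omega⟩
    refine (Finset.card_le_card this).trans (Finset.card_biUnion_le.trans ?_)
    refine (Finset.sum_le_card_nsmul _ _ _
      fun c hc => card_level_half hT hb Λ k a c (adj_of_ch hc)).trans ?_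
    rw [smul_eq_mul, pow_succ', ← mul_assoc]
    exact Nat.mul_le_mul_right _ (hd a)

/-! ### Paths -/

omit [DecidableEq V] [G.LocallyFinite] hT in
lemma NB.shift {z : ℕ → V} {k : ℕ} (h : NB G z k) (j n : ℕ) (hn : j + n ≤ k) :
    NB G (fun i => z (j + i)) n :=
  ⟨fun i hi => h.1 (j + i) (by omega), fun i hi => h.2 (j + i) (by omega)⟩

omit [DecidableEq V] [G.LocallyFinite] hT in
lemma NB.rev {z : ℕ → V} {k : ℕ} (h : NB G z k) (j n : ℕ) (hj : j ≤ k) (hn : n ≤ j) :
    NB G (fun i => z (j - i)) n := by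
  refine ⟨fun i hi => ?_, fun i hi => ?_⟩
  · have := (h.1 (j - (i + 1)) (by omega)).symm
    rwa [show j - (i + 1) + 1 = j - i by omega] at this
  · have := (h.2 (j - (i + 2)) (by omega)).symm
    rwa [show j - (i + 2) + 2 = j - i by omega] at this

omit hT in
lemma NB.ch {z : ℕ → V} {k : ℕ} (h : NB G z k) {j : ℕ} (hj : j + 2 ≤ k) :
    z (j + 2) ∈ ch G (z j) (z (j + 1)) :=
  mem_ch.2 ⟨h.2 j hj, h.1 (j + 1) (by omega)⟩

lemma NB.H_sub {z : ℕ → V} {k : ℕ} (h : NB G z k) {i j : ℕ} (hij : i ≤ j) (hj : j < k) {x : V}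
    (hx : x ∈ H G (z j) (z (j + 1))) :
    x ∈ H G (z i) (z (i + 1)) ∧ G.dist x (z (i + 1)) = G.dist x (z (j + 1)) + (j - i) := by
  induction j, hij using Nat.le_induction with
  | base => exact ⟨hx, by simp⟩
  | succ j hij ih =>
    have h1 := h.ch (j := j) (by omega)
    have h2 := Ising.H_sub hT (Or.inr (h.1 j (by omega))) h1 hx
    have h3 : G.dist x (z (j + 1)) = G.dist x (z (j + 1 + 1)) + 1 := dist_ch hT h1 hx
    obtain ⟨h4, h5⟩ := ih (by omega) h2
    exact ⟨h4, by rw [h5, h3]; omega⟩

lemma NB.dist {z : ℕ → V} {k : ℕ} (h : NB G z k) {j : ℕ} (hj : j ≤ k) :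
    G.dist (z j) (z 0) = j := by
  cases j with
  | zero => simp
  | succ j =>
    obtain ⟨h1, h2⟩ := h.H_sub hT (Nat.zero_le j) (by omega) (mem_H_self _ _)
    rw [dist_of_mem_H hT (h.1 0 (by omega)) h1, h2]
    simp

omit [DecidableEq V] [G.LocallyFinite] in
lemma exists_geo (a v : V) : ∃ z : ℕ → V, z 0 = a ∧ z (G.dist v a) = v ∧ NB G z (G.dist v a) := by
  have key : ∀ k a, G.dist v a = k → ∃ z : ℕ → V, z 0 = a ∧ z k = v ∧ NB G z k ∧
      ∀ j ≤ k, G.dist v (z j) + j = k := by
    intro k
    induction k with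
    | zero =>
      intro a h
      exact ⟨fun _ => a, rfl, (dist_zero hT h).symm, ⟨by simp, by simp⟩, by simpa using h⟩
    | succ k ih =>
      intro a h
      have hne : v ≠ a := by rintro rfl; simp at h
      obtain ⟨c, hc, hd⟩ := exists_step hT hne
      obtain ⟨z, h0, hk, hz, hdz⟩ := ih c (by omega)
      have hd' : ∀ j ≤ k + 1, G.dist v ((fun j => Nat.casesOn j a z) j) + j = k + 1 := by
        intro j hj
        cases j with
        | zero => simpa using h
        | succ j => have := hdz j (by omega); simp only; omega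
      refine ⟨fun j => Nat.casesOn j a z, rfl, hk, ⟨fun j hj => ?_, fun j hj => ?_⟩, hd'⟩
      · cases j with
        | zero => simpa [h0] using hc
        | succ j => exact hz.1 j (by omega)
      · intro e
        have e1 := hd' (j + 2) hj
        have e2 := hd' j (by omega)
        simp only at e e1 e2
        rw [e] at e1
        omega
  obtain ⟨z, h1, h2, h3, _⟩ := key _ a rfl
  exact ⟨z, h1, h2, h3⟩

/-! ### Swapping two sibling subtrees -/

omit hT in
lemma exists_enum {b : ℕ} (hb : ∀ p u, G.Adj p u → (ch G p u).card = b) :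
    ∃ en : V → V → Fin b → V, ∀ p u, G.Adj p u →
      Function.Injective (en p u) ∧ (∀ i, en p u i ∈ ch G p u) ∧
        ∀ c ∈ ch G p u, ∃ i, en p u i = c := by
  have : ∀ p u, ∃ f : Fin b → V, G.Adj p u →
      Function.Injective f ∧ (∀ i, f i ∈ ch G p u) ∧ ∀ c ∈ ch G p u, ∃ i, f i = c := by
    intro p u
    by_cases h : G.Adj p u
    · have e := (ch G p u).equivFinOfCardEq (hb p u h)
      refine ⟨fun i => (e.symm i).1, fun _ => ⟨fun i j hij => ?_, fun i => (e.symm i).2,
        fun c hc => ⟨e ⟨c, hc⟩, by simp⟩⟩⟩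
      exact e.symm.injective (Subtype.ext hij)
    · exact ⟨fun _ => u, fun h' => absurd h' h⟩
  choose en hen using this
  exact ⟨en, hen⟩

end T

/-- Matching of two half trees along an enumeration of children. -/
inductive Rel {b : ℕ} (en : V → V → Fin b → V) : V → V → V → V → V → V → Prop
  | root (p u p' u' : V) : Rel en p u p' u' u u'
  | child (p u p' u' : V) (i : Fin b) (x y : V) :
      Rel en u (en p u i) u' (en p' u' i) x y → Rel en p u p' u' x y

omit [DecidableEq V] [G.LocallyFinite] in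
lemma Rel.symm {b : ℕ} {en : V → V → Fin b → V} {p u p' u' x y : V}
    (h : Rel en p u p' u' x y) : Rel en p' u' p u y x := by
  induction h with
  | root => exact .root _ _ _ _
  | child p u p' u' i x y _ ih => exact .child _ _ _ _ i _ _ ih

section R
variable (hT : G.IsTree) {b : ℕ} {en : V → V → Fin b → V}
  (hen : ∀ p u, G.Adj p u → Function.Injective (en p u) ∧ (∀ i, en p u i ∈ ch G p u) ∧
    ∀ c ∈ ch G p u, ∃ i, en p u i = c)
include hT hen

lemma Rel.mem {p u p' u' x y : V} (h : Rel en p u p' u' x y) (ha : G.Adj p u) : x ∈ H G p u := by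
  induction h with
  | root => exact mem_H_self _ _
  | child p u p' u' i x y _ ih =>
    have := (hen p u ha).2.1 i
    exact H_sub hT (Or.inr ha) this (ih (adj_of_ch this))

lemma Rel.total {x p u : V} (p' u' : V) (ha : G.Adj p u) (hx : x ∈ H G p u) :
    ∃ y, Rel en p u p' u' x y := by
  have key : ∀ n p u p' u', G.Adj p u → x ∈ H G p u → G.dist x u = n →
      ∃ y, Rel en p u p' u' x y := by
    intro n
    induction n with
    | zero =>
      intro p u p' u' _ _ h
      rw [dist_zero hT h]
      exact ⟨u', .root _ _ _ _⟩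
    | succ n ih =>
      intro p u p' u' ha hx h
      have hne : x ≠ u := by rintro rfl; simp at h
      obtain ⟨c, hc, hxc⟩ := exists_ch hT (Or.inr ha) hx hne
      have := dist_ch hT hc hxc
      obtain ⟨i, rfl⟩ := (hen p u ha).2.2 c hc
      obtain ⟨y, hy⟩ := ih u _ u' (en p' u' i) (adj_of_ch hc) hxc (by omega)
      exact ⟨y, .child _ _ _ _ i _ _ hy⟩
  exact key _ _ _ p' u' ha hx rfl

lemma Rel.root_eq {p u p' u' y : V} (h : Rel en p u p' u' u y) (ha : G.Adj p u) : y = u' := by
  cases h with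
  | root => rfl
  | child _ _ _ _ i _ _ h =>
    have := (hen p u ha).2.1 i
    exact absurd (h.mem hT hen (adj_of_ch this)) (not_mem_H_tail hT (adj_of_ch this))

lemma Rel.func {p u p' u' x y y' : V} (h : Rel en p u p' u' x y) (ha : G.Adj p u)
    (h' : Rel en p u p' u' x y') : y = y' := by
  induction h with
  | root => exact (h'.root_eq hT hen ha).symm
  | child p u p' u' i x y h ih =>
    have h1 := (hen p u ha).2.1 i
    cases h' with
    | root => exact absurd (h.mem hT hen (adj_of_ch h1)) (not_mem_H_tail hT (adj_of_ch h1))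
    | child _ _ _ _ j _ _ h' =>
      have h2 := (hen p u ha).2.1 j
      have := step_unique hT (adj_of_ch h1) (adj_of_ch h2) (h.mem hT hen (adj_of_ch h1))
        (h'.mem hT hen (adj_of_ch h2))
      obtain rfl := (hen p u ha).1 this
      exact ih (adj_of_ch h1) h'

omit hen [G.LocallyFinite] in
lemma adj_cross {u c x x' : V} (h : G.Adj u c) (hx : x ∈ H G u c) (hx' : x' ∉ H G u c)
    (ha : G.Adj x x') : x = c ∧ x' = u := by
  have e1 := dist_of_mem_H hT h hx
  rw [not_mem_H_iff hT h] at hx'
  have e2 := dist_of_mem_H hT h.symm hx'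
  have e3 := hT.dist_eq_dist_add_one_of_adj u ha
  have e4 := hT.dist_eq_dist_add_one_of_adj c ha
  rw [G.dist_comm (u := u), G.dist_comm (u := u)] at e3
  rw [G.dist_comm (u := c), G.dist_comm (u := c)] at e4
  have hxu : x' = u := by
    by_contra hne
    obtain ⟨c', hc', hd⟩ := exists_step hT hne
    have e5 := hT.dist_eq_dist_add_one_of_adj c' ha
    rw [G.dist_comm (u := c'), G.dist_comm (u := c')] at e5
    have : x ∈ H G u c' := by simp only [H, Set.mem_ofPred_eq]; omega
    obtain rfl := step_unique hT h hc' hx this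
    omega
  subst hxu
  refine ⟨dist_zero hT ?_, rfl⟩
  have : G.dist x x' = 1 := dist_eq_one_iff_adj.2 ha
  omega

lemma Rel.adj {p u p' u' x y x' y' : V} (h : Rel en p u p' u' x y) (ha : G.Adj p u)
    (ha' : G.Adj p' u') (h' : Rel en p u p' u' x' y') (hx : G.Adj x x') : G.Adj y y' := by
  induction h generalizing x' y' with
  | root p u p' u' =>
    cases h' with
    | root => exact absurd rfl hx.ne
    | child _ _ _ _ j _ _ h' =>
      have h2 := (hen p u ha).2.1 j
      have h3 := adj_cross hT (adj_of_ch h2) (h'.mem hT hen (adj_of_ch h2))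
        (not_mem_H_tail hT (adj_of_ch h2)) hx.symm
      rw [h3.1] at h'
      rw [h'.root_eq hT hen (adj_of_ch h2)]
      exact adj_of_ch ((hen p' u' ha').2.1 j)
  | child p u p' u' i x y h ih =>
    have h1 := (hen p u ha).2.1 i
    have h1' := (hen p' u' ha').2.1 i
    have hm := h.mem hT hen (adj_of_ch h1)
    by_cases hx' : x' ∈ H G u (en p u i)
    · obtain ⟨y'', hy''⟩ := Rel.total hT hen u' (en p' u' i) (adj_of_ch h1) hx'
      rw [h'.func hT hen ha (.child _ _ _ _ i _ _ hy'')]
      exact ih (adj_of_ch h1) (adj_of_ch h1') hy'' hx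
    · obtain ⟨e1, e2⟩ := adj_cross hT (adj_of_ch h1) hm hx' hx
      subst e2
      rw [e1] at h
      rw [h.root_eq hT hen (adj_of_ch h1), h'.root_eq hT hen ha]
      exact (adj_of_ch h1').symm

end R

/-- Two neighbours of `u` are exchanged by an automorphism fixing everything outside the two
subtrees. -/
theorem exists_swap (hT : G.IsTree) {b : ℕ} (hb : ∀ p u, G.Adj p u → (ch G p u).card = b)
    {u c c' : V} (h : G.Adj u c) (h' : G.Adj u c') :
    ∃ g : G ≃g G, g c = c' ∧ ∀ x, x ∉ H G u c → x ∉ H G u c' → g x = x := by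
  by_cases hcc : c = c'
  · exact ⟨RelIso.refl _, hcc, fun _ _ _ => rfl⟩
  obtain ⟨en, hen⟩ := exists_enum hb
  set R : V → V → Prop := fun x y => Rel en u c u c' x y ∨ Rel en u c' u c x y ∨
    (x ∉ H G u c ∧ x ∉ H G u c' ∧ y = x) with hR
  have hdis : ∀ x, x ∈ H G u c → x ∈ H G u c' → False :=
    fun x h1 h2 => hcc (step_unique hT h h' h1 h2)
  have tot : ∀ x, ∃ y, R x y := by
    intro x
    by_cases h1 : x ∈ H G u c
    · obtain ⟨y, hy⟩ := Rel.total hT hen u c' h h1
      exact ⟨y, Or.inl hy⟩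
    · by_cases h2 : x ∈ H G u c'
      · obtain ⟨y, hy⟩ := Rel.total hT hen u c h' h2
        exact ⟨y, Or.inr (Or.inl hy)⟩
      · exact ⟨x, Or.inr (Or.inr ⟨h1, h2, rfl⟩)⟩
  have fn : ∀ x y y', R x y → R x y' → y = y' := by
    rintro x y y' (h1 | h1 | ⟨h1, h1', rfl⟩) (h2 | h2 | ⟨h2, h2', rfl⟩)
    · exact h1.func hT hen h h2
    · exact (hdis x (h1.mem hT hen h) (h2.mem hT hen h')).elim
    · exact (h2 (h1.mem hT hen h)).elim
    · exact (hdis x (h2.mem hT hen h) (h1.mem hT hen h')).elim
    · exact h1.func hT hen h' h2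
    · exact (h2' (h1.mem hT hen h')).elim
    · exact (h1 (h2.mem hT hen h)).elim
    · exact (h1' (h2.mem hT hen h')).elim
    · rfl
  have sy : ∀ x y, R x y → R y x := by
    rintro x y (h1 | h1 | ⟨h1, h1', rfl⟩)
    · exact Or.inr (Or.inl h1.symm)
    · exact Or.inl h1.symm
    · exact Or.inr (Or.inr ⟨h1, h1', rfl⟩)
  have hu : R u u := Or.inr (Or.inr ⟨not_mem_H_tail hT h, not_mem_H_tail hT h', rfl⟩)
  have one : ∀ {c c' : V}, G.Adj u c → G.Adj u c' → ∀ x y x' y', Rel en u c u c' x y →
      x' ∉ H G u c → R x' y' → G.Adj x x' → G.Adj y y' := by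
    intro c c' h h' x y x' y' h1 h2 h3 ha
    obtain ⟨e1, e2⟩ := adj_cross hT h (h1.mem hT hen h) h2 ha
    subst e2
    rw [e1] at h1
    rw [h1.root_eq hT hen h, fn _ _ _ h3 hu]
    exact h'.symm
  have ad : ∀ x y x' y', R x y → R x' y' → G.Adj x x' → G.Adj y y' := by
    rintro x y x' y' h1 h2 ha
    have h1c := h1
    have h2c := h2
    rcases h1 with h1 | h1 | ⟨h1, h1', rfl⟩
    · by_cases hx : x' ∈ H G u c
      · obtain ⟨y'', hy⟩ := Rel.total hT hen u c' h hx
        rw [fn _ _ _ h2 (Or.inl hy)]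
        exact h1.adj hT hen h h' hy ha
      · exact one h h' _ _ _ _ h1 hx h2 ha
    · by_cases hx : x' ∈ H G u c'
      · obtain ⟨y'', hy⟩ := Rel.total hT hen u c h' hx
        rw [fn _ _ _ h2 (Or.inr (Or.inl hy))]
        exact h1.adj hT hen h' h hy ha
      · exact one h' h _ _ _ _ h1 hx h2 ha
    · rcases h2 with h2 | h2 | ⟨h2, h2', rfl⟩
      · exact (one h h' _ _ _ _ h2 h1 h1c ha.symm).symm
      · exact (one h' h _ _ _ _ h2 h1' h1c ha.symm).symm
      · exact ha
  choose f hf using tot
  have inv : Function.Involutive f := fun x => fn _ _ _ (hf (f x)) (sy _ _ (hf x))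
  refine ⟨⟨inv.toPerm, fun {x y} => ⟨fun ha => ?_, fun ha => ad _ _ _ _ (hf x) (hf y) ha⟩⟩,
    ?_, fun x h1 h2 => ?_⟩
  · have := ad _ _ _ _ (hf (f x)) (hf (f y)) ha
    rwa [inv, inv] at this
  · exact fn _ _ _ (hf c) (Or.inl (.root _ _ _ _))
  · exact fn _ _ _ (hf x) (Or.inr (Or.inr ⟨h1, h2, rfl⟩))

omit [DecidableEq V] [G.LocallyFinite] in
lemma iso_dist (hT : G.IsTree) (g : G ≃g G) (x y : V) : G.dist (g x) (g y) = G.dist x y := by
  have key : ∀ (g : G ≃g G) x y, G.dist (g x) (g y) ≤ G.dist x y := by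
    intro g x y
    obtain ⟨p, hp⟩ := hT.connected.exists_walk_length_eq_dist x y
    have := G.dist_le (p.map g.toHom)
    rwa [Walk.length_map, hp] at this
  refine le_antisymm (key g x y) ?_
  simpa using key g.symm (g x) (g y)

lemma ch_map (g : G ≃g G) (p u : V) :
    ch G (g p) (g u) = (ch G p u).map g.toEquiv.toEmbedding := by
  ext c
  simp only [mem_ch, Finset.mem_map_equiv]
  have e : c = g (g.toEquiv.symm c) := (g.toEquiv.apply_symm_apply c).symm
  constructor
  · rintro ⟨h1, h2⟩
    refine ⟨fun h => h1 (by rw [e, h]), ?_⟩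
    rw [e] at h2
    exact g.map_adj_iff.1 h2
  · rintro ⟨h1, h2⟩
    refine ⟨fun h => h1 ?_, ?_⟩
    · rw [h]; exact g.toEquiv.symm_apply_apply p
    · rw [e]; exact g.map_adj_iff.2 h2

lemma ball_map (hT : G.IsTree) (g : G ≃g G) (a : V) (n : ℕ) :
    ball G (g a) n = (ball G a n).map g.toEquiv.toEmbedding := by
  ext x
  simp only [Finset.mem_map_equiv, mem_ball hT]
  rw [← iso_dist hT g (g.toEquiv.symm x) a]
  have e : g (g.toEquiv.symm x) = x := g.toEquiv.apply_symm_apply x
  rw [e]

end Crest.Agent.Ising
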